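import Vale.Agent.P161.Posterior

/-! From the Cauchy property of the flows to a factor of IID. -/

namespace Vale.Agent.P161

open Finset MeasureTheory ProbabilityTheory Filter Topology
open scoped Classical

section Equivariance

variable {Ω : Type*} [MeasurableSpace Ω] {E : Type*} (m : Md Ω E) (π : E ≃ E) {ρ : Ω → Ω}

lemma Md.vel_map (hρ : Measurable ρ) (hμ : m.μ.map ρ = m.μ)
    (hs : ∀ e ω, m.s (π e) ω = m.s e (ρ ω)) (S : Finset E) (u : ℝ) {x x' : E → ℝ}
    (hx : ∀ f, x' (π f) = x f) (e : E) :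
    m.vel (S.map π.toEmbedding) u x' (π e) = m.vel S u x e := by
  have h1 : ∀ ω, m.lw (S.map π.toEmbedding) u x' ω = m.lw S u x (ρ ω) := fun ω => by
    simp only [Md.lw, sum_map, Equiv.coe_toEmbedding, hx, hs]
  have h2 : ∀ F : Ω → ℝ, BM F → ∫ ω, F (ρ ω) ∂m.μ = ∫ ω, F ω ∂m.μ := fun F hF => by
    rw [← integral_map hρ.aemeasurable hF.1.aestronglyMeasurable, hμ]
  simp only [Md.vel, Et, h1, hs]
  rw [h2 (fun ω => Real.exp (m.lw S u x ω) * m.s e ω) (by fun_prop),
    h2 (fun ω => Real.exp (m.lw S u x ω)) (by fun_prop)]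

lemma Md.Xl_map (hρ : Measurable ρ) (hμ : m.μ.map ρ = m.μ)
    (hs : ∀ e ω, m.s (π e) ω = m.s e (ρ ω)) (S : Finset E) (T : ℝ) {x x' : E → ℝ}
    (hx : ∀ f, x' (π f) = x f) (e : E) :
    m.Xl (S.map π.toEmbedding) T x' (π e) = m.Xl S T x e := by
  have key : ∀ (h : ℝ) (j k : ℕ) (x x' : E → ℝ), (∀ f, x' (π f) = x f) → ∀ e,
      m.eul (S.map π.toEmbedding) h j k x' (π e) = m.eul S h j k x e := by
    intro h j
    induction j with
    | zero => exact fun k x x' hx e => hx e
    | succ j ih =>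
      intro k x x' hx e
      exact ih _ _ _ (fun f => by simp only [Md.step, hx, m.vel_map π hρ hμ hs S _ hx]) e
  simp only [Md.Xl, Md.Xn, key _ _ _ x x' hx]

lemma Md.abs_Xl_sub {S : Finset E} {T : ℝ} (hT : 0 ≤ T) (ξ : E → ℝ) {f : E} (hf : f ∈ S) :
    |m.Xl S T ξ f - ξ f| ≤ T :=
  le_of_tendsto' ((m.tendsto_Xn hT ξ hf).sub_const _).abs fun n => m.abs_Xn_sub hT n ξ f

end Equivariance

lemma ae_tendsto_limsup {X : Type*} [MeasurableSpace X] (ν : Measure X) [IsFiniteMeasure ν]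
    {f : ℕ → X → ℝ} (hf : ∀ j, BM (f j)) {c : ℝ}
    (h : ∀ᶠ j in atTop, ∫ x, |f (j + 1) x - f j x| ∂ν ≤ c * (1 / 2) ^ j) :
    ∀ᵐ x ∂ν, Tendsto (fun j => f j x) atTop (𝓝 (limsup (fun j => f j x) atTop)) := by
  have hi : ∀ j, Integrable (fun x => f (j + 1) x - f j x) ν :=
    fun j => ((hf _).sub (hf _)).int ν
  have h1 : Summable fun j => ∫ x, ‖f (j + 1) x - f j x‖ ∂ν :=
    (summable_geometric_two.mul_left c).of_norm_bounded_eventually_nat (by
      filter_upwards [h] with j hj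
      rwa [Real.norm_of_nonneg (integral_nonneg fun _ => norm_nonneg _)])
  have h2 := summable_norm_of_tsum_eLpNorm_ne_top (p := 1) le_rfl (fun j => (hi j).1) (by
    simp only [eLpNorm_one_eq_lintegral_enorm, ← ofReal_integral_norm_eq_lintegral_enorm (hi _)]
    rw [← ENNReal.ofReal_tsum_of_nonneg (fun j => integral_nonneg fun _ => norm_nonneg _) h1]
    exact ENNReal.ofReal_ne_top)
  filter_upwards [h2] with x hx
  obtain ⟨a, ha⟩ := cauchySeq_tendsto_of_complete (cauchySeq_of_summable_dist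
    (f := fun j => f j x) (by simpa only [dist_eq_norm'] using hx))
  rwa [ha.limsup_eq]

lemma unif_coin (b : Bool) {p : ℝ} (hp : p ∈ Set.Icc (0 : ℝ) 1) :
    unif.real {x | decide (x ≤ p) = b} = bern b p := by
  have h1 : unif.real (Set.Iic p) = p := by
    rw [unif, measureReal_restrict_apply measurableSet_Iic, Set.inter_comm, Set.Ioc_inter_Iic,
      inf_of_le_right hp.2, Real.volume_real_Ioc_of_le hp.1, sub_zero]
  cases b
  · have : {x : ℝ | decide (x ≤ p) = false} = (Set.Iic p)ᶜ := by ext x; simp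
    rw [this, probReal_compl_eq_one_sub measurableSet_Iic, h1]; rfl
  · have : {x : ℝ | decide (x ≤ p) = true} = Set.Iic p := by ext x; simp
    rw [this, h1]; rfl

lemma measurable_decide_le {X : Type*} [MeasurableSpace X] {f g : X → ℝ} (hf : Measurable f)
    (hg : Measurable g) : Measurable fun x => decide (f x ≤ g x) := by
  refine measurable_to_bool ?_
  have : (fun x => decide (f x ≤ g x)) ⁻¹' {true} = {x | f x ≤ g x} := by ext x; simp
  rw [this]
  exact measurableSet_le hf hg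

lemma coin_law {V X : Type} [MeasurableSpace X] (ν : Measure X) [IsProbabilityMeasure ν]
    {P : V → X → ℝ} (hP : ∀ v, Measurable (P v)) (A : Finset V) (η : V → Bool)
    (h : ∀ᵐ x ∂ν, ∀ v ∈ A, P v x ∈ Set.Icc (0 : ℝ) 1) :
    (((Measure.infinitePi fun _ : V => unif).prod ν).map
      (fun z v => decide (z.1 v ≤ P v z.2))).real {s | ∀ v ∈ A, s v = η v} =
      ∫ x, ∏ v ∈ A, bern (η v) (P v x) ∂ν := by
  have hm : Measurable fun (z : (V → ℝ) × X) v => decide (z.1 v ≤ P v z.2) :=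
    measurable_pi_lambda _ fun v => measurable_decide_le (by fun_prop) (by fun_prop)
  have hs := hm (measurableSet_cyl A η)
  rw [map_measureReal_apply hm (measurableSet_cyl A η), ← integral_indicator_one hs,
    integral_prod_symm _ ((integrable_const 1).indicator hs)]
  refine integral_congr_ae ?_
  filter_upwards [h] with x hx
  have hc : ∀ v, MeasurableSet {y : ℝ | decide (y ≤ P v x) = η v} := fun v =>
    measurable_decide_le measurable_id measurable_const (measurableSet_singleton _)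
  have e1 : ∀ ζ : V → ℝ, ((fun (z : (V → ℝ) × X) v => decide (z.1 v ≤ P v z.2)) ⁻¹'
      {s | ∀ v ∈ A, s v = η v}).indicator (1 : (V → ℝ) × X → ℝ) (ζ, x) =
      (Set.pi A fun v => {y : ℝ | decide (y ≤ P v x) = η v}).indicator 1 ζ := fun ζ => by
    simp only [Set.indicator_apply, Set.mem_preimage, Set.mem_ofPred_eq, Set.mem_pi, mem_coe,
      Pi.one_apply]
  simp only [e1]
  rw [integral_indicator_one (.pi A.countable_toSet fun v _ => hc v), Measure.real,
    Measure.infinitePi_pi _ fun v _ => hc v, ENNReal.toReal_prod]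
  exact prod_congr rfl fun v hv => unif_coin _ (hx v hv)

variable {V : Type} {D : ℕ} {G : SimpleGraph V}

lemma mem_Fe (hG : IsRegularTree G (D + 1)) {v : V} {R : ℕ} {e : Sym2 V} :
    e ∈ Fe G v R ↔ e ∈ G.edgeSet ∧ ∀ a ∈ e, G.dist v a ≤ R := by
  have : {e ∈ G.edgeSet | ∀ a ∈ e, G.dist v a ≤ R}.Finite := by
    refine (finite_dist_le hG v R).toFinset.sym2.finite_toSet.subset fun e he => ?_
    rw [mem_coe, mem_sym2_iff]
    exact fun a ha => (Set.Finite.mem_toFinset _).2 (he.2 a ha)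
  rw [Fe, dif_pos this, Set.Finite.mem_toFinset]
  rfl

lemma Fe_map (hG : IsRegularTree G (D + 1)) (g : G ≃g G) (v : V) (R : ℕ) :
    Fe G (g v) R = (Fe G v R).map (sq2 g.toEquiv).toEmbedding := by
  ext e
  obtain ⟨e, rfl⟩ := (sq2 g.toEquiv).surjective e
  rw [mem_map_equiv, Equiv.symm_apply_apply]
  induction e using Sym2.ind with
  | h a b => simp [mem_Fe hG, dist_iso hG.1.connected, g.map_adj_iff]

lemma Fe_subset (hG : IsRegularTree G (D + 1)) {v w : V} {R R' : ℕ} (h : G.dist w v + R ≤ R') :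
    Fe G v R ⊆ Fe G w R' := fun e he => by
  rw [mem_Fe hG] at he ⊢
  exact ⟨he.1, fun a ha => (hG.1.connected.dist_triangle (v := v)).trans
    (by have := he.2 a ha; omega)⟩

lemma sum_av_eq (hG : IsRegularTree G (D + 1)) {v w : V} {R R' : ℕ} (hR : 1 ≤ R)
    (h : Fe G v R ⊆ Fe G w R') (y : Sym2 V → ℝ) :
    ∑ f ∈ Fe G w R', av v f * y f = ∑ f ∈ Fe G v R, av v f * y f := by
  refine (sum_subset h fun f hf hf' => ?_).symm
  rw [av, if_neg, zero_mul]
  intro hv
  refine hf' ((mem_Fe hG).2 ⟨((mem_Fe hG).1 hf).1, fun a ha => ?_⟩)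
  by_cases hav : v = a
  · simp [hav]
  · have := ((mem_Fe hG).1 hf).1
    rw [(Sym2.mem_and_mem_iff hav).1 ⟨hv, ha⟩] at this
    rw [SimpleGraph.dist_eq_one_iff_adj.2 this]
    exact hR

/-- The bias at `v` computed from the observations `x` on the edge set `S`. -/
noncomputable def bias (T : ℝ) (v : V) (S : Finset (Sym2 V)) (x : Sym2 V → ℝ) : ℝ :=
  Real.sigmoid (T * ∑ f ∈ S, av v f * x f)

lemma bias_mem (T : ℝ) (v : V) (S : Finset (Sym2 V)) (x : Sym2 V → ℝ) :
    bias T v S x ∈ Set.Icc (0 : ℝ) 1 := ⟨Real.sigmoid_nonneg _, Real.sigmoid_le_one _⟩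

lemma bm_bias (T : ℝ) (v : V) (S : Finset (Sym2 V)) : BM (bias T v S) :=
  BM.of (c := 1) (continuous_sigmoid.measurable.comp (by fun_prop)) fun x =>
    abs_le.2 ⟨by linarith [(bias_mem T v S x).1], (bias_mem T v S x).2⟩

lemma bias_lip {T : ℝ} (hT : 0 ≤ T) (v : V) (S : Finset (Sym2 V)) (x y : Sym2 V → ℝ) :
    |bias T v S x - bias T v S y| ≤ T * |∑ f ∈ S, av v f * (x f - y f)| := by
  refine (sigmoid_lip _ _).trans_eq ?_
  rw [← mul_sub, abs_mul, abs_of_nonneg hT, ← sum_sub_distrib]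
  simp only [mul_sub]

lemma FlowCauchy.close (hG : IsRegularTree G (D + 1)) {m : Md (V → Bool) (Sym2 V)} {T : ℝ}
    (hT : 0 ≤ T) (H : FlowCauchy G m T) (v : V) (j : ℕ) : ∃ R0, ∀ R, R0 ≤ R → ∀ w R',
      G.dist w v + R ≤ R' → ∫ ξ, |bias T v (Fe G w R') (m.Xl (Fe G w R') T ξ) -
        bias T v (Fe G v R) (m.Xl (Fe G v R) T ξ)| ∂gam (Sym2 V) ≤ T * (1 / 2) ^ j := by
  obtain ⟨R0, hR0⟩ := H v ((1 / 2) ^ j) (by positivity)
  refine ⟨R0 + 1, fun R hR w R' hR' => ?_⟩
  have h1 := Fe_subset hG hR'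
  have h2 := hR0 R (by omega) _ _ h1 (Fe_subset hG (w := v) le_rfl)
  refine le_trans ?_ (mul_le_mul_of_nonneg_left h2 hT)
  rw [← integral_const_mul]
  have hX := m.measurable_Xl
  refine integral_mono_of_nonneg (ae_of_all _ fun _ => abs_nonneg _)
    (((BM.sum' _ fun f hf => (BM.const _).mul (BM.of (c := T + T) (by fun_prop)
      fun ξ => ?_)).abs.int _).const_mul T) (ae_of_all _ fun ξ => ?_)
  · exact (abs_sub_le _ (ξ f) _).trans (add_le_add (m.abs_Xl_sub hT ξ (h1 hf))
      (by rw [abs_sub_comm]; exact m.abs_Xl_sub hT ξ hf))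
  · have := bias_lip hT v (Fe G v R) (m.Xl (Fe G w R') T ξ) (m.Xl (Fe G v R) T ξ)
    simp only [bias] at this ⊢
    rwa [sum_av_eq hG (by omega) h1]

lemma bl_prod_bias {T : ℝ} (hT : 0 ≤ T) (A : Finset V) (η : V → Bool) (S : Finset (Sym2 V)) :
    BL S (1 + A.card * T) fun x => ∏ v ∈ A, bern (η v) (bias T v S x) := by
  have hb : ∀ x v, bern (η v) (bias T v S x) ∈ Set.Icc (0 : ℝ) 1 := fun x v =>
    bern_mem _ (bias_mem T v S x).1 (bias_mem T v S x).2
  have h0 : 0 ≤ A.card * T := by positivity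
  refine ⟨Finset.measurable_prod _ fun v _ => (continuous_bern _).measurable.comp (bm_bias T v S).1,
    fun x => ?_, fun x y => (abs_prod_sub_prod A (hb x) (hb y)).trans ?_⟩
  · rw [abs_of_nonneg (prod_nonneg fun v _ => (hb x v).1)]
    exact (prod_le_one (fun v _ => (hb x v).1) fun v _ => (hb x v).2).trans (by linarith)
  · refine (sum_le_card_nsmul _ _ (T * nS S (x - y)) fun v _ => ?_).trans ?_
    · rw [abs_bern_sub]
      refine (bias_lip hT v S x y).trans (mul_le_mul_of_nonneg_left ?_ hT)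
      simpa using abs_dot_le (S := S) (abs_av_le v) (x - y)
    · rw [nsmul_eq_mul]
      nlinarith [nS_nonneg S (x - y)]

lemma RT.Fits.law_bias {t : RT V D} (ht : t.Fits G) {θ T : ℝ} {μ : Measure (V → Bool)}
    (hμ : IsFreeIsing G θ μ) (h1 : θ < 1) (hT : 0 ≤ T)
    (hTθ : (1 + θ) * Real.exp (-T ^ 2 / 2) = 1 - θ) (R : ℕ) {A : Finset V} (hA : A ⊆ t.ball R)
    (η : V → Bool) : ∫ ξ, ∏ v ∈ A, bern (η v) (bias T v (Fe G t.o R)
      ((isingMd μ hμ.1).Xl (Fe G t.o R) T ξ)) ∂gam (Sym2 V) = μ.real {s | ∀ v ∈ A, s v = η v} := by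
  have := hμ.1
  have hb : BM ({σ : V → Bool | ∀ v ∈ A, σ v = η v}.indicator (1 : (V → Bool) → ℝ)) :=
    BM.of (c := 1) (measurable_one.indicator (measurableSet_cyl A η)) fun σ => by
      rw [Set.indicator_apply]; split_ifs <;> simp
  have h2 := (isingMd μ hμ.1).bayes (S := Fe G t.o R) T
    (Ψ := fun σ _ => {σ : V → Bool | ∀ v ∈ A, σ v = η v}.indicator 1 σ)
    (hb.comp measurable_fst) fun _ _ _ _ => rfl
  rw [(isingMd μ hμ.1).law_Xl hT (bl_prod_bias hT A η _), ← integral_indicator_one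
    (measurableSet_cyl A η)]
  rw [integral_prod _ ((hb.comp measurable_fst).int _)] at h2
  simp only [integral_const, probReal_univ, one_smul] at h2
  refine Eq.trans ?_ h2.symm
  exact integral_congr_ae (ae_of_all _ fun x => (ht.posterior hμ h1 hTθ R x hA η).symm)

theorem fiid_of_cauchy (hG : IsRegularTree G (D + 1)) {θ T : ℝ} (h1 : θ < 1) (hT : 0 ≤ T)
    (hTθ : (1 + θ) * Real.exp (-T ^ 2 / 2) = 1 - θ) {μ : Measure (V → Bool)}
    (hμ : IsFreeIsing G θ μ) (H : FlowCauchy G (isingMd μ hμ.1) T) : IsFactorOfIID G μ := by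
  obtain ⟨t, -, ht⟩ := exists_RT hG hG.1.connected.nonempty.some
  have := t.countable
  have := hμ.1
  set m := isingMd μ hμ.1 with hm
  choose R0 hR0 using H.close hG hT
  let r : ℕ → ℕ := fun j => (t.ball j ×ˢ range (j + 1)).sup fun p => R0 p.1 p.2
  have hr1 : ∀ v j, t.lev v ≤ j → R0 v j ≤ r j := fun v j h =>
    le_sup (f := fun p : V × ℕ => R0 p.1 p.2) (b := (v, j))
      (mem_product.2 ⟨(t.mem_ball _ _).2 h, self_mem_range_succ j⟩)
  have hr2 : ∀ j, r j ≤ r (j + 1) := fun j => sup_mono (product_subset_product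
    (fun v hv => (t.mem_ball _ _).2 (((t.mem_ball _ _).1 hv).trans j.le_succ))
    (range_subset_range.2 (j + 1).le_succ))
  let p : V → ℕ → (Sym2 V → ℝ) → ℝ := fun v j ξ =>
    bias T v (Fe G v (r j)) (m.Xl (Fe G v (r j)) T ξ)
  have hp : ∀ v j, BM (p v j) := fun v j => (bm_bias T v _).comp (m.measurable_Xl _ T)
  let P : V → (Sym2 V → ℝ) → ℝ := fun v ξ => limsup (fun j => p v j ξ) atTop
  have hP : ∀ v, Measurable (P v) := fun v => Measurable.limsup fun j => (hp v j).1
  have hlim : ∀ᵐ ξ ∂gam (Sym2 V), ∀ v, Tendsto (fun j => p v j ξ) atTop (𝓝 (P v ξ)) := by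
    refine ae_all_iff.2 fun v => ae_tendsto_limsup _ (hp v) (c := T) ?_
    filter_upwards [eventually_ge_atTop (t.lev v)] with j hj
    exact hR0 v j _ (hr1 v j hj) v _ (by simpa using hr2 j)
  have hequiv : ∀ (g : G ≃g G) (ξ ξ' : Sym2 V → ℝ), (∀ e, ξ' (sq2 g.toEquiv e) = ξ e) →
      ∀ v, P (g v) ξ' = P v ξ := by
    intro g ξ ξ' h v
    have h2 : ∀ f, av (g v) (sq2 g.toEquiv f) = av v f := fun f => by
      induction f using Sym2.ind with
      | h a b => simp [av]
    have h3 := fun S => m.Xl_map (sq2 g.toEquiv) (ρ := fun s v => s (g v))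
      (measurable_pi_lambda _ fun v => measurable_pi_apply _) (hμ.map_iso hG g)
      (fun e ω => by induction e using Sym2.ind; rfl) S T h
    simp only [P, p, bias, Fe_map hG g, sum_map, Equiv.coe_toEmbedding, h2, h3]
  obtain ⟨Λ, hΛ, hΛe, hΛl⟩ := exists_labels hG
  have hΦ : Measurable fun (z : (V → ℝ) × (Sym2 V → ℝ)) v => decide (z.1 v ≤ P v z.2) :=
    measurable_pi_lambda _ fun v => measurable_decide_le (by fun_prop) (by fun_prop)
  refine ⟨fun U v => decide ((Λ U).1 v ≤ P v (Λ U).2), hΦ.comp hΛ,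
    fun g => ae_of_all _ fun U => funext fun v => ?_, ?_⟩
  · obtain ⟨v, rfl⟩ := g.surjective v
    obtain ⟨a1, a2⟩ := hΛe g U (fun v => U (g.symm v)) fun v => by simp
    simp only [a1, hequiv g _ _ a2, RelIso.symm_apply_apply]
  have e0 : (iidUnif V).map (fun U v => decide ((Λ U).1 v ≤ P v (Λ U).2)) =
      ((Measure.infinitePi fun _ : V => unif).prod (gam (Sym2 V))).map
        (fun z v => decide (z.1 v ≤ P v z.2)) := by
    rw [← hΛl, Measure.map_map hΦ hΛ]; rfl
  rw [e0]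
  have := Measure.isProbabilityMeasure_map
    (μ := (Measure.infinitePi fun _ : V => unif).prod (gam (Sym2 V))) hΦ.aemeasurable
  refine t.ext_of_ball fun n η => ?_
  have hb : ∀ v S x, bern (η v) (bias T v S x) ∈ Set.Icc (0 : ℝ) 1 := fun v S x =>
    bern_mem _ (bias_mem T v S x).1 (bias_mem T v S x).2
  rw [coin_law _ hP _ _ (by
    filter_upwards [hlim] with ξ hξ v _
    exact isClosed_Icc.mem_of_tendsto (hξ v) (Eventually.of_forall fun j => bias_mem _ _ _ _))]
  have hbm : ∀ (S : V → Finset (Sym2 V)),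
      BM fun ξ => ∏ v ∈ t.ball n, bern (η v) (bias T v (S v) (m.Xl (S v) T ξ)) := fun S =>
    BM.of (c := 1) (Finset.measurable_prod _ fun v _ => (continuous_bern _).measurable.comp
      ((bm_bias T v _).comp (m.measurable_Xl _ T)).1) fun ξ => by
      rw [abs_of_nonneg (prod_nonneg fun v _ => (hb v _ _).1)]
      exact prod_le_one (fun v _ => (hb v _ _).1) fun v _ => (hb v _ _).2
  have l1 : Tendsto (fun j => ∫ ξ, ∏ v ∈ t.ball n, bern (η v) (p v j ξ) ∂gam (Sym2 V)) atTop
      (𝓝 (∫ ξ, ∏ v ∈ t.ball n, bern (η v) (P v ξ) ∂gam (Sym2 V))) := by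
    refine tendsto_integral_of_dominated_convergence (fun _ => 1)
      (fun j => (hbm fun v => Fe G v (r j)).1.aestronglyMeasurable) (integrable_const _)
      (fun j => ae_of_all _ fun ξ => ?_) ?_
    · rw [Real.norm_of_nonneg (prod_nonneg fun v _ => (hb v _ _).1)]
      exact prod_le_one (fun v _ => (hb v _ _).1) fun v _ => (hb v _ _).2
    · filter_upwards [hlim] with ξ hξ
      exact tendsto_finsetProd _ fun v _ => ((continuous_bern _).tendsto _).comp (hξ v)
  refine tendsto_nhds_unique l1 (tendsto_iff_dist_tendsto_zero.2 (squeeze_zero'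
    (Eventually.of_forall fun _ => dist_nonneg)
    (g := fun j => (t.ball n).card * (T * (1 / 2) ^ j)) ?_ ?_))
  · filter_upwards [eventually_ge_atTop n] with j hj
    have hA : t.ball n ⊆ t.ball (n + r j) := fun v hv =>
      (t.mem_ball _ _).2 (((t.mem_ball _ _).1 hv).trans (Nat.le_add_right _ _))
    have hd : ∀ v, BM fun ξ => |bias T v (Fe G t.o (n + r j)) (m.Xl (Fe G t.o (n + r j)) T ξ) -
        p v j ξ| := fun v => (((bm_bias T v _).comp (m.measurable_Xl _ T)).sub (hp v j)).abs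
    rw [← ht.law_bias hμ h1 hT hTθ _ hA η, dist_comm, Real.dist_eq, ← integral_sub
      ((hbm fun _ => Fe G t.o (n + r j)).int _) ((hbm fun v => Fe G v (r j)).int _)]
    refine abs_integral_le_integral_abs.trans ((integral_mono_of_nonneg
      (ae_of_all _ fun _ => abs_nonneg _) ((BM.sum (t.ball n) hd).int _)
      (ae_of_all _ fun ξ => ?_)).trans ?_)
    · refine (abs_prod_sub_prod _ (fun v => hb v _ _) fun v => hb v _ _).trans_eq ?_
      simp only [abs_bern_sub, p]
    · rw [integral_finsetSum _ fun v _ => (hd v).int _, ← nsmul_eq_mul]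
      refine sum_le_card_nsmul _ _ _ fun v hv => ?_
      have h2 := (t.mem_ball _ _).1 hv
      exact hR0 v j _ (hr1 v j (h2.trans hj)) t.o _ (by rw [← ht.lev_eq]; omega)
  · have := ((tendsto_pow_atTop_nhds_zero_of_lt_one (r := (1 / 2 : ℝ)) (by norm_num)
      (by norm_num)).const_mul T).const_mul ((t.ball n).card : ℝ)
    rwa [mul_zero, mul_zero] at this

end Vale.Agent.P161
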