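import Mathlib

/-! Pure real asymptotics for the choice of scales. -/

open Filter Topology

namespace Vale.Agent.P161

theorem exp_half_le_one_add {x : ℝ} (h0 : 0 ≤ x) (h1 : x ≤ 1) : Real.exp (x / 2) ≤ 1 + x := by
  have h2 : 1 - x / 2 ≤ Real.exp (-(x / 2)) := by
    have := Real.add_one_le_exp (-(x / 2)); linarith
  have h3 : Real.exp (x / 2) * Real.exp (-(x / 2)) = 1 := by rw [← Real.exp_add]; simp
  have h4 : 0 < Real.exp (x / 2) := Real.exp_pos _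
  have h5 : Real.exp (x / 2) * (1 - x / 2) ≤ 1 := by
    calc Real.exp (x / 2) * (1 - x / 2) ≤ Real.exp (x / 2) * Real.exp (-(x / 2)) := by gcongr
      _ = 1 := h3
  have h6 : 1 ≤ (1 + x) * (1 - x / 2) := by nlinarith
  have h7 : 0 < 1 - x / 2 := by linarith
  exact le_of_mul_le_mul_right (h5.trans h6) h7

theorem eventually_poly_le (A : ℝ) (hA : 0 ≤ A) :
    ∃ n1 : ℕ, ∀ n, n1 ≤ n → A * ((n : ℝ) + 1) ^ 40 ≤ 2 ^ n := by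
  have h := tendsto_pow_const_div_const_pow_of_one_lt 40 (show (1 : ℝ) < 2 by norm_num)
  have h1 : ∀ᶠ n : ℕ in atTop, (n : ℝ) ^ 40 / 2 ^ n ≤ 1 / (2 * (A + 1)) :=
    h.eventually (ge_mem_nhds (by positivity))
  obtain ⟨n1, hn1⟩ := eventually_atTop.1 h1
  refine ⟨n1, fun n hn => ?_⟩
  have h2 := hn1 (n + 1) (by omega)
  push_cast at h2
  rw [div_le_div_iff₀ (by positivity) (by positivity), pow_succ (2 : ℝ) n] at h2
  have h3 : 0 ≤ ((n : ℝ) + 1) ^ 40 := by positivity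
  nlinarith

theorem asymp (D : ℕ) (hD : 2 ≤ D) (C : ℝ) (hC : 0 ≤ C) :
    ∃ (n1 : ℕ) (M : ℕ → ℕ) (b : ℕ → ℝ), ∀ n, n1 ≤ n → ∀ u : ℝ,
      1 / ((n : ℝ) + 1) ^ 4 ≤ u → u ≤ 1 / (n : ℝ) ^ 4 →
    Real.exp (C / u ^ 4) ≤ (1 + u ^ 2 / 12 / 5) ^ M n ∧ Real.exp (C / u ^ 4) ^ 2 ≤ b n ∧
    b n * (((D : ℝ) + 2) ^ M n * Real.exp (-((D : ℝ) ^ n * u ^ 4 / 4))) ≤ 1 ∧
    C * ((n + n ^ 2 + n ^ 3 : ℕ) : ℝ) * u ≤ 1 := by
  set K : ℕ := ⌈120 * C⌉₊ with hK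
  have hKC : 120 * C ≤ K := Nat.le_ceil _
  obtain ⟨n1, hn1⟩ := eventually_poly_le (4 * (2 * C + ((D : ℝ) + 2) * K)) (by positivity)
  refine ⟨max n1 (max 1 ⌈3 * C⌉₊), fun n => K * (n + 1) ^ 24,
    fun n => Real.exp (2 * C * ((n : ℝ) + 1) ^ 16), fun n hn u hu1 hu2 => ?_⟩
  have hn1' : n1 ≤ n := le_trans (le_max_left _ _) hn
  have hn2 : 1 ≤ n := le_trans (le_trans (le_max_left _ _) (le_max_right _ _)) hn
  have hn3 : ⌈3 * C⌉₊ ≤ n := le_trans (le_trans (le_max_right _ _) (le_max_right _ _)) hn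
  have hn2' : (1 : ℝ) ≤ n := by exact_mod_cast hn2
  have hn3' : 3 * C ≤ n := (Nat.le_ceil _).trans (by exact_mod_cast hn3)
  have h2 := hn1 n hn1'
  have hM : ((K * (n + 1) ^ 24 : ℕ) : ℝ) = K * ((n : ℝ) + 1) ^ 24 := by push_cast; rfl
  have hN1 : 1 ≤ (n : ℝ) + 1 := by linarith
  show Real.exp (C / u ^ 4) ≤ (1 + u ^ 2 / 12 / 5) ^ (K * (n + 1) ^ 24) ∧
    Real.exp (C / u ^ 4) ^ 2 ≤ Real.exp (2 * C * ((n : ℝ) + 1) ^ 16) ∧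
    Real.exp (2 * C * ((n : ℝ) + 1) ^ 16) * (((D : ℝ) + 2) ^ (K * (n + 1) ^ 24) *
      Real.exp (-((D : ℝ) ^ n * u ^ 4 / 4))) ≤ 1 ∧
    C * ((n + n ^ 2 + n ^ 3 : ℕ) : ℝ) * u ≤ 1
  generalize K * (n + 1) ^ 24 = M at hM ⊢
  generalize (n : ℝ) + 1 = N at hM hN1 h2 hu1 ⊢
  clear_value K
  have hN0 : 0 < N := by linarith
  have hu0 : 0 < u := lt_of_lt_of_le (by positivity) hu1
  have hu3 : u ≤ 1 := hu2.trans (by
    rw [div_le_one (by positivity)]; exact one_le_pow₀ hn2')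
  have hNu : 1 ≤ N ^ 4 * u := by
    rw [div_le_iff₀ (by positivity)] at hu1; linarith
  have hNu2 : 1 ≤ N ^ 8 * u ^ 2 := by
    have := one_le_pow₀ (n := 2) hNu
    calc (1 : ℝ) ≤ (N ^ 4 * u) ^ 2 := this
      _ = N ^ 8 * u ^ 2 := by ring
  have hNu4 : 1 ≤ N ^ 16 * u ^ 4 := by
    have := one_le_pow₀ (n := 4) hNu
    calc (1 : ℝ) ≤ (N ^ 4 * u) ^ 4 := this
      _ = N ^ 16 * u ^ 4 := by ring
  have hCu : C / u ^ 4 ≤ C * N ^ 16 := by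
    rw [div_le_iff₀ (by positivity)]
    calc C = C * 1 := by ring
      _ ≤ C * (N ^ 16 * u ^ 4) := by gcongr
      _ = C * N ^ 16 * u ^ 4 := by ring
  refine ⟨?_, ?_, ?_, ?_⟩
  · have hx0 : 0 ≤ u ^ 2 / 12 / 5 := by positivity
    have hx1 : u ^ 2 / 12 / 5 ≤ 1 := by nlinarith
    calc Real.exp (C / u ^ 4) ≤ Real.exp ((M : ℝ) * (u ^ 2 / 12 / 5 / 2)) := by
          rw [Real.exp_le_exp, hM]
          calc C / u ^ 4 ≤ C * N ^ 16 := hCu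
            _ = 120 * C * N ^ 16 * 1 / 120 := by ring
            _ ≤ K * N ^ 16 * (N ^ 8 * u ^ 2) / 120 := by gcongr
            _ = K * N ^ 24 * (u ^ 2 / 12 / 5 / 2) := by ring
      _ = Real.exp (u ^ 2 / 12 / 5 / 2) ^ M := Real.exp_nat_mul _ _
      _ ≤ (1 + u ^ 2 / 12 / 5) ^ M := by
          gcongr; exact exp_half_le_one_add hx0 hx1
  · rw [← Real.exp_nat_mul, Real.exp_le_exp]
    push_cast
    linarith
  · have h1 : ((D : ℝ) + 2) ^ M ≤ Real.exp (((D : ℝ) + 2) * (K * N ^ 24)) := by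
      rw [mul_comm ((D : ℝ) + 2), ← hM, Real.exp_nat_mul]
      gcongr
      have := Real.add_one_le_exp ((D : ℝ) + 2); linarith
    have hD' : (2 : ℝ) ≤ D := by exact_mod_cast hD
    have h3 : (2 : ℝ) ^ n ≤ (D : ℝ) ^ n := by gcongr
    have h4 : N ^ 16 ≤ N ^ 24 := pow_le_pow_right₀ hN1 (by norm_num)
    have h5 : 2 * C * N ^ 16 + ((D : ℝ) + 2) * (K * N ^ 24) ≤ (D : ℝ) ^ n * u ^ 4 / 4 := by
      calc 2 * C * N ^ 16 + ((D : ℝ) + 2) * (K * N ^ 24)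
          ≤ 2 * C * N ^ 24 + ((D : ℝ) + 2) * (K * N ^ 24) := by gcongr
        _ = (2 * C + ((D : ℝ) + 2) * K) * N ^ 24 * 1 := by ring
        _ ≤ (2 * C + ((D : ℝ) + 2) * K) * N ^ 24 * (N ^ 16 * u ^ 4) := by gcongr
        _ = 4 * (2 * C + ((D : ℝ) + 2) * K) * N ^ 40 * u ^ 4 / 4 := by ring
        _ ≤ (D : ℝ) ^ n * u ^ 4 / 4 := by gcongr; exact h2.trans h3
    calc Real.exp (2 * C * N ^ 16) *
          (((D : ℝ) + 2) ^ M * Real.exp (-((D : ℝ) ^ n * u ^ 4 / 4)))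
        ≤ Real.exp (2 * C * N ^ 16) *
          (Real.exp (((D : ℝ) + 2) * (K * N ^ 24)) * Real.exp (-((D : ℝ) ^ n * u ^ 4 / 4))) := by
          gcongr
      _ = Real.exp (2 * C * N ^ 16 + ((D : ℝ) + 2) * (K * N ^ 24) - (D : ℝ) ^ n * u ^ 4 / 4) := by
          rw [← Real.exp_add, ← Real.exp_add]; congr 1; ring
      _ ≤ 1 := Real.exp_le_one_iff.2 (by linarith)
  · have h1 : ((n + n ^ 2 + n ^ 3 : ℕ) : ℝ) ≤ 3 * (n : ℝ) ^ 3 := by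
      push_cast
      have a1 : (n : ℝ) ≤ (n : ℝ) ^ 3 := le_self_pow₀ hn2' (by norm_num)
      have a2 : (n : ℝ) ^ 2 ≤ (n : ℝ) ^ 3 := pow_le_pow_right₀ hn2' (by norm_num)
      linarith
    have hn0 : (0 : ℝ) < n := by linarith
    calc C * ((n + n ^ 2 + n ^ 3 : ℕ) : ℝ) * u ≤ C * (3 * (n : ℝ) ^ 3) * (1 / (n : ℝ) ^ 4) := by
          gcongr
      _ = 3 * C / n := by field_simp
      _ ≤ 1 := by rw [div_le_one hn0]; exact hn3'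

theorem exists_scale (n1 : ℕ) (hn : 1 ≤ n1) (u : ℝ) (hu : 0 < u) (h : u ≤ 1 / (n1 : ℝ) ^ 4) :
    ∃ n : ℕ, n1 ≤ n ∧ 1 / ((n : ℝ) + 1) ^ 4 ≤ u ∧ u ≤ 1 / (n : ℝ) ^ 4 := by
  classical
  have hex : ∃ k : ℕ, 1 / (((n1 + k : ℕ) : ℝ) + 1) ^ 4 ≤ u := by
    refine ⟨⌈1 / u⌉₊, ?_⟩
    have h1 : 1 / u ≤ ⌈1 / u⌉₊ := Nat.le_ceil _
    have h2 : (1 : ℝ) ≤ ((n1 + ⌈1 / u⌉₊ : ℕ) : ℝ) + 1 := by
      have : (0 : ℝ) ≤ ((n1 + ⌈1 / u⌉₊ : ℕ) : ℝ) := Nat.cast_nonneg _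
      linarith
    have h3 : ((n1 + ⌈1 / u⌉₊ : ℕ) : ℝ) + 1 ≤ (((n1 + ⌈1 / u⌉₊ : ℕ) : ℝ) + 1) ^ 4 :=
      le_self_pow₀ h2 (by norm_num)
    have h4 : (⌈1 / u⌉₊ : ℝ) ≤ ((n1 + ⌈1 / u⌉₊ : ℕ) : ℝ) + 1 := by
      push_cast
      have : (0 : ℝ) ≤ n1 := Nat.cast_nonneg _
      linarith
    rw [div_le_iff₀ (by positivity)]
    rw [div_le_iff₀ hu] at h1
    nlinarith
  refine ⟨n1 + Nat.find hex, Nat.le_add_right _ _, Nat.find_spec hex, ?_⟩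
  rcases Nat.eq_zero_or_pos (Nat.find hex) with h0 | h0
  · rw [h0]; simpa using h
  · have h1 := Nat.find_min hex (m := Nat.find hex - 1) (by omega)
    have h2 : ((n1 + (Nat.find hex - 1) : ℕ) : ℝ) + 1 = ((n1 + Nat.find hex : ℕ) : ℝ) := by
      have : n1 + (Nat.find hex - 1) + 1 = n1 + Nat.find hex := by omega
      exact_mod_cast this
    rw [h2] at h1
    exact (not_le.1 h1).le

end Vale.Agent.P161
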