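import Vale.Agent.P161.Rooted

/-! A simply transitive family of automorphisms of the regular tree. -/

namespace Vale.Agent.P161

open Function

variable {V : Type} {D : ℕ} {G : SimpleGraph V}

/-- neighbour enumerations corrected along the generations -/
noncomputable def RT.nbN (t : RT V D) (e : V → Fin (D + 1) → V) : ℕ → V → Fin (D + 1) → V
  | 0, v => e v
  | n + 1, c => e c ∘ Equiv.swap (invFun (e c) (t.par c)) (invFun (t.nbN e n (t.par c)) c)

theorem exists_nb (hG : IsRegularTree G (D + 1)) : ∃ nb : V → Fin (D + 1) → V,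
    (∀ v, Injective (nb v)) ∧ (∀ u v, G.Adj u v ↔ ∃ i, nb u i = v) ∧ ∀ v i, nb (nb v i) i = v := by
  obtain ⟨t, -, ht⟩ := exists_RT hG hG.1.connected.nonempty.some
  have h0 : ∀ v, ∃ e : Fin (D + 1) → V, Injective e ∧ ∀ w, G.Adj v w ↔ ∃ i, e i = w := by
    intro v
    have hfin : (G.neighborSet v).Finite := Set.finite_of_encard_eq_coe (hG.2 v)
    have hc : hfin.toFinset.card = D + 1 := by
      have := hG.2 v
      rw [hfin.encard_eq_coe_toFinset_card] at this
      exact_mod_cast this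
    let e := (Finset.equivFinOfCardEq hc).symm
    refine ⟨fun i => e i, Subtype.val_injective.comp e.injective, fun w => ⟨fun h => ?_, ?_⟩⟩
    · exact ⟨e.symm ⟨w, hfin.mem_toFinset.2 h⟩, by simp⟩
    · rintro ⟨i, rfl⟩
      exact hfin.mem_toFinset.1 (e i).2
  choose e he1 he2 using h0
  have h1 : ∀ n v, ∃ π : Equiv.Perm (Fin (D + 1)), t.nbN e n v = e v ∘ π := by
    rintro (_ | n) v
    · exact ⟨1, rfl⟩
    · exact ⟨_, rfl⟩
  let nb : V → Fin (D + 1) → V := fun v => t.nbN e (t.lev v) v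
  have hinj : ∀ v, Injective (nb v) := fun v => by
    obtain ⟨π, h⟩ := h1 (t.lev v) v
    simp only [nb, h]
    exact (he1 v).comp π.injective
  have hadj : ∀ u v, G.Adj u v ↔ ∃ i, nb u i = v := fun u v => by
    obtain ⟨π, h⟩ := h1 (t.lev u) u
    simp only [nb, h, he2]
    exact (π.surjective.exists (p := fun i => e u i = v))
  have key : ∀ c j, c ≠ t.o → nb (t.par c) j = c → nb c j = t.par c := by
    intro c j hc hj
    have h2 : invFun (nb (t.par c)) c = j := by
      conv_lhs => rw [← hj]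
      rw [hj, ← leftInverse_invFun (hinj (t.par c)) j, hj]
    have h3 : nb c = e c ∘ Equiv.swap (invFun (e c) (t.par c)) (invFun (nb (t.par c)) c) := by
      simp only [nb, t.lev_par c hc, RT.nbN]
    rw [h3, h2, comp_apply, Equiv.swap_apply_right]
    exact invFun_eq ((he2 _ _).1 ((ht.adj _ _).2 (Or.inl ⟨hc, rfl⟩)))
  refine ⟨nb, hinj, hadj, fun v i => ?_⟩
  rcases (ht.adj _ _).1 ((hadj v _).2 ⟨i, rfl⟩) with ⟨h2, h3⟩ | ⟨h2, h3⟩
  · obtain ⟨j, hj⟩ := (hadj _ _).1 ((ht.adj _ _).2 (Or.inr ⟨h2, rfl⟩))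
    have := key v j h2 hj
    rw [h3] at this hj
    rw [← hinj v this, this]
    exact hj
  · have := key _ i h2 (by rw [h3])
    rwa [h3] at this

/-- maps commuting with the colouring -/
def RT.autN (t : RT V D) (nb : V → Fin (D + 1) → V) (col : V → Fin (D + 1)) (b : V) : ℕ → V → V
  | 0, _ => b
  | n + 1, c => nb (t.autN nb col b n (t.par c)) (col c)

theorem exists_aut_family (hG : IsRegularTree G (D + 1)) (p : V) : ∃ g : V → G ≃g G,
    (∀ x, g x x = p) ∧ ∀ x x' k, g x k = g x' k → x = x' := by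
  obtain ⟨nb, hinj, hadj, hinv⟩ := exists_nb hG
  have huniq : ∀ f f' : V → V, (∀ v i, f (nb v i) = nb (f v) i) →
      (∀ v i, f' (nb v i) = nb (f' v) i) → ∀ a, f a = f' a → ∀ v, f v = f' v := by
    intro f f' hf hf' a ha v
    obtain ⟨w⟩ := hG.1.connected.preconnected a v
    induction w with
    | nil => exact ha
    | cons h _ ih =>
      obtain ⟨i, rfl⟩ := (hadj _ _).1 h
      exact ih (by rw [hf, hf', ha])
  have hex : ∀ a b, ∃ f : V → V, f a = b ∧ ∀ v i, f (nb v i) = nb (f v) i := by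
    intro a b
    obtain ⟨t, rfl, ht⟩ := exists_RT hG a
    let col : V → Fin (D + 1) := fun c => invFun (nb (t.par c)) c
    let f : V → V := fun v => t.autN nb col b (t.lev v) v
    have hf : ∀ c i, c ≠ t.o → nb (t.par c) i = c → f c = nb (f (t.par c)) i := by
      intro c i hc hi
      have : col c = i := by
        simp only [col]
        rw [← leftInverse_invFun (hinj (t.par c)) i, hi]
      simp only [f, t.lev_par c hc, RT.autN, this]
    refine ⟨f, by simp only [f, t.lev_o, RT.autN], fun v i => ?_⟩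
    rcases (ht.adj _ _).1 ((hadj v _).2 ⟨i, rfl⟩) with ⟨h2, h3⟩ | ⟨h2, h3⟩
    · rw [hf v i h2 (by rw [h3, hinv]), hinv, h3]
    · rw [hf _ i h2 (by rw [h3]), h3]
  choose f hf1 hf2 using hex
  have hid : ∀ a b v, f b a (f a b v) = v := fun a b =>
    huniq (fun v => f b a (f a b v)) id (fun v i => by rw [hf2, hf2]) (fun _ _ => rfl) a
      (by rw [hf1, hf1]; rfl)
  have hmap : ∀ a b u v, G.Adj u v → G.Adj (f a b u) (f a b v) := fun a b u v h => by
    obtain ⟨i, rfl⟩ := (hadj _ _).1 h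
    exact (hadj _ _).2 ⟨i, (hf2 _ _ _ _).symm⟩
  refine ⟨fun x => ⟨⟨f x p, f p x, hid x p, hid p x⟩, fun {u v} => ⟨fun h => ?_, hmap x p u v⟩⟩,
    fun x => hf1 x p, fun x x' k h => ?_⟩
  · have := hmap p x _ _ h
    rwa [Equiv.coe_fn_mk, hid, hid] at this
  · have := huniq _ _ (hf2 x p) (hf2 x' p) k h x
    rw [hf1] at this
    rw [← hid x' p x, ← this, hf1]

end Vale.Agent.P161
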