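import Vale.Agent.P161.Defs

/-! Elementary definitions. -/

namespace Vale.Agent.P161

open Finset

lemma abs_sgn (b : Bool) : |sgn b| = 1 := by cases b <;> simp [sgn]

lemma sgn_sq (b : Bool) : sgn b ^ 2 = 1 := by cases b <;> simp [sgn]

/-- The weight of an edge with observation `y`, child spin `σ` and parent spin `τ`. -/
noncomputable def ew (θ u y : ℝ) (σ τ : Bool) : ℝ :=
  (1 + θ * (sgn σ * sgn τ)) / 2 *
    Real.exp (u * y * ((sgn σ + sgn τ) / 2) - u ^ 2 * ((sgn σ + sgn τ) / 2) ^ 2 / 2)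

lemma ew_pos {θ : ℝ} (h0 : 0 ≤ θ) (h1 : θ < 1) (u y : ℝ) (σ τ : Bool) : 0 < ew θ u y σ τ := by
  refine mul_pos (half_pos ?_) (Real.exp_pos _)
  cases σ <;> cases τ <;> simp [sgn] <;> linarith

/-- The magnetisation attached to a pair of likelihoods. -/
noncomputable def mag (Z : Bool → ℝ) : ℝ := (Z true - Z false) / (Z true + Z false)

noncomputable def om (u y : ℝ) : ℝ := Real.tanh (u * y / 2)

/-- The comparison sequence. -/
noncomputable def Xs (c s : ℝ) : ℕ → ℝ
  | 0 => 0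
  | n + 1 => s + Xs c s n / (1 + c * Xs c s n)

/-- The source term of the comparison sequence. -/
noncomputable def sq0 (D : ℕ) (u : ℝ) : ℝ := (19 / 20) ^ 3 * (√D + 1) ^ 2 * u ^ 2 / 4

/-- The decay factor at level `l` in the ball of radius `R`. -/
noncomputable def yl (D : ℕ) (θ u : ℝ) (R l : ℕ) : ℝ :=
  1 / (1 + (1 - θ ^ 2) * Xs (1 - θ ^ 2) (sq0 D u) (R + 1 - l))

end Vale.Agent.P161
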