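import Vale.Agent.P161.Compare

/-! A Cauchy criterion for the flows along an increasing sequence of observation sets. -/

namespace Vale.Agent.P161

open Finset MeasureTheory ProbabilityTheory Filter Topology
open scoped Classical

variable {Ω : Type*} [MeasurableSpace Ω] {E : Type*}

namespace Md

variable (m : Md Ω E) {S S' : Finset E} {T : ℝ}

noncomputable def RS (T : ℝ) (S : Finset E) (e : E) (n : ℕ) : ℝ :=
  ∑ k ∈ range (2 ^ n), hh T n * ∫ z, m.vel S (k * hh T n) z e ^ 2 ∂m.rho (k * hh T n)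

lemma RS_mem (hT : 0 ≤ T) (S : Finset E) (e : E) (n : ℕ) : m.RS T S e n ∈ Set.Icc 0 T := by
  refine ⟨sum_nonneg fun k _ => mul_nonneg (hh_nonneg hT n)
    (integral_nonneg fun _ => sq_nonneg _), ?_⟩
  calc m.RS T S e n ≤ ∑ k ∈ range (2 ^ n), hh T n := sum_le_sum fun k _ => by
        refine mul_le_of_le_one_right (hh_nonneg hT n) ((le_abs_self _).trans ?_)
        rw [← Real.norm_eq_abs]
        refine (norm_integral_le_of_norm_le_const (C := 1) (ae_of_all _ fun z => ?_)).trans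
          (by simp)
        rw [Real.norm_eq_abs, abs_pow]
        exact pow_le_one₀ (abs_nonneg _) (m.abs_vel_le _ _ _ _)
    _ = T := by rw [sum_const, card_range, nsmul_eq_mul, hh_mul]

lemma sum_incr_le (hT : 0 ≤ T) (hS : S ⊆ S') (e : E) (n : ℕ) {c : ℝ} (hc : 0 < c) :
    ∑ k ∈ range (2 ^ n), hh T n * ∫ z, |m.vel S' (k * hh T n) z e - m.vel S (k * hh T n) z e|
      ∂m.rho (k * hh T n) ≤ (m.RS T S' e n - m.RS T S e n) / c + T * c := by
  calc _ ≤ ∑ k ∈ range (2 ^ n), ((hh T n * ∫ z, m.vel S' (k * hh T n) z e ^ 2 ∂m.rho (k * hh T n) -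
        hh T n * ∫ z, m.vel S (k * hh T n) z e ^ 2 ∂m.rho (k * hh T n)) / c + hh T n * c) := by
        refine sum_le_sum fun k _ => ?_
        rw [← mul_sub, ← m.incr hS, mul_div_assoc, ← mul_add]
        refine mul_le_mul_of_nonneg_left ((integral_abs_le_sqrt _
          ((m.bm_vel _ _ _).sub (m.bm_vel _ _ _))).trans ?_) (hh_nonneg hT n)
        have h0 : 0 ≤ ∫ z, (m.vel S' (k * hh T n) z e - m.vel S (k * hh T n) z e) ^ 2
          ∂m.rho (k * hh T n) := integral_nonneg fun _ => sq_nonneg _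
        set y := ∫ z, (m.vel S' (k * hh T n) z e - m.vel S (k * hh T n) z e) ^ 2
          ∂m.rho (k * hh T n)
        rw [div_add' _ _ _ hc.ne', le_div_iff₀ hc]
        nlinarith [Real.sq_sqrt h0, sq_nonneg (√y - c), Real.sqrt_nonneg y]
    _ = _ := by
        rw [sum_add_distrib, ← sum_div, sum_sub_distrib, sum_const, card_range, nsmul_eq_mul,
          ← mul_assoc, hh_mul]; rfl

lemma hyper_le : (hyperfilter ℕ : Filter ℕ) ≤ atTop := by
  rw [← Nat.cofinite_eq_atTop]; exact hyperfilter_le_cofinite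

lemma small_incr (hT : 0 ≤ T) {F : ℕ → Finset E} (hF : Monotone F) (e : E) {ε : ℝ} (hε : 0 < ε) :
    ∃ R0, ∀ R, R0 ≤ R → ∀ R' S', F R ⊆ S' → S' ⊆ F R' →
      ∀ᶠ n in (hyperfilter ℕ : Filter ℕ), m.RS T S' e n - m.RS T (F R) e n ≤ ε := by
  have hQ : ∀ S : Finset E, ∃ Q ∈ Set.Icc (0 : ℝ) T,
      Tendsto (m.RS T S e) (hyperfilter ℕ : Filter ℕ) (𝓝 Q) := fun S =>
    isCompact_Icc.ultrafilter_le_nhds ((hyperfilter ℕ).map (m.RS T S e))
      (le_principal_iff.2 (mem_map.2 (Eventually.of_forall (m.RS_mem hT S e))))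
  choose Q hQ1 hQ2 using hQ
  have hmono : ∀ S S', S ⊆ S' → Q S ≤ Q S' := fun S S' h =>
    le_of_tendsto_of_tendsto' (hQ2 S) (hQ2 S') fun n => sum_le_sum fun k _ =>
      mul_le_mul_of_nonneg_left (sub_nonneg.1 (by
        rw [← m.incr h]; exact integral_nonneg fun _ => sq_nonneg _)) (hh_nonneg hT n)
  have hbdd : BddAbove (Set.range fun R => Q (F R)) := ⟨T, by rintro _ ⟨S, rfl⟩; exact (hQ1 _).2⟩
  obtain ⟨R0, hR0⟩ := exists_lt_of_lt_ciSup (sub_lt_self (⨆ R, Q (F R)) hε)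
  refine ⟨R0, fun R hR R' S' _ h2 => ?_⟩
  have h3 : Q S' - Q (F R) < ε := by
    linarith [hmono _ _ h2, le_ciSup hbdd R', hmono _ _ (hF hR)]
  exact (((hQ2 S').sub (hQ2 _)).eventually (gt_mem_nhds h3)).mono fun n hn => hn.le

lemma bm_A (hT : 0 ≤ T) {a : E → ℝ} (ha : ∀ f, |a f| ≤ 1) {n k : ℕ} (hk : k < 2 ^ n) {f : E}
    (hf : f ∈ S) : ∃ K, BL S K fun z => m.A S T a n k z f :=
  let ⟨K, hK⟩ := m.ub_A hT ha hf; ⟨K, hK (n, k) hk⟩

theorem cauchy (hT : 0 ≤ T) {F : ℕ → Finset E} (hF : Monotone F) {a : E → ℝ}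
    (ha : ∀ f, |a f| ≤ 1)
    (H : ∀ η : ℝ, 0 < η → ∃ (I : Finset E) (M : ℝ) (R0 : ℕ), 0 ≤ M ∧ ∀ R, R0 ≤ R →
      ∀ᶠ n in atTop, ∃ J : ℕ → Finset E, (∀ k, J k ⊆ I) ∧
        (∀ k < 2 ^ n, ∀ z, ∀ e ∈ J k, |m.A (F R) T a n k z e| ≤ M) ∧
        ∑ k ∈ range (2 ^ n), hh T n * √(∫ z, m.Qf (F R) (k * hh T n) z
          (fun e => if e ∈ J k then 0 else m.A (F R) T a n k z e) ∂m.rho (k * hh T n)) ≤ η)
    {η : ℝ} (hη : 0 < η) : ∃ R0, ∀ R, R0 ≤ R → ∀ R' S', F R ⊆ S' → S' ⊆ F R' →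
      ∫ ξ, |∑ f ∈ F R, a f * (m.Xl S' T ξ f - m.Xl (F R) T ξ f)| ∂gam E ≤ η := by
  obtain ⟨I, M, R0, hM, hR0⟩ := H (η / 3) (by positivity)
  set c : ℝ := η / (3 * (M * I.card * (T + 1) + 1)) with hc
  have hc0 : 0 < c := by positivity
  choose R1 hR1 using fun e => m.small_incr hT hF e (mul_pos hc0 hc0)
  refine ⟨max R0 (I.sup R1), fun R hR R' S' h1 h2 => ?_⟩
  set S := F R with hS
  have hb : ∀ n ξ, |∑ f ∈ S, a f * (m.Xn S' T n ξ f - m.Xn S T n ξ f)| ≤ 1 * (S.card * (2 * T)) :=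
    fun n ξ => (abs_dot_le ha _).trans (mul_le_mul_of_nonneg_left (nS_le_card fun f _ => by
      have a1 := abs_le.1 (m.abs_Xn_sub (S := S') hT n ξ f)
      have a2 := abs_le.1 (m.abs_Xn_sub (S := S) hT n ξ f)
      rw [abs_le]; constructor <;> linarith) zero_le_one)
  have ht : Tendsto (fun n => ∫ ξ, |∑ f ∈ S, a f * (m.Xn S' T n ξ f - m.Xn S T n ξ f)| ∂gam E)
      atTop (𝓝 (∫ ξ, |∑ f ∈ S, a f * (m.Xl S' T ξ f - m.Xl S T ξ f)| ∂gam E)) := by
    refine tendsto_integral_of_dominated_convergence (fun _ => 1 * (S.card * (2 * T)))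
      (fun n => Measurable.aestronglyMeasurable ?_) (integrable_const _)
      (fun n => ae_of_all _ fun ξ => by rw [Real.norm_eq_abs, abs_abs]; exact hb n ξ)
      (ae_of_all _ fun ξ => (tendsto_finsetSum _ fun f hf => ((m.tendsto_Xn hT ξ (h1 hf)).sub
        (m.tendsto_Xn hT ξ hf)).const_mul _).abs)
    have := m.measurable_Xn S' T n
    have := m.measurable_Xn S T n
    fun_prop
  refine le_of_tendsto (ht.mono_left hyper_le) ?_
  filter_upwards [hyper_le (m.cmp hT h1 ha (η := η / 3) (by positivity)),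
    hyper_le (hR0 R (le_of_max_le_left hR)), (eventually_all_finset I).2 fun e he =>
      hR1 e R ((le_sup he).trans (le_of_max_le_right hR)) R' S' h1 h2] with n hn ⟨J, hJ1, hJ2, hJ3⟩ hn3
  refine hn.trans ?_
  set h := hh T n with hdef
  have hh0 : 0 ≤ h := hh_nonneg hT n
  have key : ∀ k ∈ range (2 ^ n), h * ∫ z, |∑ f ∈ S, m.A S T a n k z f *
        (m.vel S' (k * h) z f - m.vel S (k * h) z f)| ∂m.rho (k * h) ≤
      h * √(∫ z, m.Qf S (k * h) z (fun e => if e ∈ J k then 0 else m.A S T a n k z e)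
        ∂m.rho (k * h)) + M * ∑ e ∈ I, h * ∫ z, |m.vel S' (k * h) z e - m.vel S (k * h) z e|
        ∂m.rho (k * h) := by
    intro k hk
    have hk' := mem_range.1 hk
    have bA : ∀ f ∈ S, BM fun z => if f ∈ J k then 0 else m.A S T a n k z f := fun f hf => by
      split_ifs
      exacts [BM.const _, (m.bm_A hT ha hk' hf).choose_spec.bm]
    have j1 := m.jensen h1 (k * h) (a := fun z e => if e ∈ J k then 0 else m.A S T a n k z e) bA
      fun f hf x y hxy => by simp only [(m.bm_A hT ha hk' hf).choose_spec.dep hxy]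
    have bD : ∀ e, BM fun z => m.vel S' (k * h) z e - m.vel S (k * h) z e :=
      fun e => (m.bm_vel _ _ _).sub (m.bm_vel _ _ _)
    rw [← mul_sum, mul_left_comm, ← mul_add]
    refine mul_le_mul_of_nonneg_left (le_trans ?_ (add_le_add j1 le_rfl)) hh0
    have i1 := (BM.sum' S fun f hf => (bA f hf).mul (bD f)).abs.int (m.rho (k * h))
    have i2 := ((BM.const M).mul (BM.sum I fun e => (bD e).abs)).int (m.rho (k * h))
    rw [← integral_finsetSum _ fun e _ => (bD e).abs.int _, ← integral_const_mul,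
      ← integral_add i1 i2]
    refine integral_mono_of_nonneg (ae_of_all _ fun _ => abs_nonneg _) (i1.add i2)
      (ae_of_all _ fun z => ?_)
    have e1 : ∑ f ∈ S, m.A S T a n k z f * (m.vel S' (k * h) z f - m.vel S (k * h) z f) =
        ∑ f ∈ S, (if f ∈ J k then 0 else m.A S T a n k z f) *
          (m.vel S' (k * h) z f - m.vel S (k * h) z f) + ∑ f ∈ S with f ∈ J k, m.A S T a n k z f *
          (m.vel S' (k * h) z f - m.vel S (k * h) z f) := by
      rw [sum_filter, ← sum_add_distrib]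
      exact sum_congr rfl fun f _ => by split_ifs <;> ring
    simp only [e1]
    refine (abs_add_le _ _).trans (add_le_add le_rfl ((abs_sum_le_sum_abs _ _).trans ?_))
    rw [mul_sum]
    refine (sum_le_sum fun f hf => ?_).trans (sum_le_sum_of_subset_of_nonneg
      (fun f hf => hJ1 k (mem_filter.1 hf).2) fun _ _ _ => mul_nonneg hM (abs_nonneg _))
    rw [abs_mul]
    exact mul_le_mul_of_nonneg_right (hJ2 k hk' z f (mem_filter.1 hf).2) (abs_nonneg _)
  have k2 := sum_le_sum key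
  rw [sum_add_distrib, ← mul_sum _ _ M, sum_comm] at k2
  have k3 : ∑ e ∈ I, ∑ k ∈ range (2 ^ n), h * ∫ z, |m.vel S' (k * h) z e - m.vel S (k * h) z e|
      ∂m.rho (k * h) ≤ I.card * ((T + 1) * c) := by
    rw [← nsmul_eq_mul, ← sum_const]
    refine sum_le_sum fun e he => (m.sum_incr_le hT h1 e n hc0).trans ?_
    have := div_le_div_of_nonneg_right (hn3 e he) hc0.le
    rw [mul_div_cancel_right₀ _ hc0.ne'] at this
    linarith
  have k4 : M * (I.card * ((T + 1) * c)) ≤ η / 3 := by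
    have : 0 ≤ M * I.card * (T + 1) := by positivity
    rw [hc, ← mul_assoc, ← mul_assoc, mul_div_assoc', div_le_div_iff₀ (by positivity) (by norm_num)]
    nlinarith
  have k5 := mul_le_mul_of_nonneg_left k3 hM
  linarith

end Md

end Vale.Agent.P161
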