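import Vale.Agent.P161.Flow

/-! Comparison of the flows for nested observation sets. -/

namespace Vale.Agent.P161

open Finset MeasureTheory ProbabilityTheory Filter Topology
open scoped Classical

variable {Ω : Type*} [MeasurableSpace Ω] {E : Type*}

lemma integral_abs_le_sqrt {X : Type*} [MeasurableSpace X] (ν : Measure X)
    [IsProbabilityMeasure ν] {g : X → ℝ} (hg : BM g) :
    ∫ x, |g x| ∂ν ≤ √(∫ x, g x ^ 2 ∂ν) := by
  refine Real.le_sqrt_of_sq_le ?_
  have := cov_self_nonneg (μ := ν) (BM.const 0) hg.abs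
  simp only [cov, Et, Real.exp_zero, one_mul, integral_const, probReal_univ, smul_eq_mul,
    div_one, abs_mul_abs_self] at this
  simp only [pow_two]
  linarith

lemma BM.sum' {ι : Type*} (s : Finset ι) {φ : ι → Ω → ℝ} (h : ∀ i ∈ s, BM (φ i)) :
    BM (fun ω => ∑ i ∈ s, φ i ω) := by
  induction s using Finset.induction_on with
  | empty => simpa using BM.const 0
  | insert i s hi ih =>
    simpa only [sum_insert hi] using (h i (mem_insert_self _ _)).add
      (ih fun j hj => h j (mem_insert_of_mem hj))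

namespace Md

variable (m : Md Ω E) {S S' : Finset E} {T : ℝ}

/-- The adjoint vector after the `k`-th step. -/
noncomputable def A (S : Finset E) (T : ℝ) (a : E → ℝ) (n k : ℕ) (z : E → ℝ) : E → ℝ :=
  m.adj S (hh T n) a (2 ^ n - (k + 1)) (k + 1) (m.step S (hh T n) (k * hh T n) z)

lemma ub_vel {ι : Type*} {P : ι → Prop} {u : ι → ℝ} (hu : ∀ i, P i → 0 ≤ u i ∧ u i ≤ T)
    (e : E) : UB S P (fun i x => m.vel S (u i) x e) := by
  refine ⟨1 + 12 * |T|, fun i hi => ⟨m.measurable_vel S _ e, fun x =>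
    (m.abs_vel_le _ _ _ _).trans (by linarith [abs_nonneg T]), fun x y => ?_⟩⟩
  have := m.vel_lip (S := S) (hu i hi).1 y (x - y) e
  rw [add_sub_cancel] at this
  refine this.trans ?_
  have := mul_le_mul_of_nonneg_right ((hu i hi).2.trans (le_abs_self T)) (nS_nonneg S (x - y))
  have := nS_nonneg S (x - y)
  nlinarith

lemma qd_A (hT : 0 ≤ T) {a : E → ℝ} (ha : ∀ f, |a f| ≤ 1) {n k : ℕ} (hk : k ≤ 2 ^ n) :
    QD S (Real.exp (3 * CS S T * T)) (fun x => ∑ f ∈ S, a f * m.eul S (hh T n) (2 ^ n - k) k x f)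
      (m.adj S (hh T n) a (2 ^ n - k) k) :=
  (m.qd_adj (hh_nonneg hT n) ha _ _ (hh_mul_le hT (by omega))).mono
    (pow3_le_exp (CS_nonneg S T) (hh_nonneg hT n) (hh_mul_le hT (by omega)))

lemma ub_comp_eul (hT : 0 ≤ T) {ι : Type*} {P : ι → Prop} {G : ι → (E → ℝ) → ℝ} (hG : UB S P G)
    {n j k : ι → ℕ} (h : ∀ i, P i → k i + j i ≤ 2 ^ n i) :
    UB S P (fun i x => G i (m.eul S (hh T (n i)) (j i) (k i) x)) := by
  obtain ⟨K, hK⟩ := hG
  refine ⟨_, fun i hi => (hK i hi).comp (m.measurable_eul _ _ _ _) (L := Real.exp (CS S T * T))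
    (Real.one_le_exp (mul_nonneg (CS_nonneg S T) hT)) fun x y => ?_⟩
  exact (m.eul_lip (hh_nonneg hT _) _ _ (hh_mul_le hT (h i hi)) x y).trans
    (mul_le_mul_of_nonneg_right (pow_le_exp (CS_nonneg S T) (hh_nonneg hT _)
      (hh_mul_le hT (le_of_add_le_right (h i hi)))) (nS_nonneg _ _))

lemma ub_A (hT : 0 ≤ T) {a : E → ℝ} (ha : ∀ f, |a f| ≤ 1) {f : E} (hf : f ∈ S) :
    UB S (fun i : ℕ × ℕ => i.2 < 2 ^ i.1) (fun i z => m.A S T a i.1 i.2 z f) := by
  refine m.ub_comp_eul hT (G := fun (i : ℕ × ℕ) y =>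
    m.adj S (hh T i.1) a (2 ^ i.1 - (i.2 + 1)) (i.2 + 1) y f)
    ⟨6 * Real.exp (3 * CS S T * T), fun i hi => ?_⟩ (n := fun i : ℕ × ℕ => i.1) (j := fun _ => 1)
    (k := fun i : ℕ × ℕ => i.2) fun i hi => hi
  have h := m.qd_A (S := S) hT ha (show i.2 + 1 ≤ 2 ^ i.1 from hi)
  refine ⟨m.measurable_adj _ _ _ _ _ _, fun x => (h.bdD x f).trans (by linarith [h.nonneg]),
    fun x y => ?_⟩
  have := h.lipD y (x - y) hf
  rwa [add_sub_cancel] at this

theorem cmp (hT : 0 ≤ T) (hS : S ⊆ S') {a : E → ℝ} (ha : ∀ f, |a f| ≤ 1) {η : ℝ} (hη : 0 < η) :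
    ∀ᶠ n in atTop, ∫ ξ, |∑ f ∈ S, a f * (m.Xn S' T n ξ f - m.Xn S T n ξ f)| ∂gam E ≤
      ∑ k ∈ range (2 ^ n), hh T n * ∫ z, |∑ f ∈ S, m.A S T a n k z f *
        (m.vel S' (k * hh T n) z f - m.vel S (k * hh T n) z f)| ∂m.rho (k * hh T n) + η := by
  have hu : ∀ i : ℕ × ℕ, i.2 < 2 ^ i.1 → 0 ≤ i.2 * hh T i.1 ∧ i.2 * hh T i.1 ≤ T := fun i hi =>
    ⟨mul_nonneg (Nat.cast_nonneg _) (hh_nonneg hT _), hh_mul_le hT hi.le⟩
  obtain ⟨K, hK⟩ := (UB.sum S fun f hf => ((m.ub_A hT ha hf).subset hS).mul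
    ((m.ub_vel hu f).sub ((m.ub_vel hu f).subset hS))).abs
  obtain ⟨h0, h0p, h2⟩ := m.lip_transport S' T K (η := η / (2 * (T + 1))) (by positivity)
  set L := Real.exp (3 * CS S T * T) * (S.card * 2) ^ 2 with hL
  have hL0 : 0 ≤ L := by positivity
  filter_upwards [eventually_hh_le T h0p, eventually_hh_le T
    (h0 := η / (2 * (T * L + 1))) (by positivity)] with n hn hn'
  set h := hh T n with hdef
  have hh0 : 0 ≤ h := hh_nonneg hT n
  set G : ℕ → (E → ℝ) → ℝ := fun k z => |∑ f ∈ S, m.A S T a n k z f *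
    (m.vel S' (k * h) z f - m.vel S (k * h) z f)| with hG
  have hGb : ∀ k ∈ range (2 ^ n), BL S' K (G k) := fun k hk => hK (n, k) (mem_range.1 hk)
  have hGi : ∀ k ∈ range (2 ^ n), Integrable (fun ξ => G k (m.eul S' h k 0 ξ)) (gam E) :=
    fun k hk => ((hGb k hk).bm.comp (m.measurable_eul _ _ _ _)).int _
  have key : ∀ ξ, |∑ f ∈ S, a f * (m.Xn S' T n ξ f - m.Xn S T n ξ f)| ≤
      ∑ k ∈ range (2 ^ n), (h * G k (m.eul S' h k 0 ξ) + h * (h * L)) := by
    intro ξ
    have e1 := sum_range_sub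
      (fun k => ∑ f ∈ S, a f * m.eul S h (2 ^ n - k) k (m.eul S' h k 0 ξ) f) (2 ^ n)
    simp only [Nat.sub_self, Nat.sub_zero] at e1
    simp only [mul_sub, sum_sub_distrib]
    refine (le_of_eq (congrArg _ e1.symm)).trans ((abs_sum_le_sum_abs _ _).trans
      (sum_le_sum fun k hk => ?_))
    have hk' := mem_range.1 hk
    set z := m.eul S' h k 0 ξ with hz
    have r := (m.qd_A (S := S) hT ha (show k + 1 ≤ 2 ^ n from hk')).rem (m.step S h (k * h) z)
      (fun f => h * (m.vel S' (k * h) z f - m.vel S (k * h) z f))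
    have e2 : (m.step S h (k * h) z + fun f => h * (m.vel S' (k * h) z f - m.vel S (k * h) z f)) =
        m.eul S' h (k + 1) 0 ξ := by
      rw [eul_succ, zero_add]; ext f; simp only [step, Pi.add_apply, ← hz]; ring
    have e3 : m.eul S h (2 ^ n - k) k z = m.eul S h (2 ^ n - (k + 1)) (k + 1)
        (m.step S h (k * h) z) := by
      rw [show 2 ^ n - k = (2 ^ n - (k + 1)) + 1 by omega]; rfl
    rw [e2, ← hdef, ← e3] at r
    have b1 : nS S (fun f => h * (m.vel S' (k * h) z f - m.vel S (k * h) z f)) ≤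
        S.card * (h * 2) := nS_le_card fun f _ => by
      rw [abs_mul, abs_of_nonneg hh0]
      refine mul_le_mul_of_nonneg_left ((abs_sub _ _).trans ?_) hh0
      linarith [m.abs_vel_le S' (k * h) z f, m.abs_vel_le S (k * h) z f]
    have b2 := r.trans (mul_le_mul_of_nonneg_left (pow_le_pow_left₀ (nS_nonneg _ _) b1 2)
      (Real.exp_pos _).le)
    have e4 : h * G k z = |∑ f ∈ S, m.adj S h a (2 ^ n - (k + 1)) (k + 1) (m.step S h (k * h) z) f *
        (h * (m.vel S' (k * h) z f - m.vel S (k * h) z f))| := by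
      rw [hG, ← abs_of_nonneg hh0, ← abs_mul, mul_sum, abs_of_nonneg hh0]
      congr 1; exact sum_congr rfl fun f _ => by rw [A]; ring
    rw [e4]
    refine (le_of_eq (congrArg _ (add_sub_cancel _ _).symm)).trans ((abs_add_le _ _).trans
      (add_le_add le_rfl ?_))
    rw [hL]; exact b2.trans (le_of_eq (by ring))
  have i1 : ∀ k ∈ range (2 ^ n), Integrable
      (fun ξ => h * G k (m.eul S' h k 0 ξ) + h * (h * L)) (gam E) :=
    fun k hk => ((hGi k hk).const_mul h).add (integrable_const _)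
  refine (integral_mono_of_nonneg (ae_of_all _ fun _ => abs_nonneg _)
    (integrable_finsetSum _ i1) (ae_of_all _ key)).trans ?_
  rw [integral_finsetSum _ i1]
  calc _ ≤ ∑ k ∈ range (2 ^ n), (h * ∫ z, G k z ∂m.rho (k * h) +
        h * (η / (2 * (T + 1)) + h * L)) := sum_le_sum fun k hk => by
        rw [integral_add ((hGi k hk).const_mul h) (integrable_const _), integral_const_mul]
        have := (abs_le.1 (h2 h hh0 hn k (hh_mul_le hT (mem_range.1 hk).le) _ (hGb k hk))).2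
        have := mul_le_mul_of_nonneg_left this hh0
        simp only [integral_const, probReal_univ, one_smul]
        linarith
    _ ≤ _ := by
        rw [sum_add_distrib, sum_const, card_range, nsmul_eq_mul, ← mul_assoc, hdef, hh_mul]
        refine add_le_add le_rfl ?_
        have c1 : T * (η / (2 * (T + 1))) ≤ η / 2 := by
          rw [mul_div_assoc', div_le_div_iff₀ (by positivity) (by norm_num)]; nlinarith
        have c2 : T * L * (η / (2 * (T * L + 1))) ≤ η / 2 := by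
          have := mul_nonneg hT hL0
          rw [mul_div_assoc', div_le_div_iff₀ (by positivity) (by norm_num)]; nlinarith
        have c3 := mul_le_mul_of_nonneg_left hn' (mul_nonneg hT hL0)
        nlinarith

/-- The posterior variance of `⟨a, s⟩`. -/
noncomputable def Qf (S : Finset E) (u : ℝ) (x a : E → ℝ) : ℝ :=
  ∑ e ∈ S, a e * ∑ f ∈ S, a f * m.cv S u x f e

lemma Qf_eq (u : ℝ) (x a : E → ℝ) : m.Qf S u x a = cov m.μ (m.lw S u x)
    (fun ω => ∑ f ∈ S, a f * m.s f ω) (fun ω => ∑ f ∈ S, a f * m.s f ω) := by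
  rw [cov_sum_right S (m.bm_lw S u x) (by fun_prop) m.bm]
  refine sum_congr rfl fun e _ => ?_
  rw [cov_comm, cov_sum_right S (m.bm_lw S u x) (m.bm e) m.bm]
  simp only [cv, cov_comm (m.s e)]

lemma bm_vel (S : Finset E) (u : ℝ) (e : E) : BM fun x => m.vel S u x e :=
  BM.of (m.measurable_vel S u e) fun x => m.abs_vel_le S u x e

lemma dep_vel (u : ℝ) (e : E) : DependsOn (fun x => m.vel S u x e) S := fun x y h => by
  simp only [vel, m.lw_congr u h]

lemma jensen (hS : S ⊆ S') (u : ℝ) {a : (E → ℝ) → E → ℝ} (ha : ∀ f ∈ S, BM fun x => a x f)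
    (hd : ∀ f ∈ S, DependsOn (fun x => a x f) S) :
    ∫ z, |∑ f ∈ S, a z f * (m.vel S' u z f - m.vel S u z f)| ∂m.rho u ≤
      √(∫ z, m.Qf S u z (a z) ∂m.rho u) := by
  set Ψ : Ω → (E → ℝ) → ℝ := fun ω z =>
    (∑ f ∈ S, a z f * m.s f ω - ∑ f ∈ S, a z f * m.vel S u z f) ^ 2 with hΨ
  have b1 : BM fun p : Ω × (E → ℝ) => Ψ p.1 p.2 :=
    ((BM.sum' S fun f hf => ((ha f hf).comp measurable_snd).mul ((m.bm f).comp measurable_fst)).sub
      (BM.sum' S fun f hf => ((ha f hf).mul (m.bm_vel S u f)).comp measurable_snd)).sq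
  have d1 : ∀ ω, DependsOn (Ψ ω) S := fun ω x y h => by
    have : ∀ f ∈ S, a x f = a y f := fun f hf => hd f hf h
    have h' : ∀ f, m.vel S u x f = m.vel S u y f := fun f => m.dep_vel u f h
    simp only [hΨ, h']
    congr 2 <;> exact sum_congr rfl fun f hf => by rw [this f hf]
  have e0 : ∀ (R : Finset E) z, Et m.μ (m.lw R u z) (fun ω => ∑ f ∈ S, a z f * m.s f ω) =
      ∑ f ∈ S, a z f * m.vel R u z f := fun R z => by
    rw [Et_sum S (m.bm_lw R u z) (by fun_prop)]
    simp only [Et_mul', vel]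
  have e1 : ∀ z, Et m.μ (m.lw S u z) (fun ω => Ψ ω z) = m.Qf S u z (a z) := fun z => by
    rw [Qf_eq, ← Et_sq_sub (m.bm_lw S u z) (by fun_prop), e0]
  have b2 : BM fun z => ∑ f ∈ S, a z f * (m.vel S' u z f - m.vel S u z f) :=
    BM.sum' S fun f hf => (ha f hf).mul ((m.bm_vel S' u f).sub (m.bm_vel S u f))
  refine (integral_abs_le_sqrt _ b2).trans (Real.sqrt_le_sqrt ?_)
  simp only [← e1]
  rw [← m.bayes u b1 d1, m.bayes (S := S') u b1 fun ω => (d1 ω).mono hS]
  refine integral_mono (b2.sq.int _) ((m.bm_Et S' u b1).int _) fun z => ?_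
  have := cov_self_nonneg (μ := m.μ) (m.bm_lw S' u z) (φ := fun ω =>
    ∑ f ∈ S, a z f * m.s f ω - ∑ f ∈ S, a z f * m.vel S u z f) (by fun_prop)
  rw [cov, Et_sub (m.bm_lw S' u z) (by fun_prop) (by fun_prop), Et_const (m.bm_lw S' u z), e0,
    ← sum_sub_distrib] at this
  simp only [hΨ, pow_two, mul_sub] at this ⊢
  linarith

lemma incr (hS : S ⊆ S') (u : ℝ) (e : E) :
    ∫ z, (m.vel S' u z e - m.vel S u z e) ^ 2 ∂m.rho u =
      ∫ z, m.vel S' u z e ^ 2 ∂m.rho u - ∫ z, m.vel S u z e ^ 2 ∂m.rho u := by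
  have b := m.bm_vel S u e
  have b' := m.bm_vel S' u e
  have b1 : BM fun p : Ω × (E → ℝ) => m.vel S u p.2 e * m.s e p.1 :=
    (b.comp measurable_snd).mul ((m.bm e).comp measurable_fst)
  have d1 : ∀ ω, DependsOn (fun z => m.vel S u z e * m.s e ω) S := fun ω x y h => by
    simp only [m.dep_vel u e h]
  have h1 := (m.bayes (Ψ := fun ω z => m.vel S u z e * m.s e ω) u b1 d1).symm.trans
    (m.bayes (S := S') (Ψ := fun ω z => m.vel S u z e * m.s e ω) u b1 fun ω => (d1 ω).mono hS)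
  simp only [Et_mul'] at h1
  have e1 : ∀ z, (m.vel S' u z e - m.vel S u z e) ^ 2 = (m.vel S' u z e ^ 2 - m.vel S u z e ^ 2) +
      2 * (m.vel S u z e * m.vel S u z e - m.vel S u z e * m.vel S' u z e) := fun z => by ring
  simp only [e1]
  rw [integral_add ((b'.sq.sub b.sq).int _) (((b.mul b).sub (b.mul b')).int _ |>.const_mul 2),
    integral_const_mul, integral_sub ((b.mul b).int _) ((b.mul b').int _),
    integral_sub (b'.sq.int _) (b.sq.int _)]
  unfold vel at h1 ⊢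
  rw [h1]; ring

end Md

end Vale.Agent.P161
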