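import Vale.Agent.P161.MomC
import Vale.Agent.P161.Compare

/-! Tree averages: pointwise bounds, locality and descent of expectations. -/

namespace Vale.Agent.P161

open Finset MeasureTheory ProbabilityTheory Function
open scoped Classical

variable {V : Type} {D : ℕ}

/-- Bounded measurable functions of the coordinates in `A`. -/
def Loc (A : Finset (Sym2 V)) (H : (Sym2 V → ℝ) → ℝ) : Prop := BM H ∧ DependsOn H A

namespace Loc

variable {A B : Finset (Sym2 V)} {H H' : (Sym2 V → ℝ) → ℝ}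

lemma mono (h : Loc A H) (hA : A ⊆ B) : Loc B H := ⟨h.1, h.2.mono hA⟩

lemma const (A : Finset (Sym2 V)) (c : ℝ) : Loc A fun _ => c := ⟨BM.const c, fun _ _ _ => rfl⟩

lemma add (h : Loc A H) (h' : Loc A H') : Loc A fun x => H x + H' x :=
  ⟨h.1.add h'.1, fun _ _ e => by simp only [h.2 e, h'.2 e]⟩

lemma sub (h : Loc A H) (h' : Loc A H') : Loc A fun x => H x - H' x :=
  ⟨h.1.sub h'.1, fun _ _ e => by simp only [h.2 e, h'.2 e]⟩

lemma mul (h : Loc A H) (h' : Loc A H') : Loc A fun x => H x * H' x :=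
  ⟨h.1.mul h'.1, fun _ _ e => by simp only [h.2 e, h'.2 e]⟩

lemma exp (h : Loc A H) : Loc A fun x => Real.exp (H x) :=
  ⟨h.1.exp, fun _ _ e => by simp only [h.2 e]⟩

lemma sum {ι : Type*} (s : Finset ι) {F : ι → (Sym2 V → ℝ) → ℝ} (h : ∀ i ∈ s, Loc A (F i)) :
    Loc A fun x => ∑ i ∈ s, F i x :=
  ⟨BM.sum' s fun i hi => (h i hi).1, fun _ _ e => sum_congr rfl fun i hi => (h i hi).2 e⟩

end Loc

lemma om_sq_le (u y : ℝ) : om u y ^ 2 ≤ u ^ 2 * y ^ 2 := by
  have key : ∀ z : ℝ, 0 ≤ z → 0 ≤ Real.tanh z ∧ Real.tanh z ≤ 2 * z := by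
    intro z hz
    have h1 := Real.cosh_pos z
    rw [Real.tanh_eq_sinh_div_cosh, div_le_iff₀ h1]
    refine ⟨div_nonneg (Real.sinh_nonneg_iff.2 hz) h1.le, ?_⟩
    have h2 := Real.add_one_le_exp (-(2 * z))
    have h3 : Real.exp (-z) = Real.exp z * Real.exp (-(2 * z)) := by
      rw [← Real.exp_add]; congr 1; ring
    have h4 := Real.exp_pos z
    have h5 := mul_nonneg hz (Real.exp_pos (-z)).le
    have h6 := mul_le_mul_of_nonneg_left h2 h4.le
    rw [Real.sinh_eq, Real.cosh_eq]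
    nlinarith
  rw [om, ← mul_pow]
  rcases le_total 0 (u * y) with h | h
  · obtain ⟨h1, h2⟩ := key (u * y / 2) (by linarith)
    exact pow_le_pow_left₀ h1 (by linarith) 2
  · obtain ⟨h1, h2⟩ := key (-(u * y / 2)) (by linarith)
    rw [← neg_sq, ← Real.tanh_neg, ← neg_sq (u * y)]
    exact pow_le_pow_left₀ h1 (by linarith) 2

namespace RT

variable (t : RT V D) (θ u : ℝ)

/-- Averages of path sums. -/
noncomputable def Sg (f : V → ℝ) : ℕ → V → ℝ
  | 0, _ => 0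
  | j + 1, w => ∑ c ∈ t.ch w, θ ^ 2 * (f c + Sg f j c)

lemma Y_succ (x : Sym2 V → ℝ) (R j : ℕ) (w : V) : t.Y θ u x R (j + 1) w =
    ∑ c ∈ t.ch w, θ ^ 2 * (1 - t.gg θ u x (R - t.lev c) c) * t.Y θ u x R j c := by
  rw [Y, iterate_succ_apply']; rfl

lemma Yb_succ (x : Sym2 V → ℝ) (R i j : ℕ) (w : V) : t.Yb θ u x R (i + 1) j w =
    ∑ c ∈ t.ch w, θ ^ 2 * t.Yb θ u x R i j c := by
  rw [Yb, iterate_succ_apply']; rfl

lemma gg_mem (x : Sym2 V → ℝ) (n : ℕ) (c : V) :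
    0 ≤ t.gg θ u x n c ∧ t.gg θ u x n c ≤ 1 :=
  ⟨le_max_left _ _, max_le zero_le_one ((min_le_left _ _).trans (by norm_num))⟩

lemma ne_o {p c : V} (h : c ∈ t.ch p) : c ≠ t.o := ((t.mem_ch _ _).1 h).1

variable {θ}

lemma avg_le (hθ : θ ^ 2 * D = 1) {w : V} (hw : w ≠ t.o) {F : V → ℝ} {a : ℝ}
    (h : ∀ c ∈ t.ch w, F c ≤ a) : ∑ c ∈ t.ch w, θ ^ 2 * F c ≤ a := by
  refine (sum_le_sum fun c hc => mul_le_mul_of_nonneg_left (h c hc) (sq_nonneg θ)).trans_eq ?_
  rw [sum_const, t.card_ch w hw, nsmul_eq_mul, ← mul_assoc, mul_comm (D : ℝ), hθ, one_mul]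

lemma Y_mem (hθ : θ ^ 2 * D = 1) (x : Sym2 V → ℝ) (R j : ℕ) {w : V} (hw : w ≠ t.o) :
    0 ≤ t.Y θ u x R j w ∧ t.Y θ u x R j w ≤ 1 := by
  induction j generalizing w with
  | zero => simp [Y]
  | succ j ih =>
    rw [Y_succ]
    refine ⟨sum_nonneg fun c hc => mul_nonneg (mul_nonneg (sq_nonneg θ)
      (sub_nonneg.2 (t.gg_mem θ u x _ c).2)) (ih (t.ne_o hc)).1, ?_⟩
    simp only [mul_assoc]
    exact t.avg_le hθ hw fun c hc => mul_le_one₀ (by linarith [(t.gg_mem θ u x (R - t.lev c) c).1])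
      (ih (t.ne_o hc)).1 (ih (t.ne_o hc)).2

lemma Sg_nonneg {f : V → ℝ} (hf : ∀ c, 0 ≤ f c) (j : ℕ) (w : V) : 0 ≤ t.Sg θ f j w := by
  induction j generalizing w with
  | zero => exact le_rfl
  | succ j ih => exact sum_nonneg fun c _ => mul_nonneg (sq_nonneg θ) (add_nonneg (hf c) (ih c))

lemma Sg_lin (g : V → ℝ) (L : ℝ) (j : ℕ) (w : V) : t.Sg θ (fun c => L * (g c * g c) - g c) j w =
    L * t.Sg θ (fun c => g c * g c) j w - t.Sg θ g j w := by
  induction j generalizing w with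
  | zero => simp [Sg]
  | succ j ih =>
    simp only [Sg, ih, mul_sum, ← sum_sub_distrib]
    exact sum_congr rfl fun c _ => by ring

lemma Sg_amgm (hθ : θ ^ 2 * D = 1) (g : V → ℝ) (a : ℝ) (j : ℕ) {w : V} (hw : w ≠ t.o) :
    2 * a * t.Sg θ g j w - t.Sg θ (fun c => g c * g c) j w ≤ j * a ^ 2 := by
  induction j generalizing w with
  | zero => simp [Sg]
  | succ j ih =>
    have := t.avg_le hθ hw (F := fun c => 2 * a * (g c + t.Sg θ g j c) -
      (g c * g c + t.Sg θ (fun c => g c * g c) j c)) (a := (j + 1 : ℕ) * a ^ 2) fun c hc => by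
        have := ih (t.ne_o hc)
        push_cast
        nlinarith [sq_nonneg (a - g c)]
    refine le_of_eq_of_le ?_ this
    simp only [Sg, mul_sum, ← sum_sub_distrib]
    exact sum_congr rfl fun c _ => by ring

lemma Y_le (hθ : θ ^ 2 * D = 1) (x : Sym2 V → ℝ) (R j : ℕ) {w : V} (hw : w ≠ t.o) :
    t.Y θ u x R j w ≤ 1 + t.Sg θ (fun c => j * (t.gg θ u x (R - t.lev c) c *
      t.gg θ u x (R - t.lev c) c) - t.gg θ u x (R - t.lev c) c) j w := by
  rw [Sg_lin]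
  induction j generalizing w with
  | zero => simp [Y, Sg]
  | succ j ih =>
    obtain ⟨g, hg⟩ : ∃ g : V → ℝ, g = fun c => t.gg θ u x (R - t.lev c) c := ⟨_, rfl⟩
    have hg' : ∀ c, t.gg θ u x (R - t.lev c) c = g c := fun c => by rw [hg]
    have g0 : ∀ c, 0 ≤ g c ∧ g c ≤ 1 := fun c => hg' c ▸ t.gg_mem θ u x _ c
    simp only [hg'] at ih
    simp only [Y_succ, hg']
    have := t.avg_le hθ hw (F := fun c => (1 - g c) * t.Y θ u x R j c -
      ((j + 1 : ℕ) * (g c * g c + t.Sg θ (fun c => g c * g c) j c) - (g c + t.Sg θ g j c)))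
      (a := 1) fun c hc => by
        have a1 := mul_le_mul_of_nonneg_left (ih (t.ne_o hc)) (sub_nonneg.2 (g0 c).2)
        have a2 := t.Sg_amgm hθ g (g c) j (t.ne_o hc)
        have a3 := t.Sg_nonneg (θ := θ) (f := fun c => g c * g c) (fun c => mul_self_nonneg _) j c
        have a4 : 0 ≤ g c * (j * t.Sg θ (fun c => g c * g c) j c) :=
          mul_nonneg (g0 c).1 (by positivity)
        have a5 : 0 ≤ j * (g c * g c) := mul_nonneg (Nat.cast_nonneg _) (mul_self_nonneg _)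
        push_cast
        nlinarith [mul_self_nonneg (g c)]
    rw [← sub_le_iff_le_add]
    refine le_of_eq_of_le ?_ this
    simp only [Sg, mul_sum, ← sum_sub_distrib]
    exact sum_congr rfl fun c _ => by ring

lemma sub_lev {p c : V} (h : c ∈ t.ch p) {R : ℕ} (hR : t.lev p + 1 ≤ R) :
    R - t.lev p = R - t.lev c + 1 := by have := t.lev_ch h; omega

lemma Sp_subset_Sb (n : ℕ) (c : V) : t.Sp n c ⊆ t.Sb n c := subset_insert _ _

lemma loc_gg (h0 : 0 ≤ θ) (h1 : θ < 1) (n : ℕ) (c : V) :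
    Loc (t.Sb n c) fun x => t.gg θ u x n c := by
  have g := t.gp_Zp h0 h1 u n c
  have m1 : Measurable fun x => t.mg θ u x n c := g.bm_mag.1
  have m2 : Measurable fun x : Sym2 V → ℝ => om u (x (t.ed c)) := by
    simp only [om, Real.tanh_eq_sinh_div_cosh]; fun_prop
  refine ⟨BM.of (by unfold gg; fun_prop) (c := 1) fun x => ?_, fun x y e => ?_⟩
  · rw [abs_of_nonneg (t.gg_mem θ u x n c).1]; exact (t.gg_mem θ u x n c).2
  · have e1 : t.mg θ u x n c = t.mg θ u y n c :=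
      congrArg mag (g.dep_eq fun a ha => e a (t.Sp_subset_Sb n c ha))
    simp only [gg, e1, e (t.ed c) (mem_insert_self _ _)]

lemma loc_Y (h0 : 0 ≤ θ) (h1 : θ < 1) (R j : ℕ) {w : V} (hw : t.lev w + j ≤ R) :
    Loc (t.Sp (R - t.lev w) w) fun x => t.Y θ u x R j w := by
  induction j generalizing w with
  | zero => exact Loc.const _ 1
  | succ j ih =>
    simp only [Y_succ]
    refine Loc.sum _ fun c hc => ?_
    rw [t.sub_lev hc (by omega)]
    exact (((Loc.const _ _).mul ((Loc.const _ _).sub (t.loc_gg u h0 h1 _ c))).mul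
      ((ih (by have := t.lev_ch hc; omega)).mono (t.Sp_subset_Sb _ c))).mono (t.Sb_subset hc _)

lemma loc_Yb (h0 : 0 ≤ θ) (h1 : θ < 1) (R i j : ℕ) {w : V} (hw : t.lev w + i + j ≤ R) :
    Loc (t.Sp (R - t.lev w) w) fun x => t.Yb θ u x R i j w := by
  induction i generalizing w with
  | zero => exact t.loc_Y u h0 h1 R j hw
  | succ i ih =>
    simp only [Yb_succ]
    refine Loc.sum _ fun c hc => ?_
    rw [t.sub_lev hc (by omega)]
    exact ((Loc.const _ _).mul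
      ((ih (by have := t.lev_ch hc; omega)).mono (t.Sp_subset_Sb _ c))).mono (t.Sb_subset hc _)

lemma loc_Sg {R : ℕ} {f : (Sym2 V → ℝ) → V → ℝ}
    (hf : ∀ c, Loc (t.Sb (R - t.lev c) c) fun x => f x c) (j : ℕ) {w : V} (hw : t.lev w + j ≤ R) :
    Loc (t.Sp (R - t.lev w) w) fun x => t.Sg θ (f x) j w := by
  induction j generalizing w with
  | zero => exact Loc.const _ 0
  | succ j ih =>
    simp only [Sg]
    refine Loc.sum _ fun c hc => ?_
    rw [t.sub_lev hc (by omega)]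
    exact ((Loc.const _ _).mul ((hf c).add
      ((ih (by have := t.lev_ch hc; omega)).mono (t.Sp_subset_Sb _ c)))).mono (t.Sb_subset hc _)

lemma prod_desc (n : ℕ) (p : V) (τ : Bool) {H : V → (Sym2 V → ℝ) → ℝ}
    (hH : ∀ c ∈ t.ch p, Loc (t.Sb n c) (H c)) :
    ∫ x, t.Zp θ u x (n + 1) p τ * ∏ c ∈ t.ch p, H c x ∂gam (Sym2 V) =
      ∏ c ∈ t.ch p, ∫ x, t.zb θ u x n c τ * H c x ∂gam (Sym2 V) := by
  simp only [Zp_succ, ← prod_mul_distrib]
  exact (gam_prod (t.ch p) (A := t.Sb n) (f := fun c x => t.zb θ u x n c τ * H c x)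
    (fun a ha b hb hab => t.disjoint_Sb ha hb hab n)
    (fun c hc => (t.measurable_zb θ u n c τ).mul (hH c hc).1.1)
    fun c hc x y e => by simp only [t.dep_zb θ u n c τ e, (hH c hc).2 e]).1

lemma gp_zb (h0 : 0 ≤ θ) (h1 : θ < 1) (n : ℕ) {c : V} (hc : c ≠ t.o) :
    GP (t.Sb n c) fun x => t.zb θ u x n c :=
  (t.gp_Zp h0 h1 u n c).br (t.ed_notMem hc n) h0 h1 u

lemma one_desc (h0 : 0 ≤ θ) (h1 : θ < 1) (n : ℕ) {p c : V} (hc : c ∈ t.ch p) (τ : Bool)
    {H : (Sym2 V → ℝ) → ℝ} (hH : Loc (t.Sb n c) H) :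
    ∫ x, t.Zp θ u x (n + 1) p τ * H x ∂gam (Sym2 V) =
      ∫ x, t.zb θ u x n c τ * H x ∂gam (Sym2 V) := by
  have := t.prod_desc (θ := θ) u n p τ (H := fun a x => if a = c then H x else 1) fun a _ => by
    split_ifs with h
    exacts [h ▸ hH, Loc.const _ 1]
  simp only [prod_ite_eq', hc, if_true] at this
  rw [this, prod_eq_single c (fun a ha hne => by
    simpa [hne] using (t.gp_zb u h0 h1 n (t.ne_o ha)).one τ) (fun h => absurd hc h)]
  simp

lemma branch_le (h0 : 0 ≤ θ) (h1 : θ < 1) (n : ℕ) {c : V} (hc : c ≠ t.o) (τ : Bool)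
    {H : (Sym2 V → ℝ) → ℝ} (hH : Loc (t.Sp n c) H) {κ : ℝ}
    (h : ∀ σ, ∫ x, t.Zp θ u x n c σ * H x ∂gam (Sym2 V) ≤ κ) :
    ∫ x, t.zb θ u x n c τ * H x ∂gam (Sym2 V) ≤ κ := by
  have := ((t.gp_Zp h0 h1 u n c).hi_br0 (t.ed_notMem hc n) θ u τ hH.1 hH.2).2
  refine this.trans_le ?_
  have a := h true
  have b := h false
  rw [Fintype.sum_bool]
  cases τ <;> simp only [sgn, if_true, Bool.false_eq_true, if_false] <;> nlinarith

lemma integral_Sg (h0 : 0 ≤ θ) (h1 : θ < 1) (hθ : θ ^ 2 * D = 1) {R t₀ : ℕ}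
    {f : (Sym2 V → ℝ) → V → ℝ} (hf : ∀ c, Loc (t.Sb (R - t.lev c) c) fun x => f x c) {κ : ℝ}
    (hκ : ∀ c, c ≠ t.o → t.lev c + t₀ ≤ R → ∀ τ,
      ∫ x, t.zb θ u x (R - t.lev c) c τ * f x c ∂gam (Sym2 V) ≤ κ)
    (j : ℕ) {w : V} (hw : w ≠ t.o) (hl : t.lev w + j + t₀ ≤ R) (τ : Bool) :
    ∫ x, t.Zp θ u x (R - t.lev w) w τ * t.Sg θ (f x) j w ∂gam (Sym2 V) ≤ j * κ := by
  induction j generalizing w τ with
  | zero => simp [Sg]
  | succ j ih =>
    have hS : ∀ c ∈ t.ch w, Loc (t.Sp (R - t.lev c) c) fun x => t.Sg θ (f x) j c :=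
      fun c hc => t.loc_Sg hf j (by have := t.lev_ch hc; omega)
    have e : ∀ x, t.Zp θ u x (R - t.lev w) w τ * t.Sg θ (f x) (j + 1) w = ∑ c ∈ t.ch w,
        θ ^ 2 * (t.Zp θ u x (R - t.lev w) w τ * (f x c + t.Sg θ (f x) j c)) := fun x => by
      rw [Sg, mul_sum]; exact sum_congr rfl fun c _ => by ring
    simp only [e]
    rw [integral_finsetSum _ fun c hc => (((hf c).1.add (hS c hc).1).int_mul
      (t.integral_Zp θ u _ w τ).1).const_mul _]
    simp only [integral_const_mul]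
    refine t.avg_le hθ hw fun c hc => ?_
    have hl' := t.lev_ch hc
    have iz := (t.gp_zb u h0 h1 (R - t.lev c) (t.ne_o hc)).int τ
    rw [t.sub_lev hc (by omega), t.one_desc u h0 h1 _ hc τ
      ((hf c).add ((hS c hc).mono (t.Sp_subset_Sb _ c)))]
    simp only [mul_add]
    rw [integral_add ((hf c).1.int_mul iz) ((hS c hc).1.int_mul iz)]
    have a1 := hκ c (t.ne_o hc) (by omega) τ
    have a2 := t.branch_le u h0 h1 _ (t.ne_o hc) τ (hS c hc) fun σ => ih (t.ne_o hc) (by omega) σ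
    push_cast
    linarith

lemma chernoff (h0 : 0 ≤ θ) (h1 : θ < 1) (hθ : θ ^ 2 * D = 1) {R j t₀ : ℕ} {l K : ℝ}
    (hK : ∀ w, w ≠ t.o → t.lev w + j + t₀ ≤ R → ∀ τ, ∫ x, t.Zp θ u x (R - t.lev w) w τ *
      Real.exp (l * t.Y θ u x R j w) ∂gam (Sym2 V) ≤ Real.exp K)
    (i : ℕ) {w : V} (hw : w ≠ t.o) (hl : t.lev w + i + j + t₀ ≤ R) (τ : Bool) :
    ∫ x, t.Zp θ u x (R - t.lev w) w τ * Real.exp (D ^ i * l * t.Yb θ u x R i j w) ∂gam (Sym2 V) ≤
      Real.exp (D ^ i * K) := by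
  induction i generalizing w τ with
  | zero => simpa [Yb] using hK w hw hl τ
  | succ i ih =>
    have e : ∀ x, Real.exp (D ^ (i + 1) * l * t.Yb θ u x R (i + 1) j w) =
        ∏ c ∈ t.ch w, Real.exp (D ^ i * l * t.Yb θ u x R i j c) := fun x => by
      rw [← Real.exp_sum, Yb_succ, mul_sum]
      congr 1
      exact sum_congr rfl fun c _ => by
        linear_combination ((D : ℝ) ^ i * l * t.Yb θ u x R i j c) * hθ
    obtain ⟨n, hn⟩ : ∃ n, R - t.lev w = n + 1 := ⟨R - t.lev w - 1, by omega⟩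
    have hn' : ∀ c ∈ t.ch w, n = R - t.lev c := fun c hc => by have := t.lev_ch hc; omega
    have hL : ∀ c ∈ t.ch w,
        Loc (t.Sp n c) fun x => Real.exp (D ^ i * l * t.Yb θ u x R i j c) := fun c hc => by
      rw [hn' c hc]
      exact ((Loc.const _ _).mul (t.loc_Yb u h0 h1 R i j (by have := t.lev_ch hc; omega))).exp
    simp only [e]
    rw [hn, t.prod_desc u n w τ fun c hc => (hL c hc).mono (t.Sp_subset_Sb n c)]
    refine (prod_le_prod (g := fun _ => Real.exp (D ^ i * K)) (fun c _ => integral_nonneg fun x =>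
      mul_nonneg (t.zb_pos u x h0 h1 n c τ).le (Real.exp_pos _).le) fun c hc =>
      t.branch_le u h0 h1 n (t.ne_o hc) τ (hL c hc) fun σ => ?_).trans_eq ?_
    · rw [hn' c hc]
      exact ih (t.ne_o hc) (by have := t.lev_ch hc; omega) σ
    · rw [prod_const, t.card_ch w hw, ← Real.exp_nat_mul]
      congr 1; ring

end RT

end Vale.Agent.P161
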