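import Vale.Agent.P161.ChernA

/-! The block concentration bound. -/

namespace Vale.Agent.P161

open Finset MeasureTheory ProbabilityTheory Function
open scoped Classical

variable {V : Type} {D : ℕ}

lemma Xs_add_le {c s : ℝ} (hc : 0 ≤ c) (hs : 0 ≤ s) (k i : ℕ) :
    Xs c s (k + i) ≤ Xs c s k + i * s := by
  induction i with
  | zero => simp
  | succ i ih =>
    have h1 := Xs_nonneg hc hs (k + i)
    have h2 : Xs c s (k + i) / (1 + c * Xs c s (k + i)) ≤ Xs c s (k + i) :=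
      div_le_self h1 (le_add_of_nonneg_right (by positivity))
    rw [← add_assoc, Xs]; push_cast; linarith

lemma Xs_ge {c s : ℝ} (hc : 0 ≤ c) (hc1 : c ≤ 1) (hs : 0 ≤ s) (k : ℕ) (hk : k ^ 2 * s ≤ 1 / 2) :
    k * s / 2 ≤ Xs c s k := by
  induction k with
  | zero => simp [Xs]
  | succ k ih =>
    have hk' : (k : ℝ) ^ 2 * s ≤ 1 / 2 := by
      refine le_trans (mul_le_mul_of_nonneg_right ?_ hs) hk
      push_cast; nlinarith [Nat.cast_nonneg (α := ℝ) k]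
    have h1 := Xs_nonneg hc hs k
    have h2 := Xs_add_le hc hs 0 k
    simp only [zero_add, Xs] at h2
    have h3 : Xs c s k - Xs c s k ^ 2 ≤ Xs c s k / (1 + c * Xs c s k) := by
      rw [le_div_iff₀ (by positivity)]
      have := mul_le_of_le_one_left (sq_nonneg (Xs c s k)) hc1
      have : 0 ≤ c * Xs c s k ^ 3 := by positivity
      nlinarith
    have h4 := pow_le_pow_left₀ h1 h2 2
    have h5 := mul_le_mul_of_nonneg_right hk' hs
    have h6 := ih hk'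
    rw [Xs]; push_cast; nlinarith

lemma prod_yl {θ u : ℝ} (hc : 0 ≤ 1 - θ ^ 2) (R a b : ℕ) :
    1 - 2 * b * ((1 - θ ^ 2) * Xs (1 - θ ^ 2) (sq0 D u) (R - a)) ≤
      ∏ l ∈ Finset.Ioc a (a + b), yl D θ u R l ^ 2 := by
  obtain ⟨y, hy⟩ : ∃ y, y = (1 - θ ^ 2) * Xs (1 - θ ^ 2) (sq0 D u) (R - a) := ⟨_, rfl⟩
  have y0 : 0 ≤ y := hy ▸ mul_nonneg hc (Xs_nonneg hc (sq0_nonneg D u) _)
  have h1 : ∏ _l ∈ Finset.Ioc a (a + b), (1 / (1 + y)) ^ 2 ≤
      ∏ l ∈ Finset.Ioc a (a + b), yl D θ u R l ^ 2 := by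
    refine prod_le_prod (fun _ _ => by positivity) fun l hl => ?_
    refine pow_le_pow_left₀ (by positivity) ?_ 2
    have h2 := mul_nonneg hc (Xs_nonneg hc (sq0_nonneg D u) (R + 1 - l))
    have h3 := mul_le_mul_of_nonneg_left (Xs_mono hc (sq0_nonneg D u)
      (show R + 1 - l ≤ R - a by have := (mem_Ioc.1 hl).1; omega)) hc
    exact one_div_le_one_div_of_le (by positivity) (by rw [hy]; linarith)
  rw [prod_const, Nat.card_Ioc, Nat.add_sub_cancel_left, ← pow_mul] at h1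
  have h2 : 0 ≤ 1 / (1 + y) := by positivity
  have h3 := one_add_mul_le_pow (a := 1 / (1 + y) - 1) (by linarith) (2 * b)
  have h4 : -y ≤ 1 / (1 + y) - 1 := by
    rw [le_sub_iff_add_le, le_div_iff₀ (by positivity)]; nlinarith
  have h5 := mul_le_mul_of_nonneg_left h4 (Nat.cast_nonneg (α := ℝ) (2 * b))
  rw [add_sub_cancel] at h3
  rw [← hy]
  push_cast at h3 h5
  linarith

lemma gain_le {c m w L : ℝ} (c0 : 0 ≤ c) (c1 : c ≤ 1) (hL : 0 ≤ L) {g : ℝ}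
    (hg : g = max 0 (min (1 / 100) (2 * c * (39 / 40 * m ^ 2 - 160 * w ^ 2) - c ^ 2 * m ^ 4))) :
    L * (g * g) - g ≤ (101 + 4 * L) * m ^ 4 + 320 * w ^ 2 - 39 / 20 * c * m ^ 2 := by
  obtain ⟨B, hB⟩ : ∃ B, B = 2 * c * (39 / 40 * m ^ 2 - 160 * w ^ 2) - c ^ 2 * m ^ 4 := ⟨_, rfl⟩
  rw [← hB] at hg
  have a1 : c * m ^ 2 ≤ m ^ 2 := mul_le_of_le_one_left (sq_nonneg m) c1
  have a2 : c * w ^ 2 ≤ w ^ 2 := mul_le_of_le_one_left (sq_nonneg w) c1
  have a3 : c ^ 2 * m ^ 4 ≤ m ^ 4 := mul_le_of_le_one_left (by positivity) (pow_le_one₀ c0 c1)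
  have a4 : 0 ≤ c * w ^ 2 := by positivity
  have a5 : 0 ≤ c ^ 2 * m ^ 4 := by positivity
  have b1 : B ≤ 2 * m ^ 2 := by rw [hB]; nlinarith [sq_nonneg m]
  have b2 : 39 / 20 * c * m ^ 2 - 320 * w ^ 2 - m ^ 4 ≤ B := by rw [hB]; linarith
  have g0 : 0 ≤ g := hg ▸ le_max_left _ _
  have g1 : g ≤ 2 * m ^ 2 := hg ▸ max_le (by positivity) ((min_le_right _ _).trans b1)
  have g2 : g * g ≤ 4 * m ^ 4 := by nlinarith
  have g3 : B - 100 * m ^ 4 ≤ g := by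
    rw [hg]
    refine le_max_of_le_right (le_min ?_ (by nlinarith [sq_nonneg (m ^ 2)]))
    rcases le_total B 0 with h | h
    · nlinarith [sq_nonneg (m ^ 2)]
    · nlinarith [sq_nonneg (5 * B - 1 / 10), mul_le_mul b1 b1 h (by positivity)]
  have := mul_le_mul_of_nonneg_left g2 hL
  linarith

namespace RT

variable (t : RT V D) {θ : ℝ} (u : ℝ)

lemma branch_gain (h0 : 0 ≤ θ) (h1 : θ < 1) (hu : u ^ 2 ≤ 1) {L : ℝ} (hL : 0 ≤ L) (n : ℕ) {c : V}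
    (hc : c ≠ t.o) (τ : Bool) :
    ∫ x, t.zb θ u x n c τ * (L * (t.gg θ u x n c * t.gg θ u x n c) - t.gg θ u x n c)
      ∂gam (Sym2 V) ≤ (101 + 4 * L) * t.mom θ u 4 n c + 640 * u ^ 2 -
        39 / 20 * (1 - θ ^ 2) * t.mom θ u 2 n c := by
  have g := t.gp_Zp h0 h1 u n c
  have he := t.ed_notMem hc n
  have lg := (t.loc_gg u h0 h1 n c).1
  have k := (((g.br_even he θ u τ (k := 4) (by decide)).cmul (101 + 4 * L)).add
    ((g.br_yy he θ u τ).cmul (320 * u ^ 2))).sub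
    ((g.br_even he θ u τ even_two).cmul (39 / 20 * (1 - θ ^ 2)))
  have := HI.mono ⟨(((BM.const L).mul (lg.mul lg)).sub lg).int_mul
    ((t.gp_zb u h0 h1 n hc).int τ), rfl⟩ k fun x => by
      have a1 := gain_le (c := 1 - θ ^ 2) (by nlinarith) (by linarith [sq_nonneg θ]) hL
        (g := t.gg θ u x n c) rfl
      have a2 := om_sq_le u (x (t.ed c))
      have a3 := mul_le_mul_of_nonneg_left (a1.trans (show _ ≤ (101 + 4 * L) * t.mg θ u x n c ^ 4 +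
        320 * (u ^ 2 * x (t.ed c) ^ 2) - 39 / 20 * (1 - θ ^ 2) * t.mg θ u x n c ^ 2 by linarith))
        (t.zb_pos u x h0 h1 n c τ).le
      refine a3.trans_eq ?_
      change _ = (101 + 4 * L) * (t.zb θ u x n c τ * t.mg θ u x n c ^ 4) +
        320 * u ^ 2 * (t.zb θ u x n c τ * x (t.ed c) ^ 2) -
        39 / 20 * (1 - θ ^ 2) * (t.zb θ u x n c τ * t.mg θ u x n c ^ 2)
      ring
  refine this.trans ?_
  change (101 + 4 * L) * t.mom θ u 4 n c + _ - 39 / 20 * (1 - θ ^ 2) * t.mom θ u 2 n c ≤ _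
  have a1 : u ^ 2 * θ ≤ 1 := mul_le_one₀ hu h0 h1.le
  have a2 : u ^ 2 * (1 + u ^ 2 * (1 + θ) / 2) ≤ u ^ 2 * 2 :=
    mul_le_mul_of_nonneg_left (by linarith) (sq_nonneg u)
  linarith

lemma exp_Y (h0 : 0 ≤ θ) (h1 : θ < 1) (hθ : θ ^ 2 * D = 1) {R j t₀ : ℕ} {κ l : ℝ} (l0 : 0 ≤ l)
    (l1 : l ≤ 1) (hκ : ∀ c, c ≠ t.o → t.lev c + t₀ ≤ R → ∀ τ,
      ∫ x, t.zb θ u x (R - t.lev c) c τ * (j * (t.gg θ u x (R - t.lev c) c *
        t.gg θ u x (R - t.lev c) c) - t.gg θ u x (R - t.lev c) c) ∂gam (Sym2 V) ≤ κ)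
    (w : V) (hw : w ≠ t.o) (hl : t.lev w + j + t₀ ≤ R) (τ : Bool) :
    ∫ x, t.Zp θ u x (R - t.lev w) w τ * Real.exp (l * t.Y θ u x R j w) ∂gam (Sym2 V) ≤
      Real.exp (l * (1 + j * κ) + l ^ 2) := by
  have hf : ∀ c, Loc (t.Sb (R - t.lev c) c) fun x => j * (t.gg θ u x (R - t.lev c) c *
      t.gg θ u x (R - t.lev c) c) - t.gg θ u x (R - t.lev c) c := fun c =>
    ((Loc.const _ _).mul ((t.loc_gg u h0 h1 _ c).mul (t.loc_gg u h0 h1 _ c))).sub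
      (t.loc_gg u h0 h1 _ c)
  have a1 := t.integral_Sg u h0 h1 hθ hf hκ j hw hl τ
  have iz := t.integral_Zp θ u (R - t.lev w) w τ
  have a2 := HI.mono ⟨((BM.const l).mul (t.loc_Y u h0 h1 R j (w := w) (by omega)).1).exp.int_mul
    iz.1, rfl⟩ ((HI.cmul (1 + l + l ^ 2) iz).add (HI.cmul l
      ⟨(t.loc_Sg (θ := θ) hf j (w := w) (by omega)).1.int_mul iz.1, rfl⟩)) fun x => by
      obtain ⟨y0, y1⟩ := t.Y_mem u hθ x R j hw
      have b1 := mul_le_mul_of_nonneg_left (t.Y_le u hθ x R j hw) l0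
      have b2 : l * t.Y θ u x R j w ≤ l := mul_le_of_le_one_right l0 y1
      have b3 : 0 ≤ l * t.Y θ u x R j w := by positivity
      have b4 := (abs_le.1 (Real.abs_exp_sub_one_sub_id_le (x := l * t.Y θ u x R j w)
        (by rw [abs_of_nonneg b3]; linarith))).2
      have b5 := pow_le_pow_left₀ b3 b2 2
      have b6 := mul_le_mul_of_nonneg_left (show Real.exp (l * t.Y θ u x R j w) ≤
        1 + l + l ^ 2 + l * t.Sg θ (fun c => j * (t.gg θ u x (R - t.lev c) c *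
          t.gg θ u x (R - t.lev c) c) - t.gg θ u x (R - t.lev c) c) j w by linarith)
        (t.Zp_pos u x h0 h1 (R - t.lev w) w τ).le
      linarith
  have a3 := mul_le_mul_of_nonneg_left a1 l0
  have a4 := Real.add_one_le_exp (l * (1 + j * κ) + l ^ 2)
  linarith

end RT

lemma final_ineq {N C Dr c X s v : ℝ} (hN : 76 ≤ N) (hC : 0 ≤ C) (hD : 0 ≤ Dr)
    (hK : 304 * (641 + 105 * C + 8 * Dr) ≤ N) (c0 : 1 / 2 ≤ c) (c1 : c ≤ 1) (v0 : 0 ≤ v)
    (s0 : v / 2 ≤ s) (s1 : s ≤ Dr * v) (hX : N ^ 3 * s / 2 ≤ X) :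
    1 + N ^ 2 * ((101 + 4 * N ^ 2) * (C * v) + 640 * v - 39 / 19 * (c * X)) + v ≤
      1 - 2 * (N + N ^ 2) * (c * (X + (N + N ^ 2) * s)) := by
  have n1 : 1 ≤ N := by linarith
  have n2 : N ≤ N ^ 2 := by nlinarith
  have n3 : N ^ 2 ≤ N ^ 4 := pow_le_pow_right₀ n1 (by norm_num)
  have n4 : 1 ≤ N ^ 4 := one_le_pow₀ n1
  have s2 : 0 ≤ s := by linarith
  have x1 : N ^ 3 * v / 4 ≤ X := by
    have := mul_le_mul_of_nonneg_left s0 (by positivity : 0 ≤ N ^ 3)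
    linarith
  have x0 : 0 ≤ N ^ 3 * v / 4 := by positivity
  have x2 : 1 / 2 * (N ^ 3 * v / 4) ≤ c * X := mul_le_mul c0 x1 x0 (by linarith)
  have x3 : N ^ 2 / 38 * (1 / 2 * (N ^ 3 * v / 4)) ≤ (N ^ 2 / 19 - 2 * N) * (c * X) :=
    mul_le_mul (by nlinarith) x2 (by positivity) (by nlinarith)
  have y1 : (N + N ^ 2) ^ 2 * (c * s) ≤ (2 * N ^ 2) ^ 2 * (Dr * v) :=
    mul_le_mul (pow_le_pow_left₀ (by positivity) (by linarith) 2)
      ((mul_le_of_le_one_left s2 c1).trans s1) (by positivity) (by positivity)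
  have y2 := mul_le_mul_of_nonneg_right n3 (by positivity : 0 ≤ C * v)
  have y3 := mul_le_mul_of_nonneg_right n3 v0
  have y4 := mul_le_mul_of_nonneg_right n4 v0
  have y5 := mul_le_mul_of_nonneg_right hK (by positivity : 0 ≤ N ^ 4 * v)
  linarith

end Vale.Agent.P161
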