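import Vale.Agent.P161.MomC

/-! Second and fourth moments of the tree messages at criticality. -/

namespace Vale.Agent.P161

open Finset MeasureTheory ProbabilityTheory Function
open scoped Classical

variable {V : Type} {D : ℕ}

theorem RT.moments {V : Type} {D : ℕ} (hD : 2 ≤ D) {th : ℝ} (h0 : 0 ≤ th)
    (hth : th ^ 2 * D = 1) : ∃ C u0 : ℝ, 0 ≤ C ∧ 0 < u0 ∧ ∀ (t : RT V D) (u : ℝ), 0 ≤ u →
      u ≤ u0 → ∀ n p, p ≠ t.o → t.mom th u 2 n p ≤ C * u ∧ t.mom th u 4 n p ≤ C * u ^ 2 ∧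
        Xs (1 - th ^ 2) (sq0 D u) n ≤ 19 / 20 * t.mom th u 2 n p := by
  obtain ⟨t1, t2, t3⟩ := crit_facts hD h0 hth
  have hD' : (2 : ℝ) ≤ D := by exact_mod_cast hD
  obtain ⟨C₁, hC₁⟩ : ∃ C : ℝ, C = D * (256 * D + 1) := ⟨_, rfl⟩
  obtain ⟨C₂, hC₂⟩ : ∃ C : ℝ, C = 4 * (750000 * D + 20 * (C₁ + 256 * D) ^ 2) := ⟨_, rfl⟩
  have p1 : 0 ≤ C₁ := by rw [hC₁]; positivity
  have p2 : 0 ≤ C₂ := by rw [hC₂]; positivity
  refine ⟨C₁ + C₂, 1 / (200 * (C₁ + 256 * D)), by positivity, by positivity,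
    fun t u u0 u1 => ?_⟩
  rw [le_div_iff₀ (by positivity)] at u1
  have u2 : C₁ * u + 256 * (D * u) ≤ 1 / 200 := by linarith
  have u3 : 0 ≤ C₁ * u := by positivity
  have u4 : 2 * u ≤ D * u := mul_le_mul_of_nonneg_right hD' u0
  have u5 : u ^ 2 ≤ u := by nlinarith
  have c0 : 0 ≤ 1 - th ^ 2 := by linarith
  have key : ∀ n p, p ≠ t.o → t.mom th u 2 n p ≤ C₁ * u ∧ t.mom th u 4 n p ≤ C₂ * u ^ 2 ∧
      Xs (1 - th ^ 2) (sq0 D u) n ≤ 19 / 20 * t.mom th u 2 n p := by
    intro n
    induction n with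
    | zero =>
      intro p _
      have e : ∀ k, k ≠ 0 → t.mom th u k 0 p = 0 := fun k hk => GP.pm_unit (E := Sym2 V) hk
      rw [e 2 two_ne_zero, e 4 four_ne_zero]
      exact ⟨u3, by positivity, by simp [Xs]⟩
    | succ n ih =>
      intro p hp
      obtain ⟨X, hX⟩ : ∃ X, X = Xs (1 - th ^ 2) (sq0 D u) n := ⟨_, rfl⟩
      obtain ⟨l, hl⟩ : ∃ l, l = (u * (1 + th) / 2) ^ 2 := ⟨_, rfl⟩
      have X0 : 0 ≤ X := hX ▸ Xs_nonneg c0 (sq0_nonneg D u) n
      have X1 : X ≤ C₁ * u := by have := ih p hp; rw [← hX] at this; linarith [this.1, this.2.2]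
      have l0 : 0 ≤ l := by rw [hl]; positivity
      have l1 : l ≤ u ^ 2 := by
        rw [hl]; exact pow_le_pow_left₀ (by positivity) (by nlinarith only [u0, t2]) 2
      have a0 : th ^ 2 * (C₁ * u) ≤ C₁ * u := mul_le_of_le_one_left u3 (by linarith)
      have a1 : th ^ 2 * X ≤ X := mul_le_of_le_one_left X0 (by linarith)
      have a2 : 0 ≤ l * (1 - (2 * (C₁ * u) + u ^ 2)) := mul_nonneg l0 (by linarith)
      have a3 : l * (1 - (2 * (C₁ * u) + u ^ 2)) ≤ l :=
        mul_le_of_le_one_right l0 (by linarith [sq_nonneg u])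
      have a4 : 0 ≤ th ^ 2 * X := by positivity
      have hc : ∀ c ∈ t.ch p, c ≠ t.o := fun c hc => ((t.mem_ch _ _).1 hc).1
      have g := fun c => t.gp_Zp h0 (by linarith) u n c
      obtain ⟨-, b1, b2, b3⟩ := GP.prod (t.ch p) (A := t.Sb n)
        (Z := fun c => br th u (t.ed c) fun x => t.Zp th u x n c)
        (fun a ha b hb hab => t.disjoint_Sb ha hb hab n)
        (fun c h => (g c).br (t.ed_notMem (hc c h) n) h0 (by linarith) u)
        (lo := 20 / 19 * (th ^ 2 * X) + l * (1 - (2 * (C₁ * u) + u ^ 2)))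
        (hi := th ^ 2 * (C₁ * u) + 256 * u ^ 2) (M := 3 / 2 * th ^ 4 * (C₂ * u ^ 2) + 750000 * u ^ 2)
        (by positivity) (by linarith) (by linarith)
        (fun c h => by
          refine le_trans ?_ ((g c).br_two_ge (t.ed_notMem (hc c h) n) h0 (by linarith) u)
          obtain ⟨i1, -, i3⟩ := ih c (hc c h)
          change pm (fun x => t.Zp th u x n c) 2 ≤ _ at i1
          change _ ≤ 19 / 20 * pm (fun x => t.Zp th u x n c) 2 at i3
          rw [← hX] at i3
          have j1 := mul_le_mul_of_nonneg_left i3 (sq_nonneg th)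
          have j2 : th * pm (fun x => t.Zp th u x n c) 2 ≤ C₁ * u :=
            (mul_le_of_le_one_left ((g c).pm_nonneg even_two) (by linarith)).trans i1
          have j3 : u ^ 2 * th ≤ u ^ 2 := mul_le_of_le_one_right (sq_nonneg u) (by linarith)
          have j4 : l * (1 - (2 * (C₁ * u) + u ^ 2)) ≤
              l * (1 - 2 * th * pm (fun x => t.Zp th u x n c) 2 - u ^ 2 * (1 + th) / 2) :=
            mul_le_mul_of_nonneg_left (by linarith) l0
          rw [← hl]
          linarith)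
        (fun c h => ((g c).br_le (t.ed_notMem (hc c h) n) h0 t2 (by linarith)).1.trans (by
          have := mul_le_mul_of_nonneg_left (ih c (hc c h)).1 (sq_nonneg th)
          exact add_le_add this le_rfl))
        (fun c h => ((g c).br_le (t.ed_notMem (hc c h) n) h0 t2 (by linarith)).2.trans (by
          have := mul_le_mul_of_nonneg_left (ih c (hc c h)).2.1
            (by positivity : 0 ≤ 3 / 2 * th ^ 4)
          exact add_le_add this le_rfl))
      rw [t.card_ch p hp, ← t.Zp_succ_br] at b1 b2 b3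
      change 1 - 2 * t.mom th u 2 (n + 1) p ≤ _ at b1
      change _ ≤ 1 - t.mom th u 2 (n + 1) p at b2
      change t.mom th u 4 (n + 1) p ≤ _ at b3
      have d1 : D * (th ^ 2 * (C₁ * u) + 256 * u ^ 2) = C₁ * u + 256 * D * u ^ 2 := by
        linear_combination (C₁ * u) * hth
      refine ⟨?_, ?_, ?_⟩
      · have e1 := bonf_ge (x := th ^ 2 * (C₁ * u) + 256 * u ^ 2) (by positivity) (by linarith) hD
        have e2 : th ^ 2 * (C₁ * u) = (256 * D + 1) * u := by
          rw [hC₁]; linear_combination ((256 * D + 1) * u) * hth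
        have e3 : ((256 * D + 1) * u) ^ 2 ≤ (th ^ 2 * (C₁ * u) + 256 * u ^ 2) ^ 2 :=
          pow_le_pow_left₀ (by positivity) (by linarith [sq_nonneg u]) 2
        have e4 : 256 * D * u ^ 2 ≤ ((256 * D + 1) * u) ^ 2 := by
          rw [mul_pow]
          exact mul_le_mul_of_nonneg_right (by nlinarith only [hD']) (sq_nonneg u)
        linarith
      · have e1 : (C₁ * u + 256 * D * u ^ 2) ^ 2 ≤ ((C₁ + 256 * D) * u) ^ 2 := by
          refine pow_le_pow_left₀ (by positivity) ?_ 2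
          have := mul_le_mul_of_nonneg_left u5 (by positivity : (0 : ℝ) ≤ 256 * D)
          linarith
        have e2 : D * (3 / 2 * th ^ 4 * (C₂ * u ^ 2)) = 3 / 2 * (th ^ 2 * (C₂ * u ^ 2)) := by
          linear_combination (3 / 2 * th ^ 2 * (C₂ * u ^ 2)) * hth
        have e3 := mul_le_mul_of_nonneg_right t1 (by positivity : 0 ≤ C₂ * u ^ 2)
        have e4 : C₂ * u ^ 2 = 4 * (750000 * (D * u ^ 2) + 20 * ((C₁ + 256 * D) * u) ^ 2) := by
          rw [hC₂]; ring
        rw [d1] at b3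
        linarith
      · have e1 := bonf_le (x := 2 * (20 / 19 * (th ^ 2 * X) + l * (1 - (2 * (C₁ * u) + u ^ 2))))
          (by positivity) (by linarith) D
        have e2 := rec_ineq (c := 1 - th ^ 2) (X := X) (s := D * l) (δ := 2 * (C₁ * u) + u ^ 2)
          c0 (by linarith [sq_nonneg th]) X0 (by positivity) (by positivity)
          (by rw [hl, ← t3, hX]; exact Xs_le_succ c0 (sq0_nonneg D u) n)
          (by
            have := mul_le_mul_of_nonneg_left (l1.trans u5) (by linarith : (0 : ℝ) ≤ D)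
            linarith)
        obtain ⟨b, hb⟩ : ∃ b, b = 20 / 19 * (th ^ 2 * X) + l * (1 - (2 * (C₁ * u) + u ^ 2)) :=
          ⟨_, rfl⟩
        have e3 : 20 / 19 * X + D * l * (1 - (2 * (C₁ * u) + u ^ 2)) = D * b := by
          rw [hb]; linear_combination (-(20 / 19) * X) * hth
        have e4 : (1 - th ^ 2) * (D * b) ^ 2 = D * (D - 1) * b ^ 2 := by
          linear_combination (-(D * b ^ 2)) * hth
        rw [e3, e4] at e2
        rw [← hb] at e1 b1
        rw [Xs, ← hX, t3, ← hl]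
        linarith
  intro n p hp
  obtain ⟨k1, k2, k3⟩ := key n p hp
  have q1 : 0 ≤ C₂ * u := by positivity
  have q2 : 0 ≤ C₁ * u ^ 2 := by positivity
  exact ⟨by linarith, by linarith, k3⟩

end Vale.Agent.P161
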