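import Vale.Agent.P161.ChernB
import Vale.Agent.P161.Moments

/-! The block concentration bound. -/

namespace Vale.Agent.P161

open Finset MeasureTheory ProbabilityTheory Function
open scoped Classical

variable {V : Type} {D : ℕ}

theorem RT.block_bound {V : Type} {D : ℕ} (hD : 2 ≤ D) {th : ℝ} (h0 : 0 ≤ th)
    (hth : th ^ 2 * D = 1) : ∃ n0 : ℕ, ∀ n, n0 ≤ n → ∀ u : ℝ, 1 / ((n : ℝ) + 1) ^ 4 ≤ u →
      u ≤ 1 / (n : ℝ) ^ 4 → ∀ (t : RT V D) (R : ℕ) (z : V) (tau : Bool), z ≠ t.o →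
      t.lev z + n + n ^ 2 + n ^ 3 ≤ R →
      ∫ x, t.Zp th u x (R - t.lev z) z tau * Real.exp ((D : ℝ) ^ n * u ^ 2 / 2 *
        (t.Yb th u x R n (n ^ 2) z -
          ∏ l ∈ Finset.Ioc (t.lev z) (t.lev z + n + n ^ 2), yl D th u R l ^ 2)) ∂gam (Sym2 V) ≤
        Real.exp (-((D : ℝ) ^ n * u ^ 4 / 4)) := by
  obtain ⟨C, u₀, hC, hu₀, hm⟩ := RT.moments (V := V) hD h0 hth
  obtain ⟨t1, t2, t3⟩ := crit_facts hD h0 hth
  have hD' : (2 : ℝ) ≤ D := by exact_mod_cast hD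
  obtain ⟨n₀, hn₀⟩ := exists_nat_ge (304 * (641 + 105 * C + 8 * D) + 1 / u₀)
  refine ⟨n₀, fun n hn u u0 u1 t R z τ hz hR => ?_⟩
  have hn' : (n₀ : ℝ) ≤ n := by exact_mod_cast hn
  have i0 : 0 < 1 / u₀ := by positivity
  have n1 : (76 : ℝ) ≤ n := by linarith
  have n2 : (n : ℝ) ≤ n ^ 4 := le_self_pow₀ (by linarith) (by norm_num)
  have u2 : 0 ≤ u := le_trans (by positivity) u0
  have u3 : u ≤ u₀ := by
    refine u1.trans ?_
    rw [one_div_le (by positivity) hu₀]; linarith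
  rw [le_div_iff₀ (by positivity)] at u1
  have u4 : u ^ 2 ≤ 1 := pow_le_one₀ u2 (by nlinarith)
  have h1 : th < 1 := by linarith
  have c0 : 0 ≤ 1 - th ^ 2 := by linarith
  have c1 : 1 - th ^ 2 ≤ 1 := by linarith [sq_nonneg th]
  obtain ⟨t₀, ht₀⟩ : ∃ t₀, R = t.lev z + n + n ^ 2 + t₀ := ⟨R - (t.lev z + n + n ^ 2), by omega⟩
  obtain ⟨s, hs⟩ : ∃ s, s = sq0 D u := ⟨_, rfl⟩
  obtain ⟨X, hX⟩ : ∃ X, X = Xs (1 - th ^ 2) s t₀ := ⟨_, rfl⟩
  have s0 : 0 ≤ s := hs ▸ sq0_nonneg D u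
  have s3 : s = (19 / 20) ^ 3 / 4 * ((D + 2 * (D * th) + 1) * u ^ 2) := by
    rw [hs, t3]; linear_combination ((19 / 20) ^ 3 / 4 * u ^ 2) * hth
  have s4 : D * th ≤ D := mul_le_of_le_one_right (by linarith) h1.le
  have s5 : 0 ≤ D * th := by positivity
  have s1 : u ^ 2 / 2 ≤ s := by
    have := mul_le_mul_of_nonneg_right (show 3 ≤ D + 2 * (D * th) + 1 by linarith) (sq_nonneg u)
    rw [s3]; linarith [sq_nonneg u]
  have s2 : s ≤ D * u ^ 2 := by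
    have := mul_le_mul_of_nonneg_right (show D + 2 * (D * th) + 1 ≤ 4 * D by linarith)
      (sq_nonneg u)
    have : 0 ≤ D * u ^ 2 := by positivity
    rw [s3]; linarith
  have x1 : (n : ℝ) ^ 3 * s / 2 ≤ X := by
    have := Xs_ge c0 c1 s0 (n ^ 3) (by
      have a1 : (u * n ^ 4) ^ 2 ≤ 1 := pow_le_one₀ (by positivity) u1
      have a2 : (2 : ℝ) * D ≤ n ^ 2 := by nlinarith
      have a3 := mul_le_mul_of_nonneg_left s2 (by positivity : (0 : ℝ) ≤ n ^ 6)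
      have a4 := mul_le_mul_of_nonneg_right a2 (by positivity : (0 : ℝ) ≤ n ^ 6 * u ^ 2)
      push_cast
      linarith)
    push_cast at this
    exact this.trans (hX ▸ Xs_mono c0 s0 (by omega))
  have k1 := t.chernoff u h0 h1 hth (t.exp_Y u h0 h1 hth (R := R) (j := n ^ 2) (t₀ := t₀)
    (κ := (101 + 4 * (n : ℝ) ^ 2) * (C * u ^ 2) + 640 * u ^ 2 - 39 / 19 * ((1 - th ^ 2) * X))
    (l := u ^ 2 / 2) (by positivity) (by linarith) fun c hc hl σ => by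
      refine (t.branch_gain u h0 h1 u4 (Nat.cast_nonneg _) _ hc σ).trans ?_
      obtain ⟨-, a2, a3⟩ := hm t u u2 u3 (R - t.lev c) c hc
      rw [← hs] at a3
      have a4 : X ≤ 19 / 20 * t.mom th u 2 (R - t.lev c) c := by
        rw [hX]; exact (Xs_mono c0 s0 (by omega)).trans a3
      have a5 := mul_le_mul_of_nonneg_left a4 c0
      have a6 := mul_le_mul_of_nonneg_left a2 (by positivity : 0 ≤ 101 + 4 * (n : ℝ) ^ 2)
      push_cast
      linarith) n hz (by omega) τ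
  have k2 := prod_yl (D := D) (u := u) c0 R (t.lev z) (n + n ^ 2)
  have k3 := mul_le_mul_of_nonneg_left (Xs_add_le c0 s0 t₀ (n + n ^ 2)) c0
  rw [show R - t.lev z = t₀ + (n + n ^ 2) by omega, ← hs, ← add_assoc (t.lev z)] at k2
  rw [← hX] at k3
  have k4 := final_ineq n1 hC (by linarith) (by linarith) (by linarith) c1 (sq_nonneg u) s1 s2 x1
  have k5 := mul_le_mul_of_nonneg_left k3 (by positivity : (0 : ℝ) ≤ 2 * ((n + n ^ 2 : ℕ) : ℝ))
  generalize ∏ l ∈ Finset.Ioc (t.lev z) (t.lev z + n + n ^ 2), yl D th u R l ^ 2 = P at k2 ⊢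
  have e : ∀ x, t.Zp th u x (R - t.lev z) z τ * Real.exp ((D : ℝ) ^ n * u ^ 2 / 2 *
      (t.Yb th u x R n (n ^ 2) z - P)) = Real.exp (-((D : ℝ) ^ n * (u ^ 2 / 2) * P)) *
      (t.Zp th u x (R - t.lev z) z τ *
        Real.exp ((D : ℝ) ^ n * (u ^ 2 / 2) * t.Yb th u x R n (n ^ 2) z)) := fun x => by
    rw [mul_left_comm, ← Real.exp_add]
    congr 2; ring
  simp only [e]
  rw [integral_const_mul]
  refine (mul_le_mul_of_nonneg_left k1 (Real.exp_pos _).le).trans ?_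
  rw [← Real.exp_add, Real.exp_le_exp]
  push_cast at k2 k5 ⊢
  have k6 := mul_le_mul_of_nonneg_left (k4.trans (show _ ≤ P by linarith))
    (by positivity : 0 ≤ (D : ℝ) ^ n * (u ^ 2 / 2))
  linarith

end Vale.Agent.P161
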