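import Vale.Agent.P161.Exist

/-! Two point correlations of the free Ising measure along generations. -/

namespace Vale.Agent.P161

open Finset MeasureTheory
open scoped Classical

variable {V : Type} {D : ℕ} {G : SimpleGraph V}

/-- extension of a configuration on a finite set -/
noncomputable def extS (S : Finset V) (η : S → Bool) : V → Bool :=
  fun v => if h : v ∈ S then η ⟨v, h⟩ else true

lemma integral_cyl (S : Finset V) (μ : Measure (V → Bool)) [IsFiniteMeasure μ]
    (F : (V → Bool) → ℝ) (hF : ∀ σ σ', (∀ v ∈ S, σ v = σ' v) → F σ = F σ') :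
    ∫ σ, F σ ∂μ = ∑ η : S → Bool, μ.real {σ | ∀ v ∈ S, σ v = extS S η v} * F (extS S η) := by
  have h1 : ∀ σ, F σ = F (extS S (S.restrict σ)) := fun σ =>
    hF _ _ fun v hv => by simp [extS, hv]
  have hm : Measurable (S.restrict : (V → Bool) → S → Bool) := measurable_restrict S
  rw [integral_congr_ae (ae_of_all _ h1), ← integral_map (f := fun η : S → Bool => F (extS S η))
    hm.aemeasurable (measurable_of_countable _).aestronglyMeasurable,
    integral_fintype Integrable.of_finite]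
  refine sum_congr rfl fun η _ => ?_
  rw [map_measureReal_apply hm (measurableSet_singleton _), smul_eq_mul]
  congr 2
  ext s
  simp only [Set.mem_preimage, Set.mem_singleton_iff, funext_iff, Set.mem_ofPred_eq,
    Subtype.forall, restrict, extS]
  exact forall₂_congr fun v hv => by rw [dif_pos hv]

lemma integral_eq_zero_of_flip (S : Finset V) (μ : Measure (V → Bool)) [IsFiniteMeasure μ]
    (F : (V → Bool) → ℝ) (hF : ∀ σ σ', (∀ v ∈ S, σ v = σ' v) → F σ = F σ') {v : V} (hv : v ∈ S)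
    (h : ∀ η η' : V → Bool, η' v = !η v → (∀ w, w ≠ v → η' w = η w) →
      μ.real {σ | ∀ v ∈ S, σ v = η v} * F η + μ.real {σ | ∀ v ∈ S, σ v = η' v} * F η' = 0) :
    ∫ σ, F σ ∂μ = 0 := by
  rw [integral_cyl S μ F hF]
  refine sum_involution (fun η _ => Function.update η ⟨v, hv⟩ (!η ⟨v, hv⟩)) (fun η _ => ?_)
    (fun η _ _ e => by simpa using congrFun e ⟨v, hv⟩) (fun _ _ => mem_univ _) fun η _ => by simp
  refine h _ _ (by simp [extS, hv]) fun w hw => ?_
  simp only [extS]
  split_ifs with hS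
  · exact Function.update_of_ne (fun e => hw (congrArg Subtype.val e)) _ _
  · rfl

lemma sgn_not (b : Bool) : sgn (!b) = -sgn b := by cases b <;> simp [sgn]

lemma sgn_mul_self (b : Bool) : sgn b * sgn b = 1 := by cases b <;> simp [sgn]

lemma abs_sgnc (b : Bool) : |sgn b| = 1 := by cases b <;> simp [sgn]

/-- bounded measurable functions -/
def BMc {Ω : Type*} [MeasurableSpace Ω] (f : Ω → ℝ) : Prop := Measurable f ∧ ∃ C, ∀ x, |f x| ≤ C

namespace BMc

variable {Ω : Type*} [MeasurableSpace Ω] {f g : Ω → ℝ}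

lemma integrable (h : BMc f) (μ : Measure Ω) [IsFiniteMeasure μ] : Integrable f μ :=
  let ⟨h1, C, h2⟩ := h
  Integrable.of_bound h1.aestronglyMeasurable C (ae_of_all _ h2)

lemma const (c : ℝ) : BMc fun _ : Ω => c := ⟨measurable_const, _, fun _ => le_rfl⟩

lemma mul (h : BMc f) (h' : BMc g) : BMc fun x => f x * g x :=
  let ⟨h1, C, h2⟩ := h
  let ⟨h3, C', h4⟩ := h'
  ⟨h1.mul h3, C * C', fun x => by
    rw [abs_mul]
    exact mul_le_mul (h2 x) (h4 x) (abs_nonneg _) ((abs_nonneg _).trans (h2 x))⟩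

lemma add (h : BMc f) (h' : BMc g) : BMc fun x => f x + g x :=
  let ⟨h1, C, h2⟩ := h
  let ⟨h3, C', h4⟩ := h'
  ⟨h1.add h3, C + C', fun x => (abs_add_le _ _).trans (add_le_add (h2 x) (h4 x))⟩

lemma sub (h : BMc f) (h' : BMc g) : BMc fun x => f x - g x :=
  let ⟨h1, C, h2⟩ := h
  let ⟨h3, C', h4⟩ := h'
  ⟨h1.sub h3, C + C', fun x => (abs_sub _ _).trans (add_le_add (h2 x) (h4 x))⟩

lemma sum {ι : Type*} (s : Finset ι) {F : ι → Ω → ℝ} (h : ∀ i, BMc (F i)) :
    BMc fun x => ∑ i ∈ s, F i x := by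
  induction s using Finset.induction_on with
  | empty => simpa using const 0
  | insert a s ha ih => simpa only [sum_insert ha] using (h a).add ih

lemma comp {Ω' : Type*} [MeasurableSpace Ω'] (h : BMc f) {e : Ω' → Ω} (he : Measurable e) :
    BMc fun x => f (e x) :=
  let ⟨h1, C, h2⟩ := h
  ⟨h1.comp he, C, fun _ => h2 _⟩

lemma of_sgn {b : Ω → Bool} (h : Measurable b) : BMc fun x => sgn (b x) :=
  ⟨(measurable_of_countable sgn).comp h, 1, fun _ => (abs_sgnc _).le⟩

end BMc

/-- two point function -/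
noncomputable def corr (μ : Measure (V → Bool)) (u v : V) : ℝ := ∫ σ, sgn (σ u) * sgn (σ v) ∂μ

lemma corr_comm (μ : Measure (V → Bool)) (u v : V) : corr μ u v = corr μ v u := by
  simp only [corr, mul_comm]

lemma corr_self (μ : Measure (V → Bool)) [IsProbabilityMeasure μ] (v : V) : corr μ v v = 1 := by
  simp [corr, sgn_mul_self]

variable {t : RT V D} {θ : ℝ} {μ : Measure (V → Bool)}

lemma RT.Fits.mean_zero (ht : t.Fits G) (hμ : IsFreeIsing G θ μ) (p : V) :
    ∫ σ, sgn (σ p) ∂μ = 0 := by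
  have := hμ.1
  have h := ht.real_sub hμ (mem_singleton_self p) (fun c hc h => absurd (mem_singleton.1 hc) h)
    fun h h' => by have := t.lev_par p h; rw [mem_singleton.1 h'] at this; omega
  refine integral_eq_zero_of_flip {p} μ _ (fun σ σ' h => by rw [h p (mem_singleton_self p)])
    (mem_singleton_self p) fun η η' h1 _ => ?_
  rw [h, h, h1, sgn_not]
  simp

lemma RT.Fits.corr_step (ht : t.Fits G) (hμ : IsFreeIsing G θ μ) {u v : V} (hv : v ≠ t.o)
    (huv : u ≠ v) (hl : t.lev u ≤ t.lev v) : corr μ u v = θ * corr μ u (t.par v) := by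
  have := hμ.1
  have hb : ∀ u v : V, BMc fun σ : V → Bool => sgn (σ u) * sgn (σ v) := fun u v =>
    (BMc.of_sgn (measurable_pi_apply u)).mul (BMc.of_sgn (measurable_pi_apply v))
  have hp := t.lev_par v hv
  rw [← sub_eq_zero, corr, corr, ← integral_const_mul,
    ← integral_sub ((hb _ _).integrable μ) (((hb _ _).integrable μ).const_mul θ)]
  refine integral_eq_zero_of_flip (t.ball (t.lev v)) μ _ (fun σ σ' h => by
    rw [h u ((t.mem_ball _ _).2 hl), h v ((t.mem_ball _ _).2 le_rfl),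
      h _ ((t.mem_ball _ (t.par v)).2 (by omega))]) ((t.mem_ball _ _).2 le_rfl) fun η η' h1 h2 => ?_
  have hm : v ∈ t.desc (t.lev v) t.o := (t.mem_desc_o _ _).2 ⟨hv, le_rfl⟩
  have h3 : t.par v ≠ v := fun e => by rw [e] at hp; omega
  have h4 : ∏ c ∈ (t.desc (t.lev v) t.o).erase v, (1 + θ * (sgn (η' c) * sgn (η' (t.par c)))) / 2 =
      ∏ c ∈ (t.desc (t.lev v) t.o).erase v, (1 + θ * (sgn (η c) * sgn (η (t.par c)))) / 2 := by
    refine prod_congr rfl fun c hc => ?_
    obtain ⟨a1, a2⟩ := (t.mem_desc_o _ _).1 (mem_erase.1 hc).2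
    rw [h2 c (mem_erase.1 hc).1, h2 (t.par c) fun e => ?_]
    have := t.lev_par c a1
    rw [e] at this
    omega
  rw [ht.real_ball hμ, ht.real_ball hμ, ← mul_prod_erase _ _ hm, ← mul_prod_erase _ _ hm, h4, h1,
    h2 u huv, h2 _ h3]
  cases η v <;> simp only [sgn, Bool.not_true, Bool.not_false, Bool.false_eq_true, if_true,
    if_false] <;> ring

/-- the descendants of `p` in generation `n` -/
noncomputable def RT.gen (t : RT V D) (p : V) : ℕ → Finset V
  | 0 => {p}
  | n + 1 => (t.gen p n).biUnion t.ch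

lemma RT.lev_gen {p v : V} {n : ℕ} (h : v ∈ t.gen p n) : t.lev v = t.lev p + n := by
  induction n generalizing v with
  | zero => rw [mem_singleton.1 h]; rfl
  | succ n ih =>
    obtain ⟨y, hy, hv⟩ := mem_biUnion.1 h
    rw [t.lev_ch hv, ih hy, add_assoc]

lemma RT.gen_ne {p v : V} (hp : p ≠ t.o) {n : ℕ} (h : v ∈ t.gen p n) : v ≠ t.o := by
  rintro rfl
  have := RT.lev_gen h
  have := t.lev_par p hp
  have := t.lev_o
  omega

lemma RT.sum_gen {p : V} (hp : p ≠ t.o) (n : ℕ) (F : V → ℝ) :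
    ∑ x ∈ t.gen p (n + 1), F (t.par x) = D * ∑ y ∈ t.gen p n, F y := by
  rw [RT.gen, sum_biUnion fun y _ y' _ h => disjoint_left.2 fun c hc hc' =>
    h (((t.mem_ch _ _).1 hc).2.symm.trans ((t.mem_ch _ _).1 hc').2), mul_sum]
  refine sum_congr rfl fun y hy => ?_
  rw [sum_congr rfl fun c hc => by rw [((t.mem_ch _ _).1 hc).2], sum_const,
    t.card_ch y (RT.gen_ne hp hy), nsmul_eq_mul]

lemma RT.card_gen {p : V} (hp : p ≠ t.o) (n : ℕ) : ((t.gen p n).card : ℝ) = D ^ n := by
  induction n with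
  | zero => simp [RT.gen]
  | succ n ih => simpa [ih, pow_succ'] using RT.sum_gen hp n fun _ => 1

lemma RT.Fits.sum_corr (ht : t.Fits G) (hμ : IsFreeIsing G θ μ) {p : V} (hp : p ≠ t.o) (n : ℕ) :
    ∑ x ∈ t.gen p n, corr μ p x = (θ * D) ^ n := by
  have := hμ.1
  induction n with
  | zero => simp [RT.gen, corr_self]
  | succ n ih =>
    rw [sum_congr rfl fun x hx => ht.corr_step hμ (RT.gen_ne hp hx)
      (fun e => by have := RT.lev_gen hx; rw [← e] at this; omega)
      (by have := RT.lev_gen hx; omega), ← mul_sum, RT.sum_gen hp, ih]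
    ring

lemma RT.Fits.sum_corr₂ (ht : t.Fits G) (hμ : IsFreeIsing G θ μ) {p : V} (hp : p ≠ t.o) {C : ℝ}
    (hC : C ≤ (C - 1) * (θ ^ 2 * D)) (n : ℕ) :
    ∑ x ∈ t.gen p n, ∑ y ∈ t.gen p n, corr μ x y ≤ C * ((θ * D) ^ n) ^ 2 - (C - 1) * D ^ n := by
  have := hμ.1
  induction n with
  | zero => simp [RT.gen, corr_self]
  | succ n ih =>
    have h1 : ∀ x ∈ t.gen p (n + 1), ∀ y ∈ t.gen p (n + 1), corr μ x y ≤
        (if x = y then 1 else 0) + θ ^ 2 * corr μ (t.par x) (t.par y) := by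
      intro x hx y hy
      have a1 := RT.lev_gen hx
      have a2 := RT.lev_gen hy
      have a3 := t.lev_par y (RT.gen_ne hp hy)
      split_ifs with h
      · rw [h, corr_self, corr_self]
        nlinarith [sq_nonneg θ]
      · rw [ht.corr_step hμ (RT.gen_ne hp hy) h (by omega), corr_comm,
          ht.corr_step hμ (RT.gen_ne hp hx) (fun e => by rw [e] at a3; omega) (by omega), corr_comm]
        exact le_of_eq (by ring)
    refine (sum_le_sum fun x hx => sum_le_sum (h1 x hx)).trans ?_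
    simp only [sum_add_distrib, sum_ite_eq, ← mul_sum, RT.sum_gen hp]
    rw [sum_congr rfl fun x hx => if_pos hx, sum_const, nsmul_eq_mul, RT.card_gen hp,
      RT.sum_gen hp n fun x => ∑ y ∈ t.gen p n, corr μ x y]
    have h2 := mul_le_mul_of_nonneg_left ih (by positivity : 0 ≤ θ ^ 2 * D * D)
    have h3 := mul_le_mul_of_nonneg_left hC (by positivity : 0 ≤ (D : ℝ) ^ (n + 1))
    simp only [pow_succ] at h2 h3 ⊢
    linarith

end Vale.Agent.P161
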