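import Vale.Agent.P161.Aut
import Vale.Agent.P161.Corr

/-! Above the Kesten-Stigum threshold the free Ising measure is not a factor of IID. -/

set_option linter.unusedVariables false

namespace Vale.Agent.P161

open Finset MeasureTheory ProbabilityTheory
open scoped Classical symmDiff

variable {V : Type} {D : ℕ} {G : SimpleGraph V}

instance : IsProbabilityMeasure (iidUnif V) := by unfold iidUnif; infer_instance

lemma measurable_reindex (e : V → V) : Measurable fun (U : V → unitInterval) v => U (e v) :=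
  measurable_pi_lambda _ fun _ => measurable_pi_apply _

lemma iid_map (e : V ≃ V) : (iidUnif V).map (fun U v => U (e v)) = iidUnif V := by
  have := Measure.infinitePi_map_piCongrLeft (fun _ : V => (volume : Measure unitInterval)) e.symm
  refine Eq.trans (congrArg (Measure.map · _) (funext fun U => funext fun v => ?_)) this
  rw [MeasurableEquiv.coe_piCongrLeft, Equiv.piCongrLeft_apply_eq_cast]
  rfl

lemma integral_reindex (e : V ≃ V) {F : (V → unitInterval) → ℝ} (hF : BMc F) :
    ∫ U, F (fun v => U (e v)) ∂iidUnif V = ∫ U, F U ∂iidUnif V := by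
  rw [← integral_map (measurable_reindex e).aemeasurable hF.1.aestronglyMeasurable, iid_map]

lemma exists_local_approx {b : (V → unitInterval) → Bool} (hb : Measurable b)
    (h0 : ∫ U, sgn (b U) ∂iidUnif V = 0) {ε : ℝ} (hε : 0 < ε) :
    ∃ (K : Finset V) (F : (K → unitInterval) → ℝ), Measurable F ∧ (∀ W, |F W| ≤ 2) ∧
      ∫ U, F (K.restrict U) ∂iidUnif V = 0 ∧
      ∫ U, (sgn (b U) - F (K.restrict U)) * (sgn (b U) - F (K.restrict U)) ∂iidUnif V ≤ ε := by
  obtain ⟨A, hA, hA'⟩ := exists_measure_symmDiff_lt_of_generateFrom_isSetRing (μ := iidUnif V)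
    isSetRing_measurableCylinders ⟨{Set.univ}, Set.countable_singleton _,
      Set.singleton_subset_iff.2 (univ_mem_measurableCylinders _), by simp⟩
    generateFrom_measurableCylinders.symm (hb (measurableSet_singleton true))
    (ENNReal.ofReal_pos.2 (by positivity : 0 < ε / 4))
  obtain ⟨K, S, hS, rfl⟩ := (mem_measurableCylinders _).1 hA
  have hm : Measurable (K.restrict : (V → unitInterval) → K → unitInterval) := measurable_restrict K
  have hf : BMc fun W : K → unitInterval => sgn (decide (W ∈ S)) :=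
    BMc.of_sgn (measurable_to_bool (by simpa [Set.preimage] using hS))
  set m := ∫ U, sgn (decide (K.restrict U ∈ S)) ∂iidUnif V with hm'
  have hm1 : |m| ≤ 1 := by
    simpa using norm_integral_le_of_norm_le_const (μ := iidUnif V) (C := 1)
      (f := fun U => sgn (decide (K.restrict U ∈ S))) (ae_of_all _ fun U => (abs_sgnc _).le)
  have hY := (BMc.of_sgn hb).sub (hf.comp hm)
  have hY1 : ∫ U, (sgn (b U) - sgn (decide (K.restrict U ∈ S))) ∂iidUnif V = -m := by
    rw [integral_sub ((BMc.of_sgn hb).integrable _) ((hf.comp hm).integrable _), h0, zero_sub]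
  have hY2 : ∫ U, (sgn (b U) - sgn (decide (K.restrict U ∈ S))) *
      (sgn (b U) - sgn (decide (K.restrict U ∈ S))) ∂iidUnif V ≤ ε := by
    have hB : MeasurableSet (cylinder K S ∆ (b ⁻¹' {true})) :=
      (hS.cylinder K).symmDiff (hb (measurableSet_singleton true))
    refine (integral_mono ((hY.mul hY).integrable _) ((integrable_const (4 : ℝ)).indicator hB)
      fun U => ?_).trans ?_
    · by_cases h1 : K.restrict U ∈ S <;> cases h2 : b U <;>
        simp [Set.indicator, Set.mem_symmDiff, sgn, h1, h2] <;> norm_num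
    · rw [integral_indicator_const _ hB, smul_eq_mul]
      have := (ENNReal.toReal_lt_toReal (measure_ne_top _ _) ENNReal.ofReal_ne_top).2 hA'
      rw [ENNReal.toReal_ofReal (by positivity)] at this
      rw [Measure.real]
      linarith
  refine ⟨K, fun W => sgn (decide (W ∈ S)) - m, (hf.sub (BMc.const m)).1, fun W => ?_, ?_, ?_⟩
  · have := abs_sub (sgn (decide (W ∈ S))) m
    rw [abs_sgnc] at this
    linarith
  · rw [integral_sub ((hf.comp hm).integrable _) (integrable_const _)]
    simp [hm']
  · have : ∀ a c : ℝ, (a - (c - m)) * (a - (c - m)) =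
        (a - c) * (a - c) + (2 * m * (a - c) + m ^ 2) := fun a c => by ring
    simp only [this]
    rw [integral_add ((hY.mul hY).integrable _)
      ((((BMc.const _).mul hY).add (BMc.const _)).integrable _),
      integral_add (((BMc.const _).mul hY).integrable _) (integrable_const _), integral_const_mul,
      hY1]
    simp only [integral_const, probReal_univ, smul_eq_mul]
    nlinarith [sq_nonneg m]

lemma integral_mul_le {Ω : Type*} [MeasurableSpace Ω] (P : Measure Ω) [IsFiniteMeasure P]
    {f g : Ω → ℝ} (hf : BMc f) (hg : BMc g) {l : ℝ} (hl : 0 < l) :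
    2 * l * ∫ x, f x * g x ∂P ≤ l ^ 2 * ∫ x, f x * f x ∂P + ∫ x, g x * g x ∂P := by
  rw [← integral_const_mul, ← integral_const_mul,
    ← integral_add (((BMc.const _).mul (hf.mul hf)).integrable _) ((hg.mul hg).integrable _)]
  exact integral_mono (((BMc.const _).mul (hf.mul hg)).integrable _)
    ((((BMc.const _).mul (hf.mul hf)).add (hg.mul hg)).integrable _)
    fun x => by nlinarith [sq_nonneg (l * f x - g x)]

lemma integral_sum_mul_sum {Ω ι : Type*} [MeasurableSpace Ω] (P : Measure Ω) [IsFiniteMeasure P]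
    (T : Finset ι) {f : ι → Ω → ℝ} (hf : ∀ i, BMc (f i)) :
    ∫ x, (∑ i ∈ T, f i x) * ∑ i ∈ T, f i x ∂P = ∑ i ∈ T, ∑ j ∈ T, ∫ x, f i x * f j x ∂P := by
  simp only [sum_mul_sum]
  rw [integral_finsetSum _ fun i _ => (BMc.sum T fun j => (hf i).mul (hf j)).integrable P]
  exact sum_congr rfl fun i _ => integral_finsetSum _ fun j _ => ((hf i).mul (hf j)).integrable P

lemma second_moment_local {K : Finset V} {F : (K → unitInterval) → ℝ} (hF : Measurable F)
    (hF2 : ∀ W, |F W| ≤ 2) (hF0 : ∫ U, F (K.restrict U) ∂iidUnif V = 0) (g : V → V ≃ V)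
    (hg : ∀ x x' k, g x k = g x' k → x = x') (T : Finset V) :
    ∑ x ∈ T, ∑ y ∈ T, ∫ U, F (K.restrict fun v => U (g x v)) *
      F (K.restrict fun v => U (g y v)) ∂iidUnif V ≤ 4 * K.card ^ 2 * T.card := by
  have hm : Measurable (K.restrict : (V → unitInterval) → K → unitInterval) := measurable_restrict K
  have hf : BMc fun U : V → unitInterval => F (K.restrict U) := BMc.comp ⟨hF, 2, hF2⟩ hm
  have h1 : ∀ x y, ∫ U, F (K.restrict fun v => U (g x v)) * F (K.restrict fun v => U (g y v))
      ∂iidUnif V ≤ if ∃ q ∈ K ×ˢ K, g x q.1 = g y q.2 then 4 else 0 := by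
    intro x y
    split_ifs with h
    · refine (le_abs_self _).trans ?_
      simpa using norm_integral_le_of_norm_le_const (μ := iidUnif V) (C := 4) (f := fun U =>
        F (K.restrict fun v => U (g x v)) * F (K.restrict fun v => U (g y v))) (ae_of_all _ fun U => by
        rw [Real.norm_eq_abs, abs_mul]
        exact (mul_le_mul (hF2 _) (hF2 _) (abs_nonneg _) zero_le_two).trans_eq (by norm_num))
    · have hd : Disjoint (K.image (g x)) (K.image (g y)) := disjoint_left.2 fun v hv hv' => by
        obtain ⟨k, hk, rfl⟩ := mem_image.1 hv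
        obtain ⟨k', hk', e⟩ := mem_image.1 hv'
        exact h ⟨(k, k'), mem_product.2 ⟨hk, hk'⟩, e.symm⟩
      have hc : ∀ z, Measurable fun (W : K.image (g z) → unitInterval) =>
          F fun k : K => W ⟨g z k, mem_image_of_mem _ k.2⟩ := fun z =>
        hF.comp (measurable_pi_lambda _ fun _ => measurable_pi_apply _)
      have hi := ((iIndepFun_infinitePi (P := fun _ : V => (volume : Measure unitInterval))
        (X := fun _ => id) fun _ => measurable_id).indepFun_finset _ _ hd
        fun _ => measurable_pi_apply _).comp (hc x) (hc y)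
      refine (hi.integral_fun_mul_eq_mul_integral
        (hf.comp (measurable_reindex (g x))).1.aestronglyMeasurable
        (hf.comp (measurable_reindex (g y))).1.aestronglyMeasurable).trans_le ?_
      exact (mul_eq_zero_of_left ((integral_reindex (g x) hf).trans hF0) _).le
  refine (sum_le_sum fun x _ => sum_le_sum fun y _ => h1 x y).trans ?_
  rw [mul_comm, ← nsmul_eq_mul]
  refine sum_le_card_nsmul _ _ _ fun x _ => ?_
  rw [← sum_filter, sum_const, nsmul_eq_mul, mul_comm]
  refine mul_le_mul_of_nonneg_left ?_ (by norm_num)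
  have h2 : (T.filter fun y => ∃ q ∈ K ×ˢ K, g x q.1 = g y q.2) ⊆
      (K ×ˢ K).biUnion fun q => T.filter fun y => g x q.1 = g y q.2 := fun y hy => by
    obtain ⟨h3, q, hq, h4⟩ := mem_filter.1 hy
    exact mem_biUnion.2 ⟨q, hq, mem_filter.2 ⟨h3, h4⟩⟩
  have h3 := (card_le_card h2).trans (card_biUnion_le_card_mul _ _ 1 fun q _ =>
    card_le_one.2 fun y hy y' hy' => hg _ _ _ ((mem_filter.1 hy).2.symm.trans (mem_filter.1 hy').2))
  rw [card_product, mul_one, ← pow_two] at h3
  exact_mod_cast h3

theorem not_isFactorOfIID (hG : IsRegularTree G (D + 1)) (hD : 2 ≤ D) {θ : ℝ} (h0 : 0 ≤ θ)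
    (h1 : θ ≤ 1) (hθ : 1 < θ ^ 2 * D) {μ : Measure (V → Bool)} (hμ : IsFreeIsing G θ μ) :
    ¬ IsFactorOfIID G μ := by
  rintro ⟨Φ, hΦ, heq, hmap⟩
  obtain ⟨t, -, ht⟩ := exists_RT hG hG.1.connected.nonempty.some
  obtain ⟨p, hp⟩ : (t.ch t.o).Nonempty := card_pos.1 (by rw [t.card_ch_o]; omega)
  have hp := ((t.mem_ch _ _).1 hp).1
  obtain ⟨g, hg1, hg2⟩ := exists_aut_family hG p
  have hX : ∀ v, BMc fun U => sgn (Φ U v) := fun v => BMc.of_sgn ((measurable_pi_apply v).comp hΦ)
  have hXX : ∀ u v, ∫ U, sgn (Φ U u) * sgn (Φ U v) ∂iidUnif V = corr μ u v := fun u v => by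
    rw [corr, ← hmap, integral_map hΦ.aemeasurable ((BMc.of_sgn (measurable_pi_apply u)).mul
      (BMc.of_sgn (measurable_pi_apply v))).1.aestronglyMeasurable]
  have hX0 : ∫ U, sgn (Φ U p) ∂iidUnif V = 0 := by
    rw [← ht.mean_zero hμ p, ← hmap, integral_map hΦ.aemeasurable
      (BMc.of_sgn (measurable_pi_apply p)).1.aestronglyMeasurable]
  set C := θ ^ 2 * D / (θ ^ 2 * D - 1) with hC
  have hC1 : 1 ≤ C := (one_le_div (by linarith)).2 (by linarith)
  have hC2 : C ≤ (C - 1) * (θ ^ 2 * D) := by
    have : C * (θ ^ 2 * D - 1) = θ ^ 2 * D := div_mul_cancel₀ _ (by linarith)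
    linarith
  obtain ⟨K, F, hF, hF2, hF0, hFε⟩ := exists_local_approx ((measurable_pi_apply p).comp hΦ) hX0
    (ε := 1 / (4 * C)) (by positivity)
  simp only [Function.comp_apply] at hFε
  obtain ⟨n, hn⟩ := pow_unbounded_of_one_lt (16 * K.card ^ 2 : ℝ) hθ
  have hm : Measurable (K.restrict : (V → unitInterval) → K → unitInterval) := measurable_restrict K
  have hf : BMc fun U : V → unitInterval => F (K.restrict U) := BMc.comp ⟨hF, 2, hF2⟩ hm
  have hfx : ∀ x, BMc fun U : V → unitInterval => F (K.restrict fun v => U (g x v)) := fun x =>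
    hf.comp (measurable_reindex (g x))
  set T := t.gen p n
  set B := (θ * D) ^ n with hB
  have hθ0 : 0 < θ := h0.lt_of_ne fun e => by rw [← e] at hθ; norm_num at hθ
  have hD0 : (0 : ℝ) < D := by exact_mod_cast (by omega : 0 < D)
  have hB0 : 0 < B := by positivity
  have hS := BMc.sum T hX
  have a1 := integral_mul_le (iidUnif V) ((hX p).sub hf) hS (l := 2 * C * B) (by positivity)
  rw [integral_sum_mul_sum _ T hX] at a1
  simp only [hXX] at a1
  have a2 := ht.sum_corr₂ hμ hp hC2 n
  have a3 := integral_mul_le (iidUnif V) (hX p) (BMc.sum T hfx) (l := B / 2) (by positivity)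
  rw [integral_sum_mul_sum _ T hfx, hXX] at a3
  have := hμ.1
  rw [corr_self] at a3
  have a4 := second_moment_local hF hF2 hF0 (fun x => (g x).toEquiv) hg2 T
  rw [RT.card_gen hp] at a4
  have a5 : ∫ U, (sgn (Φ U p) - F (K.restrict U)) * ∑ x ∈ T, sgn (Φ U x) ∂iidUnif V =
      B - ∫ U, sgn (Φ U p) * ∑ x ∈ T, F (K.restrict fun v => U (g x v)) ∂iidUnif V := by
    simp only [sub_mul]
    rw [integral_sub (((hX p).mul hS).integrable _) ((hf.mul hS).integrable _)]
    simp only [mul_sum]
    rw [integral_finsetSum _ fun x _ => ((hX p).mul (hX x)).integrable _,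
      integral_finsetSum _ fun x _ => (hf.mul (hX x)).integrable _,
      integral_finsetSum _ fun x _ => ((hX p).mul (hfx x)).integrable _]
    simp only [hXX]
    rw [ht.sum_corr hμ hp n]
    refine congrArg _ (sum_congr rfl fun x _ => ?_)
    rw [← integral_reindex (g x).toEquiv.symm ((hX p).mul (hfx x))]
    refine integral_congr_ae ((heq (g x)).mono fun U hU => ?_)
    have e1 : (g x).symm p = x := by rw [← hg1 x, RelIso.symm_apply_apply]
    have e2 := congrFun hU p
    rw [e1] at e2
    change _ = sgn (Φ (fun v => U ((g x).symm v)) p) * F (K.restrict fun v => U ((g x).symm (g x v)))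
    simp only [RelIso.symm_apply_apply, e2, mul_comm]
  have a6 : (2 * C * B) ^ 2 * (1 / (4 * C)) = C * B ^ 2 := by field_simp; ring
  have a7 := mul_le_mul_of_nonneg_left hFε (sq_nonneg (2 * C * B))
  have a8 : B ^ 2 = (θ ^ 2 * D) ^ n * D ^ n := by rw [hB, ← mul_pow, ← pow_mul, mul_comm n, pow_mul]; ring
  have a9 := mul_lt_mul_of_pos_right hn (pow_pos hD0 n)
  have a10 := mul_nonneg (sub_nonneg.2 hC1) (pow_pos hD0 n).le
  rw [a5] at a1
  set I := ∫ U, sgn (Φ U p) * ∑ x ∈ T, F (K.restrict fun v => U (g x v)) ∂iidUnif V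
  have b1 : C * B * (B - 2 * I) ≤ 0 := by nlinarith
  have b2 : B ≤ 2 * I := by
    by_contra h
    exact absurd b1 (not_le.2 (mul_pos (by positivity) (by linarith)))
  have b3 := mul_le_mul_of_nonneg_left b2 hB0.le
  have a4' := a3.trans (add_le_add_right a4 _)
  nlinarith

end Vale.Agent.P161
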