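import Vale.Agent.P161.Good
import Vale.Agent.P161.Chernoff
import Vale.Agent.P161.Compare

/-! A Lipschitz majorant of the bad event and the union bound. -/

namespace Vale.Agent.P161

open Finset MeasureTheory Function
open scoped Classical

variable {V : Type} {D : ℕ} {G : SimpleGraph V}

lemma tanh_lip (a b : ℝ) : |Real.tanh a - Real.tanh b| ≤ |a - b| := by
  have := convex_univ.norm_image_sub_le_of_norm_hasDerivWithin_le
    (f := fun x => Real.sinh x / Real.cosh x) (f' := fun x => 1 / Real.cosh x ^ 2) (C := 1)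
    (fun x _ => (((Real.hasDerivAt_sinh x).div (Real.hasDerivAt_cosh x)
      (Real.cosh_pos x).ne').congr_deriv (by
        rw [← sq, ← sq, Real.cosh_sq_sub_sinh_sq])).hasDerivWithinAt)
    (fun x _ => by
      rw [Real.norm_of_nonneg (by positivity)]
      exact div_le_one_of_le₀ (one_le_pow₀ (Real.one_le_cosh x)) (sq_nonneg _))
    (Set.mem_univ b) (Set.mem_univ a)
  simpa only [Real.tanh_eq_sinh_div_cosh, one_mul, Real.norm_eq_abs] using this

section UB
variable {E ι : Type*} {S : Finset E} {P : ι → Prop} {F F' : ι → (E → ℝ) → ℝ}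

lemma UB.pow (h : UB S P F) (k : ℕ) : UB S P (fun i x => F i x ^ k) := by
  simpa using UB.prod (range k) (F := fun _ => F) fun _ _ => h

lemma UB.max (h : UB S P F) (h' : UB S P F') : UB S P (fun i x => max (F i x) (F' i x)) := by
  have := (UB.const' (1 / 2)).mul ((h.add h').add (h.sub h').abs)
  refine (funext₂ fun i x => ?_ : _ = fun i x => Max.max (F i x) (F' i x)) ▸ this
  rcases le_total (F i x) (F' i x) with a | a
  · rw [max_eq_right a, abs_of_nonpos (sub_nonpos.2 a)]; ring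
  · rw [max_eq_left a, abs_of_nonneg (sub_nonneg.2 a)]; ring

lemma UB.min (h : UB S P F) (h' : UB S P F') : UB S P (fun i x => min (F i x) (F' i x)) := by
  have := (UB.const' (1 / 2)).mul ((h.add h').sub (h.sub h').abs)
  refine (funext₂ fun i x => ?_ : _ = fun i x => Min.min (F i x) (F' i x)) ▸ this
  rcases le_total (F i x) (F' i x) with a | a
  · rw [min_eq_left a, abs_of_nonpos (sub_nonpos.2 a)]; ring
  · rw [min_eq_right a, abs_of_nonneg (sub_nonneg.2 a)]; ring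

lemma ub_om {u : ι → ℝ} (hu : ∀ i, P i → 0 ≤ u i ∧ u i ≤ 1) {e : E} (he : e ∈ S) :
    UB S P (fun i x => om (u i) (x e)) := by
  refine ⟨1, fun i hi => ⟨?_, fun x => (Real.abs_tanh_lt_one _).le, fun x y => ?_⟩⟩
  · simp only [om, Real.tanh_eq_sinh_div_cosh]; fun_prop
  · refine (tanh_lip _ _).trans ?_
    have := abs_le_nS (x - y) he
    rw [← sub_div, ← mul_sub, abs_div, abs_mul, abs_of_nonneg (hu i hi).1, abs_two]
    rw [Pi.sub_apply] at this
    nlinarith [(hu i hi).1, (hu i hi).2, abs_nonneg (x e - y e)]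

end UB

namespace RT

variable {t : RT V D} {θ : ℝ} {μ : Measure (V → Bool)} {ι : Type*} {P : ι → Prop} {u : ι → ℝ}

lemma card_sub_le (t : RT V D) (n : ℕ) (p : V) : (t.sub n p).card ≤ (D + 2) ^ n := by
  induction n generalizing p with
  | zero => simp [sub, desc]
  | succ n ih =>
    have h1 : (t.desc (n + 1) p).card ≤ (D + 1) * (D + 2) ^ n :=
      (card_biUnion_le.trans (sum_le_card_nsmul _ _ _ fun c _ => ih c)).trans
        (Nat.mul_le_mul_right _ (t.card_ch_le p))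
    have h2 : 1 ≤ (D + 2) ^ n := Nat.one_le_pow _ _ (by omega)
    refine (card_insert_le _ _).trans ?_
    rw [pow_succ]; nlinarith

lemma Fits.ub_mg (ht : t.Fits G) (h0 : 0 ≤ θ) (h1 : θ < 1) (hμ : IsFreeIsing G θ μ)
    (hu : ∀ i, P i → 0 ≤ u i ∧ u i ≤ 1) (k : ℕ) (c : V) :
    UB (t.Sp k c) P (fun i x => t.mg θ (u i) x k c) := by
  have e : ∀ u x, t.mg θ u x k c =
      Et μ ((isingMd μ hμ.1).lw (t.Sp k c) u x) fun σ => sgn (σ c) := fun u x => by
    have a1 := ht.integral_lw_root u x hμ k c sgn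
    have a2 := ht.integral_lw_root u x hμ k c fun _ => 1
    simp only [mul_one, one_mul] at a2
    rw [Et, a1, a2, mg, mag, div_div_div_cancel_right₀ two_ne_zero]
    simp [sgn, sub_eq_add_neg]
  refine ⟨12, fun i hi => ⟨(t.gp_Zp h0 h1 _ k c).bm_mag.1, fun x =>
    (abs_mag_lt (t.Zp_pos _ x h0 h1 k c)).le.trans (by norm_num), fun x y => ?_⟩⟩
  have := (isingMd μ hμ.1).Et_lw_lip (S := t.Sp k c) (bm_sgn c) (fun σ => (abs_sgn _).le)
    (hu i hi).1 y (x - y)
  rw [add_sub_cancel] at this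
  simp only [e]
  refine this.trans (mul_le_mul_of_nonneg_left ?_ (by norm_num))
  exact mul_le_of_le_one_left (nS_nonneg _ _) (hu i hi).2

lemma Fits.ub_gg (ht : t.Fits G) (h0 : 0 ≤ θ) (h1 : θ < 1) (hμ : IsFreeIsing G θ μ)
    (hu : ∀ i, P i → 0 ≤ u i ∧ u i ≤ 1) (k : ℕ) (c : V) :
    UB (t.Sb k c) P (fun i x => t.gg θ (u i) x k c) := by
  have a := (ht.ub_mg h0 h1 hμ hu k c).subset (t.Sp_subset_Sb k c)
  exact (UB.const' 0).max ((UB.const' _).min (((UB.const' _).mul (((UB.const' _).mul (a.pow 2)).sub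
    ((UB.const' _).mul ((ub_om hu (mem_insert_self _ _)).pow 2)))).sub
    ((UB.const' _).mul (a.pow 4))))

lemma Fits.ub_Y (ht : t.Fits G) (h0 : 0 ≤ θ) (h1 : θ < 1) (hμ : IsFreeIsing G θ μ)
    (hu : ∀ i, P i → 0 ≤ u i ∧ u i ≤ 1) (R j : ℕ) {w : V} (hw : t.lev w + j ≤ R) :
    UB (t.Sp (R - t.lev w) w) P fun i x => t.Y θ (u i) x R j w := by
  induction j generalizing w with
  | zero => exact UB.const' 1
  | succ j ih =>
    simp only [Y_succ]
    refine UB.sum _ fun c hc => ?_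
    rw [t.sub_lev hc (by omega)]
    exact (((UB.const' _).mul ((UB.const' _).sub (ht.ub_gg h0 h1 hμ hu _ c))).mul
      ((ih (by have := t.lev_ch hc; omega)).subset (t.Sp_subset_Sb _ c))).subset
      (t.Sb_subset hc _)

lemma Fits.ub_Yb (ht : t.Fits G) (h0 : 0 ≤ θ) (h1 : θ < 1) (hμ : IsFreeIsing G θ μ)
    (hu : ∀ i, P i → 0 ≤ u i ∧ u i ≤ 1) (R k j : ℕ) {w : V} (hw : t.lev w + k + j ≤ R) :
    UB (t.Sp (R - t.lev w) w) P fun i x => t.Yb θ (u i) x R k j w := by
  induction k generalizing w with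
  | zero => exact ht.ub_Y h0 h1 hμ hu R j hw
  | succ k ih =>
    simp only [Yb_succ]
    refine UB.sum _ fun c hc => ?_
    rw [t.sub_lev hc (by omega)]
    exact ((UB.const' _).mul
      ((ih (by have := t.lev_ch hc; omega)).subset (t.Sp_subset_Sb _ c))).subset
      (t.Sb_subset hc _)

end RT

theorem RT.Fits.psi {V : Type} {D : ℕ} {G : SimpleGraph V} {t : RT V D} {th : ℝ}
    {mu : Measure (V → Bool)} (ht : t.Fits G) (hD : 2 ≤ D) (h0 : 0 ≤ th) (hth : th ^ 2 * D = 1)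
    (hmu : IsFreeIsing G th mu) :
    ∃ n0 : ℕ, ∀ (M : ℕ → ℕ) (b : ℕ → ℝ) (R : ℕ), ∃ ψ : ℕ → ℝ → (Sym2 V → ℝ) → ℝ,
      UB (t.Sp R t.o) (fun i : ℕ × ℝ => 0 ≤ i.2 ∧ i.2 ≤ 1) (fun i x => b i.1 * ψ i.1 i.2 x) ∧
      (∀ n u x, 0 ≤ ψ n u x) ∧
      (∀ n u x, 0 < u → ψ n u x < 1 → t.Good th u R (M n) n (n ^ 2) (n ^ 3) x) ∧
      ∀ n, n0 ≤ n → ∀ u : ℝ, 1 / ((n : ℝ) + 1) ^ 4 ≤ u → u ≤ 1 / (n : ℝ) ^ 4 →
        ∫ x, ψ n u x ∂(isingMd mu hmu.1).rho u ≤
          ((D : ℝ) + 2) ^ (M n) * Real.exp (-((D : ℝ) ^ n * u ^ 4 / 4)) := by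
  obtain ⟨n0, hn0⟩ := RT.block_bound (V := V) hD h0 hth
  obtain ⟨t1, t2, -⟩ := crit_facts hD h0 hth
  have h1 : th < 1 := by linarith
  have hD' : (0 : ℝ) < D := by exact_mod_cast (by omega : 0 < D)
  refine ⟨n0, fun M b R => ?_⟩
  let A : ℕ → Finset V := fun n =>
    (t.desc (M n) t.o).filter fun z => t.lev z + n + n ^ 2 + n ^ 3 ≤ R
  let φ : ℕ → ℝ → V → (Sym2 V → ℝ) → ℝ := fun n u z x => Real.exp ((D : ℝ) ^ n * u ^ 2 / 2 *
    (t.Yb th u x R n (n ^ 2) z - ∏ l ∈ Ioc (t.lev z) (t.lev z + n + n ^ 2), yl D th u R l ^ 2))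
  have hA : ∀ n z, z ∈ A n ↔ (z ≠ t.o ∧ t.lev z ≤ M n) ∧ t.lev z + n + n ^ 2 + n ^ 3 ≤ R :=
    fun n z => by simp only [A, mem_filter, t.mem_desc_o]
  refine ⟨fun n u x => ∑ z ∈ A n, φ n u z x, ?_,
    fun n u x => sum_nonneg fun _ _ => (Real.exp_pos _).le, fun n u x hu h z a1 a2 a3 => ?_,
    fun n hn u u0 u1 => ?_⟩
  · have e : (fun (i : ℕ × ℝ) x => b i.1 * ∑ z ∈ A i.1, φ i.1 i.2 z x) = fun i x =>
        ∑ n ∈ range (R + 1), (if i.1 = n then b n else 0) * ∑ z ∈ A n, φ n i.2 z x := by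
      funext i x
      simp only [ite_mul, zero_mul, sum_ite_eq, mem_range]
      split_ifs with h
      · rfl
      · rw [sum_eq_zero fun z hz => absurd ((hA _ z).1 hz).2 (by omega), mul_zero]
    rw [e]
    refine UB.sum _ fun n _ => (UB.const |b n| fun i _ => by split_ifs <;> simp).mul
      (UB.sum _ fun z hz => UB.exp (UB.mul (UB.const ((D : ℝ) ^ n) fun i hi => ?_) (UB.sub ?_
        (UB.const 1 fun i _ => ?_))))
    · have : i.2 ^ 2 ≤ 1 := pow_le_one₀ hi.1 hi.2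
      rw [abs_of_nonneg (by positivity)]
      nlinarith [pow_pos hD' n]
    · obtain ⟨⟨a1, -⟩, a3⟩ := (hA n z).1 hz
      refine (ht.ub_Yb h0 h1 hmu (fun i hi => hi) R n (n ^ 2) (by omega)).subset
        (image_subset_image ((subset_insert _ _).trans (RT.sub_subset ?_)))
      exact (t.mem_desc_o _ _).2 ⟨a1, by omega⟩
    · have hy : ∀ l, 0 ≤ yl D th i.2 R l ^ 2 ∧ yl D th i.2 R l ^ 2 ≤ 1 := fun l => by
        have := mul_nonneg (by linarith : 0 ≤ 1 - th ^ 2)
          (Xs_nonneg (by linarith : 0 ≤ 1 - th ^ 2) (sq0_nonneg D i.2) (R + 1 - l))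
        exact ⟨sq_nonneg _, pow_le_one₀ (by unfold yl; positivity)
          (div_le_one_of_le₀ (by linarith) (by linarith))⟩
      rw [abs_of_nonneg (prod_nonneg fun l _ => (hy l).1)]
      exact prod_le_one (fun l _ => (hy l).1) fun l _ => (hy l).2
  · have := (single_le_sum (f := fun z => φ n u z x) (fun _ _ => (Real.exp_pos _).le)
      ((hA n z).2 ⟨⟨a1, a2⟩, a3⟩)).trans_lt h
    rw [Real.exp_lt_one_iff] at this
    exact sub_nonpos.1 (nonpos_of_mul_nonpos_right this.le (by positivity))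
  · have hL : ∀ z ∈ A n, Loc (t.Sp (R - t.lev z) z) (φ n u z) := fun z hz =>
      ((Loc.const _ _).mul ((t.loc_Yb u h0 h1 R n (n ^ 2)
        (by have := ((hA n z).1 hz).2; omega)).sub (Loc.const _ _))).exp
    rw [integral_finsetSum _ fun z hz => (hL z hz).1.int _]
    refine (sum_le_card_nsmul _ _ (Real.exp (-((D : ℝ) ^ n * u ^ 4 / 4))) fun z hz => ?_).trans ?_
    · obtain ⟨⟨a1, -⟩, a3⟩ := (hA n z).1 hz
      have a4 := fun x => ht.integral_lw_root u x hmu (R - t.lev z) z fun _ => 1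
      have b1 := hn0 n hn u u0 u1 t R z true a1 a3
      have b2 := hn0 n hn u u0 u1 t R z false a1 a3
      simp only [mul_one, one_mul] at a4
      rw [Md.integral_rho_eq _ u (hL z hz).1 (hL z hz).2]
      change ∫ x, (∫ σ, _ ∂mu) * φ n u z x ∂_ ≤ _
      simp only [a4, div_mul_eq_mul_div, add_mul]
      rw [integral_div, integral_add ((hL z hz).1.int_mul (t.integral_Zp th u _ z true).1)
        ((hL z hz).1.int_mul (t.integral_Zp th u _ z false).1)]
      linarith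
    · rw [nsmul_eq_mul]
      refine mul_le_mul_of_nonneg_right ?_ (Real.exp_pos _).le
      exact_mod_cast (card_le_card ((filter_subset _ _).trans (subset_insert _ _))).trans
        (t.card_sub_le (M n) t.o)

end Vale.Agent.P161
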