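import Vale.Agent.P161.Crude
import Vale.Agent.P161.Assemble
import Vale.Agent.P161.Converse

/-! The strictly subcritical case, and the choice of the final time. -/

namespace Vale.Agent.P161

open Finset MeasureTheory Filter Topology

variable {V : Type} {D : ℕ} {G : SimpleGraph V}

lemma exists_final_time {θ : ℝ} (h0 : 0 ≤ θ) (h1 : θ < 1) :
    ∃ T : ℝ, 0 ≤ T ∧ (1 + θ) * Real.exp (-T ^ 2 / 2) = 1 - θ := by
  have a1 : 0 < 1 - θ := by linarith
  have a2 : 0 ≤ Real.log ((1 + θ) / (1 - θ)) :=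
    Real.log_nonneg ((one_le_div a1).2 (by linarith))
  refine ⟨√(2 * Real.log ((1 + θ) / (1 - θ))), Real.sqrt_nonneg _, ?_⟩
  rw [Real.sq_sqrt (by positivity), show -(2 * Real.log ((1 + θ) / (1 - θ))) / 2 =
    -Real.log ((1 + θ) / (1 - θ)) by ring, Real.exp_neg, Real.exp_log (by positivity)]
  field_simp

theorem fiid_sub (hG : IsRegularTree G (D + 1)) (hD : 1 ≤ D) {θ : ℝ} (h0 : 0 ≤ θ)
    (hθ : θ ^ 2 * D < 1) {μ : Measure (V → Bool)} (hμ : IsFreeIsing G θ μ) :
    IsFactorOfIID G μ := by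
  have hD' : (1 : ℝ) ≤ D := by exact_mod_cast hD
  have h1 : θ < 1 := by nlinarith
  obtain ⟨T, hT0, hT⟩ := exists_final_time h0 h1
  have h2 : θ * √D < 1 := by
    rw [← Real.sqrt_sq h0, ← Real.sqrt_mul (sq_nonneg _), Real.sqrt_lt' one_pos]
    rwa [one_pow]
  refine fiid_of_cauchy hG h1 hT0 hT hμ fun v η hη => ?_
  obtain ⟨t, rfl, ht⟩ := exists_RT hG v
  refine ht.cauchy hD h0 h1 hμ hT0 hT (fun η hη => ⟨0, min (1 - θ * √D) (1 / 2),
    lt_min (by linarith) (by norm_num), min_le_right _ _, fun u _ _ => ?_,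
    fun R => Eventually.of_forall fun n => ?_⟩) hη
  · have := mul_le_mul_of_nonneg_right (thp_lt_one h0 h1 u) (Real.sqrt_nonneg D)
    linarith [min_le_left (1 - θ * √D) (1 / 2)]
  · rw [filter_false_of_mem fun k _ => not_lt.2 (mul_nonneg (Nat.cast_nonneg k)
      (hh_nonneg hT0 n)), sum_empty]
    exact hη.le

end Vale.Agent.P161
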