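import Vale.Agent.P161.Step1
import Vale.Agent.P161.Psi
import Vale.Agent.P161.Asym
import Vale.Agent.P161.Sub

/-! The critical case. -/

namespace Vale.Agent.P161

open Finset Function MeasureTheory Filter Topology
open scoped Classical

variable {V : Type} {D : ℕ} {G : SimpleGraph V}

theorem RT.Fits.stepOK {t : RT V D} {θ T : ℝ} {μ : Measure (V → Bool)} (ht : t.Fits G)
    (hD : 2 ≤ D) (h0 : 0 ≤ θ) (hθ : θ ^ 2 * D = 1) (hμ : IsFreeIsing G θ μ) (hT0 : 0 < T)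
    (hT : (1 + θ) * Real.exp (-T ^ 2 / 2) = 1 - θ) : ∃ ε : ℝ, 0 < ε ∧ 2 * ε ≤ 1 ∧ 2 * ε ≤ T ∧
      t.StepOK (isingMd μ hμ.1) T (16 * c0G D + 1)
        ((c0G D + c1G D θ) * (1 + 2 * aD D) / aD D) ε := by
  have hD' : (2 : ℝ) ≤ D := by exact_mod_cast hD
  have h1 : θ < 1 := by nlinarith
  have ha := aD_pos D
  have hc := c0G_pos D
  have hc' := cD_pos D
  set C1 := 16 * c0G D + 1 + 60 + 144 * (2 * cD D) + 144 * (2 * cD D) * T ^ 2 + 2 * √(D + 1)
  set C2 := (202 + 8 * c0G D) * (1 + 2 * aD D)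
  have c1 : 0 ≤ C1 := by positivity
  have c2 : 0 ≤ C2 := by positivity
  obtain ⟨n0, hψ⟩ := ht.psi hD h0 hθ hμ
  obtain ⟨n1, M, b, hb⟩ := asymp D hD (C1 + C2) (by positivity)
  set N := n0 + n1 + 1
  have N1 : (1 : ℝ) ≤ N := by exact_mod_cast (by omega : 1 ≤ N)
  have e1 : 1 / (N : ℝ) ^ 4 ≤ 1 := by
    rw [div_le_one (by positivity)]; exact one_le_pow₀ N1
  have e2 : 2 * (min (1 / (N : ℝ) ^ 4) T / 2) = min (1 / (N : ℝ) ^ 4) T := by ring
  choose! nu hnu using exists_scale N (by omega)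
  refine ⟨min (1 / (N : ℝ) ^ 4) T / 2, half_pos (lt_min (by positivity) hT0),
    e2.trans_le ((min_le_left _ _).trans e1), e2.trans_le (min_le_right _ _), fun R => ?_⟩
  obtain ⟨ψ, ⟨K, hK⟩, ψ0, ψ1, ψ2⟩ := hψ M b R
  have hK' : ∀ u, 0 < u ∧ u ≤ 2 * (min (1 / (N : ℝ) ^ 4) T / 2) →
      BL (t.Sp R t.o) K fun x => b (nu u) * ψ (nu u) u x := fun u hu =>
    hK (nu u, u) ⟨hu.1.le, hu.2.trans (e2.trans_le ((min_le_left _ _).trans e1))⟩
  refine ⟨fun u x => 2 + 2 * (b (nu u) * ψ (nu u) u x),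
    (UB.const' 2).add ((UB.const' 2).mul ⟨K, hK'⟩), fun u u0 u1 => ?_⟩
  have bm := (hK' u ⟨u0, u1⟩).bm
  rw [e2, le_min_iff] at u1
  obtain ⟨n2, n3, n4⟩ := hnu u u0 u1.1
  obtain ⟨b1, b2, b3, b4⟩ := hb _ (by omega) u n3 n4
  have b0 : 0 ≤ b (nu u) := (sq_nonneg _).trans b2
  refine ⟨?_, fun x => ?_⟩
  · rw [integral_add (integrable_const _) (((BM.const _).mul bm).int _), integral_const,
      probReal_univ, one_smul, integral_const_mul, integral_const_mul]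
    linarith [mul_le_mul_of_nonneg_left (ψ2 _ (by omega) u n3 n4) b0]
  have p0 := mul_nonneg b0 (ψ0 (nu u) u x)
  refine ⟨by positivity, ht.step1 hD h0 hθ hμ u0 (u1.1.trans e1)
    (thp_nonneg h0 h1 u0.le u1.2 hT) (i := nu u) (j := nu u ^ 2) (l := nu u ^ 3) (by omega)
    (le_trans (by gcongr; linarith) b4) x R (M (nu u)) (Real.le_sqrt_of_sq_le ?_)⟩
  have a1 := (big_le (a := 16 * c0G D + 1) (L := 2 * cD D) (T := T) (s := 2 * √(D + 1))
    (by positivity) (by positivity) (by positivity) u0 (u1.1.trans e1)).trans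
    (Real.exp_le_exp.2 (div_le_div_of_nonneg_right (le_add_of_nonneg_right c2) (by positivity)))
  rw [mul_right_comm, BA]
  set Z := Real.exp ((C1 + C2) / u ^ 4)
  have z0 : 0 ≤ Z := (Real.exp_pos _).le
  have a2 : Z * ((1 + u ^ 2 / 12 / 5) ^ M (nu u))⁻¹ ≤ 1 :=
    (mul_inv_le_iff₀ (by positivity)).2 (by rwa [one_mul])
  have a3 : 0 ≤ Z * ((1 + u ^ 2 / 12 / 5) ^ M (nu u))⁻¹ := by positivity
  refine (pow_le_pow_left₀ (by split_ifs <;> positivity) (mul_le_mul_of_nonneg_right a1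
    (by split_ifs <;> positivity)) 2).trans ?_
  rw [mul_add]
  split_ifs with hg
  · rw [mul_zero, add_zero]
    exact (pow_le_one₀ a3 a2).trans (by linarith only [p0])
  · have a4 := le_mul_of_one_le_right b0 (not_lt.1 fun h => hg (ψ1 _ u x u0 h))
    rw [mul_one]
    exact (add_sq_le.trans_eq (mul_add _ _ _)).trans
      (by linarith only [pow_le_one₀ (n := 2) a3 a2, a4, b2])

theorem fiid_crit (hG : IsRegularTree G (D + 1)) (hD : 2 ≤ D) {θ : ℝ} (h0 : 0 ≤ θ)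
    (hθ : θ ^ 2 * D = 1) {μ : Measure (V → Bool)} (hμ : IsFreeIsing G θ μ) :
    IsFactorOfIID G μ := by
  have hD' : (2 : ℝ) ≤ D := by exact_mod_cast hD
  have h1 : θ < 1 := by nlinarith
  obtain ⟨T, hT0, hT⟩ := exists_final_time h0 h1
  have hT1 : 0 < T := hT0.lt_of_ne fun h => by
    subst h
    have : θ = 0 := by simp at hT; linarith
    simp [this] at hθ
  refine fiid_of_cauchy hG h1 hT0 hT hμ fun v η hη => ?_
  obtain ⟨t, rfl, ht⟩ := exists_RT hG v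
  refine ht.cauchy (by omega) h0 h1 hμ hT0 hT (fun η hη => ?_) hη
  obtain ⟨ε, e0, e1, e2, H⟩ := ht.stepOK hD h0 hθ hμ hT1 hT
  have ha := aD_pos D
  have hc := c0G_pos D
  have hc1 : 0 ≤ c1G D θ := by
    have : 0 ≤ 1 - θ ^ 2 := by nlinarith
    unfold c1G; positivity
  obtain ⟨δ, d0, d1, hδ⟩ := ht.small hD h0 hθ hμ hT (by linarith) (by positivity) e0 e1 e2 H hη
  exact ⟨δ, δ ^ 2 / 12, by positivity, by nlinarith,
    fun u hu _ => RT.thp_crit hD h0 hθ d0.le d1 hu, hδ⟩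

end Vale.Agent.P161
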