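import Vale.Agent.P161.Gauss
import Vale.Agent.P161.Base

/-! Basic Gaussian computations. -/

namespace Vale.Agent.P161

open Finset MeasureTheory ProbabilityTheory Function
open scoped Classical

variable {E : Type*}

lemma gam_indep {A B : Finset E} (h : Disjoint A B) {f g : (E → ℝ) → ℝ} (hf : Measurable f)
    (hg : Measurable g) (df : DependsOn f A) (dg : DependsOn g B) : IndepFun f g (gam E) := by
  have h1 := (iIndepFun_infinitePi (P := fun _ : E => gaussianReal 0 1) (X := fun _ x => x)
    (fun _ => measurable_id)).indepFun_finset A B h (fun i => measurable_pi_apply i)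
  have key : ∀ (A : Finset E) (f : (E → ℝ) → ℝ), Measurable f → DependsOn f A →
      ∃ F : (A → ℝ) → ℝ, Measurable F ∧ f = F ∘ fun (a : E → ℝ) (i : A) => a i := by
    intro A f hf df
    refine ⟨fun y => f fun e => if h : e ∈ A then y ⟨e, h⟩ else 0, hf.comp
      (measurable_pi_lambda _ fun e => ?_), funext fun a => df fun e he => ?_⟩
    · split_ifs
      exacts [measurable_pi_apply _, measurable_const]
    · simp [show e ∈ A from he]
  obtain ⟨F, hF, rfl⟩ := key A f hf df
  obtain ⟨G, hG, rfl⟩ := key B g hg dg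
  exact h1.comp hF hG

lemma gam_mul {A B : Finset E} (h : Disjoint A B) {f g : (E → ℝ) → ℝ} (hf : Measurable f)
    (hg : Measurable g) (df : DependsOn f A) (dg : DependsOn g B) :
    ∫ x, f x * g x ∂gam E = (∫ x, f x ∂gam E) * ∫ x, g x ∂gam E :=
  (gam_indep h hf hg df dg).integral_fun_mul_eq_mul_integral hf.aestronglyMeasurable
    hg.aestronglyMeasurable

lemma gam_prod {ι : Type*} (s : Finset ι) {A : ι → Finset E} {f : ι → (E → ℝ) → ℝ}
    (h : ∀ i ∈ s, ∀ j ∈ s, i ≠ j → Disjoint (A i) (A j)) (hf : ∀ i ∈ s, Measurable (f i))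
    (df : ∀ i ∈ s, DependsOn (f i) (A i)) :
    ∫ x, ∏ i ∈ s, f i x ∂gam E = ∏ i ∈ s, ∫ x, f i x ∂gam E ∧
      ((∀ i ∈ s, Integrable (f i) (gam E)) → Integrable (fun x => ∏ i ∈ s, f i x) (gam E)) := by
  induction s using Finset.induction_on with
  | empty => simp
  | insert i s hi ih =>
    have m := mem_insert_self i s
    have m' := @mem_insert_of_mem _ _ s
    obtain ⟨ih1, ih2⟩ := ih (fun a ha b hb => h a (m' ha) b (m' hb)) (fun a ha => hf a (m' ha))
      fun a ha => df a (m' ha)
    have hd : Disjoint (A i) (s.biUnion A) := (disjoint_biUnion_right _ _ _).2 fun a ha =>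
      h i m a (m' ha) fun h' => hi (h' ▸ ha)
    have hm : Measurable fun x => ∏ i ∈ s, f i x :=
      Finset.measurable_prod _ fun a ha => hf a (m' ha)
    have dp : DependsOn (fun x => ∏ i ∈ s, f i x) (s.biUnion A) := fun x y hxy =>
      prod_congr rfl fun a ha => df a (m' ha) fun e he =>
        hxy e (mem_coe.2 (mem_biUnion.2 ⟨a, ha, he⟩))
    simp only [prod_insert hi]
    exact ⟨by rw [gam_mul hd (hf i m) hm (df i m) dp, ih1], fun hI =>
      (gam_indep hd (hf i m) hm (df i m) dp).integrable_mul (hI i m)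
        (ih2 fun a ha => hI a (m' ha))⟩

/-- Changing the signs of the coordinates in `A` preserves the Gaussian measure. -/
lemma integral_flip (A : Set E) {f : (E → ℝ) → ℝ} (hf : Measurable f) :
    ∫ x, f (fun e => if e ∈ A then -x e else x e) ∂gam E = ∫ x, f x ∂gam E := by
  have hm : ∀ e, Measurable fun y : ℝ => if e ∈ A then -y else y := fun e => by
    split_ifs <;> fun_prop
  have h := Measure.infinitePi_map_pi (fun _ : E => gaussianReal 0 1)
    (f := fun e y => if e ∈ A then -y else y) hm
  have h2 : ∀ e, (gaussianReal 0 1).map (fun y : ℝ => if e ∈ A then -y else y) =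
      gaussianReal 0 1 := fun e => by
    split_ifs
    · simpa using gaussianReal_map_neg (μ := 0) (v := 1)
    · exact Measure.map_id
  simp only [h2] at h
  conv_rhs => rw [gam, ← h]
  exact (integral_map (measurable_pi_lambda _ fun e =>
    (hm e).comp (measurable_pi_apply e)).aemeasurable hf.aestronglyMeasurable).symm

lemma ew_eq (θ u y : ℝ) (σ τ : Bool) : ew θ u y σ τ = (1 + θ * (sgn σ * sgn τ)) / 2 *
    Real.exp (u * ((sgn σ + sgn τ) / 2) * y - (u * ((sgn σ + sgn τ) / 2)) ^ 2 / 2) := by
  rw [ew]; congr 2; ring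

lemma ew_neg (θ u y : ℝ) (σ τ : Bool) : ew θ u (-y) σ τ = ew θ u y (!σ) (!τ) := by
  cases σ <;> cases τ <;> simp [ew, sgn]

lemma measurable_ew (θ u : ℝ) (e : E) (σ τ : Bool) :
    Measurable fun x : E → ℝ => ew θ u (x e) σ τ := by unfold ew; fun_prop

lemma integrable_ew (θ u : ℝ) (e : E) (σ τ : Bool) :
    Integrable (fun x : E → ℝ => ew θ u (x e) σ τ) (gam E) := by
  simpa only [ew_eq, sum_singleton] using
    (integrable_exp_lin {e} fun _ => u * ((sgn σ + sgn τ) / 2)).const_mul _

/-- Gaussian integral against an edge weight: a shift of the coordinate. -/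
lemma integral_ew (θ u : ℝ) (e : E) (σ τ : Bool) {g : ℝ → ℝ} (hg : Measurable g) :
    ∫ x, ew θ u (x e) σ τ * g (x e) ∂gam E = (1 + θ * (sgn σ * sgn τ)) / 2 *
      ∫ x, g (x e + u * ((sgn σ + sgn τ) / 2)) ∂gam E := by
  have := integral_shift {e} (fun _ => u * ((sgn σ + sgn τ) / 2)) (H := fun x => g (x e))
    (hg.comp (measurable_pi_apply e)) fun x y h => by simp only [h e (by simp)]
  simp only [sum_singleton, Pi.add_apply] at this
  simp only [ew_eq, mul_assoc, integral_const_mul, this]

end Vale.Agent.P161
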