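import Vale.Agent.P161.Tree
import Vale.Agent.P161.GaussB

/-! Definitions for the analysis of the messages, and basic Gaussian computations. -/

namespace Vale.Agent.P161

open Finset MeasureTheory ProbabilityTheory Function
open scoped Classical

variable {V : Type} {D : ℕ} {E : Type*}

namespace RT

variable (t : RT V D) (θ u : ℝ)

lemma measurable_Zp (n : ℕ) (p : V) (τ : Bool) : Measurable fun x => t.Zp θ u x n p τ := by
  induction n generalizing p τ with
  | zero => exact measurable_const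
  | succ n ih =>
    exact Finset.measurable_prod _ fun c _ => Finset.measurable_sum _ fun σ _ =>
      (measurable_ew θ u _ σ τ).mul (ih c σ)

lemma measurable_zb (n : ℕ) (c : V) (τ : Bool) : Measurable fun x => t.zb θ u x n c τ :=
  Finset.measurable_sum _ fun σ _ => (measurable_ew θ u _ σ τ).mul (t.measurable_Zp θ u n c σ)

/-- The observed edges of the branch through `c`. -/
noncomputable def Sb (n : ℕ) (c : V) : Finset (Sym2 V) := insert (t.ed c) (t.Sp n c)

lemma Sb_eq (n : ℕ) (c : V) : t.Sb n c = (t.sub n c).image t.ed := by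
  rw [Sb, sub, image_insert, Sp]

lemma Sb_subset {p c : V} (hc : c ∈ t.ch p) (n : ℕ) : t.Sb n c ⊆ t.Sp (n + 1) p := by
  rw [Sb_eq]
  exact image_subset_image fun v hv => mem_biUnion.2 ⟨c, hc, hv⟩

lemma ne_o_of_mem_sub {n : ℕ} {c v : V} (hc : c ≠ t.o) (hv : v ∈ t.sub n c) : v ≠ t.o := by
  rcases mem_insert.1 hv with rfl | hv
  exacts [hc, (t.par_mem_sub hv).1]

lemma ed_notMem {c : V} (hc : c ≠ t.o) (n : ℕ) : t.ed c ∉ t.Sp n c := fun h => by
  obtain ⟨a, ha, h⟩ := mem_image.1 h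
  exact t.notMem_desc n c (t.ed_inj (t.par_mem_sub ha).1 hc h ▸ ha)

lemma disjoint_Sb {p a b : V} (ha : a ∈ t.ch p) (hb : b ∈ t.ch p) (hab : a ≠ b) (n : ℕ) :
    Disjoint (t.Sb n a) (t.Sb n b) := by
  rw [Sb_eq, Sb_eq, disjoint_left]
  intro e h1 h2
  obtain ⟨v, hv, rfl⟩ := mem_image.1 h1
  obtain ⟨w, hw, h⟩ := mem_image.1 h2
  obtain rfl := t.ed_inj (t.ne_o_of_mem_sub ((t.mem_ch _ _).1 hb).1 hw)
    (t.ne_o_of_mem_sub ((t.mem_ch _ _).1 ha).1 hv) h
  exact disjoint_left.1 (t.disjoint_sub hab ((t.lev_ch ha).trans (t.lev_ch hb).symm) n) hv hw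

lemma dep_Zp (n : ℕ) (p : V) (τ : Bool) : DependsOn (fun x => t.Zp θ u x n p τ) (t.Sp n p) := by
  induction n generalizing p τ with
  | zero => exact fun _ _ _ => rfl
  | succ n ih =>
    refine fun x y h => prod_congr rfl fun c hc => sum_congr rfl fun σ _ => ?_
    rw [h _ (t.Sb_subset hc n (mem_insert_self _ _)),
      show t.Zp θ u x n c σ = t.Zp θ u y n c σ from
        ih c σ fun e he => h e (t.Sb_subset hc n (mem_insert_of_mem he))]

lemma dep_zb (n : ℕ) (c : V) (τ : Bool) : DependsOn (fun x => t.zb θ u x n c τ) (t.Sb n c) :=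
  fun x y h => sum_congr rfl fun σ _ => by
    rw [h _ (mem_insert_self _ _), show t.Zp θ u x n c σ = t.Zp θ u y n c σ from
      t.dep_Zp θ u n c σ fun e he => h e (mem_insert_of_mem he)]

lemma Zp_neg (x : Sym2 V → ℝ) (n : ℕ) (p : V) (τ : Bool) :
    t.Zp θ u (-x) n p τ = t.Zp θ u x n p (!τ) := by
  induction n generalizing p τ with
  | zero => rfl
  | succ n ih =>
    refine prod_congr rfl fun c _ => ?_
    simp only [Fintype.sum_bool, Pi.neg_apply, ew_neg, ih, Bool.not_true, Bool.not_false]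
    ring

/-- Branch expectation of a product of a function of the edge and a function of the subtree. -/
lemma integral_zb {c : V} (hc : c ≠ t.o) (n : ℕ) (τ : Bool) {g : ℝ → ℝ} (hg : Measurable g)
    {H : (Sym2 V → ℝ) → ℝ} (hH : Measurable H) (dH : DependsOn H (t.Sp n c))
    (i1 : ∀ σ, Integrable (fun x => ew θ u (x (t.ed c)) σ τ * g (x (t.ed c))) (gam (Sym2 V)))
    (i2 : ∀ σ, Integrable (fun x => t.Zp θ u x n c σ * H x) (gam (Sym2 V))) :
    Integrable (fun x => t.zb θ u x n c τ * (g (x (t.ed c)) * H x)) (gam (Sym2 V)) ∧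
    ∫ x, t.zb θ u x n c τ * (g (x (t.ed c)) * H x) ∂gam (Sym2 V) =
      ∑ σ : Bool, (∫ x, ew θ u (x (t.ed c)) σ τ * g (x (t.ed c)) ∂gam (Sym2 V)) *
        ∫ x, t.Zp θ u x n c σ * H x ∂gam (Sym2 V) := by
  have e : ∀ x, t.zb θ u x n c τ * (g (x (t.ed c)) * H x) = ∑ σ : Bool,
      (ew θ u (x (t.ed c)) σ τ * g (x (t.ed c))) * (t.Zp θ u x n c σ * H x) := fun x => by
    rw [zb, sum_mul]; exact sum_congr rfl fun σ _ => by ring
  have hd : Disjoint {t.ed c} (t.Sp n c) := disjoint_singleton_left.2 (t.ed_notMem hc n)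
  have m1 : ∀ σ, Measurable fun x : Sym2 V → ℝ => ew θ u (x (t.ed c)) σ τ * g (x (t.ed c)) :=
    fun σ => (measurable_ew θ u _ σ τ).mul (hg.comp (measurable_pi_apply _))
  have m2 := fun σ => (t.measurable_Zp θ u n c σ).mul hH
  have d1 : ∀ σ, DependsOn (fun x : Sym2 V → ℝ => ew θ u (x (t.ed c)) σ τ * g (x (t.ed c)))
      ({t.ed c} : Finset _) := fun σ x y h => by simp only [h (t.ed c) (by simp)]
  have d2 : ∀ σ, DependsOn (fun x => t.Zp θ u x n c σ * H x) (t.Sp n c) := fun σ x y h => by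
    simp only [t.dep_Zp θ u n c σ h, dH h]
  have i3 : ∀ σ, Integrable (fun x : Sym2 V → ℝ => (ew θ u (x (t.ed c)) σ τ * g (x (t.ed c))) *
      (t.Zp θ u x n c σ * H x)) (gam (Sym2 V)) :=
    fun σ => (gam_indep hd (m1 σ) (m2 σ) (d1 σ) (d2 σ)).integrable_mul (i1 σ) (i2 σ)
  simp only [e]
  refine ⟨integrable_finsetSum _ fun σ _ => i3 σ, ?_⟩
  rw [integral_finsetSum _ fun σ _ => i3 σ]
  exact sum_congr rfl fun σ _ => gam_mul hd (m1 σ) (m2 σ) (d1 σ) (d2 σ)

lemma integral_Zp (n : ℕ) (p : V) (τ : Bool) :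
    Integrable (fun x => t.Zp θ u x n p τ) (gam (Sym2 V)) ∧
      ∫ x, t.Zp θ u x n p τ ∂gam (Sym2 V) = 1 := by
  induction n generalizing p τ with
  | zero => simp [Zp]
  | succ n ih =>
    have hb : ∀ c ∈ t.ch p, Integrable (fun x => t.zb θ u x n c τ) (gam (Sym2 V)) ∧
        ∫ x, t.zb θ u x n c τ ∂gam (Sym2 V) = 1 := fun c hc => by
      have := t.integral_zb θ u ((t.mem_ch _ _).1 hc).1 n τ (g := fun _ => 1) measurable_const
        (H := fun _ => 1) measurable_const (fun _ _ _ => rfl)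
        (fun σ => by simpa using integrable_ew θ u _ σ τ) fun σ => by simpa using (ih c σ).1
      simp only [integral_ew θ u _ _ _ (g := fun _ => 1) measurable_const] at this
      simp only [mul_one, (ih c _).2, integral_const, probReal_univ, one_smul] at this
      refine ⟨this.1, this.2.trans ?_⟩
      cases τ <;> simp [sgn] <;> ring
    have := gam_prod (t.ch p) (A := t.Sb n) (f := fun c x => t.zb θ u x n c τ)
      (fun a ha b hb hab => t.disjoint_Sb ha hb hab n) (fun c _ => t.measurable_zb θ u n c τ)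
      fun c _ => t.dep_zb θ u n c τ
    exact ⟨this.2 fun c hc => (hb c hc).1,
      this.1.trans (prod_eq_one fun c hc => (hb c hc).2)⟩

/-- The posterior mean of the spin of `p` given the observations below `p`. -/
noncomputable def mg (x : Sym2 V → ℝ) (n : ℕ) (p : V) : ℝ := mag (t.Zp θ u x n p)

/-- Its `k`-th moment under the planted law. -/
noncomputable def mom (k n : ℕ) (p : V) : ℝ :=
  ∫ x, (t.Zp θ u x n p true + t.Zp θ u x n p false) / 2 * t.mg θ u x n p ^ k ∂gam (Sym2 V)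

/-- The random gain in the decay of correlations across the edge above `c`. -/
noncomputable def gg (x : Sym2 V → ℝ) (n : ℕ) (c : V) : ℝ :=
  max 0 (min (1 / 100) (2 * (1 - θ ^ 2) * (39 / 40 * t.mg θ u x n c ^ 2 -
    160 * om u (x (t.ed c)) ^ 2) - (1 - θ ^ 2) ^ 2 * t.mg θ u x n c ^ 4))

/-- The weighted sum over the children. -/
noncomputable def Tr (r f : V → ℝ) (z : V) : ℝ := ∑ c ∈ t.ch z, r c * f c

noncomputable def rq (x : Sym2 V → ℝ) (R : ℕ) (c : V) : ℝ :=
  θ ^ 2 * (1 - t.gg θ u x (R - t.lev c) c)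

noncomputable def Y (x : Sym2 V → ℝ) (R j : ℕ) : V → ℝ := (t.Tr (t.rq θ u x R))^[j] 1

/-- The block average. -/
noncomputable def Yb (x : Sym2 V → ℝ) (R i j : ℕ) : V → ℝ :=
  (t.Tr fun _ => θ ^ 2)^[i] (t.Y θ u x R j)

end RT

end Vale.Agent.P161
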