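import Vale.Agent.P161.Levels
import Vale.Agent.P161.Cauchy

/-! Deterministic bounds and the reduction to small times. -/

namespace Vale.Agent.P161

open Finset Function MeasureTheory Filter Topology
open scoped Classical

variable {V : Type} {D : ℕ} {G : SimpleGraph V}

noncomputable def cD (D : ℕ) : ℝ := 8 * (1 + √(D + 1)) ^ 2

lemma cD_pos (D : ℕ) : 0 < cD D := by unfold cD; positivity

noncomputable def Kdet (D : ℕ) (γ : ℝ) (n n' : ℕ) : ℝ :=
  Gk (cD D) (cD D) (fun _ => 1 - γ) (n + 1) (n' + 1)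

lemma Gk_mono {c0 c1 c0' c1' : ℝ} (h0 : c0 ≤ c0') (h1 : c1 ≤ c1') {y : ℕ → ℝ}
    (hy : ∀ l, 0 ≤ y l) (n n' : ℕ) : Gk c0 c1 y n n' ≤ Gk c0' c1' y n n' :=
  sum_le_sum fun m _ => mul_le_mul_of_nonneg_right (by split_ifs <;> assumption)
    (mul_nonneg (Pm_nonneg hy _ _) (Pm_nonneg hy _ _))

lemma Kdet_le {γ : ℝ} (h0 : 0 ≤ γ) (h1 : γ ≤ 1) (n' n : ℕ) :
    Kdet D γ n' n ≤ cD D * ((n' + 1 : ℕ) + 1) := by
  have hP : ∀ m k, Pm (fun _ => 1 - γ) m k ≤ 1 := fun m k =>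
    prod_le_one (fun _ _ => by linarith) fun _ _ => by linarith
  rw [Kdet, Gk]
  refine (sum_le_card_nsmul _ _ (cD D) fun m _ => ?_).trans ?_
  · rw [ite_self]
    exact mul_le_of_le_one_right (cD_pos D).le (mul_le_one₀ (hP _ _)
      (Pm_nonneg (fun _ => by linarith) _ _) (hP _ _))
  · rw [card_range, nsmul_eq_mul, mul_comm]
    exact mul_le_mul_of_nonneg_left (by exact_mod_cast (by omega)) (cD_pos D).le

lemma sum_Kdet {γ Ω : ℝ} (hγ : 0 < γ) (hγ1 : γ ≤ 1) (hΩ : 1 ≤ Ω) (hΩ' : Ω ≤ 1 + γ / 2) {R n' : ℕ}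
    (hn : n' < R) : ∑ n ∈ range R, Ω ^ (n + 1) * Kdet D γ n' n ≤
      2 * cD D / γ ^ 2 * Ω ^ (n' + 1) :=
  sum_Gk_const (cD_pos D).le (cD_pos D).le le_rfl le_rfl hγ hγ1 hΩ hΩ' hn

noncomputable def BA (D : ℕ) (T γ : ℝ) : ℝ :=
  Real.exp (T * (2 * cD D / γ ^ 2) * T) * (2 * √(D + 1))

namespace RT

variable {t : RT V D} {θ T : ℝ} {μ : Measure (V → Bool)}

lemma Ti_const (t : RT V D) (a : ℝ) (j : ℕ) {z : V} (hz : z ≠ t.o) :
    (t.Tr fun _ => a)^[j] 1 z = (a * D) ^ j := by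
  induction j generalizing z with
  | zero => simp
  | succ j ih =>
    rw [iterate_succ_apply', Tr, sum_congr rfl fun c hc => by rw [ih ((t.mem_ch _ _).1 hc).1],
      sum_const, t.card_ch z hz, nsmul_eq_mul]
    ring

lemma Fits.kb_det (ht : t.Fits G) (hD : 1 ≤ D) (h0 : 0 ≤ θ) (h1 : θ < 1)
    (hμ : IsFreeIsing G θ μ) {u γ : ℝ} (hp : 0 ≤ thp θ u) (hγ0 : 0 ≤ γ) (hγ : γ ≤ 1 / 2)
    (hu : thp θ u * √D ≤ 1 - γ) (x : Sym2 V → ℝ) (R : ℕ) :
    t.KB R ((isingMd μ hμ.1).cv (t.Sp R t.o) u x) (Kdet D γ) := by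
  have hD' : (1 : ℝ) ≤ D := by exact_mod_cast hD
  have hs : 0 < √(D : ℝ) := Real.sqrt_pos.2 (by linarith)
  have e : ((1 - γ) / √D) ^ 2 * D = (1 - γ) ^ 2 := by
    rw [div_pow, Real.sq_sqrt (by linarith)]; field_simp
  obtain ⟨C, hC, hle⟩ := ht.cv_le h0 h1 hμ u x R (r := fun _ => (1 - γ) / √D) fun a =>
    (rr_bounds h0 h1 hp _ (t.Zp_pos u x h0 h1 _ a)).1.trans ((le_div_iff₀ hs).2 hu)
  have hy : ∀ _ : ℕ, 0 ≤ 1 - γ := fun _ => by linarith
  intro n hn n' hn'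
  refine ⟨Gk_nonneg (cD_pos D).le (cD_pos D).le hy _ _, fun f g hf hg => ?_⟩
  refine (sum_le_sum fun p _ => mul_le_mul_of_nonneg_left (sum_le_sum fun q _ =>
    mul_le_mul_of_nonneg_left (hle p q) (hg q)) (hf p)).trans ?_
  refine (hC.edge_le le_rfl (y := fun _ => 1 - γ) (y0 := 1 / 2) (Λ := 1) (cc := 1) (by norm_num)
    (by norm_num) (fun _ => by linarith) le_rfl zero_le_one (fun _ => sub_le_self _ (sq_nonneg _))
    (fun _ => ?_) (fun z j hz _ => ?_) hn hn' hf hg).trans ?_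
  · nlinarith [mul_le_mul_of_nonneg_left hD' (sq_nonneg ((1 - γ) / √D))]
  · rw [t.Ti_const _ _ hz, e, Pm, prod_const, Nat.card_Ioc, Nat.add_sub_cancel_left, one_mul,
      ← pow_mul, ← pow_mul, mul_comm]
  · refine mul_le_mul_of_nonneg_right (Gk_mono (le_of_eq (by rw [cD]; ring)) ?_ hy _ _)
      (mul_nonneg (t.nm_nonneg _ _) (t.nm_nonneg _ _))
    have : √(D : ℝ) ≤ √(D + 1) := Real.sqrt_le_sqrt (by linarith)
    rw [cD]; nlinarith

lemma Fits.Aw_adj (ht : t.Fits G) (hD : 1 ≤ D) (h0 : 0 ≤ θ) (h1 : θ < 1)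
    (hμ : IsFreeIsing G θ μ) (hT : (1 + θ) * Real.exp (-T ^ 2 / 2) = 1 - θ) {ε γ Ω h : ℝ}
    (hγ0 : 0 < γ) (hγ : γ ≤ 1 / 2) (hu : ∀ u, ε ≤ u → u ≤ T → thp θ u * √D ≤ 1 - γ)
    (hΩ : 1 ≤ Ω) (hΩ' : Ω ≤ 1 + γ / 2) (hh : 0 ≤ h) (R j k : ℕ) (hk : ε ≤ k * h)
    (hj : (k + j : ℕ) * h ≤ T) (x : Sym2 V → ℝ) :
    t.Aw R (fun n => Ω ^ n) ((isingMd μ hμ.1).adj (t.Sp R t.o) h (av t.o) j k x) ≤ BA D T γ := by
  have hL : 0 ≤ 2 * cD D / γ ^ 2 := by have := cD_pos D; positivity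
  have hT0 : 0 ≤ T := le_trans (by positivity) hj
  have key : t.Aw R (fun n => Ω ^ n) ((isingMd μ hμ.1).adj (t.Sp R t.o) h (av t.o) j k x) ≤
      (1 + h * (T * (2 * cD D / γ ^ 2))) ^ j * (2 * √(D + 1)) := by
    induction j generalizing k x with
    | zero =>
      refine (Aw_av (by positivity)).trans ?_
      rw [pow_zero, one_mul, pow_one]
      exact mul_le_mul_of_nonneg_right (by linarith) (Real.sqrt_nonneg _)
    | succ j ih =>
      have a0 : (0 : ℝ) ≤ k * h := by positivity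
      have a1 : (k : ℝ) * h ≤ T :=
        (mul_le_mul_of_nonneg_right (by exact_mod_cast Nat.le_add_right _ _) hh).trans hj
      have a2 := ih (k + 1) (by push_cast; linarith)
        (by rwa [show k + 1 + j = k + (j + 1) by ring])
        ((isingMd μ hμ.1).step (t.Sp R t.o) h (k * h) x)
      refine ((ht.kb_det hD h0 h1 hμ (thp_nonneg h0 h1 a0 a1 hT) hγ0.le hγ (hu _ hk a1) x
        R).Aw_step _ (mul_nonneg hh a0) (fun n => by positivity) (k := fun n =>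
          2 * cD D / γ ^ 2 * Ω ^ n) fun n' hn' => sum_Kdet hγ0 (by linarith) hΩ hΩ' hn').trans ?_
      set a := (isingMd μ hμ.1).adj (t.Sp R t.o) h (av t.o) j (k + 1)
        ((isingMd μ hμ.1).step (t.Sp R t.o) h (k * h) x)
      have e : t.Aw R (fun n => 2 * cD D / γ ^ 2 * Ω ^ n) a =
          2 * cD D / γ ^ 2 * t.Aw R (fun n => Ω ^ n) a := by
        simp only [Aw, mul_sum, mul_assoc]
      have a3 : 0 ≤ t.Aw R (fun n => Ω ^ n) a := Aw_nonneg (fun n => by positivity) a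
      rw [e, pow_succ' (1 + _), mul_assoc (1 + _)]
      calc _ ≤ (1 + h * (T * (2 * cD D / γ ^ 2))) * t.Aw R (fun n => Ω ^ n) a := by
            have := mul_le_mul_of_nonneg_right (mul_le_mul_of_nonneg_left a1 hh)
              (mul_nonneg hL a3)
            linarith
        _ ≤ _ := mul_le_mul_of_nonneg_left a2 (by positivity)
  refine key.trans (mul_le_mul_of_nonneg_right (pow_le_exp (by positivity) hh ?_) (by positivity))
  exact (mul_le_mul_of_nonneg_right (by exact_mod_cast Nat.le_add_left _ _) hh).trans hj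

lemma Aw_out {R L : ℕ} {w w' : ℕ → ℝ} (hw' : ∀ l, 0 ≤ w' l) (hw : ∀ l, 0 ≤ w l)
    (h : ∀ l, L < l → w l ≤ w' l) (a : Sym2 V → ℝ) :
    t.Aw R w (fun e => if e ∈ t.Sp L t.o then 0 else a e) ≤ t.Aw R w' a := by
  refine sum_le_sum fun n _ => ?_
  by_cases hn : L < n + 1
  · refine mul_le_mul (h _ hn) (Real.sqrt_le_sqrt (sum_le_sum fun p _ => ?_)) (t.al_nonneg _ _)
      (hw' _)
    beta_reduce
    split_ifs
    exacts [by simpa using sq_nonneg _, le_rfl]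
  · rw [al, nm, sum_eq_zero, Real.sqrt_zero, mul_zero]
    · exact mul_nonneg (hw' _) (t.al_nonneg _ _)
    · intro c hc
      rw [if_pos (show t.ed c ∈ t.Sp L t.o from mem_image_of_mem _ ((t.mem_desc_o _ _).2
        ⟨t.ne_o_of_mem_L hc, by rw [t.mem_L.1 hc]; omega⟩))]
      simp

lemma sqrt_integral_le {X : Type*} [MeasurableSpace X] (ν : Measure X) [IsProbabilityMeasure ν]
    {f : X → ℝ} (h0 : ∀ x, 0 ≤ f x) {c : ℝ} (hc : 0 ≤ c) (h : ∀ x, f x ≤ c ^ 2) :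
    √(∫ x, f x ∂ν) ≤ c := by
  refine Real.sqrt_le_iff.2 ⟨hc, ?_⟩
  simpa using integral_mono_of_nonneg (ae_of_all ν h0) (integrable_const (c ^ 2)) (ae_of_all ν h)

theorem Fits.cauchy (ht : t.Fits G) (hD : 1 ≤ D) (h0 : 0 ≤ θ) (h1 : θ < 1)
    (hμ : IsFreeIsing G θ μ) (hT0 : 0 ≤ T) (hT : (1 + θ) * Real.exp (-T ^ 2 / 2) = 1 - θ)
    (H : ∀ η : ℝ, 0 < η → ∃ ε γ : ℝ, 0 < γ ∧ γ ≤ 1 / 2 ∧
      (∀ u, ε ≤ u → u ≤ T → thp θ u * √D ≤ 1 - γ) ∧ ∀ R, ∀ᶠ n in atTop,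
        ∑ k ∈ (range (2 ^ n)).filter fun k : ℕ => k * hh T n < ε, hh T n * √(∫ z, (isingMd μ hμ.1).Qf
          (t.Sp R t.o) (k * hh T n) z ((isingMd μ hμ.1).A (t.Sp R t.o) T (av t.o) n k z)
          ∂(isingMd μ hμ.1).rho (k * hh T n)) ≤ η)
    {η : ℝ} (hη : 0 < η) : ∃ R0, ∀ R, R0 ≤ R → ∀ R' S', Fe G t.o R ⊆ S' → S' ⊆ Fe G t.o R' →
      ∫ ξ, |∑ f ∈ Fe G t.o R, av t.o f * ((isingMd μ hμ.1).Xl S' T ξ f -
        (isingMd μ hμ.1).Xl (Fe G t.o R) T ξ f)| ∂gam (Sym2 V) ≤ η := by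
  set m := isingMd μ hμ.1
  refine m.cauchy hT0 ht.Fe_mono (abs_av_le t.o) (fun η hη => ?_) hη
  obtain ⟨ε, γ, hγ0, hγ, hu, hs⟩ := H (η / 2) (half_pos hη)
  have hB : 0 < BA D T γ := by unfold BA; positivity
  set δ := η / (2 * (T + 1) * BA D T γ) with hδ
  have hδ0 : 0 < δ := by positivity
  have hc := cD_pos D
  have hΩ : 1 < 1 + γ / 2 := by linarith
  obtain ⟨L, hL⟩ := eventually_atTop.1 ((tendsto_pow_const_div_const_pow_of_one_lt 1
    hΩ).eventually (ge_mem_nhds (show 0 < δ / (2 * cD D) by positivity)))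
  have hL' : ∀ l : ℕ, L < l → cD D * (l + 1) ≤ δ * (1 + γ / 2) ^ l := fun l hl => by
    have a1 := hL l hl.le
    rw [pow_one, div_le_div_iff₀ (by positivity) (by positivity)] at a1
    have : (1 : ℝ) ≤ l := by exact_mod_cast (by omega : 1 ≤ l)
    nlinarith
  refine ⟨t.Sp L t.o, BA D T γ, L, hB.le, fun R hR => ?_⟩
  simp only [ht.Fe_eq, ← Sp.eq_def]
  filter_upwards [hs R] with n hn
  have hh0 := hh_nonneg hT0 n
  have hA : ∀ k : ℕ, k < 2 ^ n → ¬ k * hh T n < ε → ∀ z, t.Aw R (fun l => (1 + γ / 2) ^ l)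
      (m.A (t.Sp R t.o) T (av t.o) n k z) ≤ BA D T γ := fun k hk hk' z =>
    ht.Aw_adj hD h0 h1 hμ hT hγ0 hγ hu hΩ.le le_rfl hh0 R _ _ (by push_cast; linarith)
      (hh_mul_le hT0 (by omega)) _
  refine ⟨fun k => if k * hh T n < ε then ∅ else t.Sp L t.o, fun k => ?_, fun k hk z e he => ?_,
    ?_⟩
  · beta_reduce
    split_ifs
    exacts [empty_subset _, subset_rfl]
  · beta_reduce at he
    split_ifs at he with hk'
    · simp at he
    · refine (abs_le_Aw (fun l => one_le_pow₀ hΩ.le) _ ?_).trans (hA k hk hk' z)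
      have := ht.Fe_mono hR
      rw [ht.Fe_eq, ht.Fe_eq] at this
      exact this he
  · rw [← sum_filter_add_sum_filter_not _ (fun k : ℕ => k * hh T n < ε), ← add_halves η]
    refine add_le_add (le_trans (le_of_eq (sum_congr rfl fun k hk => ?_)) hn) ?_
    · simp [(mem_filter.1 hk).2]
    · refine (sum_le_sum (g := fun _ => hh T n * (δ * BA D T γ)) fun k hk => ?_).trans ?_
      · obtain ⟨hk1, hk2⟩ := mem_filter.1 hk
        have a0 : (0 : ℝ) ≤ k * hh T n := by positivity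
        have a1 := hh_mul_le hT0 (mem_range.1 hk1).le
        simp only [if_neg hk2]
        refine mul_le_mul_of_nonneg_left (sqrt_integral_le _ (fun z => ?_) (by positivity)
          fun z => ?_) hh0
        · rw [Md.Qf_eq]; exact cov_self_nonneg (m.bm_lw _ _ _) (by fun_prop)
        · refine ((ht.kb_det hD h0 h1 hμ (thp_nonneg h0 h1 a0 a1 hT) hγ0.le hγ
            (hu _ (not_lt.1 hk2) a1) z R).quad _ (w := fun l => cD D * (l + 1))
            fun n' _ n _ => Kdet_le hγ0.le (by linarith) n' n).trans ?_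
          have b1 : ∀ w : ℕ → ℝ, (∀ l, 0 ≤ w l) → (∀ l, w l ≤ cD D * (l + 1)) → t.Aw R w
              (fun e => if e ∈ t.Sp L t.o then 0 else m.A (t.Sp R t.o) T (av t.o) n k z e) ≤
              δ * BA D T γ := fun w hw hw' => by
            refine (Aw_out (w' := fun l => δ * (1 + γ / 2) ^ l) (fun l => by positivity) hw
              (fun l hl => (hw' l).trans (hL' l hl)) _).trans ?_
            refine le_trans (le_of_eq ?_) (mul_le_mul_of_nonneg_left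
              (hA k (mem_range.1 hk1) hk2 z) hδ0.le)
            simp only [Aw, mul_sum, mul_assoc]
          rw [pow_two]
          refine mul_le_mul (b1 _ (fun l => by positivity) fun l => le_rfl)
            (b1 _ (fun l => zero_le_one) fun l => ?_) (Aw_nonneg (fun l => zero_le_one) _)
            (by positivity)
          have : (0 : ℝ) ≤ l := Nat.cast_nonneg l
          have : 0 ≤ √((D : ℝ) + 1) := Real.sqrt_nonneg _
          rw [Pi.one_apply, cD]; nlinarith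
      · refine (sum_le_sum_of_subset_of_nonneg (filter_subset _ _)
          fun _ _ _ => by positivity).trans ?_
        rw [sum_const, card_range, nsmul_eq_mul, ← mul_assoc, hh_mul, hδ]
        field_simp
        linarith

end RT

end Vale.Agent.P161
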