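import Mathlib

/-! Definitions used in the statement: the free Ising measure on a tree, factors of IID. -/

namespace Vale.Agent.P161

open MeasureTheory

/-- The spin `+1` or `-1` coded by a Boolean. -/
def sgn (b : Bool) : ℝ := if b then 1 else -1

/-- `G` is the `d`-regular tree: a tree in which every vertex has exactly `d` neighbours. -/
def IsRegularTree {V : Type} (G : SimpleGraph V) (d : ℕ) : Prop :=
  G.IsTree ∧ ∀ v, (G.neighborSet v).encard = d

open Classical in
/-- `μ` is the free zero-field Ising measure with parameter `θ`: a probability measure on spin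
configurations such that, for every finite connected subtree `D` and every `η`, the probability
that `σ = η` on `D` is `1/2` times the product over the edges `{u,v}` of `D` of
`(1 + θ η_u η_v) / 2`. -/
def IsFreeIsing {V : Type} (G : SimpleGraph V) (θ : ℝ) (μ : Measure (V → Bool)) : Prop :=
  IsProbabilityMeasure μ ∧ ∀ D : Finset V, (G.induce (D : Set V)).Connected → ∀ η : V → Bool,
    μ.real {σ | ∀ v ∈ D, σ v = η v} =
      1 / 2 * ∏ e ∈ D.sym2 with e ∈ G.edgeSet, (1 + θ * (e.map fun v => sgn (η v)).mul) / 2

/-- The law of i.i.d. uniform `[0,1]` labels of the vertices. -/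
noncomputable def iidUnif (V : Type) : Measure (V → unitInterval) :=
  Measure.infinitePi (fun _ : V => (volume : Measure unitInterval))

/-- `ν` is a factor of IID: the law of `Φ(U)` for a measurable `Φ` that is almost surely
equivariant under each automorphism `g` of `G`, where `(g x)_v = x_{g⁻¹ v}`. -/
def IsFactorOfIID {V : Type} (G : SimpleGraph V) (ν : Measure (V → Bool)) : Prop :=
  ∃ Φ : (V → unitInterval) → (V → Bool), Measurable Φ ∧
    (∀ g : G ≃g G, ∀ᵐ U ∂(iidUnif V), Φ (fun v => U (g.symm v)) = fun v => Φ U (g.symm v)) ∧
    (iidUnif V).map Φ = ν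

end Vale.Agent.P161
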