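import Vale.Agent.P161.Rooted

/-! Uniqueness, invariance and existence of the free Ising measure. -/

namespace Vale.Agent.P161

open Finset MeasureTheory
open scoped Classical

variable {V : Type} {D : ℕ} {G : SimpleGraph V}

lemma measurableSet_cyl (S : Finset V) (η : V → Bool) :
    MeasurableSet {s : V → Bool | ∀ v ∈ S, s v = η v} := by
  have : {s : V → Bool | ∀ v ∈ S, s v = η v} = ⋂ v ∈ S, (fun s => s v) ⁻¹' {η v} := by
    ext s; simp
  rw [this]
  exact S.measurableSet_biInter fun v _ => measurable_pi_apply v (measurableSet_singleton _)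

theorem RT.ext_of_ball (t : RT V D) {μ ν : Measure (V → Bool)} [IsProbabilityMeasure μ]
    [IsProbabilityMeasure ν] (h : ∀ n (η : V → Bool), μ.real {s | ∀ v ∈ t.ball n, s v = η v} =
      ν.real {s | ∀ v ∈ t.ball n, s v = η v}) : μ = ν := by
  have h1 : ∀ n, μ.map (t.ball n).restrict = ν.map (t.ball n).restrict := by
    intro n
    refine Measure.ext_of_singleton fun η => ?_
    rw [Measure.map_apply (measurable_restrict _) (measurableSet_singleton _),
      Measure.map_apply (measurable_restrict _) (measurableSet_singleton _)]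
    have : ((t.ball n).restrict : (V → Bool) → _) ⁻¹' ({η} : Set (t.ball n → Bool)) =
        {s : V → Bool | ∀ v ∈ t.ball n, s v = if hv : v ∈ t.ball n then η ⟨v, hv⟩ else true} := by
      ext s
      simp only [Set.mem_preimage, Set.mem_singleton_iff, funext_iff, Set.mem_ofPred_eq,
        Subtype.forall, restrict]
      exact forall₂_congr fun v hv => by rw [dif_pos hv]
    rw [this]
    exact (measureReal_eq_measureReal_iff (measure_ne_top _ _) (measure_ne_top _ _)).mp (h n _)
  refine IsProjectiveLimit.unique (P := fun I => ν.map I.restrict) (fun I => ?_) fun I => rfl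
  have hI : I ⊆ t.ball (I.sup t.lev) := fun v hv => (t.mem_ball _ _).2 (le_sup hv)
  beta_reduce
  rw [← restrict₂_comp_restrict hI,
    ← Measure.map_map (measurable_restrict₂ _) (measurable_restrict _),
    ← Measure.map_map (measurable_restrict₂ _) (measurable_restrict _), h1]

lemma RT.Fits.prod_edges {t : RT V D} (ht : t.Fits G) {S : Finset V} {w : V}
    (hpar : ∀ c ∈ S, c ≠ w → c ≠ t.o ∧ t.par c ∈ S) (hmin : w ≠ t.o → t.par w ∉ S)
    (f : Sym2 V → ℝ) :
    ∏ e ∈ S.sym2 with e ∈ G.edgeSet, f e = ∏ c ∈ S.erase w, f s(c, t.par c) := by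
  symm
  refine prod_bij (fun c _ => s(c, t.par c)) (fun c hc => ?_) (fun c hc c' hc' h => ?_)
    (fun e he => ?_) fun _ _ => rfl
  · obtain ⟨h1, h2⟩ := mem_erase.1 hc
    exact mem_filter.2 ⟨mk_mem_sym2_iff.2 ⟨h2, (hpar c h2 h1).2⟩,
      (ht.adj _ _).2 (Or.inl ⟨(hpar c h2 h1).1, rfl⟩)⟩
  · rcases Sym2.eq_iff.1 h with h | h
    · exact h.1
    · have a1 := t.lev_par c (hpar c (mem_erase.1 hc).2 (mem_erase.1 hc).1).1
      have a2 := t.lev_par c' (hpar c' (mem_erase.1 hc').2 (mem_erase.1 hc').1).1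
      rw [h.2] at a1
      rw [← h.1] at a2
      omega
  · induction e using Sym2.ind with
    | _ a b =>
      obtain ⟨h1, h2⟩ := mem_filter.1 he
      obtain ⟨ha, hb⟩ := mk_mem_sym2_iff.1 h1
      rcases (ht.adj a b).1 h2 with ⟨h3, rfl⟩ | ⟨h3, rfl⟩
      · exact ⟨a, mem_erase.2 ⟨fun e => hmin (e ▸ h3) (e ▸ hb), ha⟩, rfl⟩
      · exact ⟨b, mem_erase.2 ⟨fun e => hmin (e ▸ h3) (e ▸ ha), hb⟩, Sym2.eq_swap⟩

lemma RT.Fits.connected {t : RT V D} (ht : t.Fits G) {S : Finset V} {w : V} (hw : w ∈ S)
    (hpar : ∀ c ∈ S, c ≠ w → c ≠ t.o ∧ t.par c ∈ S) : (G.induce (S : Set V)).Connected := by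
  have key : ∀ n (v : (S : Set V)), t.lev v = n → (G.induce (S : Set V)).Reachable v ⟨w, hw⟩ := by
    intro n
    induction n using Nat.strong_induction_on with
    | _ n ih =>
      rintro ⟨v, hv⟩ hn
      by_cases h : v = w
      · subst h; rfl
      · obtain ⟨h1, h2⟩ := hpar v hv h
        have h3 : (G.induce (S : Set V)).Adj ⟨v, hv⟩ ⟨t.par v, h2⟩ :=
          (ht.adj _ _).2 (Or.inl ⟨h1, rfl⟩)
        exact h3.reachable.trans (ih _ (by have := t.lev_par v h1; simp only at hn ⊢; omega) _ rfl)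
  have : Nonempty (S : Set V) := ⟨⟨w, hw⟩⟩
  exact ⟨fun u v => (key _ u rfl).trans (key _ v rfl).symm⟩

/-- marginal on a finite subtree with top vertex `w` -/
theorem RT.Fits.real_sub {t : RT V D} (ht : t.Fits G) {θ : ℝ} {μ : Measure (V → Bool)}
    (hμ : IsFreeIsing G θ μ) {S : Finset V} {w : V} (hw : w ∈ S)
    (hpar : ∀ c ∈ S, c ≠ w → c ≠ t.o ∧ t.par c ∈ S) (hmin : w ≠ t.o → t.par w ∉ S)
    (η : V → Bool) : μ.real {s | ∀ v ∈ S, s v = η v} =
      1 / 2 * ∏ c ∈ S.erase w, (1 + θ * (sgn (η c) * sgn (η (t.par c)))) / 2 := by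
  rw [hμ.2 S (ht.connected hw hpar), ht.prod_edges hpar hmin]
  simp

theorem RT.Fits.real_ball {t : RT V D} (ht : t.Fits G) {θ : ℝ} {μ : Measure (V → Bool)}
    (hμ : IsFreeIsing G θ μ) (n : ℕ) (η : V → Bool) :
    μ.real {s | ∀ v ∈ t.ball n, s v = η v} =
      1 / 2 * ∏ c ∈ t.desc n t.o, (1 + θ * (sgn (η c) * sgn (η (t.par c)))) / 2 := by
  rw [ht.real_sub hμ (S := t.ball n) (w := t.o) (mem_insert_self _ _) (fun c hc h => ⟨h, ?_⟩)
    fun h => absurd rfl h, RT.ball, erase_insert fun h => ((t.mem_desc_o _ _).1 h).1 rfl]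
  rw [t.mem_ball] at hc ⊢
  have := t.lev_par c h
  omega

theorem RT.Fits.isFreeIsing_of_ball {t : RT V D} (ht : t.Fits G) {θ : ℝ}
    {μ ν : Measure (V → Bool)} [IsProbabilityMeasure ν] (hμ : IsFreeIsing G θ μ)
    (h : ∀ n (η : V → Bool), ν.real {s | ∀ v ∈ t.ball n, s v = η v} =
      1 / 2 * ∏ c ∈ t.desc n t.o, (1 + θ * (sgn (η c) * sgn (η (t.par c)))) / 2) : ν = μ :=
  have := hμ.1
  t.ext_of_ball fun n η => by rw [h, ht.real_ball hμ]

theorem IsFreeIsing.unique (hG : IsRegularTree G (D + 1)) {θ : ℝ} {μ ν : Measure (V → Bool)}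
    (hμ : IsFreeIsing G θ μ) (hν : IsFreeIsing G θ ν) : μ = ν := by
  obtain ⟨t, -, ht⟩ := exists_RT hG hG.1.connected.nonempty.some
  have := hμ.1
  exact ht.isFreeIsing_of_ball hν (ht.real_ball hμ)

theorem IsFreeIsing.map_iso (hG : IsRegularTree G (D + 1)) {θ : ℝ} {μ : Measure (V → Bool)}
    (hμ : IsFreeIsing G θ μ) (g : G ≃g G) : μ.map (fun s v => s (g v)) = μ := by
  have hm : Measurable fun (s : V → Bool) v => s (g v) :=
    measurable_pi_lambda _ fun v => measurable_pi_apply _
  have := hμ.1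
  refine IsFreeIsing.unique hG ⟨Measure.isProbabilityMeasure_map hm.aemeasurable, fun S hS η => ?_⟩ hμ
  rw [map_measureReal_apply hm (measurableSet_cyl S η)]
  have e1 : (fun (s : V → Bool) v => s (g v)) ⁻¹' {σ | ∀ v ∈ S, σ v = η v} =
      {s | ∀ v ∈ S.image g, s v = η (g.symm v)} := by
    ext s; simp
  have e2 : (G.induce ((S.image g : Finset V) : Set V)).Connected := by
    refine hS.map (SimpleGraph.induceHom g.toHom fun v hv => mem_image_of_mem g hv) ?_
    rintro ⟨v, hv⟩
    obtain ⟨u, hu, rfl⟩ := mem_image.1 hv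
    exact ⟨⟨u, hu⟩, rfl⟩
  rw [e1, hμ.2 _ e2, sym2_image, filter_image,
    prod_image fun a _ b _ h => Sym2.map.injective g.injective h]
  refine congrArg _ (prod_congr (filter_congr fun e _ => ?_) fun e _ => ?_)
  · induction e using Sym2.ind with
    | _ a b => simp [g.map_adj_iff]
  · induction e using Sym2.ind with
    | _ a b => simp

lemma RT.Fits.exists_top {t : RT V D} (ht : t.Fits G) {S : Finset V}
    (hS : (G.induce (S : Set V)).Connected) : ∃ w ∈ S,
      (∀ c ∈ S, c ≠ w → c ≠ t.o ∧ t.par c ∈ S) ∧ (w ≠ t.o → t.par w ∉ S) := by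
  obtain ⟨⟨v₀, hv₀⟩⟩ := hS.nonempty
  obtain ⟨w, hw, hmin⟩ := S.exists_min_image t.lev ⟨v₀, hv₀⟩
  refine ⟨w, hw, fun c hc hcw => ⟨?_, ?_⟩, fun h h' => ?_⟩
  · rintro rfl
    exact hcw (t.eq_o_of_lev (by have := hmin _ hc; rw [t.lev_o] at this; omega)).symm
  · by_contra hp
    have key : ∀ {a b : (S : Set V)} (_ : (G.induce (S : Set V)).Walk a b),
        (∃ k, t.lev a = t.lev c + k ∧ t.par^[k] a = c) →
          ∃ k, t.lev b = t.lev c + k ∧ t.par^[k] b = c := by
      intro a b p
      induction p with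
      | nil => exact id
      | @cons a a' b h _ ih =>
        rintro ⟨k, h1, h2⟩
        refine ih ?_
        rcases (ht.adj a a').1 h with ⟨h3, h4⟩ | ⟨h3, h4⟩
        · have h5 := t.lev_par _ h3
          rcases k with _ | k
          · exact absurd (by rw [← show (a : V) = c from h2, h4]; exact a'.2) hp
          · exact ⟨k, by rw [← h4]; omega, by rw [← h4]; exact h2⟩
        · have h5 := t.lev_par _ h3
          exact ⟨k + 1, by rw [h5, h4]; omega, by rw [Function.iterate_succ_apply, h4, h2]⟩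
    obtain ⟨p⟩ := hS.preconnected ⟨c, hc⟩ ⟨w, hw⟩
    obtain ⟨k, h1, h2⟩ := key p ⟨0, rfl, rfl⟩
    have := hmin c hc
    obtain rfl : k = 0 := by simp only at h1; omega
    exact hcw h2.symm
  · have := hmin _ h'
    have := t.lev_par w h
    omega

/-- biased coin with mean spin `θ` -/
noncomputable def coin (θ : ℝ) : Measure Bool :=
  ENNReal.ofReal ((1 + θ) / 2) • Measure.dirac true + ENNReal.ofReal ((1 - θ) / 2) • Measure.dirac false

lemma coin_singleton (θ : ℝ) (b : Bool) : coin θ {b} = ENNReal.ofReal ((1 + θ * sgn b) / 2) := by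
  cases b <;> simp [coin, sgn, sub_eq_add_neg]

lemma isProb_coin {θ : ℝ} (h0 : 0 ≤ θ) (h1 : θ ≤ 1) : IsProbabilityMeasure (coin θ) := ⟨by
  simp only [coin, Measure.add_apply, Measure.smul_apply, measure_univ, smul_eq_mul, mul_one]
  rw [← ENNReal.ofReal_add (by linarith) (by linarith), show (1 + θ) / 2 + (1 - θ) / 2 = 1 by ring]
  simp⟩

/-- spins built from independent coins -/
def RT.spinN (t : RT V D) (τ : V → Bool) : ℕ → V → Bool
  | 0, _ => τ t.o
  | n + 1, v => t.spinN τ n (t.par v) == τ v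

lemma RT.measurable_spinN (t : RT V D) (n : ℕ) (v : V) : Measurable fun τ => t.spinN τ n v := by
  induction n generalizing v with
  | zero => exact measurable_pi_apply _
  | succ n ih =>
    exact (measurable_of_countable fun p : Bool × Bool => p.1 == p.2).comp
      ((ih _).prodMk (measurable_pi_apply v))

theorem exists_isFreeIsing (hG : IsRegularTree G (D + 1)) {θ : ℝ} (h0 : 0 ≤ θ) (h1 : θ ≤ 1) :
    ∃ μ, IsFreeIsing G θ μ := by
  obtain ⟨t, -, ht⟩ := exists_RT hG hG.1.connected.nonempty.some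
  let P : V → Measure Bool := fun v => coin (if v = t.o then 0 else θ)
  have hP : ∀ v, IsProbabilityMeasure (P v) := fun v =>
    isProb_coin (by split_ifs <;> linarith) (by split_ifs <;> linarith)
  let spin : (V → Bool) → V → Bool := fun τ v => t.spinN τ (t.lev v) v
  have hm : Measurable spin := measurable_pi_lambda _ fun v => t.measurable_spinN _ _
  have hs : ∀ τ c, c ≠ t.o → spin τ c = (spin τ (t.par c) == τ c) := fun τ c hc => by
    simp only [spin, t.lev_par c hc, RT.spinN]
  let f : V → Bool → Bool := fun v b => if v = t.o then !b else b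
  have hf : ∀ τ v, spin (fun v => f v (τ v)) v = !spin τ v := by
    intro τ v
    induction hn : t.lev v generalizing v with
    | zero => simp only [spin, hn, RT.spinN, f, if_true]
    | succ n ih =>
      have hv : v ≠ t.o := by rintro rfl; rw [t.lev_o] at hn; omega
      rw [hs _ _ hv, hs _ _ hv, ih _ (by have := t.lev_par v hv; omega)]
      simp only [f, hv, if_false]
      cases spin τ (t.par v) <;> cases τ v <;> rfl
  have hF : (Measure.infinitePi P).map (fun τ v => f v (τ v)) = Measure.infinitePi P := by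
    rw [Measure.infinitePi_map_pi P fun v => measurable_of_countable (f v)]
    refine congrArg _ (funext fun v => Measure.ext_of_singleton fun b => ?_)
    rw [Measure.map_apply (measurable_of_countable _) (measurableSet_singleton _)]
    by_cases hv : v = t.o
    · have : f v ⁻¹' {b} = {!b} := by ext a; cases a <;> cases b <;> simp [f, hv]
      rw [this]
      simp only [P, hv, if_true, coin_singleton, zero_mul]
    · simp only [f, hv, if_false, Set.preimage_id']
  refine ⟨(Measure.infinitePi P).map spin, Measure.isProbabilityMeasure_map hm.aemeasurable,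
    fun S hS η => ?_⟩
  obtain ⟨w, hw, hpar, hmin⟩ := ht.exists_top hS
  rw [ht.prod_edges hpar hmin, map_measureReal_apply hm (measurableSet_cyl S η)]
  set B := {τ : V → Bool | ∀ c ∈ S.erase w, τ c = (η c == η (t.par c))} with hB
  set A := {τ : V → Bool | spin τ w = η w} with hA
  have hAm : MeasurableSet A := (measurable_pi_apply w).comp hm (measurableSet_singleton _)
  have hBm : MeasurableSet B := measurableSet_cyl _ _
  have e1 : spin ⁻¹' {σ | ∀ v ∈ S, σ v = η v} = B ∩ A := by
    ext τ
    simp only [Set.mem_preimage, Set.mem_ofPred_eq, Set.mem_inter_iff, hA, hB, mem_erase]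
    constructor
    · refine fun h => ⟨fun c hc => ?_, h w hw⟩
      obtain ⟨a1, a2⟩ := hpar c hc.2 hc.1
      rw [← h c hc.2, ← h _ a2, hs τ c a1]
      cases spin τ (t.par c) <;> cases τ c <;> rfl
    · rintro ⟨h1, h2⟩ v hv
      induction hn : t.lev v using Nat.strong_induction_on generalizing v with
      | _ n ih =>
        by_cases h : v = w
        · rw [h, h2]
        · obtain ⟨a1, a2⟩ := hpar v hv h
          rw [hs τ v a1, ih _ (by have := t.lev_par v a1; omega) _ a2 rfl, h1 v ⟨h, hv⟩]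
          cases η (t.par v) <;> cases η v <;> rfl
  have e2 : (fun τ v => f v (τ v)) ⁻¹' (B ∩ A) = B \ A := by
    ext τ
    simp only [Set.mem_preimage, Set.mem_ofPred_eq, Set.mem_inter_iff, Set.mem_sdiff, hA, hB, hf]
    refine and_congr (forall₂_congr fun c hc => ?_) (by cases spin τ w <;> cases η w <;> simp)
    simp only [f, (hpar c (mem_erase.1 hc).2 (mem_erase.1 hc).1).1, if_false]
  have e3 : (Measure.infinitePi P).real (B \ A) = (Measure.infinitePi P).real (B ∩ A) := by
    have hm' : Measurable fun (τ : V → Bool) v => f v (τ v) := measurable_pi_lambda _ fun v =>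
      (measurable_of_countable (f v)).comp (measurable_pi_apply v)
    rw [← e2, ← map_measureReal_apply hm' (hBm.inter hAm), hF]
  have e4 := measureReal_inter_add_sdiff (μ := Measure.infinitePi P) (s := B) hAm
  have e5 : (Measure.infinitePi P).real B =
      ∏ c ∈ S.erase w, (1 + θ * (sgn (η c) * sgn (η (t.par c)))) / 2 := by
    have : B = Set.pi (S.erase w : Finset V) fun c => {η c == η (t.par c)} := by
      ext τ; simp only [hB, Set.mem_ofPred_eq, Set.mem_pi, mem_coe, Set.mem_singleton_iff]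
    rw [this, Measure.real, Measure.infinitePi_pi _ fun _ _ => measurableSet_singleton _,
      ENNReal.toReal_prod]
    refine prod_congr rfl fun c hc => ?_
    simp only [P, (hpar c (mem_erase.1 hc).2 (mem_erase.1 hc).1).1, if_false, coin_singleton]
    rw [ENNReal.toReal_ofReal] <;> cases η c <;> cases η (t.par c) <;> simp [sgn] <;> linarith
  simp only [Sym2.map_mk, Sym2.mul_mk]
  rw [e1, ← e5]
  linarith

end Vale.Agent.P161
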