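import Vale.Agent.P161.Lip

/-! The limiting flow. -/

namespace Vale.Agent.P161

open Finset MeasureTheory ProbabilityTheory Filter Topology
open scoped Classical

variable {Ω : Type*} [MeasurableSpace Ω] {E : Type*}

/-- The step size. -/
noncomputable def hh (T : ℝ) (n : ℕ) : ℝ := T * (1 / 2) ^ n

lemma hh_nonneg {T : ℝ} (hT : 0 ≤ T) (n : ℕ) : 0 ≤ hh T n := by unfold hh; positivity

lemma hh_mul (T : ℝ) (n : ℕ) : ((2 ^ n : ℕ) : ℝ) * hh T n = T := by
  push_cast
  rw [hh, mul_left_comm, ← mul_pow]; norm_num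

lemma hh_mul_le {T : ℝ} (hT : 0 ≤ T) {n l : ℕ} (hl : l ≤ 2 ^ n) : (l : ℝ) * hh T n ≤ T := by
  conv_rhs => rw [← hh_mul T n]
  exact mul_le_mul_of_nonneg_right (by exact_mod_cast hl) (hh_nonneg hT n)

lemma tendsto_hh (T : ℝ) : Tendsto (hh T) atTop (𝓝 0) := by
  have := (tendsto_pow_atTop_nhds_zero_of_lt_one (r := (1 / 2 : ℝ)) (by norm_num)
    (by norm_num)).const_mul T
  rwa [mul_zero] at this

lemma eventually_hh_le (T : ℝ) {h0 : ℝ} (h : 0 < h0) : ∀ᶠ n in atTop, hh T n ≤ h0 :=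
  (tendsto_hh T).eventually (ge_mem_nhds h)

namespace Md

variable (m : Md Ω E) {S : Finset E} {T : ℝ}

lemma abs_eul_sub (S : Finset E) {h : ℝ} (hh : 0 ≤ h) (j k : ℕ) (x : E → ℝ) (f : E) :
    |m.eul S h j k x f - x f| ≤ j * h := by
  induction j with
  | zero => simp [eul]
  | succ j ih =>
    rw [eul_succ, step, add_sub_right_comm]
    refine (abs_add_le _ _).trans ?_
    rw [abs_mul, abs_of_nonneg hh]
    have := mul_le_of_le_one_right hh (m.abs_vel_le S ((k + j : ℕ) * h) (m.eul S h j k x) f)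
    push_cast at this ⊢
    linarith

lemma vel_time {u δ : ℝ} (hu : 0 ≤ u) (hδ : 0 ≤ δ) (huT : u + δ ≤ T) (x : E → ℝ) (e : E) :
    |m.vel S (u + δ) x e - m.vel S u x e| ≤ 12 * (δ * (nS S x + S.card * T)) := by
  have := nS_nonneg S x
  have hT : 0 ≤ T := by linarith
  refine Et_lip (m.bm_lw S u x) (m.bm_lw S _ x) (m.bm e) (m.bd e) (by positivity) fun ω => ?_
  rw [lw, lw, ← sum_sub_distrib, nS, ← nsmul_eq_mul, ← sum_const, ← sum_add_distrib, mul_sum]
  refine (abs_sum_le_sum_abs _ _).trans (sum_le_sum fun f _ => ?_)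
  rw [show (u + δ) * x f * m.s f ω - (u + δ) ^ 2 * m.s f ω ^ 2 / 2 -
    (u * x f * m.s f ω - u ^ 2 * m.s f ω ^ 2 / 2) =
    δ * (x f * m.s f ω - (u + δ / 2) * m.s f ω ^ 2) by ring, abs_mul, abs_of_nonneg hδ]
  refine mul_le_mul_of_nonneg_left ((abs_sub _ _).trans (add_le_add ?_ ?_)) hδ
  · rw [abs_mul]; exact mul_le_of_le_one_right (abs_nonneg _) (m.bd f ω)
  · rw [abs_mul, abs_of_nonneg (by linarith), abs_pow]
    exact (mul_le_of_le_one_right (by linarith)
      (pow_le_one₀ (abs_nonneg _) (m.bd f ω))).trans (by linarith)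

lemma refine_aux (hT : 0 ≤ T) {h : ℝ} (h0 : 0 ≤ h) (ξ : E → ℝ) (k : ℕ) (hk : k * h ≤ T) :
    nS S (m.eul S (h / 2) (2 * k) 0 ξ - m.eul S h k 0 ξ) ≤
      k * (1 + h * (12 * T * S.card)) ^ k * (3 * S.card * (nS S ξ + 3 * S.card * T) * h ^ 2) := by
  induction k with
  | zero => simp [eul, nS]
  | succ k ih =>
    push_cast at hk
    have hu0 : 0 ≤ (k : ℝ) * h := by positivity
    have hu : (k : ℝ) * h ≤ T := by linarith
    have ih' := ih hu
    have hN := nS_nonneg S ξ
    set c : ℝ := (S.card : ℝ) with hc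
    have hc0 : 0 ≤ c := Nat.cast_nonneg _
    set M := 3 * c * (nS S ξ + 3 * c * T) * h ^ 2 with hM
    have hM0 : 0 ≤ M := by positivity
    set ρ := 1 + h * (12 * T * c) with hρ
    have hρ1 : 1 ≤ ρ := by rw [hρ]; have : 0 ≤ h * (12 * T * c) := by positivity
                           linarith
    set y0 := m.eul S (h / 2) (2 * k) 0 ξ with hy0
    set y1 := m.eul S (h / 2) (2 * k + 1) 0 ξ with hy1
    set x0 := m.eul S h k 0 ξ with hx0
    set d := nS S (y0 - x0) with hd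
    have hd0 : 0 ≤ d := nS_nonneg _ _
    have a1 : ((0 + 2 * k : ℕ) : ℝ) * (h / 2) = k * h := by push_cast; ring
    have a2 : ((0 + (2 * k + 1) : ℕ) : ℝ) * (h / 2) = k * h + h / 2 := by push_cast; ring
    have e0 : y1 = m.step S (h / 2) (k * h) y0 := by rw [hy1, eul_succ, a1]
    have e1 : m.eul S (h / 2) (2 * (k + 1)) 0 ξ = m.step S (h / 2) (k * h + h / 2) y1 := by
      rw [show 2 * (k + 1) = (2 * k + 1) + 1 by ring, eul_succ, a2]
    have e2 : m.eul S h (k + 1) 0 ξ = m.step S h (k * h) x0 := by rw [eul_succ, zero_add]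
    have lip : ∀ y f, |m.vel S (k * h) y f - m.vel S (k * h) x0 f| ≤ 12 * (T * nS S (y - x0)) := by
      intro y f
      have := m.vel_lip (S := S) hu0 x0 (y - x0) f
      rw [add_sub_cancel] at this
      exact this.trans (by have := nS_nonneg S (y - x0); gcongr)
    have n1 : nS S (y1 - x0) ≤ d + c * (h / 2) := by
      rw [show y1 - x0 = (y0 - x0) + (y1 - y0) by abel]
      refine (nS_add_le _ _ _).trans (add_le_add le_rfl (nS_le_card fun f _ => ?_))
      rw [e0, Pi.sub_apply, step, add_sub_cancel_left, abs_mul, abs_of_nonneg (by linarith)]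
      exact mul_le_of_le_one_right (by linarith) (m.abs_vel_le _ _ _ _)
    have n2 : nS S y1 ≤ nS S ξ + c * T := by
      rw [show y1 = ξ + (y1 - ξ) by abel]
      refine (nS_add_le _ _ _).trans (add_le_add le_rfl (nS_le_card fun f _ => ?_))
      refine (m.abs_eul_sub S (by linarith) _ _ ξ f).trans ?_
      push_cast; linarith
    have b2 : ∀ f, |m.vel S (k * h + h / 2) y1 f - m.vel S (k * h) x0 f| ≤
        12 * (h / 2 * (nS S ξ + c * T + c * T)) + 12 * (T * (d + c * (h / 2))) := fun f => by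
      refine (abs_sub_le _ (m.vel S (k * h) y1 f) _).trans (add_le_add ?_ ?_)
      · refine (m.vel_time (T := T) hu0 (by linarith) (by linarith) y1 f).trans ?_
        gcongr
      · exact (lip y1 f).trans (by gcongr)
    have b3 : nS S (m.step S (h / 2) (k * h + h / 2) y1 - m.step S h (k * h) x0) ≤
        d + c * (h / 2 * (12 * (T * d)) + h / 2 * (12 * (h / 2 * (nS S ξ + c * T + c * T)) +
          12 * (T * (d + c * (h / 2))))) := by
      rw [show m.step S (h / 2) (k * h + h / 2) y1 - m.step S h (k * h) x0 = (y0 - x0) + fun f =>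
        h / 2 * (m.vel S (k * h) y0 f - m.vel S (k * h) x0 f) +
        h / 2 * (m.vel S (k * h + h / 2) y1 f - m.vel S (k * h) x0 f) by
          ext f; simp only [Pi.sub_apply, Pi.add_apply, step]
          rw [show y1 f = y0 f + h / 2 * m.vel S (k * h) y0 f by rw [e0]; rfl]; ring]
      refine (nS_add_le _ _ _).trans (add_le_add le_rfl (nS_le_card fun f _ => ?_))
      refine (abs_add_le _ _).trans ?_
      rw [abs_mul, abs_mul, abs_of_nonneg (by linarith : 0 ≤ h / 2)]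
      exact add_le_add (mul_le_mul_of_nonneg_left (lip y0 f) (by linarith))
        (mul_le_mul_of_nonneg_left (b2 f) (by linarith))
    rw [e1, e2]
    refine b3.trans ?_
    have hρk : 1 ≤ ρ ^ (k + 1) := one_le_pow₀ hρ1
    have c9 := mul_le_mul_of_nonneg_left hρk hM0
    have c8 := mul_le_mul_of_nonneg_right ih' (zero_le_one.trans hρ1)
    calc _ = d * ρ + M := by rw [hρ, hM]; ring
      _ ≤ _ := by push_cast; rw [pow_succ ρ k] at c9 ⊢; linarith

/-- The Euler approximation at the final time. -/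
noncomputable def Xn (S : Finset E) (T : ℝ) (n : ℕ) (ξ : E → ℝ) : E → ℝ :=
  m.eul S (hh T n) (2 ^ n) 0 ξ

lemma measurable_Xn (S : Finset E) (T : ℝ) (n : ℕ) : Measurable (m.Xn S T n) :=
  m.measurable_eul _ _ _ _

lemma abs_Xn_sub (hT : 0 ≤ T) (n : ℕ) (ξ : E → ℝ) (f : E) : |m.Xn S T n ξ f - ξ f| ≤ T := by
  have := m.abs_eul_sub S (hh_nonneg hT n) (2 ^ n) 0 ξ f
  rwa [hh_mul] at this

lemma cauchySeq_Xn (hT : 0 ≤ T) (ξ : E → ℝ) {f : E} (hf : f ∈ S) :
    CauchySeq fun n => m.Xn S T n ξ f := by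
  refine cauchySeq_of_le_geometric (1 / 2) (T * Real.exp (12 * T * S.card * T) *
    (3 * S.card * (nS S ξ + 3 * S.card * T)) * T) (by norm_num) fun n => ?_
  have h0 := hh_nonneg hT n
  have h1 := m.refine_aux (S := S) hT h0 ξ _ (hh_mul T n).le
  have e1 : 2 * 2 ^ n = 2 ^ (n + 1) := by ring
  have e2 : hh T n / 2 = hh T (n + 1) := by rw [hh, hh, pow_succ]; ring
  rw [e1, e2] at h1
  rw [Real.dist_eq, abs_sub_comm]
  refine ((abs_le_nS _ hf).trans h1).trans ?_
  have h2 := pow_le_exp (c := 12 * T * S.card) (by positivity) h0 (hh_mul T n).le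
  have hN := nS_nonneg S ξ
  calc _ = ((2 ^ n : ℕ) * hh T n) * (1 + hh T n * (12 * T * S.card)) ^ (2 ^ n) *
        (3 * S.card * (nS S ξ + 3 * S.card * T)) * hh T n := by ring
    _ ≤ _ := by
      rw [hh_mul, mul_assoc _ T ((1 / 2) ^ n)]
      exact mul_le_mul_of_nonneg_right (by gcongr) h0

/-- The flow at the final time. -/
noncomputable def Xl (S : Finset E) (T : ℝ) (ξ : E → ℝ) (f : E) : ℝ :=
  limsup (fun n => m.Xn S T n ξ f) atTop

lemma tendsto_Xn (hT : 0 ≤ T) (ξ : E → ℝ) {f : E} (hf : f ∈ S) :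
    Tendsto (fun n => m.Xn S T n ξ f) atTop (𝓝 (m.Xl S T ξ f)) := by
  obtain ⟨a, ha⟩ := cauchySeq_tendsto_of_complete (m.cauchySeq_Xn hT ξ hf)
  rw [Xl, ha.limsup_eq]; exact ha

lemma measurable_Xl (S : Finset E) (T : ℝ) : Measurable (m.Xl S T) :=
  measurable_pi_lambda _ fun e => Measurable.limsup fun n =>
    (measurable_pi_apply e).comp (m.measurable_Xn S T n)

theorem law_Xl (hT : 0 ≤ T) {K : ℝ} {G : (E → ℝ) → ℝ} (hG : BL S K G) :
    ∫ ξ, G (m.Xl S T ξ) ∂gam E = ∫ x, G x ∂m.rho T := by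
  have h1 : Tendsto (fun n => ∫ ξ, G (m.Xn S T n ξ) ∂gam E) atTop
      (𝓝 (∫ ξ, G (m.Xl S T ξ) ∂gam E)) := by
    refine tendsto_integral_of_dominated_convergence (fun _ => K)
      (fun n => (hG.meas.comp (m.measurable_Xn _ _ _)).aestronglyMeasurable)
      (integrable_const _) (fun n => ae_of_all _ fun ξ => hG.bdd _) (ae_of_all _ fun ξ => ?_)
    rw [tendsto_iff_dist_tendsto_zero]
    have h2 : Tendsto (fun n => K * ∑ f ∈ S, |m.Xn S T n ξ f - m.Xl S T ξ f|) atTop
        (𝓝 (K * ∑ f ∈ S, |m.Xl S T ξ f - m.Xl S T ξ f|)) :=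
      (tendsto_finsetSum _ fun f hf => ((m.tendsto_Xn hT ξ hf).sub_const _).abs).const_mul K
    simp only [sub_self, abs_zero, sum_const_zero, mul_zero] at h2
    exact squeeze_zero (fun _ => dist_nonneg) (fun n => hG.lip _ _) h2
  refine tendsto_nhds_unique h1 (Metric.tendsto_nhds.2 fun η hη => ?_)
  obtain ⟨h0, h0p, h2⟩ := m.lip_transport S T K (half_pos hη)
  filter_upwards [eventually_hh_le T h0p] with n hn
  have := h2 _ (hh_nonneg hT n) hn _ (hh_mul T n).le G hG
  rw [hh_mul] at this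
  exact this.trans_lt (half_lt_self hη)

end Md

end Vale.Agent.P161
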