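import Vale.Agent.P161.Step

/-! Product Gaussian noise, the shift formula, Bayes formula and the transport estimate. -/

namespace Vale.Agent.P161

open Finset MeasureTheory ProbabilityTheory
open scoped Classical ENNReal

variable {Ω : Type*} [MeasurableSpace Ω] {E : Type*}

noncomputable def gam (E : Type*) : Measure (E → ℝ) :=
  Measure.infinitePi (fun _ : E => gaussianReal 0 1)

instance : IsProbabilityMeasure (gam E) := by unfold gam; infer_instance

lemma gauss_shift (a : ℝ) : gaussianReal a 1 =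
    (gaussianReal 0 1).withDensity (fun x => ENNReal.ofReal (Real.exp (a * x - a ^ 2 / 2))) := by
  rw [gaussianReal_of_var_ne_zero _ one_ne_zero, gaussianReal_of_var_ne_zero _ one_ne_zero,
    ← withDensity_mul _ (measurable_gaussianPDF _ _) (by fun_prop)]
  congr 1
  ext x
  simp only [gaussianPDF, Pi.mul_apply]
  rw [← ENNReal.ofReal_mul (gaussianPDFReal_nonneg _ _ _)]
  congr 1
  simp only [gaussianPDFReal, NNReal.coe_one, mul_one, sub_zero, mul_assoc, ← Real.exp_add]
  congr 2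
  ring

theorem map_shift (A : Finset E) (a : E → ℝ) :
    (gam E).map (fun ξ f => ξ f + if f ∈ A then a f else 0) = (gam E).withDensity
      (fun ξ => ENNReal.ofReal (Real.exp (∑ f ∈ A, (a f * ξ f - a f ^ 2 / 2)))) := by
  set b : E → ℝ := fun f => if f ∈ A then a f else 0 with hb
  have h1 : (gam E).map (fun ξ f => ξ f + b f) =
      Measure.infinitePi (fun f : E => gaussianReal (b f) 1) := by
    have := Measure.infinitePi_map_pi (fun _ : E => gaussianReal 0 1)
      (f := fun f x => x + b f) (fun f => by fun_prop)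
    simp only [gaussianReal_map_add_const, zero_add] at this
    exact this
  rw [h1]
  symm
  refine Measure.eq_infinitePi _ fun s t ht => ?_
  have hm : MeasurableSet (Set.pi (s : Set E) t) := .pi s.countable_toSet fun i _ => ht i
  rw [withDensity_apply _ hm, ← lintegral_indicator hm]
  set t' : E → Set ℝ := fun f => if f ∈ s then t f else Set.univ with ht'
  have ht'm : ∀ f, MeasurableSet (t' f) := by
    intro f; simp only [ht']; split_ifs; exacts [ht f, .univ]
  set g : E → ℝ → ℝ≥0∞ := fun f => (t' f).indicator fun x =>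
    ENNReal.ofReal (Real.exp (b f * x - (b f) ^ 2 / 2)) with hg
  have hgm : ∀ f, Measurable (g f) := fun f => Measurable.indicator (by fun_prop) (ht'm f)
  have h2 : ∀ ξ : E → ℝ, (Set.pi (s : Set E) t).indicator
      (fun ξ => ENNReal.ofReal (Real.exp (∑ f ∈ A, (a f * ξ f - a f ^ 2 / 2)))) ξ =
      ∏ f ∈ s ∪ A, g f (ξ f) := by
    intro ξ
    by_cases hξ : ξ ∈ Set.pi (s : Set E) t
    · rw [Set.indicator_of_mem hξ]
      have : ∀ f ∈ s ∪ A, g f (ξ f) =
          ENNReal.ofReal (Real.exp (b f * ξ f - (b f) ^ 2 / 2)) := by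
        intro f _
        refine Set.indicator_of_mem ?_ _
        simp only [ht']; split_ifs with hf
        exacts [hξ f hf, Set.mem_univ _]
      rw [prod_congr rfl this, ← ENNReal.ofReal_prod_of_nonneg fun _ _ => (Real.exp_pos _).le,
        ← Real.exp_sum]
      congr 2
      refine (sum_subset_zero_on_sdiff subset_union_right (fun f hf => ?_) fun f hf => ?_)
      · simp [hb, (mem_sdiff.1 hf).2]
      · simp [hb, hf]
    · rw [Set.indicator_of_notMem hξ]
      simp only [Set.mem_pi, not_forall] at hξ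
      obtain ⟨f, hf, hf'⟩ := hξ
      refine (prod_eq_zero (mem_union_left A hf) ?_).symm
      refine Set.indicator_of_notMem ?_ _
      have hf2 : f ∈ s := hf
      simpa only [ht', hf2, if_true] using hf'
  simp only [h2]
  have h3 := lintegral_prod_eq_prod_lintegral_of_indepFun (μ := gam E) (s ∪ A)
    (fun f ξ => g f (ξ f)) (iIndepFun_infinitePi (P := fun _ : E => gaussianReal 0 1) hgm)
    (fun f => (hgm f).comp (measurable_pi_apply f))
  rw [h3]
  have h4 : ∀ f, ∫⁻ ξ, g f (ξ f) ∂gam E = gaussianReal (b f) 1 (t' f) := by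
    intro f
    rw [gauss_shift, withDensity_apply _ (ht'm f), ← lintegral_indicator (ht'm f),
      ← Measure.infinitePi_map_eval (fun _ : E => gaussianReal 0 1) f,
      lintegral_map (hgm f) (measurable_pi_apply f)]
    rfl
  simp only [h4]
  symm
  refine prod_subset_one_on_sdiff subset_union_left (fun f hf => ?_) fun f hf => ?_
  · simp only [ht', (mem_sdiff.1 hf).2, if_false, measure_univ]
  · simp only [ht', hf, if_true]

lemma integrable_exp_lin (A : Finset E) (a : E → ℝ) :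
    Integrable (fun ξ : E → ℝ => Real.exp (∑ f ∈ A, (a f * ξ f - a f ^ 2 / 2))) (gam E) := by
  refine ⟨(by fun_prop : Measurable _).aestronglyMeasurable, ?_⟩
  rw [hasFiniteIntegral_iff_ofReal (ae_of_all _ fun _ => (Real.exp_pos _).le)]
  have h := congrArg (fun m : Measure (E → ℝ) => m Set.univ) (map_shift A a)
  simp only [withDensity_apply _ MeasurableSet.univ, Measure.restrict_univ] at h
  rw [← h, Measure.map_apply (by fun_prop) MeasurableSet.univ]
  exact measure_lt_top _ _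

lemma integral_shift (A : Finset E) (a : E → ℝ) {H : (E → ℝ) → ℝ} (hH : Measurable H)
    (hd : DependsOn H A) : ∫ ξ, H (ξ + a) ∂gam E =
      ∫ ξ, Real.exp (∑ f ∈ A, (a f * ξ f - a f ^ 2 / 2)) * H ξ ∂gam E := by
  have e1 : ∀ ξ : E → ℝ, H (ξ + a) = H (fun f => ξ f + if f ∈ A then a f else 0) :=
    fun ξ => hd fun f hf => by simp [show f ∈ A from hf]
  simp only [e1]
  rw [← integral_map (f := H) (by fun_prop : Measurable _).aemeasurable
    hH.aestronglyMeasurable, map_shift,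
    integral_withDensity_eq_integral_toReal_smul (by fun_prop)
      (ae_of_all _ fun _ => ENNReal.ofReal_lt_top)]
  simp only [ENNReal.toReal_ofReal (Real.exp_pos _).le, smul_eq_mul]

lemma integral_exp_lin (A : Finset E) (a : E → ℝ) :
    ∫ ξ, Real.exp (∑ f ∈ A, (a f * ξ f - a f ^ 2 / 2)) ∂gam E = 1 := by
  have := integral_shift A a (H := fun _ => 1) measurable_const (dependsOn_const 1 |>.mono (by simp))
  simpa using this.symm

namespace Md

variable (m : Md Ω E) {S : Finset E}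

/-- The noisy observation at time `u`. -/
noncomputable def sh (u : ℝ) (p : Ω × (E → ℝ)) : E → ℝ := p.2 + fun f => u * m.s f p.1

lemma measurable_sh (u : ℝ) : Measurable (m.sh u) := by
  have := m.meas
  exact measurable_pi_lambda _ fun f => by simp only [sh, Pi.add_apply]; fun_prop

/-- The law of the noisy observation. -/
noncomputable def rho (u : ℝ) : Measure (E → ℝ) := (m.μ.prod (gam E)).map (m.sh u)

instance (u : ℝ) : IsProbabilityMeasure (m.rho u) :=
  Measure.isProbabilityMeasure_map (m.measurable_sh u).aemeasurable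

lemma integral_rho (u : ℝ) {H : (E → ℝ) → ℝ} (hH : Measurable H) :
    ∫ x, H x ∂m.rho u = ∫ p, H (m.sh u p) ∂(m.μ.prod (gam E)) :=
  integral_map (m.measurable_sh u).aemeasurable hH.aestronglyMeasurable

lemma lw_eq (S : Finset E) (u : ℝ) (ξ : E → ℝ) (ω : Ω) : m.lw S u ξ ω =
    ∑ f ∈ S, (u * m.s f ω * ξ f - (u * m.s f ω) ^ 2 / 2) :=
  sum_congr rfl fun f _ => by ring

lemma bayes0 (u : ℝ) {Ψ : Ω → (E → ℝ) → ℝ} (hm : BM fun p : Ω × (E → ℝ) => Ψ p.1 p.2)
    (hd : ∀ ω, DependsOn (Ψ ω) S) : ∫ p, Ψ p.1 (m.sh u p) ∂(m.μ.prod (gam E)) =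
    ∫ ξ, (∫ ω, Real.exp (m.lw S u ξ ω) ∂m.μ) * Et m.μ (m.lw S u ξ) (fun ω => Ψ ω ξ) ∂gam E := by
  have hm' := hm.comp (measurable_fst.prodMk (m.measurable_sh u))
  obtain ⟨hm, c, hc⟩ := hm
  have h1 : ∀ ξ, (∫ ω, Real.exp (m.lw S u ξ ω) ∂m.μ) * Et m.μ (m.lw S u ξ) (fun ω => Ψ ω ξ) =
      ∫ ω, Real.exp (m.lw S u ξ ω) * Ψ ω ξ ∂m.μ := fun ξ => by
    rw [Et, mul_div_cancel₀ _ (Zt_pos (m.bm_lw S u ξ)).ne']
  have hw : Measurable fun p : Ω × (E → ℝ) => Real.exp (m.lw S u p.2 p.1) :=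
    Real.measurable_exp.comp ((m.measurable_lw S u).comp measurable_swap)
  have hi : Integrable (fun p : Ω × (E → ℝ) => Real.exp (m.lw S u p.2 p.1))
      (m.μ.prod (gam E)) := by
    rw [integrable_prod_iff hw.aestronglyMeasurable]
    refine ⟨ae_of_all _ fun ω => ?_, ?_⟩
    · simp only [lw_eq]; exact integrable_exp_lin S _
    · simp only [Real.norm_eq_abs, abs_of_pos (Real.exp_pos _), lw_eq]
      simp only [integral_exp_lin S (fun f => u * m.s f _)]
      exact integrable_const _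
  simp only [h1]
  rw [integral_prod _ (hm'.int _), ← integral_integral_swap
      (f := fun ω ξ => Real.exp (m.lw S u ξ ω) * Ψ ω ξ) (hi.mul_bdd (c := c) hm.aestronglyMeasurable (ae_of_all _ hc))]
  refine integral_congr_ae (ae_of_all _ fun ω => ?_)
  simp only [lw_eq]
  exact integral_shift S (fun f => u * m.s f ω) (hm.comp measurable_prodMk_left) (hd ω)

lemma bm_Et (S : Finset E) (u : ℝ) {Ψ : Ω → (E → ℝ) → ℝ}
    (hm : BM fun p : Ω × (E → ℝ) => Ψ p.1 p.2) :
    BM fun x => Et m.μ (m.lw S u x) (fun ω => Ψ ω x) := by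
  obtain ⟨hm, c, hc⟩ := hm
  exact BM.of (measurable_Et (m.measurable_lw S u) (hm.comp measurable_swap)) (c := c) fun x =>
    abs_Et_le (m.bm_lw S u x) (BM.of (hm.comp measurable_prodMk_right) fun ω => hc (ω, x))
      fun ω => hc (ω, x)

theorem bayes (u : ℝ) {Ψ : Ω → (E → ℝ) → ℝ} (hm : BM fun p : Ω × (E → ℝ) => Ψ p.1 p.2)
    (hd : ∀ ω, DependsOn (Ψ ω) S) : ∫ p, Ψ p.1 (m.sh u p) ∂(m.μ.prod (gam E)) =
    ∫ x, Et m.μ (m.lw S u x) (fun ω => Ψ ω x) ∂m.rho u := by
  have h1 := m.bm_Et S u hm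
  rw [m.bayes0 u hm hd, m.integral_rho u h1.1, m.bayes0 (S := S) u
    (Ψ := fun _ x => Et m.μ (m.lw S u x) (fun ω => Ψ ω x))]
  · simp only [Et_const (m.bm_lw S u _)]
  · exact h1.comp measurable_snd
  · intro _ x y h
    have : (fun ω => Ψ ω x) = fun ω => Ψ ω y := funext fun ω => hd ω h
    simp only [m.lw_congr u h, this]

lemma integral_rho_eq (u : ℝ) {H : (E → ℝ) → ℝ} (hm : BM H) (hd : DependsOn H S) :
    ∫ x, H x ∂m.rho u = ∫ ξ, (∫ ω, Real.exp (m.lw S u ξ ω) ∂m.μ) * H ξ ∂gam E := by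
  rw [m.integral_rho u hm.1, m.bayes0 (S := S) u (Ψ := fun _ x => H x)
    (hm.comp measurable_snd) fun _ => hd]
  simp only [Et_const (m.bm_lw S u _)]

lemma rho_zero : m.rho 0 = gam E := by
  have : m.sh 0 = Prod.snd := by ext p f; simp [sh]
  rw [rho, this, Measure.map_snd_prod, measure_univ, one_smul]

end Md

lemma QD.dep {S : Finset E} {K : ℝ} {G : (E → ℝ) → ℝ} {D : (E → ℝ) → E → ℝ}
    (h : QD S K G D) : DependsOn G S := by
  intro x y hxy
  have := h.lip y (x - y)
  rw [add_sub_cancel, nS, sum_eq_zero fun f hf => by simp [hxy f hf], mul_zero] at this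
  exact sub_eq_zero.1 (abs_nonpos_iff.1 this)

namespace Md

variable (m : Md Ω E) {S : Finset E} {K : ℝ} {G : (E → ℝ) → ℝ} {D : (E → ℝ) → E → ℝ}

lemma step_congr (h u : ℝ) {x y : E → ℝ} (hxy : ∀ f ∈ S, x f = y f) {f : E} (hf : f ∈ S) :
    m.step S h u x f = m.step S h u y f := by
  simp only [step, vel, m.lw_congr u hxy, hxy f hf]

lemma one_step (hG : QD S K G D) (hm : BM G) {h : ℝ} (hh : 0 ≤ h) (u : ℝ) (x : E → ℝ) :
    |Et m.μ (m.lw S u x) (fun ω => G (x + fun f => h * m.s f ω) - G (m.step S h u x))|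
      ≤ 2 * K * (S.card * h) ^ 2 := by
  have b : ∀ w : E → ℝ, (∀ f, |w f| ≤ 1) →
      |G (x + fun f => h * w f) - G x - ∑ f ∈ S, D x f * (h * w f)| ≤ K * (S.card * h) ^ 2 := by
    intro w hw
    refine (hG.rem x (fun f => h * w f)).trans (mul_le_mul_of_nonneg_left ?_ hG.nonneg)
    refine pow_le_pow_left₀ (nS_nonneg _ _) (nS_le_card fun f _ => ?_) 2
    rw [abs_mul, abs_of_nonneg hh]
    exact mul_le_of_le_one_right hh (hw f)
  have hb : BM fun ω => G (x + fun f => h * m.s f ω) :=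
    hm.comp ((m.measurable_sh h).comp (measurable_prodMk_right (y := x)))
  have e1 : Et m.μ (m.lw S u x) (fun ω => ∑ f ∈ S, D x f * (h * m.s f ω)) =
      ∑ f ∈ S, D x f * (h * m.vel S u x f) := by
    rw [Et_sum S (m.bm_lw S u x) (by fun_prop)]
    exact sum_congr rfl fun f _ => by rw [Et_mul', Et_mul', vel]
  have e2 : Et m.μ (m.lw S u x) (fun ω => G (x + fun f => h * m.s f ω) - G (m.step S h u x)) =
      Et m.μ (m.lw S u x) (fun ω => G (x + fun f => h * m.s f ω) - G x -
        ∑ f ∈ S, D x f * (h * m.s f ω)) -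
      (G (m.step S h u x) - G x - ∑ f ∈ S, D x f * (h * m.vel S u x f)) := by
    rw [Et_sub (m.bm_lw S u x) hb (by fun_prop), Et_sub (m.bm_lw S u x) (hb.sub (by fun_prop))
      (by fun_prop), Et_sub (m.bm_lw S u x) hb (by fun_prop), e1, Et_const (m.bm_lw S u x),
      Et_const (m.bm_lw S u x)]
    ring
  rw [e2]
  refine (abs_sub _ _).trans ?_
  have c1 := abs_Et_le (μ := m.μ) (m.bm_lw S u x) (φ := fun ω => G (x + fun f => h * m.s f ω) -
    G x - ∑ f ∈ S, D x f * (h * m.s f ω)) ((hb.sub (by fun_prop)).sub (by fun_prop))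
    fun ω => b _ fun f => m.bd f ω
  have c2 := b (m.vel S u x) (m.abs_vel_le S u x)
  calc _ ≤ K * (S.card * h) ^ 2 + K * (S.card * h) ^ 2 := add_le_add c1 c2
    _ = _ := by ring

lemma rho_step (hG : QD S K G D) (hm : BM G) {h : ℝ} (hh : 0 ≤ h) (u : ℝ) :
    |∫ x, G x ∂m.rho (u + h) - ∫ x, G (m.step S h u x) ∂m.rho u| ≤ 2 * K * (S.card * h) ^ 2 := by
  have m0 := hm.comp (m.measurable_step S h u)
  have m1 : BM fun p : Ω × (E → ℝ) => G (p.2 + fun f => h * m.s f p.1) :=
    hm.comp (m.measurable_sh h)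
  have e1 : ∀ p, m.sh (u + h) p = m.sh u p + fun f => h * m.s f p.1 := by
    intro p; ext f; simp only [sh, Pi.add_apply]; ring
  have hb := m.bayes (S := S) u
    (Ψ := fun ω x => G (x + fun f => h * m.s f ω) - G (m.step S h u x))
    (m1.sub (m0.comp measurable_snd)) fun ω x y hxy => by
      simp only
      rw [hG.dep (x := x + _) (y := y + fun f => h * m.s f ω) fun f hf => by simp [hxy f hf],
        hG.dep (x := m.step S h u x) fun f hf => m.step_congr h u hxy hf]
  rw [m.integral_rho _ hm.1, m.integral_rho _ m0.1,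
    ← integral_sub ((hm.comp (m.measurable_sh _)).int _) ((m0.comp (m.measurable_sh _)).int _)]
  simp only [e1]
  rw [hb, ← Real.norm_eq_abs]
  refine (norm_integral_le_of_norm_le_const (ae_of_all _ fun x => m.one_step hG hm hh u x)).trans ?_
  simp

lemma transport_aux {h T : ℝ} (hh : 0 ≤ h) (k : ℕ) (hk : k * h ≤ T) :
    ∀ (K : ℝ) (G : (E → ℝ) → ℝ) (D : (E → ℝ) → E → ℝ), QD S K G D → BM G →
      |∫ ξ, G (m.eul S h k 0 ξ) ∂gam E - ∫ x, G x ∂m.rho (k * h)| ≤
        K * (k * ((1 + h * CS S T) ^ 3) ^ k * (2 * (S.card * h) ^ 2)) := by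
  induction k with
  | zero =>
    intro K G D _ _
    simp [eul, rho_zero]
  | succ k ih =>
    intro K G D hG hm
    have hk0 : (0 : ℝ) ≤ k * h := mul_nonneg (Nat.cast_nonneg _) hh
    have hk' : k * h ≤ T := by push_cast at hk; nlinarith
    have h1 := ih hk' _ _ _ (m.comp_step hG hh hk0 hk') (hm.comp (m.measurable_step S h _))
    have h2 := m.rho_step hG hm hh (k * h)
    set a := (1 + h * CS S T) ^ 3 with ha
    have ha1 : 1 ≤ a := one_le_pow₀ (by nlinarith [mul_nonneg hh (CS_nonneg S T)])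
    have ha2 : 1 ≤ a ^ (k + 1) := one_le_pow₀ ha1
    have e1 : ((k + 1 : ℕ) : ℝ) * h = k * h + h := by push_cast; ring
    rw [e1]
    simp only [eul_succ, zero_add]
    have h3 := abs_sub_le (∫ ξ, G (m.step S h (k * h) (m.eul S h k 0 ξ)) ∂gam E)
      (∫ x, G (m.step S h (k * h) x) ∂m.rho (k * h)) (∫ x, G x ∂m.rho (k * h + h))
    rw [abs_sub_comm] at h2
    have h4 : 0 ≤ K * (2 * (S.card * h) ^ 2) := mul_nonneg hG.nonneg (by positivity)
    have h5 := mul_le_mul_of_nonneg_left ha2 h4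
    calc _ ≤ K * a * (k * a ^ k * (2 * (S.card * h) ^ 2)) + 2 * K * (S.card * h) ^ 2 :=
          h3.trans (add_le_add h1 h2)
      _ ≤ _ := by push_cast; rw [pow_succ a k] at h5 ⊢; nlinarith

end Md

noncomputable def BS (S : Finset E) (T : ℝ) : ℝ :=
  2 * (S.card : ℝ) ^ 2 * T * Real.exp (3 * CS S T * T)

lemma pow3_le_exp {c h T : ℝ} (hc : 0 ≤ c) (hh : 0 ≤ h) {j : ℕ} (hj : j * h ≤ T) :
    ((1 + h * c) ^ 3) ^ j ≤ Real.exp (3 * c * T) := by
  rw [← pow_mul, mul_comm 3 j, pow_mul, show 3 * c * T = (3 : ℕ) * (c * T) by push_cast; ring,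
    Real.exp_nat_mul]
  exact pow_le_pow_left₀ (by positivity) (pow_le_exp hc hh hj) 3

theorem Md.transport (m : Md Ω E) {S : Finset E} {h T : ℝ} (hh : 0 ≤ h) {k : ℕ} (hk : k * h ≤ T)
    {K : ℝ} {G : (E → ℝ) → ℝ} {D : (E → ℝ) → E → ℝ} (hG : QD S K G D) (hm : BM G) :
    |∫ ξ, G (m.eul S h k 0 ξ) ∂gam E - ∫ x, G x ∂m.rho (k * h)| ≤ K * BS S T * h := by
  refine (m.transport_aux hh k hk K G D hG hm).trans ?_
  rw [mul_assoc K]
  refine mul_le_mul_of_nonneg_left ?_ hG.nonneg
  have h1 := pow3_le_exp (CS_nonneg S T) hh hk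
  calc (k : ℝ) * ((1 + h * CS S T) ^ 3) ^ k * (2 * (S.card * h) ^ 2)
      = 2 * (S.card : ℝ) ^ 2 * (k * h) * ((1 + h * CS S T) ^ 3) ^ k * h := by ring
    _ ≤ _ := by
      have : 0 ≤ T := (mul_nonneg (Nat.cast_nonneg _) hh).trans hk
      have := CS_nonneg S T
      unfold BS; gcongr

end Vale.Agent.P161
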