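import Vale.Agent.P161.Crude

/-! Kernel bounds on the good event at criticality. -/

namespace Vale.Agent.P161

open Finset Function MeasureTheory
open scoped Classical

variable {V : Type} {D : ℕ} {G : SimpleGraph V}

lemma Xs_nonneg' {c s : ℝ} (hc : 0 ≤ c) (hs : 0 ≤ s) (n : ℕ) : 0 ≤ Xs c s n := by
  induction n with
  | zero => exact le_rfl
  | succ n ih => rw [Xs]; positivity

lemma Xs_le' {c s r : ℝ} (hc : 0 < c) (hs : 0 ≤ s) (hr : 0 ≤ r) (h : s ≤ c * r ^ 2) (n : ℕ) :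
    Xs c s n ≤ s + r := by
  induction n with
  | zero => exact add_nonneg hs hr
  | succ n ih =>
    have h0 := Xs_nonneg' hc.le hs n
    rw [Xs]
    refine add_le_add le_rfl ?_
    rw [div_le_iff₀ (by positivity)]
    by_cases h1 : Xs c s n ≤ r
    · nlinarith [mul_nonneg (mul_nonneg hc.le hr) h0]
    · nlinarith [mul_le_mul_of_nonneg_left (not_le.1 h1).le (mul_nonneg hc.le hr)]

noncomputable def c0G (D : ℕ) : ℝ := 101 / 100 * (1 + √(D + 1)) ^ 2 / (2 * (99 / 100) ^ 4)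

noncomputable def c1G (D : ℕ) (θ : ℝ) : ℝ :=
  101 / 100 * (1 - θ ^ 2) * (101 / 100) * (1 + √D) ^ 2 / (4 * (99 / 100) ^ 2)

lemma sq0_pos (D : ℕ) {u : ℝ} (hu : 0 < u) : 0 < sq0 D u := by unfold sq0; positivity

section Riccati
variable {θ u X : ℝ} {R : ℕ}

lemma yl_ge (hc : θ ^ 2 ≤ 1) (hX : ∀ n, Xs (1 - θ ^ 2) (sq0 D u) n ≤ X) (R l : ℕ) :
    1 - X ≤ yl D θ u R l ∧ yl D θ u R l ≤ 1 := by
  have h0 := Xs_nonneg' (sub_nonneg.2 hc) (show 0 ≤ sq0 D u by unfold sq0; positivity) (R + 1 - l)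
  have h1 := hX (R + 1 - l)
  have h2 := mul_nonneg (sub_nonneg.2 hc) h0
  have h3 : (1 - θ ^ 2) * Xs (1 - θ ^ 2) (sq0 D u) (R + 1 - l) ≤ X := by nlinarith [sq_nonneg θ]
  rw [yl, le_div_iff₀ (by positivity), div_le_one (by positivity)]
  constructor <;> nlinarith

lemma Xs_level (θ u : ℝ) {m : ℕ} (hm : m < R) : Xs (1 - θ ^ 2) (sq0 D u) (R + 1 - m) =
    sq0 D u + yl D θ u R (m + 1) * Xs (1 - θ ^ 2) (sq0 D u) (R + 1 - (m + 1)) := by
  rw [show R + 1 - m = (R + 1 - (m + 1)) + 1 by omega, Xs, yl]; ring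

lemma riccati1 (hθ : θ ^ 2 ≤ 1 / 2) (hu : 0 < u) (hX : ∀ n, Xs (1 - θ ^ 2) (sq0 D u) n ≤ X)
    (hX1 : X ≤ 1 / 100) (hX2 : c0G D * X ≤ 1 / 8) {n0 : ℝ} (hn0 : 16 * c0G D ≤ n0) {n' : ℕ}
    (hn : n' ≤ R) : ∑ n ∈ range R, ((n + 1 : ℕ) + n0) *
      Gk (c0G D) (c1G D θ) (yl D θ u R) n' (n + 1) ≤ 5 / 4 / u ^ 2 * (n' + n0) := by
  have hs := sq0_pos D hu
  have hc : 1 / 2 ≤ 1 - θ ^ 2 := by linarith
  have h0 : 0 ≤ c0G D := by unfold c0G; positivity
  have hn1 : 0 ≤ n0 := by linarith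
  have hy := yl_ge (by linarith) hX R
  have hX0 := Xs_nonneg' (show 0 ≤ 1 - θ ^ 2 by linarith) hs.le
  set c := 1 - θ ^ 2 with hc'
  set s := sq0 D u with hs'
  have hd : 0 ≤ √(D : ℝ) := Real.sqrt_nonneg _
  have e : s = (19 / 20) ^ 3 * (√D + 1) ^ 2 * u ^ 2 / 4 := rfl
  refine sum_Gk_le (w := fun n => n + n0) (h := fun m => ((m + n0) * Xs c s (R + 1 - m) + 1 / c) / s)
    (k := fun n => 5 / 4 / u ^ 2 * (n + n0)) h0 (by unfold c1G; positivity)
    (fun l => by linarith [(hy l).1]) (fun l => by positivity) ?_ (fun m hm => ?_) ?_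
    (fun n _ => ?_) hn
  · rw [show R + 1 - R = 0 + 1 by omega, Xs, Xs, le_div_iff₀ hs]
    have : 0 < 1 / c := by positivity
    simp only [zero_div, add_zero]; linarith
  · refine le_of_eq ?_
    rw [Xs_level θ u hm, yl, ← hc', ← hs']
    have := hX0 (R + 1 - (m + 1))
    generalize Xs c s (R + 1 - (m + 1)) = x at this
    have a1 : 1 + c * x ≠ 0 := by positivity
    have a2 : c ≠ 0 := by positivity
    push_cast
    field_simp
    ring
  · simp only [Nat.cast_zero, zero_add, Nat.sub_zero]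
    have a1 : 1 / c ≤ 2 := by rw [div_le_iff₀ (by linarith)]; linarith
    have a2 : c0G D * (n0 * Xs c s (R + 1) + 1 / c) ≤ n0 / 4 := by
      nlinarith [mul_le_mul_of_nonneg_left (mul_le_mul_of_nonneg_left (hX (R + 1)) h0) hn1,
        mul_le_mul_of_nonneg_left hX2 hn1, mul_le_mul_of_nonneg_left a1 h0]
    rw [← mul_div_assoc, div_le_iff₀ hs, e]
    refine a2.trans ?_
    calc n0 / 4 ≤ 5 / 4 * n0 * ((19 / 20) ^ 3 * (√D + 1) ^ 2 / 4) := by
          have : 1 ≤ (√(D : ℝ) + 1) ^ 2 := by nlinarith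
          nlinarith
      _ = _ := by field_simp
  · have a0 := hX0 (R + 1 - (n + 1))
    have a1 := (hy (n + 1)).1
    set x := Xs c s (R + 1 - (n + 1))
    have a2 : yl D θ u R (n + 1) = 1 / (1 + c * x) := rfl
    have a3 : c1G D θ / s ≤ 5 / 4 / u ^ 2 * (yl D θ u R (n + 1) * c) := by
      rw [div_le_iff₀ hs, e, c1G, ← hc']
      calc _ ≤ 5 / 4 * (99 / 100 * c) * ((19 / 20) ^ 3 * (√D + 1) ^ 2 / 4) := by
            have : 0 ≤ c * (1 + √D) ^ 2 := by positivity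
            rw [add_comm √(D : ℝ) 1, div_le_iff₀ (by norm_num)]
            nlinarith
        _ ≤ 5 / 4 * (yl D θ u R (n + 1) * c) * ((19 / 20) ^ 3 * (√D + 1) ^ 2 / 4) := by
            gcongr; linarith
        _ = _ := by field_simp
    have a4 := mul_le_mul_of_nonneg_right a3
      (show 0 ≤ ((n + 1 : ℕ) + n0) * x + 1 / c by positivity)
    calc _ = yl D θ u R (n + 1) * (5 / 4 / u ^ 2 * (n + n0)) +
          c1G D θ / s * (((n + 1 : ℕ) + n0) * x + 1 / c) := by ring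
      _ ≤ _ := add_le_add le_rfl a4
      _ = _ := by rw [a2]; push_cast; field_simp; ring

lemma riccati0 (hθ : θ ^ 2 ≤ 1 / 2) (hu : 0 < u) (hX : ∀ n, Xs (1 - θ ^ 2) (sq0 D u) n ≤ X)
    (hX1 : X ≤ 1 / 100) {n0 : ℝ} (hn0 : 1 ≤ n0) {n' : ℕ} (hn : n' ≤ R) :
    ∑ n ∈ range R, 1 * Gk (c0G D) (c1G D θ) (yl D θ u R) n' (n + 1) ≤
      (c0G D + c1G D θ) * X / sq0 D u * (n' + n0) := by
  have hs := sq0_pos D hu
  have h0 : 0 ≤ c0G D := by unfold c0G; positivity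
  have hc : 0 ≤ 1 - θ ^ 2 := by linarith
  have h1 : 0 ≤ c1G D θ := by unfold c1G; positivity
  have hy := yl_ge (by linarith) hX R
  have hX0 := Xs_nonneg' hc hs.le
  have hX' : 0 ≤ X := (hX0 0).trans (hX 0)
  have hb : ∀ m, Xs (1 - θ ^ 2) (sq0 D u) m / sq0 D u ≤ X / sq0 D u := fun m =>
    div_le_div_of_nonneg_right (hX m) hs.le
  have hq : 0 ≤ X / sq0 D u := by positivity
  refine sum_Gk_le (w := fun _ => 1) (h := fun m => Xs (1 - θ ^ 2) (sq0 D u) (R + 1 - m) / sq0 D u)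
    (k := fun n => (c0G D + c1G D θ) * X / sq0 D u * (n + n0)) h0 h1
    (fun l => by linarith [(hy l).1]) (fun l => zero_le_one) ?_ (fun m hm => ?_) ?_
    (fun n _ => ?_) hn
  · rw [show R + 1 - R = 0 + 1 by omega, Xs, Xs, le_div_iff₀ hs]; simp
  · rw [Xs_level θ u hm]; exact le_of_eq (by field_simp)
  · simp only [mul_div_assoc, Nat.cast_zero, zero_add]
    nlinarith [mul_le_mul_of_nonneg_left (hb (R + 1 - 0)) h0, mul_nonneg h1 hq,
      mul_le_mul_of_nonneg_left hn0 (mul_nonneg (add_nonneg h0 h1) hq)]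
  · simp only [mul_div_assoc]
    have a1 := mul_le_mul_of_nonneg_right (hy (n + 1)).2 (show 0 ≤ (c0G D + c1G D θ) *
      (X / sq0 D u) * (n + n0) by have : (0 : ℝ) ≤ n := Nat.cast_nonneg n; positivity)
    have a2 := mul_le_mul_of_nonneg_left (hb (R + 1 - (n + 1))) h1
    generalize Xs (1 - θ ^ 2) (sq0 D u) (R + 1 - (n + 1)) / sq0 D u = x at a2 ⊢
    push_cast
    nlinarith [mul_nonneg h0 hq]

end Riccati

lemma sum_comb {γ ω W : ℝ} (hγ : 0 < γ) (hγ1 : γ ≤ 1) (hω : 1 ≤ ω) (hω' : ω ^ 2 ≤ 1 + γ / 2)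
    {w : ℕ → ℝ} (hw0 : ∀ l, 0 ≤ w l) (hw : ∀ l, w l ≤ W * ω ^ l) {K : ℕ → ℕ → ℝ}
    (hK : ∀ n n', 0 ≤ K n n') {R M n' : ℕ} (hn : n' < R) {k : ℝ}
    (hk : ∑ n ∈ range R, w (n + 1) * K n' n ≤ k) (P : Prop) :
    ∑ n ∈ range R, w (n + 1) * (if P ∧ n' + 1 ≤ M ∧ n + 1 ≤ M then K n' n else Kdet D γ n' n) ≤
      k + W * (2 * cD D / γ ^ 2) * ((ω ^ M)⁻¹ + if P then 0 else 1) * (ω ^ 2) ^ (n' + 1) := by
  have hW : 0 ≤ W := by simpa using (hw0 0).trans (hw 0)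
  have hc := cD_pos D
  have hk0 : 0 ≤ k := (sum_nonneg fun n _ => mul_nonneg (hw0 _) (hK _ _)).trans hk
  have hd : ∀ n, 0 ≤ Kdet D γ n' n := fun n => Gk_nonneg hc.le hc.le (fun _ => by linarith) _ _
  have hω2 : ω ≤ ω ^ 2 := le_self_pow₀ hω two_ne_zero
  have hτ : ∀ l, M ≤ l → ω ^ l ≤ (ω ^ M)⁻¹ * (ω ^ 2) ^ l := fun l hl => by
    rw [← pow_mul, two_mul, pow_add, ← mul_assoc]
    exact le_mul_of_one_le_left (by positivity)
      ((one_le_inv_mul₀ (by positivity)).2 (pow_le_pow_right₀ hω hl))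
  have a1 : ∑ n ∈ range R, w (n + 1) * Kdet D γ n' n ≤ W * (2 * cD D / γ ^ 2) * ω ^ (n' + 1) := by
    refine le_trans ?_ ((mul_le_mul_of_nonneg_left
      (sum_Kdet hγ hγ1 hω (hω2.trans hω') hn) hW).trans_eq (mul_assoc _ _ _).symm)
    rw [mul_sum]
    exact sum_le_sum fun n _ => by
      rw [← mul_assoc]; exact mul_le_mul_of_nonneg_right (hw _) (hd n)
  have a0 : 0 ≤ W * (2 * cD D / γ ^ 2) := by positivity
  by_cases hP : P
  · simp only [hP, true_and, if_true, add_zero]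
    by_cases h1 : n' + 1 ≤ M
    · simp only [h1, true_and]
      have a2 := mul_le_mul_of_nonneg_left (sum_Kdet (D := D) hγ hγ1 (hω.trans hω2) hω' hn)
        (show 0 ≤ W * (ω ^ M)⁻¹ by positivity)
      refine le_trans ?_ (add_le_add hk (a2.trans_eq (by ring)))
      rw [mul_sum, ← sum_add_distrib]
      refine sum_le_sum fun n _ => ?_
      split_ifs with h2
      · exact le_add_of_nonneg_right (by have := hd n; positivity)
      · refine le_add_of_nonneg_of_le (mul_nonneg (hw0 _) (hK _ _)) ?_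
        rw [← mul_assoc, mul_assoc W]
        exact mul_le_mul_of_nonneg_right ((hw _).trans (mul_le_mul_of_nonneg_left
          (hτ _ (by omega)) hW)) (hd n)
    · simp only [h1, false_and, if_false]
      rw [mul_assoc _ (ω ^ M)⁻¹]
      exact le_add_of_nonneg_of_le hk0 (a1.trans (mul_le_mul_of_nonneg_left (hτ _ (by omega)) a0))
  · simp only [hP, false_and, if_false]
    refine le_add_of_nonneg_of_le hk0 (a1.trans ?_)
    rw [mul_assoc _ (_ + 1)]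
    refine mul_le_mul_of_nonneg_left ((pow_le_pow_left₀ (by linarith) hω2 _).trans ?_) a0
    exact le_mul_of_one_le_left (by positivity) (le_add_of_nonneg_left (by positivity))

namespace RT

variable {t : RT V D} {θ u : ℝ} {μ : Measure (V → Bool)}

lemma Ti_mono {r r' f f' : V → ℝ} (h0 : ∀ c, 0 ≤ r c) (hr : ∀ c, r c ≤ r' c)
    (hf0 : ∀ c, 0 ≤ f c) (hf : ∀ c, f c ≤ f' c) (j : ℕ) (z : V) :
    (t.Tr r)^[j] f z ≤ (t.Tr r')^[j] f' z := by
  induction j generalizing z with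
  | zero => exact hf z
  | succ j ih =>
    simp only [iterate_succ_apply', Tr]
    exact sum_le_sum fun c _ => mul_le_mul (hr c) (ih c) (t.Ti_nonneg h0 hf0 _ _)
      ((h0 c).trans (hr c))

lemma Ti_le_mul {r f : V → ℝ} (h0 : ∀ c, 0 ≤ r c) {C : ℝ} (j : ℕ) (z : V)
    (hf : ∀ w, t.lev w = t.lev z + j → f w ≤ C) : (t.Tr r)^[j] f z ≤ (t.Tr r)^[j] 1 z * C := by
  induction j generalizing z with
  | zero => simpa using hf z rfl
  | succ j ih =>
    simp only [iterate_succ_apply', Tr, sum_mul, mul_assoc]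
    exact sum_le_sum fun c hc => mul_le_mul_of_nonneg_left
      (ih c fun w hw => hf w (by rw [hw, t.lev_ch hc]; ring)) (h0 c)

lemma rq_bounds (t : RT V D) (θ u : ℝ) (x : Sym2 V → ℝ) (R : ℕ) (c : V) :
    99 / 100 * θ ^ 2 ≤ t.rq θ u x R c ∧ t.rq θ u x R c ≤ θ ^ 2 := by
  have a1 : 0 ≤ t.gg θ u x (R - t.lev c) c := le_max_left _ _
  have a2 : t.gg θ u x (R - t.lev c) c ≤ 1 / 100 := max_le (by norm_num) (min_le_left _ _)
  rw [rq]
  constructor <;> nlinarith [sq_nonneg θ]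

/-- The good event. -/
def Good (t : RT V D) (θ u : ℝ) (R M i j l : ℕ) (x : Sym2 V → ℝ) : Prop :=
  ∀ z, z ≠ t.o → t.lev z ≤ M → t.lev z + i + j + l ≤ R →
    t.Yb θ u x R i j z ≤ ∏ l ∈ Ioc (t.lev z) (t.lev z + i + j), yl D θ u R l ^ 2

lemma Good.Y_le {R M i j l : ℕ} {x : Sym2 V → ℝ} (h : t.Good θ u R M i j l x)
    (hθ : θ ^ 2 * D = 1) (hb : 0 < i + j) {X : ℝ} (hX1 : X ≤ 1) (hy : ∀ l, 1 - X ≤ yl D θ u R l)
    (hX : 2 * (i + j + l : ℕ) * X ≤ 1 / 101) (k : ℕ) (z : V) (hz : z ≠ t.o)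
    (hk : t.lev z + k ≤ min M R) :
    t.Y θ u x R k z ≤ 101 / 100 * Pm (yl D θ u R) (t.lev z) (t.lev z + k) ^ 2 := by
  have hq := t.rq_bounds θ u x R
  have hq0 : ∀ c, 0 ≤ t.rq θ u x R c := fun c => le_trans (by positivity) (hq c).1
  induction k using Nat.strong_induction_on generalizing z with
  | _ k ih =>
  by_cases hc : i + j ≤ k ∧ t.lev z + i + j + l ≤ R
  · obtain ⟨k, rfl⟩ := Nat.exists_eq_add_of_le hc.1
    have a1 : t.Y θ u x R (i + j) z ≤ t.Yb θ u x R i j z := by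
      rw [Y, iterate_add_apply]
      exact Ti_mono hq0 (fun c => (hq c).2) (t.Ti_nonneg hq0 (fun _ => zero_le_one) _)
        (fun _ => le_rfl) _ _
    have a2 := a1.trans (h z hz (by omega) hc.2)
    rw [Y, iterate_add_apply]
    refine (Ti_le_mul hq0 _ z (C := 101 / 100 * Pm (yl D θ u R) (t.lev z + (i + j))
      (t.lev z + (i + j) + k) ^ 2) fun w hw => ?_).trans ?_
    · rw [← hw]
      exact ih k (by omega) w (by rintro rfl; rw [t.lev_o] at hw; omega) (by omega)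
    · refine (mul_le_mul_of_nonneg_right a2 (by positivity)).trans (le_of_eq ?_)
      rw [prod_pow, Pm, Pm, ← add_assoc, ← add_assoc, ← add_assoc,
        ← prod_Ioc_consecutive _ (show t.lev z ≤ t.lev z + i + j by omega)
          (show t.lev z + i + j ≤ t.lev z + i + j + k by omega)]
      ring
  · have a1 : t.Y θ u x R k z ≤ 1 := by
      refine (Ti_mono (f' := 1) hq0 (fun c => (hq c).2) (fun _ => zero_le_one) (fun _ => le_rfl) k
        z).trans ?_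
      rw [t.Ti_const _ _ hz, hθ, one_pow]
    have a2 : (1 - X) ^ k ≤ Pm (yl D θ u R) (t.lev z) (t.lev z + k) := by
      refine le_trans (le_of_eq ?_) (prod_le_prod (fun _ _ => sub_nonneg.2 hX1) fun l _ => hy l)
      rw [prod_const, Nat.card_Ioc, Nat.add_sub_cancel_left]
    have a3 := one_add_mul_le_pow (show -2 ≤ -X by linarith) (k * 2)
    rw [pow_mul, ← sub_eq_add_neg] at a3
    have a4 := pow_le_pow_left₀ (pow_nonneg (sub_nonneg.2 hX1) k) a2 2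
    have a5 : (k : ℝ) ≤ (i + j + l : ℕ) := by exact_mod_cast (by omega : k ≤ i + j + l)
    by_cases hX0 : 0 ≤ X
    · push_cast at a3
      nlinarith [mul_le_mul_of_nonneg_right a5 hX0]
    · push_cast at a3
      nlinarith [mul_nonneg (Nat.cast_nonneg (α := ℝ) k) (neg_nonneg.2 (not_le.1 hX0).le)]

lemma Fits.kb_comb (ht : t.Fits G) (hD : 2 ≤ D) (h0 : 0 ≤ θ) (hθ : θ ^ 2 * D = 1)
    (hμ : IsFreeIsing G θ μ) {γ : ℝ} (hp : 0 ≤ thp θ u) (hγ0 : 0 ≤ γ) (hγ : γ ≤ 1 / 2)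
    (hu : thp θ u * √D ≤ 1 - γ) {X : ℝ} (hX : ∀ n, Xs (1 - θ ^ 2) (sq0 D u) n ≤ X)
    (hX1 : X ≤ 1 / 100) {i j l : ℕ} (hb : 0 < i + j) (hX2 : 2 * (i + j + l : ℕ) * X ≤ 1 / 101)
    (x : Sym2 V → ℝ) (R M : ℕ) :
    t.KB R ((isingMd μ hμ.1).cv (t.Sp R t.o) u x) fun n' n =>
      if t.Good θ u R M i j l x ∧ n' + 1 ≤ M ∧ n + 1 ≤ M then
        Gk (c0G D) (c1G D θ) (yl D θ u R) (n' + 1) (n + 1) else Kdet D γ n' n := by
  have hD' : (2 : ℝ) ≤ D := by exact_mod_cast hD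
  have h2 : θ ^ 2 ≤ 1 / 2 := by nlinarith [sq_nonneg θ]
  have h1 : θ < 1 := by nlinarith
  intro n hn n' hn'
  beta_reduce
  split_ifs with hg
  swap
  · exact ht.kb_det (by omega) h0 h1 hμ hp hγ0 hγ hu x R n hn n' hn'
  have hy := yl_ge (by linarith) hX R
  have hq := t.rq_bounds θ u x R
  have hq0 : ∀ c, 0 ≤ t.rq θ u x R c := fun c => le_trans (by positivity) (hq c).1
  have hc : 0 ≤ 1 - θ ^ 2 := by linarith
  refine ⟨Gk_nonneg (by unfold c0G; positivity) (by unfold c1G; positivity)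
    (fun l => by linarith [(hy l).1]) _ _, fun f g hf hg' => ?_⟩
  obtain ⟨C, hC, hle⟩ := ht.cv_le h0 h1 hμ u x R (r := fun c => √(t.rq θ u x R c)) fun a =>
    Real.abs_le_sqrt (rr_bounds h0 h1 hp _ (t.Zp_pos u x h0 h1 _ a)).2
  refine (sum_le_sum fun p _ => mul_le_mul_of_nonneg_left (sum_le_sum fun q _ =>
    mul_le_mul_of_nonneg_left (hle p q) (hg' q)) (hf p)).trans ?_
  refine hC.edge_le (N := min M R) (min_le_right _ _) (y0 := 99 / 100) (Λ := 101 / 100)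
    (cc := 101 / 100 * (1 - θ ^ 2)) (by norm_num) (by norm_num) (fun l => by linarith [(hy l).1])
    (by norm_num) (by positivity) (fun z => ?_) (fun z => ?_) (fun z k hz hk => ?_)
    (by omega) (by omega) hf hg'
  · rw [Real.sq_sqrt (hq0 z)]; linarith [(hq z).1]
  · rw [Real.sq_sqrt (hq0 z)]; nlinarith [(hq z).2]
  · simp only [Real.sq_sqrt (hq0 _)]
    exact hg.1.Y_le hθ hb (by linarith) (fun l => (hy l).1) hX2 k z hz hk

end RT

end Vale.Agent.P161
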