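import Vale.Agent.P161.Crude

/-! The Gronwall argument at small times. -/

namespace Vale.Agent.P161

open Finset Function MeasureTheory Filter Topology
open scoped Classical

variable {V : Type} {D : ℕ} {G : SimpleGraph V}

lemma gron_step {A0 A1 A0' A1' h C e : ℝ} {k : ℕ} (hk : 1 ≤ k) (hh : 0 < h) (hu : k * h ≤ 1)
    (a0 : 0 ≤ A0') (hC : 0 ≤ C) (he : 0 ≤ e)
    (h1 : A1 ≤ A1' + h * (k * h) * (5 / 4 / (k * h) ^ 2 * A1' + e))
    (h2 : A0 ≤ A0' + h * (k * h) * (C / (k * h) * A1' + e)) :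
    A0 + 12 * C * (k * h) * A1 ≤ (1 + 1 / (3 * (k + 1))) *
      (A0' + 12 * C * ((k + 1 : ℕ) * h) * A1') + h * ((1 + 12 * C) * e) := by
  have k1 : (1 : ℝ) ≤ k := by exact_mod_cast hk
  have hu0 : 0 < k * h := by positivity
  have b1 := mul_le_mul_of_nonneg_left h1 (show 0 ≤ 12 * C * (k * h) by positivity)
  have e1 : 12 * C * (k * h) * (A1' + h * (k * h) * (5 / 4 / (k * h) ^ 2 * A1' + e)) =
      12 * C * (k * h) * A1' + 15 * (C * h * A1') + 12 * C * (h * e) * (k * h) ^ 2 := by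
    field_simp; ring
  have e2 : A0' + h * (k * h) * (C / (k * h) * A1' + e) =
      A0' + C * h * A1' + h * e * (k * h) := by field_simp; ring
  have e3 : (1 + 1 / (3 * (k + 1))) * (A0' + 12 * C * ((k + 1 : ℕ) * h) * A1') =
      A0' + A0' / (3 * (k + 1)) + 12 * C * (k * h) * A1' + 16 * (C * h * A1') := by
    push_cast; field_simp; ring
  have b2 : 0 ≤ A0' / (3 * (k + 1)) := by positivity
  have b3 := mul_le_of_le_one_right (show 0 ≤ h * e by positivity) hu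
  have b4 := mul_le_of_le_one_right (show 0 ≤ 12 * C * (h * e) by positivity)
    (pow_le_one₀ (n := 2) hu0.le hu)
  rw [e3]
  linarith

section W
variable {h : ℝ} {W : ℕ → ℝ}

lemma exists_W (hh : 0 ≤ h) : ∃ W : ℕ → ℝ, (∀ k, 0 ≤ W k) ∧ ∀ k, W k ^ 6 = k * h :=
  ⟨fun k => (k * h) ^ ((6 : ℕ) : ℝ)⁻¹, fun k => by positivity, fun k =>
    Real.rpow_inv_natCast_pow (by positivity) (by norm_num)⟩

lemma W_step (hh : 0 ≤ h) (hW : ∀ k, W k ^ 6 = k * h) (k : ℕ) :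
    W k ^ 2 * (1 + 1 / (3 * (k + 1))) ≤ W (k + 1) ^ 2 := by
  refine (pow_le_pow_iff_left₀ (by positivity) (by positivity) three_ne_zero).1 ?_
  rw [mul_pow, ← pow_mul, ← pow_mul, hW, hW, mul_right_comm]
  refine mul_le_mul_of_nonneg_right ?_ hh
  have k0 : (0 : ℝ) ≤ k := Nat.cast_nonneg k
  rw [one_add_div (by positivity), div_pow, ← mul_div_assoc, div_le_iff₀ (by positivity)]
  push_cast
  nlinarith [mul_nonneg k0 k0, mul_nonneg k0 (mul_nonneg k0 k0)]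

lemma W_le (W0 : ∀ k, 0 ≤ W k) (hW : ∀ k, W k ^ 6 = k * h) {k : ℕ} {c : ℝ} (hc : 0 ≤ c)
    (hk : k * h ≤ c ^ 6) : W k ≤ c :=
  (pow_le_pow_iff_left₀ (W0 k) hc (by norm_num)).1 ((hW k).trans_le hk)

lemma W_pos (hh : 0 < h) (W0 : ∀ k, 0 ≤ W k) (hW : ∀ k, W k ^ 6 = k * h) (k : ℕ) :
    0 < W (k + 1) := by
  refine (W0 _).lt_of_ne fun h0 => ?_
  have := hW (k + 1)
  rw [← h0] at this
  have : 0 < ((k + 1 : ℕ) : ℝ) * h := by positivity
  linarith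

lemma W_sum (hh : 0 < h) (W0 : ∀ k, 0 ≤ W k) (hW : ∀ k, W k ^ 6 = k * h) (K : ℕ) :
    ∑ k ∈ range K, h / W (k + 1) ^ 5 ≤ 6 * W K := by
  induction K with
  | zero => simpa using W0 0
  | succ K ih =>
    have a0 := W0 K
    have a1 := W_pos hh W0 hW K
    have a2 : W K ≤ W (K + 1) := W_le W0 hW a1.le (by rw [hW]; push_cast; linarith)
    have a3 : h / W (K + 1) ^ 5 ≤ 6 * (W (K + 1) - W K) := by
      have e : h = W (K + 1) ^ 6 - W K ^ 6 := by rw [hW, hW]; push_cast; ring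
      rw [div_le_iff₀ (by positivity), e]
      have := one_add_mul_le_pow (a := W K / W (K + 1) - 1)
        (by have : 0 ≤ W K / W (K + 1) := by positivity
            linarith) 6
      rw [add_sub_cancel, div_pow, le_div_iff₀ (by positivity)] at this
      have e : (1 + (6 : ℕ) * (W K / W (K + 1) - 1)) * W (K + 1) ^ 6 =
          W (K + 1) ^ 6 - 6 * (W (K + 1) - W K) * W (K + 1) ^ 5 := by
        push_cast; field_simp; ring
      linarith
    rw [sum_range_succ]; linarith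

end W

lemma lin_le_pow {γ n0 : ℝ} (hγ : 0 < γ) (hn : 0 ≤ n0) (l : ℕ) :
    l + n0 ≤ (n0 + 1 / γ) * (1 + γ) ^ l := by
  have a1 := one_add_mul_le_pow (show -2 ≤ γ by linarith) l
  have a2 : 0 ≤ l * γ := by positivity
  calc _ ≤ (n0 + 1 / γ) * (1 + l * γ) := by
        have : 1 / γ * (l * γ) = l := by field_simp
        nlinarith [mul_nonneg hn a2, one_div_pos.2 hγ]
    _ ≤ _ := mul_le_mul_of_nonneg_left a1 (by positivity)

lemma Md.two_transport {Ω : Type*} [MeasurableSpace Ω] {E : Type*} (m : Md Ω E) (S : Finset E)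
    {T : ℝ} (hT : 0 ≤ T) {P : ℝ → Prop} {Ψ : ℝ → (E → ℝ) → ℝ} (hΨ : UB S P Ψ) :
    ∀ᶠ n in atTop, ∀ k j : ℕ, k + j ≤ 2 ^ n → ∀ u, P u → u = (k + j : ℕ) * hh T n →
      BM (fun z => Ψ u (m.eul S (hh T n) j k z)) ∧
      ∫ z, Ψ u (m.eul S (hh T n) j k z) ∂m.rho (k * hh T n) ≤ ∫ z, Ψ u z ∂m.rho u + 2 := by
  obtain ⟨K, hK⟩ := hΨ
  obtain ⟨K', hK'⟩ := m.ub_comp_eul hT (S := S)
    (P := fun i : ℝ × ℕ × ℕ × ℕ => P i.1 ∧ i.2.2.2 + i.2.2.1 ≤ 2 ^ i.2.1) (G := fun i => Ψ i.1)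
    ⟨K, fun i hi => hK _ hi.1⟩ (n := fun i => i.2.1) (j := fun i => i.2.2.1)
    (k := fun i => i.2.2.2) fun i hi => hi.2
  obtain ⟨h1, h1', H1⟩ := m.lip_transport S T K one_pos
  obtain ⟨h2, h2', H2⟩ := m.lip_transport S T K' one_pos
  filter_upwards [eventually_hh_le T h1', eventually_hh_le T h2'] with n n1 n2 k j hkj u hu e
  have b := hK' (u, n, j, k) ⟨hu, hkj⟩
  have a1 := H1 _ (hh_nonneg hT n) n1 (k + j) (hh_mul_le hT hkj) _ (hK u hu)
  have a2 := H2 _ (hh_nonneg hT n) n2 k (hh_mul_le hT (by omega)) _ b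
  simp only [m.eul_add, zero_add, ← e] at a1 a2
  exact ⟨b.bm, by linarith [abs_le.1 a1, abs_le.1 a2]⟩

namespace RT

variable {t : RT V D} {θ T : ℝ} {μ : Measure (V → Bool)}

/-- One-step bounds at time `u`, with error `e`. -/
def Step1 (t : RT V D) (R : ℕ) (C : Sym2 V → Sym2 V → ℝ) (n0 C0 u B e : ℝ) : Prop :=
  ∀ (a : Sym2 V → ℝ) (c : ℝ), 0 ≤ c → t.Aw R (fun l => (1 + u ^ 2 / 12 / 2) ^ l) a ≤ B →
    t.Aw R (fun l => l + n0) (fun f => a f + c * ∑ e ∈ t.Sp R t.o, a e * C e f) ≤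
      t.Aw R (fun l => l + n0) a + c * (5 / 4 / u ^ 2 * t.Aw R (fun l => l + n0) a + e) ∧
    t.Aw R 1 (fun f => a f + c * ∑ e ∈ t.Sp R t.o, a e * C e f) ≤
      t.Aw R 1 a + c * (C0 / u * t.Aw R (fun l => l + n0) a + e)

lemma thp_crit (hD : 2 ≤ D) (h0 : 0 ≤ θ) (hθ : θ ^ 2 * D = 1) {ε u : ℝ} (hε : 0 ≤ ε)
    (hε1 : ε ≤ 1) (hu : ε ≤ u) : thp θ u * √D ≤ 1 - ε ^ 2 / 12 := by
  have hD' : (2 : ℝ) ≤ D := by exact_mod_cast hD
  have e : θ * √D = 1 := by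
    rw [← Real.sqrt_sq h0, ← Real.sqrt_mul (sq_nonneg _), hθ, Real.sqrt_one]
  refine (mul_le_mul_of_nonneg_right (thp_le h0 (by nlinarith [sq_nonneg θ]) hε hε1 hu)
    (Real.sqrt_nonneg _)).trans (le_of_eq ?_)
  rw [mul_right_comm, e, one_mul]

lemma Fits.Aw_crit (ht : t.Fits G) (hD : 2 ≤ D) (h0 : 0 ≤ θ) (hθ : θ ^ 2 * D = 1)
    (hμ : IsFreeIsing G θ μ) (hT0 : 0 ≤ T) (hT : (1 + θ) * Real.exp (-T ^ 2 / 2) = 1 - θ)
    {ε : ℝ} (hε : 0 < ε) (hε1 : ε ≤ 1) (R : ℕ) {n k : ℕ} (hk : ε ≤ k * hh T n) (hk' : k ≤ 2 ^ n)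
    (x : Sym2 V → ℝ) : t.Aw R (fun l => (1 + ε ^ 2 / 12 / 2) ^ l)
      ((isingMd μ hμ.1).adj (t.Sp R t.o) (hh T n) (av t.o) (2 ^ n - k) k x) ≤
      BA D T (ε ^ 2 / 12) := by
  have hD' : (2 : ℝ) ≤ D := by exact_mod_cast hD
  exact ht.Aw_adj (by omega) h0 (by nlinarith) hμ hT (by positivity) (by nlinarith)
    (fun u hu _ => thp_crit hD h0 hθ hε.le hε1 hu) (le_add_of_nonneg_right (by positivity)) le_rfl
    (hh_nonneg hT0 n) R _ _ hk (hh_mul_le hT0 (by omega)) x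

lemma Fits.gron (ht : t.Fits G) (hD : 2 ≤ D) (h0 : 0 ≤ θ) (hθ : θ ^ 2 * D = 1)
    (hμ : IsFreeIsing G θ μ) (hT0 : 0 < T) (hT : (1 + θ) * Real.exp (-T ^ 2 / 2) = 1 - θ)
    {n0 C0 ε : ℝ} (hn : 1 ≤ n0) (hC : 0 ≤ C0) (hε : 0 < ε) (hε1 : 2 * ε ≤ 1) {R : ℕ}
    {e : ℝ → (Sym2 V → ℝ) → ℝ} (he : ∀ u x, 0 ≤ e u x) (H : ∀ u, 0 < u → u ≤ 2 * ε → ∀ x,
      t.Step1 R ((isingMd μ hμ.1).cv (t.Sp R t.o) u x) n0 C0 u (BA D T (u ^ 2 / 12)) (e u x))
    {n : ℕ} {W : ℕ → ℝ} (W0 : ∀ k, 0 ≤ W k) (hW : ∀ k, W k ^ 6 = k * hh T n) (j k : ℕ)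
    (hk : 1 ≤ k) (h1 : ε ≤ (k + j : ℕ) * hh T n) (h2 : (k + j : ℕ) * hh T n ≤ 2 * ε)
    (h3 : k + j ≤ 2 ^ n) (x : Sym2 V → ℝ) :
    W k ^ 2 * (t.Aw R 1 ((isingMd μ hμ.1).adj (t.Sp R t.o) (hh T n) (av t.o) (2 ^ n - k) k x) +
      12 * C0 * (k * hh T n) * t.Aw R (fun l => l + n0)
        ((isingMd μ hμ.1).adj (t.Sp R t.o) (hh T n) (av t.o) (2 ^ n - k) k x)) ≤
      (1 + 12 * C0 * (n0 + 1 / (ε ^ 2 / 12 / 2))) * BA D T (ε ^ 2 / 12) +
        ∑ i ∈ range j, hh T n * ((1 + 12 * C0) * e ((k + i : ℕ) * hh T n)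
          ((isingMd μ hμ.1).eul (t.Sp R t.o) (hh T n) i k x)) := by
  set m := isingMd μ hμ.1
  have hh0 : 0 < hh T n := by unfold hh; positivity
  have w0 : ∀ l : ℕ, 0 ≤ (l : ℝ) + n0 := fun l => by positivity
  have hle : ∀ k j : ℕ, (k : ℝ) * hh T n ≤ (k + j : ℕ) * hh T n := fun k j =>
    mul_le_mul_of_nonneg_right (by exact_mod_cast Nat.le_add_right _ _) hh0.le
  have W1 : ∀ k : ℕ, k * hh T n ≤ 2 * ε → W k ^ 2 ≤ 1 := fun k h =>
    pow_le_one₀ (W0 k) (W_le W0 hW zero_le_one (by linarith))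
  induction j generalizing k x with
  | zero =>
    have a1 := ht.Aw_crit hD h0 hθ hμ hT0.le hT hε (by linarith) R h1 h3 x
    rw [add_zero] at a1 h2
    set a := m.adj (t.Sp R t.o) (hh T n) (av t.o) (2 ^ n - k) k x
    have a2 : t.Aw R 1 a ≤ BA D T (ε ^ 2 / 12) := (Aw_mono (fun l =>
      one_le_pow₀ (le_add_of_nonneg_right (by positivity))) a).trans a1
    have a3 : t.Aw R (fun l => l + n0) a ≤ (n0 + 1 / (ε ^ 2 / 12 / 2)) * BA D T (ε ^ 2 / 12) := by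
      refine (Aw_mono (fun l => lin_le_pow (γ := ε ^ 2 / 12 / 2) (by positivity) (by linarith) l)
        a).trans (le_trans (le_of_eq ?_) (mul_le_mul_of_nonneg_left a1 (by positivity)))
      simp only [Aw, mul_sum, mul_assoc]
    have a4 := Aw_nonneg (R := R) (t := t) w0 a
    have a5 := Aw_nonneg (R := R) (t := t) (w := 1) (fun _ => zero_le_one) a
    refine (mul_le_of_le_one_left (by positivity) (W1 k h2)).trans ?_
    have a6 := mul_le_mul (mul_le_of_le_one_right (show 0 ≤ 12 * C0 by positivity)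
      (h2.trans hε1)) a3 a4 (by positivity)
    rw [sum_range_zero]; linarith
  | succ j ih =>
    have e1 : k + 1 + j = k + (j + 1) := by ring
    have k0 : 0 < (k : ℝ) * hh T n := mul_pos (by exact_mod_cast hk) hh0
    have k1 := (hle k _).trans h2
    have a1 := ih (k + 1) (by omega) (by rwa [e1]) (by rwa [e1]) (by omega)
      (m.step (t.Sp R t.o) (hh T n) (k * hh T n) x)
    obtain ⟨a2, a3⟩ := H _ k0 k1 x _ (hh T n * (k * hh T n)) (by positivity)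
      (ht.Aw_crit hD h0 hθ hμ hT0.le hT k0 (by linarith) R (hle k 1) (by omega)
        (m.step (t.Sp R t.o) (hh T n) (k * hh T n) x))
    have a4 := gron_step hk hh0 (by linarith) (Aw_nonneg (fun _ => zero_le_one) _) hC
      (he _ _) a2 a3
    rw [show 2 ^ n - k = 2 ^ n - (k + 1) + 1 by omega, sum_range_succ', ← add_assoc]
    refine (mul_le_mul_of_nonneg_left a4 (sq_nonneg _)).trans ?_
    rw [mul_add, ← mul_assoc]
    refine add_le_add ((mul_le_mul_of_nonneg_right (W_step hh0.le hW k) ?_).trans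
      (a1.trans (le_of_eq ?_))) (mul_le_of_le_one_left ?_ (W1 k k1))
    · exact add_nonneg (Aw_nonneg (fun _ => zero_le_one) _) (mul_nonneg (by positivity)
        (Aw_nonneg w0 _))
    · simp only [add_assoc k 1, add_comm 1]; rfl
    · have := he (k * hh T n) x; positivity

/-- The output of the probabilistic estimates. -/
def StepOK (t : RT V D) (m : Md (V → Bool) (Sym2 V)) (T n0 C0 ε : ℝ) : Prop :=
  ∀ R, ∃ Ψ : ℝ → (Sym2 V → ℝ) → ℝ, UB (t.Sp R t.o) (fun u => 0 < u ∧ u ≤ 2 * ε) Ψ ∧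
    ∀ u, 0 < u → u ≤ 2 * ε → ∫ x, Ψ u x ∂m.rho u ≤ 4 ∧ ∀ x, 0 ≤ Ψ u x ∧
      t.Step1 R (m.cv (t.Sp R t.o) u x) n0 C0 u (BA D T (u ^ 2 / 12)) √(Ψ u x)

lemma quad_le {Q A0 A1 c κ w h C : ℝ} {j : ℕ} {ψ : ℕ → ℝ} (hQ : Q ≤ c * A1 * A0) (hc : 0 ≤ c)
    (hκ : 0 < κ) (hw : 0 < w) (a0 : 0 ≤ A0) (a1 : 0 ≤ A1) (hh : 0 ≤ h) (hj : j * h ≤ 1)
    (hψ : ∀ i ∈ range j, 0 ≤ ψ i)
    (H : w ^ 2 * (A0 + κ * w ^ 6 * A1) ≤ C + ∑ i ∈ range j, h * ((1 + κ) * √(ψ i))) :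
    Q ≤ c / (κ * w ^ 10) * (2 * C ^ 2 + 2 * (1 + κ) ^ 2 * ∑ i ∈ range j, h * ψ i) := by
  have b1 := sq_sum_le_card_mul_sum_sq (s := range j) (f := fun i => h * ((1 + κ) * √(ψ i)))
  have b2 : ∑ i ∈ range j, (h * ((1 + κ) * √(ψ i))) ^ 2 =
      h * ((1 + κ) ^ 2 * ∑ i ∈ range j, h * ψ i) := by
    simp only [mul_sum]
    exact sum_congr rfl fun i hi => by rw [mul_pow, mul_pow, Real.sq_sqrt (hψ i hi)]; ring
  have b3 : 0 ≤ (1 + κ) ^ 2 * ∑ i ∈ range j, h * ψ i :=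
    mul_nonneg (sq_nonneg _) (sum_nonneg fun i hi => mul_nonneg hh (hψ i hi))
  rw [b2, card_range, ← mul_assoc] at b1
  have b4 := b1.trans (mul_le_of_le_one_left b3 hj)
  have b5 := pow_le_pow_left₀ (by positivity) H 2
  rw [div_mul_eq_mul_div, le_div_iff₀ (by positivity)]
  refine (mul_le_mul_of_nonneg_right hQ (by positivity)).trans ?_
  rw [mul_assoc c, mul_assoc c]
  refine mul_le_mul_of_nonneg_left ?_ hc
  have b6 : A1 * A0 * (κ * w ^ 10) ≤ (w ^ 2 * (A0 + κ * w ^ 6 * A1)) ^ 2 := by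
    have : 0 ≤ w ^ 4 * (A0 ^ 2 + A0 * (κ * w ^ 6 * A1) + (κ * w ^ 6 * A1) ^ 2) := by positivity
    linarith
  nlinarith [sq_nonneg (C - ∑ i ∈ range j, h * ((1 + κ) * √(ψ i)))]

theorem Fits.small (ht : t.Fits G) (hD : 2 ≤ D) (h0 : 0 ≤ θ) (hθ : θ ^ 2 * D = 1)
    (hμ : IsFreeIsing G θ μ) (hT : (1 + θ) * Real.exp (-T ^ 2 / 2) = 1 - θ)
    {n0 C0 ε : ℝ} (hn : 1 ≤ n0) (hC : 0 < C0) (hε : 0 < ε) (hε1 : 2 * ε ≤ 1) (hεT : 2 * ε ≤ T)
    (H : t.StepOK (isingMd μ hμ.1) T n0 C0 ε) {η : ℝ} (hη : 0 < η) :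
    ∃ δ, 0 < δ ∧ δ ≤ 1 ∧ ∀ R, ∀ᶠ n in atTop,
      ∑ k ∈ (range (2 ^ n)).filter fun k : ℕ => k * hh T n < δ, hh T n * √(∫ z, (isingMd μ hμ.1).Qf
        (t.Sp R t.o) (k * hh T n) z ((isingMd μ hμ.1).A (t.Sp R t.o) T (av t.o) n k z)
        ∂(isingMd μ hμ.1).rho (k * hh T n)) ≤ η := by
  set m := isingMd μ hμ.1
  have hD' : (2 : ℝ) ≤ D := by exact_mod_cast hD
  have h1 : θ < 1 := by nlinarith
  have hT0 : 0 < T := by linarith
  have hc := cD_pos D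
  set C1 := (1 + 12 * C0 * (n0 + 1 / (ε ^ 2 / 12 / 2))) * BA D T (ε ^ 2 / 12)
  set C2 := √(cD D / (12 * C0) * (2 * C1 ^ 2 + 2 * (1 + 12 * C0) ^ 2 * 6)) with hC2
  have c2 : 0 < C2 := by positivity
  set δ := min ε ((η / (6 * C2)) ^ 6 / 2)
  have d0 : 0 < δ := lt_min hε (by positivity)
  have d1 : δ ≤ ε := min_le_left _ _
  refine ⟨δ, d0, by linarith, fun R => ?_⟩
  obtain ⟨Ψ, hΨ, H⟩ := H R
  filter_upwards [m.two_transport _ hT0.le hΨ, eventually_hh_le T d0] with n tr hn'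
  have hh0 : 0 < hh T n := by unfold hh; positivity
  obtain ⟨W, W0, hW⟩ := exists_W hh0.le
  have cl : ∀ a : ℝ, 0 ≤ a → a ≤ ⌈a / hh T n⌉₊ * hh T n ∧ ⌈a / hh T n⌉₊ * hh T n ≤ a + hh T n :=
    fun a ha => ⟨(div_le_iff₀ hh0).1 (Nat.le_ceil _), by
      have := mul_le_mul_of_nonneg_right (Nat.ceil_lt_add_one (div_nonneg ha hh0.le)).le hh0.le
      rwa [add_mul, div_mul_cancel₀ _ hh0.ne', one_mul] at this⟩
  have lt : ∀ (k : ℕ) (a : ℝ), k * hh T n < a → k < ⌈a / hh T n⌉₊ := fun k a h =>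
    Nat.lt_ceil.2 ((lt_div_iff₀ hh0).2 h)
  have key : ∀ k : ℕ, k * hh T n < δ → √(∫ z, m.Qf (t.Sp R t.o) (k * hh T n) z
      (m.A (t.Sp R t.o) T (av t.o) n k z) ∂m.rho (k * hh T n)) ≤ C2 / W (k + 1) ^ 5 := by
    intro k hk
    obtain ⟨j, hj⟩ := Nat.exists_eq_add_of_le (Nat.succ_le_of_lt (lt k ε (by linarith)))
    obtain ⟨j1, j2⟩ := cl ε hε.le
    rw [hj, Nat.succ_eq_add_one] at j1 j2
    have j3 : (k + 1 + j : ℕ) * hh T n ≤ 2 * ε := by linarith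
    have j4 : k + 1 + j ≤ 2 ^ n := by
      have := j3.trans (hεT.trans (hh_mul T n).ge)
      exact_mod_cast le_of_mul_le_mul_right this hh0
    have j5 : j * hh T n ≤ 1 := le_trans (mul_le_mul_of_nonneg_right
      (by exact_mod_cast Nat.le_add_left _ _) hh0.le) (j3.trans hε1)
    have hu : ∀ i ∈ range j, 0 < ((k + 1 + i : ℕ) : ℝ) * hh T n ∧
        (k + 1 + i : ℕ) * hh T n ≤ 2 * ε := fun i hi => ⟨by positivity, le_trans
      (mul_le_mul_of_nonneg_right (by exact_mod_cast (by have := mem_range.1 hi; omega)) hh0.le) j3⟩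
    have tr' := fun i (hi : i ∈ range j) => tr k (i + 1) (by have := mem_range.1 hi; omega) _
      (hu i hi) (by rw [show k + (i + 1) = k + 1 + i by ring])
    have w0 := W_pos hh0 W0 hW k
    have a0 : (0 : ℝ) ≤ k * hh T n := by positivity
    rw [Real.sqrt_le_left (by positivity), div_pow, hC2, Real.sq_sqrt (by positivity)]
    refine (integral_mono_of_nonneg (g := fun z => cD D / (12 * C0 * W (k + 1) ^ 10) *
      (2 * C1 ^ 2 + 2 * (1 + 12 * C0) ^ 2 * ∑ i ∈ range j, hh T n * Ψ ((k + 1 + i : ℕ) * hh T n)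
        (m.eul (t.Sp R t.o) (hh T n) (i + 1) k z))) (ae_of_all _ fun z => ?_)
      (((BM.const _).mul ((BM.const _).add ((BM.const _).mul (BM.sum' _ fun i hi =>
        (BM.const _).mul (tr' i hi).1)))).int _) (ae_of_all _ fun z => ?_)).trans ?_
    · rw [Md.Qf_eq]; exact cov_self_nonneg (m.bm_lw _ _ _) (by fun_prop)
    · have g := ht.gron hD h0 hθ hμ hT0 hT hn hC.le hε hε1 (e := fun u x => √(Ψ u x))
        (fun _ _ => Real.sqrt_nonneg _) (fun u u0 u1 x => ((H u u0 u1).2 x).2) W0 hW j (k + 1)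
        (by omega) j1 j3 j4 (m.step (t.Sp R t.o) (hh T n) (k * hh T n) z)
      rw [← hW (k + 1)] at g
      refine quad_le ?_ hc.le (by positivity) w0 (Aw_nonneg (fun _ => zero_le_one) _)
        (Aw_nonneg (fun l => by positivity) _) hh0.le j5
        (fun i hi => ((H _ (hu i hi).1 (hu i hi).2).2 _).1) g
      refine ((ht.kb_det (by omega) h0 h1 hμ (thp_nonneg h0 h1 a0 (by linarith) hT) le_rfl
        (by norm_num) (by simpa using thp_crit hD h0 hθ le_rfl zero_le_one a0) z R).quad _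
        (w := fun l => cD D * (l + n0)) fun n' _ n _ => (Kdet_le le_rfl zero_le_one n' n).trans
          (mul_le_mul_of_nonneg_left (add_le_add le_rfl hn) hc.le)).trans (le_of_eq ?_)
      simp only [Aw, mul_sum _ _ (cD D), mul_assoc (cD D)]
      rfl
    · rw [integral_const_mul, integral_add (integrable_const _) (((BM.const _).mul (BM.sum' _
        fun i hi => (BM.const _).mul (tr' i hi).1)).int _), integral_const_mul (_ * _ ^ 2 : ℝ),
        integral_finsetSum _ fun i hi => ((BM.const _).mul (tr' i hi).1).int _]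
      have b : ∑ i ∈ range j, ∫ z, hh T n * Ψ ((k + 1 + i : ℕ) * hh T n)
          (m.eul (t.Sp R t.o) (hh T n) (i + 1) k z) ∂m.rho (k * hh T n) ≤ 6 := by
        refine (sum_le_card_nsmul _ _ (hh T n * 6) fun i hi => ?_).trans ?_
        · rw [integral_const_mul]
          exact mul_le_mul_of_nonneg_left
            (by linarith [(tr' i hi).2, (H _ (hu i hi).1 (hu i hi).2).1]) hh0.le
        · rw [card_range, nsmul_eq_mul]; linarith
      refine (mul_le_mul_of_nonneg_left (add_le_add le_rfl (mul_le_mul_of_nonneg_left b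
        (by positivity))) (by positivity)).trans (le_of_eq ?_)
      rw [integral_const, probReal_univ, one_smul]
      field_simp
  refine (sum_le_sum fun k hk => mul_le_mul_of_nonneg_left (key k (mem_filter.1 hk).2)
    hh0.le).trans ((sum_le_sum_of_subset_of_nonneg (t := range ⌈δ / hh T n⌉₊)
      (fun k hk => mem_range.2 (lt k δ (mem_filter.1 hk).2)) fun k _ _ => ?_).trans ?_)
  · have := W0 (k + 1); positivity
  · have b1 := W_sum hh0 W0 hW ⌈δ / hh T n⌉₊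
    have b2 := W_le W0 hW (k := ⌈δ / hh T n⌉₊) (c := η / (6 * C2)) (by positivity)
      (by linarith [(cl δ d0.le).2, show δ ≤ _ from min_le_right _ _])
    rw [le_div_iff₀ (by positivity)] at b2
    simp only [← mul_div_assoc, mul_comm _ C2]
    simp only [mul_div_assoc, ← mul_sum]
    nlinarith

end RT

end Vale.Agent.P161
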