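import Vale.Agent.P161.Markov

/-! Bilinear bounds for kernels dominated by products along the tree. -/

namespace Vale.Agent.P161

open Finset Function
open scoped Classical

variable {V : Type} {D : ℕ}

noncomputable def Pm (y : ℕ → ℝ) (m n : ℕ) : ℝ := ∏ l ∈ Ioc m n, y l

/-- The level kernel. -/
noncomputable def Gk (c0 c1 : ℝ) (y : ℕ → ℝ) (n n' : ℕ) : ℝ :=
  ∑ m ∈ range (min n n' + 1), (if m = 0 then c0 else c1) * (Pm y m n * Pm y m n')

namespace RT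

variable (t : RT V D)

/-- The vertices at level `n`. -/
noncomputable def L (n : ℕ) : Finset V := (t.ball n).filter fun v => t.lev v = n

lemma mem_L {n : ℕ} {v : V} : v ∈ t.L n ↔ t.lev v = n := by
  rw [L, mem_filter, mem_ball]; omega

lemma L_zero : t.L 0 = {t.o} := by
  ext v; rw [mem_L, mem_singleton]
  exact ⟨t.eq_o_of_lev, fun h => h ▸ t.lev_o⟩

lemma ne_o_of_mem_L {n : ℕ} {v : V} (h : v ∈ t.L (n + 1)) : v ≠ t.o := by
  rintro rfl; rw [mem_L, t.lev_o] at h; omega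

lemma sum_L_succ (n : ℕ) (F : V → ℝ) :
    ∑ c ∈ t.L (n + 1), F c = ∑ p ∈ t.L n, ∑ c ∈ t.ch p, F c := by
  rw [← sum_fiberwise_of_maps_to (g := t.par) (t := t.L n) fun c hc => by
    have := t.lev_par c (t.ne_o_of_mem_L hc)
    rw [mem_L] at hc ⊢; omega]
  refine sum_congr rfl fun p hp => sum_congr ?_ fun _ _ => rfl
  ext c
  rw [mem_filter, t.mem_ch]
  refine and_congr_left fun h => ⟨t.ne_o_of_mem_L, fun hc => ?_⟩
  rw [mem_L, t.lev_par c hc, h, t.mem_L.1 hp]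

lemma sum_L_par (n : ℕ) (r f F : V → ℝ) :
    ∑ c ∈ t.L (n + 1), r c * f c * F (t.par c) = ∑ p ∈ t.L n, t.Tr r f p * F p := by
  rw [sum_L_succ]
  refine sum_congr rfl fun p _ => ?_
  rw [Tr, sum_mul]
  exact sum_congr rfl fun c hc => by rw [((t.mem_ch _ _).1 hc).2]

lemma Tr_nonneg {r f : V → ℝ} (hr : ∀ c, 0 ≤ r c) (hf : ∀ c, 0 ≤ f c) (z : V) :
    0 ≤ t.Tr r f z := sum_nonneg fun c _ => mul_nonneg (hr c) (hf c)

lemma Ti_nonneg {r f : V → ℝ} (hr : ∀ c, 0 ≤ r c) (hf : ∀ c, 0 ≤ f c) (j : ℕ) (z : V) :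
    0 ≤ (t.Tr r)^[j] f z := by
  induction j generalizing z with
  | zero => exact hf z
  | succ j ih => rw [iterate_succ_apply']; exact t.Tr_nonneg hr ih z

lemma Ti_sq_le (r f : V → ℝ) (j : ℕ) (z : V) : ((t.Tr r)^[j] f z) ^ 2 ≤
    (t.Tr fun c => r c ^ 2)^[j] 1 z * (t.Tr 1)^[j] (fun c => f c ^ 2) z := by
  induction j generalizing z with
  | zero => simp
  | succ j ih =>
    simp only [iterate_succ_apply', Tr]
    refine sum_sq_le_sum_mul_sum_of_sq_le_mul _ (fun c _ => mul_nonneg (sq_nonneg _)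
      (t.Ti_nonneg (fun _ => sq_nonneg _) (fun _ => zero_le_one) _ _)) (fun c _ => mul_nonneg
      zero_le_one (t.Ti_nonneg (fun _ => zero_le_one) (fun _ => sq_nonneg _) _ _)) fun c _ => ?_
    rw [mul_pow, mul_assoc, Pi.one_apply, one_mul]
    exact mul_le_mul_of_nonneg_left (ih c) (sq_nonneg _)

lemma sum_Ti_one (F : V → ℝ) (m j : ℕ) :
    ∑ z ∈ t.L m, (t.Tr 1)^[j] F z = ∑ p ∈ t.L (m + j), F p := by
  induction j generalizing F with
  | zero => rfl
  | succ j ih => rw [iterate_succ_apply, ih, ← add_assoc, sum_L_succ]; simp [Tr]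

/-- The level norm. -/
noncomputable def nm (n : ℕ) (f : V → ℝ) : ℝ := √(∑ p ∈ t.L n, f p ^ 2)

lemma nm_nonneg (n : ℕ) (f : V → ℝ) : 0 ≤ t.nm n f := Real.sqrt_nonneg _

lemma nm_Tr (n : ℕ) (f : V → ℝ) :
    t.nm n (t.Tr 1 f) ≤ (if n = 0 then √(D + 1) else √D) * t.nm (n + 1) f := by
  have h : ∀ d : ℝ, (∀ p ∈ t.L n, ((t.ch p).card : ℝ) ≤ d) → 0 ≤ d →
      t.nm n (t.Tr 1 f) ≤ √d * t.nm (n + 1) f := by
    intro d hd hd0
    rw [nm, nm, ← Real.sqrt_mul hd0, sum_L_succ, mul_sum]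
    refine Real.sqrt_le_sqrt (sum_le_sum fun p hp => ?_)
    simp only [Tr, Pi.one_apply, one_mul]
    exact sq_sum_le_card_mul_sum_sq.trans (mul_le_mul_of_nonneg_right (hd p hp)
      (sum_nonneg fun _ _ => sq_nonneg _))
  split_ifs with hn
  · exact h _ (fun p _ => by exact_mod_cast t.card_ch_le p) (by positivity)
  · obtain ⟨n, rfl⟩ := Nat.exists_eq_succ_of_ne_zero hn
    exact h _ (fun p hp => by rw [t.card_ch p (t.ne_o_of_mem_L hp)]) (by positivity)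

/-- A kernel dominated by the products of `r` along paths. -/
structure Maj (R : ℕ) (r : V → ℝ) (C : V → V → ℝ) : Prop where
  r0 : ∀ c, 0 ≤ r c
  symm : ∀ a b, C a b = C b a
  diag : ∀ a, C a a = 1
  step : ∀ a b, a ≠ t.o → t.lev a ≤ R → t.lev b ≤ t.lev a → b ≠ a → C a b ≤ r a * C (t.par a) b

noncomputable def Bh (C : V → V → ℝ) (n n' : ℕ) (f g : V → ℝ) : ℝ :=
  ∑ p ∈ t.L n, f p * ∑ q ∈ t.L n', g q * C p q

variable {t} {R : ℕ} {r : V → ℝ} {C : V → V → ℝ}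

lemma Maj.Bh_comm (h : t.Maj R r C) (n n' : ℕ) (f g : V → ℝ) :
    t.Bh C n n' f g = t.Bh C n' n g f := by
  simp only [Bh, mul_sum]
  rw [sum_comm]
  exact sum_congr rfl fun p _ => sum_congr rfl fun q _ => by rw [h.symm q p]; ring

lemma Maj.BhA (h : t.Maj R r C) {n n' : ℕ} (hn : n + 1 ≤ R) (hn' : n' ≤ n) {f g : V → ℝ}
    (hf : ∀ c, 0 ≤ f c) (hg : ∀ c, 0 ≤ g c) :
    t.Bh C (n + 1) n' f g ≤ t.Bh C n n' (t.Tr r f) g := by
  rw [Bh, Bh, ← sum_L_par]
  refine sum_le_sum fun c hc => ?_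
  rw [mul_comm (r c), mul_assoc, mul_sum _ _ (r c)]
  refine mul_le_mul_of_nonneg_left (sum_le_sum fun q hq => ?_) (hf c)
  rw [mul_left_comm]
  have a1 := t.mem_L.1 hc
  have a2 := t.mem_L.1 hq
  exact mul_le_mul_of_nonneg_left (h.step c q (t.ne_o_of_mem_L hc) (by omega) (by omega)
    (by rintro rfl; omega)) (hg q)

lemma Maj.BhB (h : t.Maj R r C) {n : ℕ} (hn : n + 1 ≤ R) {f g : V → ℝ}
    (hf : ∀ c, 0 ≤ f c) (hg : ∀ c, 0 ≤ g c) : t.Bh C (n + 1) (n + 1) f g ≤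
      ∑ p ∈ t.L (n + 1), (1 - r p ^ 2) * (f p * g p) + t.Bh C n n (t.Tr r f) (t.Tr r g) := by
  rw [Bh, Bh, ← sum_L_par, ← sum_add_distrib]
  refine sum_le_sum fun c hc => ?_
  rw [← sum_L_par, show (1 - r c ^ 2) * (f c * g c) = f c * ∑ q ∈ t.L (n + 1),
    if q = c then (1 - r c ^ 2) * g q else 0 by rw [sum_ite_eq', if_pos hc]; ring,
    mul_comm (r c), mul_assoc, ← mul_add, mul_sum _ _ (r c), ← sum_add_distrib]
  refine mul_le_mul_of_nonneg_left (sum_le_sum fun q hq => ?_) (hf c)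
  have a1 := t.mem_L.1 hc
  have a2 := t.mem_L.1 hq
  have a3 := t.lev_par c (t.ne_o_of_mem_L hc)
  split_ifs with hqc
  · rw [hqc, h.diag, h.diag]; exact le_of_eq (by ring)
  · have b1 := h.step c q (t.ne_o_of_mem_L hc) (by omega) (by omega) hqc
    have b2 := h.step q (t.par c) (t.ne_o_of_mem_L hq) (by omega) (by omega)
      (fun h' => by rw [h'] at a3; omega)
    rw [h.symm q, h.symm (t.par q)] at b2
    have := mul_le_mul_of_nonneg_left (b1.trans (mul_le_mul_of_nonneg_left b2 (h.r0 c))) (hg q)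
    linarith

lemma Maj.Bh_le (h : t.Maj R r C) (n n' : ℕ) (hn : n ≤ R) (hn' : n' ≤ R) {f g : V → ℝ}
    (hf : ∀ c, 0 ≤ f c) (hg : ∀ c, 0 ≤ g c) : t.Bh C n n' f g ≤
      ∑ m ∈ range (min n n' + 1), ∑ z ∈ t.L m, (if m = 0 then 1 else 1 - r z ^ 2) *
        ((t.Tr r)^[n - m] f z * (t.Tr r)^[n' - m] g z) := by
  induction hk : n + n' using Nat.strong_induction_on generalizing n n' f g with
  | _ k ih =>
  rcases lt_trichotomy n n' with hl | rfl | hl
  · obtain ⟨n', rfl⟩ : ∃ j, n' = j + 1 := ⟨n' - 1, by omega⟩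
    rw [h.Bh_comm]
    refine (h.BhA hn' (by omega) hg hf).trans ?_
    rw [h.Bh_comm]
    refine (ih _ (by omega) n n' hn (by omega) hf (t.Tr_nonneg h.r0 hg) rfl).trans (le_of_eq ?_)
    rw [min_eq_left (by omega), min_eq_left hl.le]
    refine sum_congr rfl fun m hm => ?_
    rw [show n' + 1 - m = n' - m + 1 by have := mem_range.1 hm; omega, iterate_succ_apply]
  · rcases n with _ | n
    · simp [Bh, L_zero, h.diag]
    · refine (h.BhB hn hf hg).trans ?_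
      rw [min_self, sum_range_succ, add_comm]
      refine add_le_add ((ih _ (by omega) n n (by omega) (by omega) (t.Tr_nonneg h.r0 hf)
        (t.Tr_nonneg h.r0 hg) rfl).trans (le_of_eq ?_)) (by simp)
      rw [min_self]
      refine sum_congr rfl fun m hm => ?_
      rw [show n + 1 - m = n - m + 1 by have := mem_range.1 hm; omega, iterate_succ_apply,
        iterate_succ_apply]
  · obtain ⟨n, rfl⟩ : ∃ j, n = j + 1 := ⟨n - 1, by omega⟩
    refine (h.BhA hn (by omega) hf hg).trans ?_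
    refine (ih _ (by omega) n n' (by omega) hn' (t.Tr_nonneg h.r0 hf) hg rfl).trans (le_of_eq ?_)
    rw [min_eq_right (by omega), min_eq_right hl.le]
    refine sum_congr rfl fun m hm => ?_
    rw [show n + 1 - m = n - m + 1 by have := mem_range.1 hm; omega, iterate_succ_apply]

lemma Maj.Bh_le' (h : t.Maj R r C) {N : ℕ} (hN : N ≤ R) {cc : ℕ → ℝ} {yv : ℕ → ℕ → ℝ}
    (hcc : ∀ m, 0 ≤ cc m) (hyv : ∀ m n, 0 ≤ yv m n)
    (h1 : ∀ m, ∀ z ∈ t.L m, (if m = 0 then 1 else 1 - r z ^ 2) ≤ cc m)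
    (h2 : ∀ m n, m ≤ n → n ≤ N → ∀ z ∈ t.L m,
      (t.Tr fun c => r c ^ 2)^[n - m] 1 z ≤ yv m n ^ 2)
    {n n' : ℕ} (hn : n ≤ N) (hn' : n' ≤ N) {f g : V → ℝ} (hf : ∀ c, 0 ≤ f c)
    (hg : ∀ c, 0 ≤ g c) : t.Bh C n n' f g ≤
      ∑ m ∈ range (min n n' + 1), cc m * (yv m n * t.nm n f * (yv m n' * t.nm n' g)) := by
  refine (h.Bh_le n n' (hn.trans hN) (hn'.trans hN) hf hg).trans (sum_le_sum fun m hm => ?_)
  have hm' := mem_range.1 hm
  have key : ∀ n f, m ≤ n → n ≤ N → √(∑ z ∈ t.L m, ((t.Tr r)^[n - m] f z) ^ 2) ≤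
      yv m n * t.nm n f := by
    intro n f h3 h4
    have e := t.sum_Ti_one (fun c => f c ^ 2) m (n - m)
    rw [show m + (n - m) = n by omega] at e
    rw [nm, ← e, ← Real.sqrt_sq (hyv m n), ← Real.sqrt_mul (sq_nonneg _), mul_sum]
    refine Real.sqrt_le_sqrt (sum_le_sum fun z hz => (t.Ti_sq_le r f _ z).trans ?_)
    exact mul_le_mul_of_nonneg_right (h2 m n h3 h4 z hz)
      (t.Ti_nonneg (fun _ => zero_le_one) (fun _ => sq_nonneg _) _ _)
  calc _ ≤ ∑ z ∈ t.L m, cc m * ((t.Tr r)^[n - m] f z * (t.Tr r)^[n' - m] g z) :=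
        sum_le_sum fun z hz => mul_le_mul_of_nonneg_right (h1 m z hz)
          (mul_nonneg (t.Ti_nonneg h.r0 hf _ _) (t.Ti_nonneg h.r0 hg _ _))
    _ ≤ _ := by
        rw [← mul_sum]
        refine mul_le_mul_of_nonneg_left ((Real.sum_mul_le_sqrt_mul_sqrt _ _ _).trans ?_) (hcc m)
        exact mul_le_mul (key n f (by omega) hn) (key n' g (by omega) hn') (Real.sqrt_nonneg _)
          (mul_nonneg (hyv _ _) (t.nm_nonneg _ _))

end RT

lemma Pm_nonneg {y : ℕ → ℝ} (hy : ∀ l, 0 ≤ y l) (m n : ℕ) : 0 ≤ Pm y m n :=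
  prod_nonneg fun l _ => hy l

lemma Pm_succ (y : ℕ → ℝ) {m n : ℕ} (h : m ≤ n) : Pm y m (n + 1) = Pm y m n * y (n + 1) :=
  prod_Ioc_succ_top h _

lemma Pm_left (y : ℕ → ℝ) {m n : ℕ} (h : m < n) : Pm y m n = y (m + 1) * Pm y (m + 1) n := by
  rw [Pm, Pm, ← prod_Ioc_consecutive y (Nat.le_succ m) h, Nat.Ioc_succ_singleton, prod_singleton]

@[simp] lemma Pm_self (y : ℕ → ℝ) (m : ℕ) : Pm y m m = 1 := by simp [Pm]

theorem RT.Maj.edge_le {t : RT V D} {R : ℕ} {r : V → ℝ} {C : V → V → ℝ} (h : t.Maj R r C) {N : ℕ}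
    (hN : N ≤ R) {y : ℕ → ℝ} {y0 Λ cc : ℝ} (hy0 : 0 < y0) (hy1 : y0 ≤ 1) (hy : ∀ l, y0 ≤ y l)
    (hΛ : 1 ≤ Λ) (hcc : 0 ≤ cc) (h1 : ∀ z, 1 - r z ^ 2 ≤ cc) (h2 : ∀ z, r z ^ 2 * (D + 1) ≤ 2)
    (h3 : ∀ z j, z ≠ t.o → t.lev z + j ≤ N →
      (t.Tr fun c => r c ^ 2)^[j] 1 z ≤ Λ * Pm y (t.lev z) (t.lev z + j) ^ 2)
    {n n' : ℕ} (hn : n + 1 ≤ N) (hn' : n' + 1 ≤ N) {f g : V → ℝ} (hf : ∀ c, 0 ≤ f c)
    (hg : ∀ c, 0 ≤ g c) :
    ∑ p ∈ t.L (n + 1), f p * ∑ q ∈ t.L (n' + 1), g q *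
      ((C p q + C (t.par p) q + C p (t.par q) + C (t.par p) (t.par q)) / 4) ≤
    Gk (Λ * (1 + √(D + 1)) ^ 2 / (2 * y0 ^ 4)) (cc * Λ * (1 + √D) ^ 2 / (4 * y0 ^ 2)) y
      (n + 1) (n' + 1) * (t.nm (n + 1) f * t.nm (n' + 1) g) := by
  have hy' : ∀ l, 0 ≤ y l := fun l => hy0.le.trans (hy l)
  have hΛ0 : 0 ≤ Λ := by linarith
  set κ : ℕ → ℝ := fun m => if m = 0 then √(2 * Λ) / y0 else √Λ with hκ
  have hκ0 : ∀ m, 0 ≤ κ m := fun m => by simp only [hκ]; split_ifs <;> positivity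
  set yv : ℕ → ℕ → ℝ := fun m n => if m ≤ n then κ m * Pm y m n else 0 with hyv
  have hyv0 : ∀ m n, 0 ≤ yv m n := fun m n => by
    simp only [hyv]; split_ifs
    exacts [mul_nonneg (hκ0 m) (Pm_nonneg hy' _ _), le_rfl]
  set c : ℕ → ℝ := fun m => if m = 0 then 1 else cc with hc
  have hc0 : ∀ m, 0 ≤ c m := fun m => by simp only [hc]; split_ifs <;> positivity
  have hB := @RT.Maj.Bh_le' V D t R r C h N hN c yv hc0 hyv0 (fun m z _ => by
    simp only [hc]; split_ifs; exacts [le_rfl, h1 z]) (fun m k hmk hk z hz => by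
      simp only [hyv, if_pos hmk, hκ]
      have hz' := t.mem_L.1 hz
      split_ifs with hm
      · subst hm
        rw [t.eq_o_of_lev hz', mul_pow, div_pow, Real.sq_sqrt (by positivity), Nat.sub_zero]
        rcases k with _ | k
        · simp only [iterate_zero, id, Pi.one_apply, Pm_self, one_pow, mul_one]
          rw [le_div_iff₀ (by positivity)]; nlinarith
        · rw [iterate_succ_apply', RT.Tr, Pm_left y (Nat.succ_pos k), zero_add]
          have b1 : ∀ c ∈ t.ch t.o, r c ^ 2 * (t.Tr fun c => r c ^ 2)^[k] 1 c ≤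
              2 / (D + 1) * (Λ * Pm y 1 (k + 1) ^ 2) := fun c hc => by
            have b2 := h3 c k ((t.mem_ch _ _).1 hc).1 (by rw [t.lev_ch hc, t.lev_o]; omega)
            rw [t.lev_ch hc, t.lev_o, zero_add, add_comm 1 k] at b2
            exact mul_le_mul ((le_div_iff₀ (by positivity)).2 (h2 c)) b2
              (t.Ti_nonneg (fun _ => sq_nonneg _) (fun _ => zero_le_one) _ _) (by positivity)
          refine (sum_le_card_nsmul _ _ _ b1).trans ?_
          rw [t.card_ch_o, nsmul_eq_mul]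
          have b3 : 1 ≤ (y 1 / y0) ^ 2 := one_le_pow₀ ((one_le_div hy0).2 (hy 1))
          have b4 := mul_le_mul_of_nonneg_left b3
            (show 0 ≤ 2 * Λ * Pm y 1 (k + 1) ^ 2 by positivity)
          calc _ = 2 * Λ * Pm y 1 (k + 1) ^ 2 * 1 := by push_cast; field_simp
            _ ≤ _ := b4
            _ = _ := by ring
      · have b2 := h3 z (k - m) (by rintro rfl; rw [t.lev_o] at hz'; omega) (by omega)
        rwa [mul_pow, Real.sq_sqrt hΛ0, ← hz', show k = t.lev z + (k - m) by omega,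
          show t.lev z + (k - m) - t.lev z = k - m by omega])
  have hB' : ∀ k k' f g, k ≤ n + 1 → k' ≤ n' + 1 → (∀ c, 0 ≤ f c) → (∀ c, 0 ≤ g c) →
      t.Bh C k k' f g ≤ ∑ m ∈ range (min (n + 1) (n' + 1) + 1),
        c m * (yv m k * t.nm k f * (yv m k' * t.nm k' g)) := fun k k' f g hk hk' hf hg =>
    (hB (hk.trans hn) (hk'.trans hn') hf hg).trans (sum_le_sum_of_subset_of_nonneg
      (range_subset_range.2 (by omega)) fun m _ _ => mul_nonneg (hc0 m) (mul_nonneg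
        (mul_nonneg (hyv0 _ _) (t.nm_nonneg _ _)) (mul_nonneg (hyv0 _ _) (t.nm_nonneg _ _))))
  have hT : ∀ {f : V → ℝ}, (∀ c, 0 ≤ f c) → ∀ c, 0 ≤ t.Tr 1 f c :=
    fun hf => t.Tr_nonneg (fun _ => zero_le_one) hf
  have e : ∑ p ∈ t.L (n + 1), f p * ∑ q ∈ t.L (n' + 1), g q *
      ((C p q + C (t.par p) q + C p (t.par q) + C (t.par p) (t.par q)) / 4) =
      (t.Bh C (n + 1) (n' + 1) f g + t.Bh C n (n' + 1) (t.Tr 1 f) g +
        t.Bh C (n + 1) n' f (t.Tr 1 g) + t.Bh C n n' (t.Tr 1 f) (t.Tr 1 g)) / 4 := by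
    simp only [RT.Bh, ← RT.sum_L_par, Pi.one_apply, one_mul, ← sum_add_distrib, sum_div, ← mul_add,
      mul_div_assoc]
  have ye : ∀ k (f : V → ℝ) m, m ≤ k + 1 → yv m (k + 1) * t.nm (k + 1) f +
      yv m k * t.nm k (t.Tr 1 f) ≤ κ m * ((1 + if m = 0 then √(D + 1) else √D) / y0) *
        Pm y m (k + 1) * t.nm (k + 1) f := by
    intro k f m hm
    set d := if m = 0 then √((D : ℝ) + 1) else √D with hd
    have hd0 : 0 ≤ d := by rw [hd]; split_ifs <;> positivity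
    have b0 := t.nm_nonneg (k + 1) f
    have b1 : yv m k * t.nm k (t.Tr 1 f) ≤ κ m * (d / y0) * Pm y m (k + 1) * t.nm (k + 1) f := by
      simp only [hyv]
      split_ifs with hmk
      · have b2 : t.nm k (t.Tr 1 f) ≤ d * t.nm (k + 1) f := by
          refine (t.nm_Tr k f).trans (mul_le_mul_of_nonneg_right ?_ b0)
          rw [hd]; split_ifs
          exacts [le_rfl, by omega, Real.sqrt_le_sqrt (by linarith), le_rfl]
        have b3 := mul_le_mul ((one_le_div hy0).2 (hy (k + 1))) b2 (t.nm_nonneg _ _)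
          (div_nonneg (hy' _) hy0.le)
        have b4 := mul_le_mul_of_nonneg_left b3 (mul_nonneg (hκ0 m) (Pm_nonneg hy' m k))
        rw [Pm_succ y hmk]
        calc _ = _ := by ring
          _ ≤ _ := b4
          _ = _ := by ring
      · have := hκ0 m
        have := Pm_nonneg hy' m (k + 1)
        rw [zero_mul]; positivity
    have b5 := mul_le_mul_of_nonneg_left ((one_le_div hy0).2 hy1)
      (mul_nonneg (mul_nonneg (hκ0 m) (Pm_nonneg hy' m (k + 1))) b0)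
    simp only [hyv, if_pos hm] at b1 ⊢
    calc _ ≤ κ m * Pm y m (k + 1) * t.nm (k + 1) f * (1 / y0) +
          κ m * (d / y0) * Pm y m (k + 1) * t.nm (k + 1) f := by linarith
      _ = _ := by ring
  rw [e, div_le_iff₀ (by norm_num : (0 : ℝ) < 4), Gk, sum_mul, sum_mul]
  refine (add_le_add (add_le_add (add_le_add (hB' _ _ _ _ le_rfl le_rfl hf hg)
    (hB' _ _ _ _ (Nat.le_succ _) le_rfl (hT hf) hg)) (hB' _ _ _ _ le_rfl (Nat.le_succ _) hf
    (hT hg))) (hB' _ _ _ _ (Nat.le_succ _) (Nat.le_succ _) (hT hf) (hT hg))).trans ?_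
  simp only [← sum_add_distrib]
  refine sum_le_sum fun m hm => ?_
  have hm' := mem_range.1 hm
  have b1 := mul_le_mul (ye n f m (by omega)) (ye n' g m (by omega))
    (add_nonneg (mul_nonneg (hyv0 _ _) (t.nm_nonneg _ _)) (mul_nonneg (hyv0 _ _)
      (t.nm_nonneg _ _))) ((add_nonneg (mul_nonneg (hyv0 _ _) (t.nm_nonneg _ _))
      (mul_nonneg (hyv0 _ _) (t.nm_nonneg _ _))).trans (ye n f m (by omega)))
  calc _ = _ := by ring
    _ ≤ _ := mul_le_mul_of_nonneg_left b1 (hc0 m)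
    _ = c m * κ m ^ 2 * ((1 + if m = 0 then √(D + 1) else √D) / y0) ^ 2 *
        (Pm y m (n + 1) * Pm y m (n' + 1)) * (t.nm (n + 1) f * t.nm (n' + 1) g) := by ring
    _ = _ := by
      simp only [hc, hκ]
      split_ifs
      · rw [div_pow, Real.sq_sqrt (by positivity)]; field_simp; ring
      · rw [Real.sq_sqrt hΛ0]; field_simp

end Vale.Agent.P161
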