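import Vale.Agent.P161.Model
import Vale.Agent.P161.Cauchy

/-! Independent uniform variables on vertices and Gaussian noise on pairs, from vertex labels. -/

namespace Vale.Agent.P161

open MeasureTheory ProbabilityTheory Filter Topology
open scoped Classical

variable {V : Type} {D : ℕ} {G : SimpleGraph V}

/-- The Cauchy property of the flows around each vertex. -/
def FlowCauchy (G : SimpleGraph V) (m : Md (V → Bool) (Sym2 V)) (T : ℝ) : Prop :=
  ∀ (v : V) (η : ℝ), 0 < η → ∃ R0, ∀ R, R0 ≤ R → ∀ R' S', Fe G v R ⊆ S' → S' ⊆ Fe G v R' →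
    ∫ ξ, |∑ f ∈ Fe G v R, av v f * (m.Xl S' T ξ f - m.Xl (Fe G v R) T ξ f)| ∂gam (Sym2 V) ≤ η

lemma dist_iso (hc : G.Connected) (g : G ≃g G) (u v : V) : G.dist (g u) (g v) = G.dist u v := by
  have key : ∀ (g : G ≃g G) u v, G.dist (g u) (g v) ≤ G.dist u v := fun g u v => by
    obtain ⟨p, hp⟩ := hc.exists_walk_length_eq_dist u v
    have := G.dist_le (p.map g.toHom)
    rwa [SimpleGraph.Walk.length_map, hp] at this
  refine le_antisymm (key g u v) ?_
  simpa using key g.symm (g u) (g v)

lemma finite_dist_le (hG : IsRegularTree G (D + 1)) (u : V) (n : ℕ) :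
    {w | G.dist u w ≤ n}.Finite := by
  obtain ⟨t, rfl, ht⟩ := exists_RT hG u
  refine (t.ball n).finite_toSet.subset fun w hw => ?_
  rw [Finset.mem_coe, t.mem_ball, ht.lev_eq]
  exact hw

lemma measurable_pick {Ω C β : Type*} [MeasurableSpace Ω] [Countable C] [MeasurableSpace β]
    {g : Ω → C} (hg : ∀ c, MeasurableSet {ω | g ω = c}) {F : C → Ω → β}
    (hF : ∀ c, Measurable (F c)) : Measurable fun ω => F (g ω) ω := by
  intro s hs
  have : (fun ω => F (g ω) ω) ⁻¹' s = ⋃ c, {ω | g ω = c} ∩ F c ⁻¹' s := by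
    ext ω; simp
  rw [this]
  exact MeasurableSet.iUnion fun c => (hg c).inter (hF c hs)

lemma gam_map {E E' : Type*} {f : E → E'} (hf : Function.Injective f) :
    (gam E').map (fun ξ i => ξ (f i)) = gam E :=
  Measure.map_infinitePi_infinitePi_of_inj (P := fun _ : E' => gaussianReal 0 1) hf

/-- The bijection of unordered pairs induced by a bijection. -/
def sq2 (φ : V ≃ V) : Sym2 V ≃ Sym2 V where
  toFun := Sym2.map φ
  invFun := Sym2.map φ.symm
  left_inv e := by induction e using Sym2.ind; simp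
  right_inv e := by induction e using Sym2.ind; simp

@[simp] lemma sq2_mk (φ : V ≃ V) (u v : V) : sq2 φ s(u, v) = s(φ u, φ v) := rfl

/-- The slot at `u` reserved for `v`. -/
noncomputable def idx (G : SimpleGraph V) (τ : V → ℝ) (u v : V) : ℕ × ℕ :=
  (G.dist u v, {w | G.dist u w ≤ G.dist u v ∧ τ w < τ v}.ncard)

lemma idx_inj (hG : IsRegularTree G (D + 1)) {τ : V → ℝ} (hτ : Function.Injective τ) (u : V) :
    Function.Injective (idx G τ u) := by
  have key : ∀ v v', idx G τ u v = idx G τ u v' → ¬ τ v < τ v' := by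
    intro v v' h hlt
    obtain ⟨h1, h2⟩ := Prod.ext_iff.1 h
    simp only [idx] at h1 h2
    rw [← h1] at h2
    refine (Set.ncard_lt_ncard ?_ ((finite_dist_le hG u (G.dist u v)).subset
      fun w hw => hw.1)).ne h2
    refine ⟨fun w hw => ⟨hw.1, hw.2.trans hlt⟩, fun h' => ?_⟩
    exact lt_irrefl _ (h' (show v ∈ {w | G.dist u w ≤ G.dist u v ∧ τ w < τ v'} from
      ⟨le_rfl, hlt⟩)).2
  intro v v' h
  exact hτ (le_antisymm (not_lt.1 (key v' v h.symm)) (not_lt.1 (key v v' h)))

lemma idx_iso (hc : G.Connected) (φ : G ≃g G) {τ τ' : V → ℝ}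
    (hτ : ∀ v, τ' (φ v) = τ v) (u v : V) : idx G τ' (φ u) (φ v) = idx G τ u v := by
  have : {w | G.dist (φ u) w ≤ G.dist u v ∧ τ' w < τ v} =
      φ '' {w | G.dist u w ≤ G.dist u v ∧ τ w < τ v} := by
    ext w
    obtain ⟨w, rfl⟩ := φ.surjective w
    simp [dist_iso hc, hτ]
  simp only [idx, dist_iso hc, hτ, this, Set.ncard_image_of_injective _ φ.injective]

lemma measurable_idx [Countable V] {Ω : Type*} [MeasurableSpace Ω] (G : SimpleGraph V)
    {τ : Ω → V → ℝ} (hτ : ∀ v, Measurable fun ω => τ ω v) (u v : V) :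
    Measurable fun ω => idx G (τ ω) u v :=
  measurable_const.prodMk (measurable_ncard.comp (measurable_set_iff.2 fun w =>
    measurable_const.and (measurableSet_setOfPred.1 (measurableSet_lt (hτ w) (hτ v)))))

/-- The noise attached to an unordered pair. -/
noncomputable def nz (G : SimpleGraph V) (τ : V → ℝ) (ζ : V × (ℕ × ℕ) → ℝ) : Sym2 V → ℝ :=
  Sym2.lift ⟨fun u v => if τ v < τ u then ζ (u, idx G τ u v) else
    if τ u < τ v then ζ (v, idx G τ v u) else if u = v then ζ (u, idx G τ u v) else 0, by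
      intro u v
      rcases lt_trichotomy (τ u) (τ v) with h | h | h
      · simp [h, h.not_gt]
      · by_cases huv : u = v
        · subst huv; rfl
        · simp [h, huv, Ne.symm huv]
      · simp [h, h.not_gt]⟩

lemma nz_mk (G : SimpleGraph V) (τ : V → ℝ) (ζ : V × (ℕ × ℕ) → ℝ) (u v : V) :
    nz G τ ζ s(u, v) = if τ v < τ u then ζ (u, idx G τ u v) else
      if τ u < τ v then ζ (v, idx G τ v u) else if u = v then ζ (u, idx G τ u v) else 0 := rfl

lemma nz_iso (hc : G.Connected) (φ : G ≃g G) {τ τ' : V → ℝ}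
    (hτ : ∀ v, τ' (φ v) = τ v) {ζ ζ' : V × (ℕ × ℕ) → ℝ}
    (hζ : ∀ v k, ζ' (φ v, k) = ζ (v, k)) (e : Sym2 V) :
    nz G τ' ζ' (sq2 φ.toEquiv e) = nz G τ ζ e := by
  induction e using Sym2.ind with
  | h u v =>
    simp only [sq2_mk, nz_mk, RelIso.coe_fn_toEquiv, hτ, hζ, idx_iso hc φ hτ, φ.injective.eq_iff]

lemma measurable_nz [Countable V] {Ω : Type*} [MeasurableSpace Ω] (G : SimpleGraph V)
    {τ : Ω → V → ℝ} (hτ : ∀ v, Measurable fun ω => τ ω v)
    {ζ : Ω → V × (ℕ × ℕ) → ℝ} (hζ : ∀ z, Measurable fun ω => ζ ω z) (e : Sym2 V) :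
    Measurable fun ω => nz G (τ ω) (ζ ω) e := by
  have h : ∀ u v, Measurable fun ω => ζ ω (u, idx G (τ ω) u v) := fun u v =>
    measurable_pick (F := fun k ω => ζ ω (u, k))
      (fun k => measurable_idx G hτ u v (measurableSet_singleton k)) fun k => hζ _
  induction e using Sym2.ind with
  | h u v =>
    simp only [nz_mk]
    refine Measurable.ite (measurableSet_lt (hτ v) (hτ u)) (h u v)
      (Measurable.ite (measurableSet_lt (hτ u) (hτ v)) (h v u) ?_)
    by_cases huv : u = v
    · simp only [huv, if_true]; exact h v v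
    · simp only [huv, if_false]; exact measurable_const

lemma map_nz_of_inj (hG : IsRegularTree G (D + 1)) {τ : V → ℝ} (hτ : Function.Injective τ) :
    (gam (V × (ℕ × ℕ))).map (nz G τ) = gam (Sym2 V) := by
  have h1 : ∀ e : Sym2 V, ∃ z : V × V, e = s(z.1, z.2) ∧
      ∀ ζ, nz G τ ζ e = ζ (z.1, idx G τ z.1 z.2) := by
    intro e
    induction e using Sym2.ind with
    | h u v =>
      rcases lt_trichotomy (τ u) (τ v) with h | h | h
      · exact ⟨(v, u), Sym2.eq_swap, fun ζ => by simp [nz_mk, h, h.not_gt]⟩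
      · obtain rfl := hτ h
        exact ⟨(u, u), rfl, fun ζ => by simp [nz_mk]⟩
      · exact ⟨(u, v), rfl, fun ζ => by simp [nz_mk, h]⟩
  choose z hz1 hz2 using h1
  have h2 : Function.Injective fun e => ((z e).1, idx G τ (z e).1 (z e).2) := by
    intro e e' h
    obtain ⟨a1, a2⟩ := Prod.ext_iff.1 h
    simp only at a1 a2
    rw [← a1] at a2
    rw [hz1 e, hz1 e', idx_inj hG hτ _ a2, a1]
  rw [← gam_map h2]
  congr 1
  ext ζ e
  exact hz2 e ζ

lemma ae_injective [Countable V] : ∀ᵐ τ ∂gam V, Function.Injective τ := by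
  have h : ∀ u v : V, ∀ᵐ τ ∂gam V, τ u = τ v → u = v := by
    intro u v
    by_cases huv : u = v
    · exact ae_of_all _ fun _ _ => huv
    have h1 := Measure.infinitePi_map_eval_prod (P := fun _ : V => gaussianReal 0 1) huv
    have hd : MeasurableSet {x : ℝ × ℝ | x.1 = x.2} :=
      measurableSet_eq_fun measurable_fst measurable_snd
    have h2 : ((gaussianReal 0 1).prod (gaussianReal 0 1)) {x : ℝ × ℝ | x.1 = x.2} = 0 := by
      have := nullSingletonClass_gaussianReal (μ := 0) (v := 1) one_ne_zero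
      rw [Measure.measure_prod_null hd]
      refine ae_of_all _ fun x => ?_
      have : Prod.mk x ⁻¹' {x : ℝ × ℝ | x.1 = x.2} = {x} := by ext; simp [eq_comm]
      simp [this]
    rw [← h1, Measure.map_apply (by fun_prop) hd] at h2
    exact measure_mono_null (fun τ hτ => by simpa using (Classical.not_imp.1 hτ).1) h2
  filter_upwards [ae_all_iff.2 fun u => ae_all_iff.2 fun v => h u v] with τ hτ u v using hτ u v

lemma measurable_nz2 [Countable V] (G : SimpleGraph V) :
    Measurable fun x : (V → ℝ) × (V × (ℕ × ℕ) → ℝ) => nz G x.1 x.2 :=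
  measurable_pi_lambda _ fun e => measurable_nz G (fun v => by fun_prop) (fun z => by fun_prop) e

lemma map_nz [Countable V] (hG : IsRegularTree G (D + 1)) :
    ((gam V).prod (gam (V × (ℕ × ℕ)))).map (fun x => nz G x.1 x.2) = gam (Sym2 V) := by
  have hm := measurable_nz2 G
  ext s hs
  rw [Measure.map_apply hm hs, Measure.prod_apply (hm hs)]
  have : ∀ᵐ τ ∂gam V, gam (V × (ℕ × ℕ)) (Prod.mk τ ⁻¹' ((fun x : (V → ℝ) × (V × (ℕ × ℕ) → ℝ) =>
      nz G x.1 x.2) ⁻¹' s)) = gam (Sym2 V) s := by
    filter_upwards [ae_injective] with τ hτ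
    have hm' : Measurable (nz G τ) := hm.comp (measurable_prodMk_left (x := τ))
    rw [← map_nz_of_inj hG hτ, Measure.map_apply hm' hs]
    rfl
  rw [lintegral_congr_ae this]
  simp

lemma infinitePi_sum {A B : Type*} (P : A ⊕ B → Measure ℝ) [∀ i, IsProbabilityMeasure (P i)] :
    (Measure.infinitePi P).map (fun ξ => (fun a => ξ (Sum.inl a), fun b => ξ (Sum.inr b))) =
      (Measure.infinitePi fun a => P (Sum.inl a)).prod
        (Measure.infinitePi fun b => P (Sum.inr b)) := by
  have hm : Measurable fun x : (A → ℝ) × (B → ℝ) => Sum.elim x.1 x.2 :=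
    measurable_pi_lambda _ fun i => by cases i <;> simp <;> fun_prop
  have h : ((Measure.infinitePi fun a => P (Sum.inl a)).prod
      (Measure.infinitePi fun b => P (Sum.inr b))).map (fun x => Sum.elim x.1 x.2) =
      Measure.infinitePi P := by
    refine Measure.eq_infinitePi _ fun s t ht => ?_
    rw [Measure.map_apply hm (.pi s.countable_toSet fun i _ => ht i)]
    have : (fun x : (A → ℝ) × (B → ℝ) => Sum.elim x.1 x.2) ⁻¹' (Set.pi s t) =
        (Set.pi s.toLeft fun a => t (Sum.inl a)) ×ˢ (Set.pi s.toRight fun b => t (Sum.inr b)) := by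
      ext x; simp [Set.mem_pi]
    rw [this, Measure.prod_prod, Finset.prod_sum_eq_prod_toLeft_mul_prod_toRight,
      Measure.infinitePi_pi _ fun _ _ => ht _, Measure.infinitePi_pi _ fun _ _ => ht _]
  rw [← h, Measure.map_map (by fun_prop) hm]
  exact Measure.map_id

/-- The uniform law on the unit interval, as a measure on the line. -/
noncomputable def unif : Measure ℝ := volume.restrict (Set.Ioc 0 1)

instance : IsProbabilityMeasure unif := ⟨by simp [unif]⟩

/-- The law of the coordinates of a label. -/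
noncomputable def lawc : Option (Option (ℕ × ℕ)) → Measure ℝ
  | none => unif
  | some _ => gaussianReal 0 1

instance (k : Option (Option (ℕ × ℕ))) : IsProbabilityMeasure (lawc k) := by
  cases k <;> unfold lawc <;> infer_instance

lemma map_labels (V : Type) :
    (Measure.infinitePi fun _ : V => Measure.infinitePi lawc).map
      (fun l => (fun v => l v none, (fun v => l v (some none),
        fun z : V × (ℕ × ℕ) => l z.1 (some (some z.2))))) =
    (Measure.infinitePi fun _ : V => unif).prod ((gam V).prod (gam (V × (ℕ × ℕ)))) := by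
  have h1 := Measure.infinitePi_map_curry_symm (fun (_ : V) k => lawc k)
  let f : V ⊕ (V ⊕ V × (ℕ × ℕ)) → V × Option (Option (ℕ × ℕ)) :=
    Sum.elim (fun v => (v, none)) (Sum.elim (fun v => (v, some none))
      fun z => (z.1, some (some z.2)))
  have h2 : Function.Injective f := by
    rintro (a | a | ⟨a, k⟩) (b | b | ⟨b, m⟩) h <;> simp_all [f]
  have h3 := Measure.map_infinitePi_infinitePi_of_inj
    (P := fun p : V × Option (Option (ℕ × ℕ)) => lawc p.2) h2
  have h4 := infinitePi_sum fun i => lawc (f i).2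
  have h5 : (gam (V ⊕ V × (ℕ × ℕ))).map (fun ξ => (fun a => ξ (Sum.inl a),
      fun b => ξ (Sum.inr b))) = (gam V).prod (gam (V × (ℕ × ℕ))) :=
    infinitePi_sum fun _ => gaussianReal 0 1
  have h6 : (Measure.infinitePi fun b => lawc (f (Sum.inr b)).2) = gam (V ⊕ V × (ℕ × ℕ)) := by
    unfold gam
    congr 1
    ext1 b
    rcases b with b | b <;> rfl
  have h7 : (Measure.infinitePi fun a => lawc (f (Sum.inl a)).2) =
      Measure.infinitePi fun _ : V => unif := rfl
  rw [h6, h7] at h4
  rw [← h5, ← Measure.map_id (μ := Measure.infinitePi fun _ : V => unif),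
    Measure.map_prod_map _ _ measurable_id (by fun_prop), ← h4, ← h3, ← h1,
    Measure.map_map (by fun_prop) (by fun_prop), Measure.map_map (by fun_prop) (by fun_prop),
    Measure.map_map (by fun_prop) (by fun_prop)]
  rfl

theorem exists_labels (hG : IsRegularTree G (D + 1)) :
    ∃ Λ : (V → unitInterval) → (V → ℝ) × (Sym2 V → ℝ), Measurable Λ ∧
      (∀ (g : G ≃g G) (U U' : V → unitInterval), (∀ v, U' (g v) = U v) →
        (∀ v, (Λ U').1 (g v) = (Λ U).1 v) ∧ ∀ e, (Λ U').2 (sq2 g.toEquiv e) = (Λ U).2 e) ∧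
      (iidUnif V).map Λ = (Measure.infinitePi fun _ : V => unif).prod (gam (Sym2 V)) := by
  obtain ⟨t, -, -⟩ := exists_RT hG hG.1.connected.nonempty.some
  have := t.countable
  obtain ⟨lab, hlab, hlaw⟩ := Measure.exists_measurable_map_eq (Measure.infinitePi lawc)
  have m1 : Measurable fun (U : V → unitInterval) v => lab (U v) := by fun_prop
  have m2 : Measurable fun l : V → Option (Option (ℕ × ℕ)) → ℝ => (fun v => l v none,
      (fun v => l v (some none), fun z : V × (ℕ × ℕ) => l z.1 (some (some z.2)))) := by fun_prop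
  have m3 := measurable_nz2 G
  refine ⟨fun U => (fun v => lab (U v) none, nz G (fun v => lab (U v) (some none))
    fun z => lab (U z.1) (some (some z.2))), (measurable_id.prodMap m3).comp (m2.comp m1),
    fun g U U' h => ⟨fun v => by simp only [h], fun e => ?_⟩, ?_⟩
  · exact nz_iso hG.1.connected g (τ := fun v => lab (U v) (some none))
      (τ' := fun v => lab (U' v) (some none)) (fun v => by simp only [h])
      (ζ := fun z => lab (U z.1) (some (some z.2))) (ζ' := fun z => lab (U' z.1) (some (some z.2)))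
      (fun v k => by simp only [h]) e
  · have h1 : (iidUnif V).map (fun U v => lab (U v)) =
        Measure.infinitePi fun _ : V => Measure.infinitePi lawc := by
      rw [iidUnif, Measure.infinitePi_map_pi _ (fun _ => hlab)]
      simp only [hlaw]
    rw [← map_nz hG, ← Measure.map_id (μ := Measure.infinitePi fun _ : V => unif),
      Measure.map_prod_map _ _ measurable_id m3, ← map_labels, ← h1, Measure.map_map m2 m1,
      Measure.map_map (measurable_id.prodMap m3) (m2.comp m1)]
    rfl

end Vale.Agent.P161
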