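import Vale.Agent.P161.Kernel

/-! Level norms of the adjoint vector. -/

namespace Vale.Agent.P161

open Finset Function MeasureTheory
open scoped Classical

variable {V : Type} {D : ℕ} {G : SimpleGraph V}

lemma back_le {y w h : ℕ → ℝ} (hy : ∀ l, 0 ≤ y l) {R : ℕ} (h1 : w R ≤ h R)
    (h2 : ∀ m < R, w m + y (m + 1) * h (m + 1) ≤ h m) {m : ℕ} (hm : m ≤ R) :
    ∑ n ∈ Icc m R, w n * Pm y m n ≤ h m := by
  induction hm using Nat.decreasingInduction with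
  | self => simpa using h1
  | of_succ m hm ih =>
    rw [← Finset.insert_Icc_succ_left_eq_Icc hm.le, sum_insert (by simp), Pm_self, mul_one]
    refine le_trans (add_le_add le_rfl ?_) (h2 m hm)
    refine le_trans (le_of_eq ?_) (mul_le_mul_of_nonneg_left ih (hy _))
    rw [mul_sum]
    exact sum_congr rfl fun n hn => by rw [Pm_left y (mem_Icc.1 hn).1]; ring

lemma fwd_le {y c h k : ℕ → ℝ} (hy : ∀ l, 0 ≤ y l) {R : ℕ} (h1 : c 0 * h 0 ≤ k 0)
    (h2 : ∀ n < R, y (n + 1) * k n + c (n + 1) * h (n + 1) ≤ k (n + 1)) {n : ℕ} (hn : n ≤ R) :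
    ∑ m ∈ range (n + 1), c m * Pm y m n * h m ≤ k n := by
  induction n with
  | zero => simpa using h1
  | succ n ih =>
    rw [sum_range_succ, Pm_self, mul_one]
    refine le_trans (add_le_add ?_ le_rfl) (h2 n hn)
    refine le_trans (le_of_eq ?_) (mul_le_mul_of_nonneg_left (ih (by omega)) (hy _))
    rw [mul_sum]
    exact sum_congr rfl fun m hm => by
      rw [Pm_succ y (Nat.le_of_lt_succ (mem_range.1 hm))]; ring

lemma Gk_nonneg {c0 c1 : ℝ} (h0 : 0 ≤ c0) (h1 : 0 ≤ c1) {y : ℕ → ℝ} (hy : ∀ l, 0 ≤ y l)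
    (n n' : ℕ) : 0 ≤ Gk c0 c1 y n n' :=
  sum_nonneg fun m _ => mul_nonneg (by split_ifs <;> assumption)
    (mul_nonneg (Pm_nonneg hy _ _) (Pm_nonneg hy _ _))

lemma sum_Gk_le {c0 c1 : ℝ} (h0 : 0 ≤ c0) (h1 : 0 ≤ c1) {y w h k : ℕ → ℝ} (hy : ∀ l, 0 ≤ y l)
    (hw : ∀ l, 0 ≤ w l) {R : ℕ} (a1 : w R ≤ h R)
    (a2 : ∀ m < R, w m + y (m + 1) * h (m + 1) ≤ h m) (a3 : c0 * h 0 ≤ k 0)
    (a4 : ∀ n < R, y (n + 1) * k n + c1 * h (n + 1) ≤ k (n + 1)) {n' : ℕ} (hn : n' ≤ R) :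
    ∑ n ∈ range R, w (n + 1) * Gk c0 c1 y n' (n + 1) ≤ k n' := by
  refine le_trans ?_ (fwd_le (c := fun m => if m = 0 then c0 else c1) hy (by simpa using a3)
    (by simpa using a4) hn)
  have e : ∀ n, Gk c0 c1 y n' (n + 1) = ∑ m ∈ range (n' + 1), if m ≤ n + 1 then
      (if m = 0 then c0 else c1) * (Pm y m n' * Pm y m (n + 1)) else 0 := fun n => by
    rw [← sum_filter]
    refine sum_congr ?_ fun _ _ => rfl
    ext m; simp only [mem_range, mem_filter]; omega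
  simp only [e, mul_sum]
  rw [sum_comm]
  refine sum_le_sum fun m hm => ?_
  have hc : 0 ≤ (if m = 0 then c0 else c1) * Pm y m n' :=
    mul_nonneg (by split_ifs <;> assumption) (Pm_nonneg hy _ _)
  refine le_trans ?_ (mul_le_mul_of_nonneg_left (back_le hy a1 a2
    (show m ≤ R by have := mem_range.1 hm; omega)) hc)
  have e2 : ∀ (P : Prop) [Decidable P] (a b : ℝ), a * (if P then b else 0) =
      if P then a * b else 0 := fun P _ a b => by split_ifs <;> simp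
  simp only [e2]
  rw [← sum_filter, mul_sum]
  refine le_trans (le_of_eq ?_) (sum_le_sum_of_subset_of_nonneg
    (s := ((range R).filter fun n => m ≤ n + 1).image (· + 1)) (fun n hn => ?_)
    fun n _ _ => mul_nonneg hc (mul_nonneg (hw n) (Pm_nonneg hy _ _)))
  · rw [sum_image fun a _ b _ h => by simpa using h]
    exact sum_congr rfl fun n _ => by ring
  · obtain ⟨a, ha, rfl⟩ := mem_image.1 hn
    simp only [mem_filter, mem_range] at ha
    exact mem_Icc.2 ⟨ha.2, ha.1⟩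

lemma sum_Gk_const {c0 c1 c γ Ω : ℝ} (h0 : 0 ≤ c0) (h1 : 0 ≤ c1) (h0' : c0 ≤ c) (h1' : c1 ≤ c)
    (hγ : 0 < γ) (hγ1 : γ ≤ 1) (hΩ : 1 ≤ Ω) (hΩ' : Ω ≤ 1 + γ / 2) {R n' : ℕ} (hn : n' ≤ R) :
    ∑ n ∈ range R, Ω ^ (n + 1) * Gk c0 c1 (fun _ => 1 - γ) n' (n + 1) ≤
      2 * c / γ ^ 2 * Ω ^ n' := by
  have hp : ∀ m, 0 < Ω ^ m := fun m => by positivity
  have hc : 0 ≤ c := h0.trans h0'
  refine sum_Gk_le (h := fun m => 2 / γ * Ω ^ m) (k := fun n => 2 * c / γ ^ 2 * Ω ^ n) h0 h1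
    (fun _ => by linarith) (fun l => (hp l).le) ?_ (fun m _ => ?_) ?_ (fun n _ => ?_) hn
  · exact le_mul_of_one_le_left (hp R).le ((one_le_div hγ).2 (by linarith))
  · have : γ / 2 + (1 - γ) * Ω ≤ 1 := by nlinarith
    have := mul_le_mul_of_nonneg_left this (show 0 ≤ 2 / γ * Ω ^ m by have := hp m; positivity)
    calc _ = _ := by rw [pow_succ]; field_simp
      _ ≤ _ := this
      _ = _ := mul_one _
  · simp only [pow_zero, mul_one]
    rw [mul_div_assoc', div_le_div_iff₀ hγ (by positivity)]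
    nlinarith [mul_le_mul_of_nonneg_left h0' (sq_nonneg γ), mul_nonneg (mul_nonneg hc hγ.le)
      (sub_nonneg.2 hγ1)]
  · have a1 : (1 - γ) + γ * Ω ≤ Ω := by nlinarith
    have a2 := mul_le_mul_of_nonneg_left a1
      (show 0 ≤ 2 * c / γ ^ 2 * Ω ^ n by have := hp n; positivity)
    have a3 := mul_le_mul_of_nonneg_right h1'
      (show 0 ≤ 2 / γ * Ω ^ (n + 1) by have := hp n; positivity)
    calc _ ≤ (1 - γ) * (2 * c / γ ^ 2 * Ω ^ n) + c * (2 / γ * Ω ^ (n + 1)) := by linarith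
      _ = _ := by field_simp; ring
      _ ≤ _ := a2
      _ = _ := by ring

namespace RT

variable (t : RT V D)

lemma sum_Sp_o (R : ℕ) (g : Sym2 V → ℝ) :
    ∑ e ∈ t.Sp R t.o, g e = ∑ n ∈ range R, ∑ c ∈ t.L (n + 1), g (t.ed c) := by
  rw [sum_Sp, ← sum_fiberwise_of_maps_to (g := fun c => t.lev c - 1) (t := range R) fun c hc => by
    obtain ⟨h1, h2⟩ := (t.mem_desc_o _ _).1 hc
    have := t.lev_par c h1
    rw [mem_range]; omega]
  refine sum_congr rfl fun n hn => sum_congr ?_ fun _ _ => rfl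
  ext c
  rw [mem_filter, mem_desc_o, mem_L]
  have := mem_range.1 hn
  constructor
  · rintro ⟨⟨h1, -⟩, h2⟩
    have := t.lev_par c h1
    omega
  · exact fun h => ⟨⟨t.ne_o_of_mem_L (t.mem_L.2 h), by omega⟩, by omega⟩

/-- The norm of an edge vector on level `n + 1`. -/
noncomputable def al (n : ℕ) (a : Sym2 V → ℝ) : ℝ := t.nm (n + 1) fun c => |a (t.ed c)|

lemma al_nonneg (n : ℕ) (a : Sym2 V → ℝ) : 0 ≤ t.al n a := t.nm_nonneg _ _

/-- Bilinear bounds between levels. -/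
def KB (R : ℕ) (C : Sym2 V → Sym2 V → ℝ) (K : ℕ → ℕ → ℝ) : Prop :=
  ∀ n < R, ∀ n' < R, 0 ≤ K n n' ∧ ∀ f g : V → ℝ, (∀ c, 0 ≤ f c) → (∀ c, 0 ≤ g c) →
    ∑ p ∈ t.L (n + 1), f p * ∑ q ∈ t.L (n' + 1), g q * |C (t.ed p) (t.ed q)| ≤
      K n n' * (t.nm (n + 1) f * t.nm (n' + 1) g)

variable {t} {R : ℕ} {C : Sym2 V → Sym2 V → ℝ} {K : ℕ → ℕ → ℝ}

lemma KB.dual (h : t.KB R C K) (a : Sym2 V → ℝ) {n : ℕ} (hn : n < R) {g : V → ℝ}
    (hg : ∀ c, 0 ≤ g c) : ∑ q ∈ t.L (n + 1), g q * |∑ e ∈ t.Sp R t.o, a e * C e (t.ed q)| ≤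
      (∑ n' ∈ range R, K n' n * t.al n' a) * t.nm (n + 1) g := by
  calc _ ≤ ∑ q ∈ t.L (n + 1), ∑ n' ∈ range R, ∑ p ∈ t.L (n' + 1),
        |a (t.ed p)| * (g q * |C (t.ed p) (t.ed q)|) := sum_le_sum fun q _ => by
        refine (mul_le_mul_of_nonneg_left (abs_sum_le_sum_abs _ _) (hg q)).trans (le_of_eq ?_)
        simp only [sum_Sp_o, mul_sum, abs_mul]
        exact sum_congr rfl fun _ _ => sum_congr rfl fun _ _ => by ring
    _ ≤ _ := by
        rw [sum_comm, sum_mul]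
        refine sum_le_sum fun n' hn' => ?_
        rw [sum_comm, mul_assoc]
        simp only [← mul_sum]
        exact (h n' (mem_range.1 hn') n hn).2 _ _ (fun _ => abs_nonneg _) hg

lemma KB.al_step (h : t.KB R C K) (a : Sym2 V → ℝ) {c : ℝ} (hc : 0 ≤ c) {n : ℕ} (hn : n < R) :
    t.al n (fun f => a f + c * ∑ e ∈ t.Sp R t.o, a e * C e f) ≤
      t.al n a + c * ∑ n' ∈ range R, K n' n * t.al n' a := by
  set v : V → ℝ := fun q => |a (t.ed q) + c * ∑ e ∈ t.Sp R t.o, a e * C e (t.ed q)| with hv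
  have h1 := h.dual a hn (g := v) fun _ => abs_nonneg _
  have h2 := Real.sum_mul_le_sqrt_mul_sqrt (t.L (n + 1)) (fun q => |a (t.ed q)|) v
  have h3 : t.nm (n + 1) v * t.nm (n + 1) v ≤
      (t.al n a + c * ∑ n' ∈ range R, K n' n * t.al n' a) * t.nm (n + 1) v := by
    rw [nm, Real.mul_self_sqrt (sum_nonneg fun _ _ => sq_nonneg _), add_mul, mul_assoc]
    refine le_trans ?_ (add_le_add h2 (mul_le_mul_of_nonneg_left h1 hc))
    rw [mul_sum, ← sum_add_distrib]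
    refine sum_le_sum fun q _ => ?_
    have h4 : v q ≤ |a (t.ed q)| + c * |∑ e ∈ t.Sp R t.o, a e * C e (t.ed q)| := by
      refine (abs_add_le _ _).trans (le_of_eq ?_)
      rw [abs_mul, abs_of_nonneg hc]
    have h5 : 0 ≤ v q := abs_nonneg _
    nlinarith
  rcases (t.nm_nonneg (n + 1) v).eq_or_lt with h0 | h0
  · exact h0.symm.trans_le (add_nonneg (t.al_nonneg _ _) (mul_nonneg hc (sum_nonneg fun n' hn' =>
      mul_nonneg (h n' (mem_range.1 hn') n hn).1 (t.al_nonneg _ _))))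
  · exact le_of_mul_le_mul_right h3 h0

/-- Weighted sum of the level norms. -/
noncomputable def Aw (t : RT V D) (R : ℕ) (w : ℕ → ℝ) (a : Sym2 V → ℝ) : ℝ :=
  ∑ n ∈ range R, w (n + 1) * t.al n a

lemma Aw_nonneg {w : ℕ → ℝ} (hw : ∀ n, 0 ≤ w n) (a : Sym2 V → ℝ) : 0 ≤ t.Aw R w a :=
  sum_nonneg fun _ _ => mul_nonneg (hw _) (t.al_nonneg _ _)

lemma Aw_mono {w w' : ℕ → ℝ} (hw : ∀ n, w n ≤ w' n) (a : Sym2 V → ℝ) :
    t.Aw R w a ≤ t.Aw R w' a :=
  sum_le_sum fun _ _ => mul_le_mul_of_nonneg_right (hw _) (t.al_nonneg _ _)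

lemma KB.Aw_step (h : t.KB R C K) (a : Sym2 V → ℝ) {c : ℝ} (hc : 0 ≤ c) {w k : ℕ → ℝ}
    (hw : ∀ n, 0 ≤ w n) (hk : ∀ n' < R, ∑ n ∈ range R, w (n + 1) * K n' n ≤ k (n' + 1)) :
    t.Aw R w (fun f => a f + c * ∑ e ∈ t.Sp R t.o, a e * C e f) ≤
      t.Aw R w a + c * t.Aw R k a := by
  refine (sum_le_sum fun n hn => mul_le_mul_of_nonneg_left (h.al_step a hc (mem_range.1 hn))
    (hw _)).trans ?_
  simp only [mul_add, sum_add_distrib, mul_left_comm _ c, ← mul_sum]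
  refine add_le_add le_rfl (mul_le_mul_of_nonneg_left ?_ hc)
  simp only [mul_sum, ← mul_assoc]
  rw [sum_comm]
  refine sum_le_sum fun n' hn' => ?_
  rw [← sum_mul]
  exact mul_le_mul_of_nonneg_right (hk n' (mem_range.1 hn')) (t.al_nonneg _ _)

lemma KB.quad (h : t.KB R C K) (a : Sym2 V → ℝ) {w : ℕ → ℝ}
    (hk : ∀ n' < R, ∀ n < R, K n' n ≤ w (n' + 1)) :
    ∑ e ∈ t.Sp R t.o, a e * ∑ f ∈ t.Sp R t.o, a f * C f e ≤ t.Aw R w a * t.Aw R 1 a := by
  rw [sum_Sp_o, Aw, Aw, mul_sum]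
  refine sum_le_sum fun n hn => (sum_le_sum fun q _ => (le_abs_self _).trans
    (abs_mul _ _).le).trans ((h.dual a (mem_range.1 hn) fun _ => abs_nonneg _).trans ?_)
  rw [Pi.one_apply, one_mul]
  refine mul_le_mul_of_nonneg_right (sum_le_sum fun n' hn' => ?_) (t.al_nonneg _ _)
  exact mul_le_mul_of_nonneg_right (hk n' (mem_range.1 hn') n (mem_range.1 hn)) (t.al_nonneg _ _)

lemma abs_le_Aw {w : ℕ → ℝ} (hw : ∀ n, 1 ≤ w n) (a : Sym2 V → ℝ) {e : Sym2 V}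
    (he : e ∈ t.Sp R t.o) : |a e| ≤ t.Aw R w a := by
  obtain ⟨c, hc, rfl⟩ := mem_image.1 he
  obtain ⟨h1, h2⟩ := (t.mem_desc_o _ _).1 hc
  have h3 := t.lev_par c h1
  refine le_trans ?_ (single_le_sum (f := fun n => w (n + 1) * t.al n a) (fun n _ => mul_nonneg
    (zero_le_one.trans (hw _)) (t.al_nonneg _ _)) (mem_range.2 (show t.lev (t.par c) < R by omega)))
  refine le_trans ?_ (le_mul_of_one_le_left (t.al_nonneg _ _) (hw _))
  exact Real.le_sqrt_of_sq_le (single_le_sum (f := fun p => |a (t.ed p)| ^ 2)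
    (fun _ _ => sq_nonneg _) (t.mem_L.2 h3))

lemma Aw_av {w : ℕ → ℝ} (hw : 0 ≤ w 1) : t.Aw R w (av t.o) ≤ w 1 * √(D + 1) := by
  have h0 : t.al 0 (av t.o) ≤ √(D + 1) := by
    refine Real.sqrt_le_sqrt ?_
    rw [sum_L_succ, L_zero, sum_singleton]
    refine (sum_le_card_nsmul _ _ 1 fun c _ => pow_le_one₀ (abs_nonneg _) (abs_av_le _ _)).trans ?_
    simp [t.card_ch_o]
  rcases R with _ | R
  · simp only [Aw, range_zero, sum_empty]; positivity
  · rw [Aw, sum_range_succ', sum_eq_zero, zero_add]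
    · exact mul_le_mul_of_nonneg_left h0 hw
    · intro n _
      rw [al, nm, sum_eq_zero, Real.sqrt_zero, mul_zero]
      intro c hc
      have h1 := t.ne_o_of_mem_L hc
      have h2 := t.lev_par c h1
      have h3 : t.par c ≠ t.o := fun h => by rw [h, t.lev_o, t.mem_L.1 hc] at h2; omega
      simp [av, ed, h1.symm, h3.symm]

variable {θ : ℝ}

theorem Fits.cv_le (ht : t.Fits G) (h0 : 0 ≤ θ) (h1 : θ < 1) {μ : Measure (V → Bool)}
    (hμ : IsFreeIsing G θ μ) (u : ℝ) (x : Sym2 V → ℝ) (R : ℕ) {r : V → ℝ}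
    (hr : ∀ a, |rr θ u (x (t.ed a)) (t.Zp θ u x (R - t.lev a) a)| ≤ r a) :
    ∃ C, t.Maj R r C ∧ ∀ p q, |(isingMd μ hμ.1).cv (t.Sp R t.o) u x (t.ed p) (t.ed q)| ≤
      (C p q + C (t.par p) q + C p (t.par q) + C (t.par p) (t.par q)) / 4 := by
  have := hμ.1
  have hg := (isingMd μ hμ.1).bm_lw (t.Sp R t.o) u x
  set c : V → V → ℝ := fun a b => cov μ ((isingMd μ hμ.1).lw (t.Sp R t.o) u x)
    (fun σ => sgn (σ a)) (fun σ => sgn (σ b)) with hc
  have hle : ∀ a b, |c a b| ≤ if a = b then 1 else |c a b| := fun a b => by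
    split_ifs with h
    · subst h
      rw [abs_of_nonneg (cov_self_nonneg hg (bm_sgn a))]
      simp only [cov, ← pow_two, sgn_sq, Et_const hg]
      nlinarith [sq_nonneg (Et μ ((isingMd μ hμ.1).lw (t.Sp R t.o) u x) fun σ => sgn (σ a))]
    · rfl
  refine ⟨fun a b => if a = b then 1 else |c a b|, ⟨fun a => (abs_nonneg _).trans (hr a),
    fun a b => by simp only [eq_comm (a := a), hc, cov_comm (fun σ : V → Bool => sgn (σ a))],
    fun a => if_pos rfl, fun a b ha h2 h3 h4 => ?_⟩, fun p q => ?_⟩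
  · rw [if_neg h4.symm, hc]
    simp only
    rw [ht.cov_step u x h0 h1 hμ ((t.mem_desc_o _ _).2 ⟨ha, h2⟩) h3 h4, abs_mul]
    exact mul_le_mul (hr a) (hle _ _) (abs_nonneg _) ((abs_nonneg _).trans (hr a))
  · have e : (isingMd μ hμ.1).cv (t.Sp R t.o) u x (t.ed p) (t.ed q) =
        (c p q + c (t.par p) q + c p (t.par q) + c (t.par p) (t.par q)) / 4 := by
      have e1 : ∀ a, (isingMd μ hμ.1).s (t.ed a) =
          fun σ => 1 / 2 * sgn (σ a) + 1 / 2 * sgn (σ (t.par a)) := fun a => by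
        funext σ; simp only [isingMd, ed, es_mk]; ring
      have e2 : (isingMd μ hμ.1).μ = μ := rfl
      simp only [Md.cv, e1, e2, hc, cov, add_mul, mul_add, mul_assoc, mul_left_comm _ (1 / 2 : ℝ)]
      rw [Et_add hg (by fun_prop) (by fun_prop), Et_add hg (by fun_prop) (by fun_prop),
        Et_add hg (by fun_prop) (by fun_prop), Et_add hg (by fun_prop) (by fun_prop),
        Et_add hg (by fun_prop) (by fun_prop)]
      simp only [Et_mul']
      ring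
    rw [e, abs_div, abs_of_pos (by norm_num : (0 : ℝ) < 4)]
    refine div_le_div_of_nonneg_right ?_ (by norm_num)
    refine (abs_add_le _ _).trans (add_le_add ((abs_add_three _ _ _).trans ?_) (hle _ _))
    exact add_le_add (add_le_add (hle _ _) (hle _ _)) (hle _ _)

end RT

end Vale.Agent.P161
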