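import Vale.Agent.P161.Gauss

/-! Bounded Lipschitz test functions and their transport. -/

namespace Vale.Agent.P161

open Finset MeasureTheory ProbabilityTheory
open scoped Classical

variable {Ω : Type*} [MeasurableSpace Ω] {E : Type*}

structure BL (S : Finset E) (K : ℝ) (G : (E → ℝ) → ℝ) : Prop where
  meas : Measurable G
  bdd : ∀ x, |G x| ≤ K
  lip : ∀ x y, |G x - G y| ≤ K * nS S (x - y)

variable {S : Finset E} {K K' : ℝ} {G G' : (E → ℝ) → ℝ}

lemma BL.nonneg (h : BL S K G) : 0 ≤ K := (abs_nonneg _).trans (h.bdd 0)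

lemma BL.bm (h : BL S K G) : BM G := BM.of h.meas h.bdd

lemma BL.dep (h : BL S K G) : DependsOn G S := by
  intro x y hxy
  have := h.lip x y
  rw [nS, sum_eq_zero fun f hf => by simp [hxy f hf], mul_zero] at this
  exact sub_eq_zero.1 (abs_nonpos_iff.1 this)

lemma BL.mono (h : BL S K G) (hK : K ≤ K') : BL S K' G :=
  ⟨h.meas, fun x => (h.bdd x).trans hK,
    fun x y => (h.lip x y).trans (mul_le_mul_of_nonneg_right hK (nS_nonneg _ _))⟩

lemma BL.subset {R : Finset E} (h : BL R K G) (hR : R ⊆ S) : BL S K G :=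
  ⟨h.meas, h.bdd, fun x y => (h.lip x y).trans
    (mul_le_mul_of_nonneg_left (nS_mono hR _) h.nonneg)⟩

lemma BL.const {c : ℝ} (hc : |c| ≤ K) : BL S K (fun _ => c) :=
  ⟨measurable_const, fun _ => hc, fun x y => by
    simpa using mul_nonneg ((abs_nonneg _).trans hc) (nS_nonneg _ _)⟩

lemma BL.add (h : BL S K G) (h' : BL S K' G') : BL S (K + K') (fun x => G x + G' x) :=
  ⟨h.meas.add h'.meas, fun x => (abs_add_le _ _).trans (add_le_add (h.bdd x) (h'.bdd x)),
    fun x y => by
      rw [add_mul, show G x + G' x - (G y + G' y) = (G x - G y) + (G' x - G' y) by ring]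
      exact (abs_add_le _ _).trans (add_le_add (h.lip x y) (h'.lip x y))⟩

lemma BL.mul (h : BL S K G) (h' : BL S K' G') : BL S (2 * (K * K')) (fun x => G x * G' x) := by
  have a0 := mul_nonneg h.nonneg h'.nonneg
  refine ⟨h.meas.mul h'.meas, fun x => ?_, fun x y => ?_⟩
  · rw [abs_mul]
    have := mul_le_mul (h.bdd x) (h'.bdd x) (abs_nonneg _) h.nonneg
    linarith
  · rw [show G x * G' x - G y * G' y = (G x - G y) * G' x + G y * (G' x - G' y) by ring]
    refine (abs_add_le _ _).trans ?_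
    rw [abs_mul, abs_mul]
    have a1 := mul_le_mul (h.lip x y) (h'.bdd x) (abs_nonneg _)
      (mul_nonneg h.nonneg (nS_nonneg _ _))
    have a2 := mul_le_mul (h.bdd y) (h'.lip x y) (abs_nonneg _) h.nonneg
    linarith

lemma BL.comp1 (h : BL S K G) {g : ℝ → ℝ} (hg : Measurable g) {L : ℝ} (hL : 0 ≤ L)
    (hb : ∀ a, |a| ≤ K → |g a| ≤ L)
    (hl : ∀ a b, |a| ≤ K → |b| ≤ K → |g a - g b| ≤ L * |a - b|) :
    BL S (L * (1 + K)) (fun x => g (G x)) := by
  have := h.nonneg
  refine ⟨hg.comp h.meas, fun x => (hb _ (h.bdd x)).trans (by nlinarith), fun x y => ?_⟩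
  refine (hl _ _ (h.bdd x) (h.bdd y)).trans ?_
  rw [mul_assoc]
  refine mul_le_mul_of_nonneg_left ((h.lip x y).trans ?_) hL
  exact mul_le_mul_of_nonneg_right (by linarith) (nS_nonneg _ _)

lemma BL.comp (h : BL S K G) {F : (E → ℝ) → E → ℝ} (hF : Measurable F) {L : ℝ} (hL : 1 ≤ L)
    (hl : ∀ x y, nS S (F x - F y) ≤ L * nS S (x - y)) : BL S (K * L) (fun x => G (F x)) := by
  have := h.nonneg
  refine ⟨h.meas.comp hF, fun x => (h.bdd _).trans (by nlinarith), fun x y => ?_⟩
  rw [mul_assoc]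
  exact (h.lip _ _).trans (mul_le_mul_of_nonneg_left (hl x y) this)

/-- Uniformly bounded Lipschitz families. -/
def UB {ι : Type*} (S : Finset E) (P : ι → Prop) (G : ι → (E → ℝ) → ℝ) : Prop :=
  ∃ K, ∀ i, P i → BL S K (G i)

section UB
variable {ι : Type*} {P : ι → Prop} {F F' : ι → (E → ℝ) → ℝ}

lemma UB.subset {R : Finset E} (h : UB R P F) (hR : R ⊆ S) : UB S P F :=
  let ⟨K, hK⟩ := h; ⟨K, fun i hi => (hK i hi).subset hR⟩

lemma UB.const {c : ι → ℝ} (K : ℝ) (hc : ∀ i, P i → |c i| ≤ K) : UB S P (fun i _ => c i) :=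
  ⟨K, fun i hi => BL.const (hc i hi)⟩

lemma UB.const' (c : ℝ) : UB S P (fun _ _ => c) := UB.const |c| fun _ _ => le_rfl

lemma UB.add (h : UB S P F) (h' : UB S P F') : UB S P (fun i x => F i x + F' i x) :=
  let ⟨_, hK⟩ := h; let ⟨_, hK'⟩ := h'; ⟨_, fun i hi => (hK i hi).add (hK' i hi)⟩

lemma UB.mul (h : UB S P F) (h' : UB S P F') : UB S P (fun i x => F i x * F' i x) :=
  let ⟨_, hK⟩ := h; let ⟨_, hK'⟩ := h'; ⟨_, fun i hi => (hK i hi).mul (hK' i hi)⟩

lemma UB.sub (h : UB S P F) (h' : UB S P F') : UB S P (fun i x => F i x - F' i x) := by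
  simpa only [neg_mul, one_mul, ← sub_eq_add_neg] using h.add ((UB.const' (-1)).mul h')

lemma UB.abs (h : UB S P F) : UB S P (fun i x => |F i x|) :=
  let ⟨K, hK⟩ := h
  ⟨K, fun i hi => ⟨(hK i hi).meas.abs, fun x => by rw [abs_abs]; exact (hK i hi).bdd x,
    fun x y => (abs_abs_sub_abs_le_abs_sub _ _).trans ((hK i hi).lip x y)⟩⟩

lemma UB.sum {κ : Type*} (s : Finset κ) {F : κ → ι → (E → ℝ) → ℝ} (h : ∀ a ∈ s, UB S P (F a)) :
    UB S P (fun i x => ∑ a ∈ s, F a i x) := by
  induction s using Finset.induction_on with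
  | empty => simpa using UB.const' 0
  | insert a s ha ih =>
    simpa only [sum_insert ha] using (h a (mem_insert_self _ _)).add
      (ih fun b hb => h b (mem_insert_of_mem hb))

lemma UB.prod {κ : Type*} (s : Finset κ) {F : κ → ι → (E → ℝ) → ℝ} (h : ∀ a ∈ s, UB S P (F a)) :
    UB S P (fun i x => ∏ a ∈ s, F a i x) := by
  induction s using Finset.induction_on with
  | empty => simpa using UB.const' 1
  | insert a s ha ih =>
    simpa only [prod_insert ha] using (h a (mem_insert_self _ _)).mul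
      (ih fun b hb => h b (mem_insert_of_mem hb))

lemma UB.exp (h : UB S P F) : UB S P (fun i x => Real.exp (F i x)) := by
  obtain ⟨K, hK⟩ := h
  refine ⟨_, fun i hi => (hK i hi).comp1 Real.measurable_exp (Real.exp_pos K).le
    (fun a ha => ?_) fun a b ha hb => ?_⟩
  · rw [abs_of_pos (Real.exp_pos _)]; exact Real.exp_le_exp.2 (abs_le.1 ha).2
  · have := (convex_Iic K).norm_image_sub_le_of_norm_hasDerivWithin_le (f := Real.exp)
      (C := Real.exp K) (fun t _ => (Real.hasDerivAt_exp t).hasDerivWithinAt)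
      (fun t ht => by rw [Real.norm_eq_abs, abs_of_pos (Real.exp_pos _)]; exact Real.exp_le_exp.2 ht)
      (abs_le.1 hb).2 (abs_le.1 ha).2
    exact this

end UB

lemma integrable_coord (f : E) : Integrable (fun ξ : E → ℝ => ξ f) (gam E) := by
  have h : Integrable (fun x : ℝ => x) ((gam E).map fun ξ => ξ f) := by
    rw [gam, Measure.infinitePi_map_eval]
    exact IsGaussian.integrable_id
  exact (integrable_map_measure h.aestronglyMeasurable (measurable_pi_apply f).aemeasurable).1 h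

lemma integral_coord (f : E) : ∫ ξ, ξ f ∂gam E = 0 := by
  have := integral_map (μ := gam E) (φ := fun ξ : E → ℝ => ξ f) (f := fun x : ℝ => x)
    (measurable_pi_apply f).aemeasurable measurable_id.aestronglyMeasurable
  rw [← this, gam, Measure.infinitePi_map_eval]
  simp

lemma integrable_nS (S : Finset E) : Integrable (nS S) (gam E) :=
  integrable_finsetSum _ fun f _ => (integrable_coord f).abs

noncomputable def cS (S : Finset E) : ℝ := ∫ ξ, nS S ξ ∂gam E

lemma cS_nonneg (S : Finset E) : 0 ≤ cS S := integral_nonneg (nS_nonneg S)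

lemma nS_smul (S : Finset E) {c : ℝ} (hc : 0 ≤ c) (v : E → ℝ) : nS S (c • v) = c * nS S v := by
  simp only [nS, Pi.smul_apply, smul_eq_mul, abs_mul, abs_of_nonneg hc, mul_sum]

/-- Gaussian smoothing. -/
noncomputable def mol (ε : ℝ) (G : (E → ℝ) → ℝ) (x : E → ℝ) : ℝ := ∫ η, G (x + ε • η) ∂gam E

lemma BL.mol_sub (h : BL S K G) {ε : ℝ} (hε : 0 ≤ ε) (x : E → ℝ) :
    |mol ε G x - G x| ≤ K * ε * cS S := by
  have e1 : G x = ∫ _, G x ∂gam E := by simp
  rw [e1, mol, ← integral_sub ((h.bm.comp (by fun_prop)).int _) (integrable_const _), cS,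
    ← integral_const_mul, ← Real.norm_eq_abs]
  refine norm_integral_le_of_norm_le ((integrable_nS S).const_mul _) (ae_of_all _ fun η => ?_)
  have := h.lip (x + ε • η) x
  rwa [add_sub_cancel_left, nS_smul S hε, ← mul_assoc] at this

lemma BL.bm_mol (h : BL S K G) (ε : ℝ) : BM (mol ε G) := by
  refine BM.of (StronglyMeasurable.integral_prod_right' (ν := gam E)
    (f := fun p : (E → ℝ) × (E → ℝ) => G (p.1 + ε • p.2))
    (h.meas.comp (by fun_prop)).stronglyMeasurable).measurable (c := K) fun x => ?_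
  rw [← Real.norm_eq_abs]
  exact (norm_integral_le_of_norm_le_const (ae_of_all _ fun η => h.bdd _)).trans (by simp)

lemma BL.qd_mol (h : BL S K G) {ε : ℝ} (hε : 0 < ε) :
    QD S (K * (1 + cS S / ε + 1 / ε ^ 2)) (mol ε G)
      (fun x f => if f ∈ S then (∫ η, η f * G (x + ε • η) ∂gam E) / ε else 0) := by
  have hK := h.nonneg
  have hc := cS_nonneg S
  have hb : ∀ x, BM fun η : E → ℝ => G (x + ε • η) := fun x => h.bm.comp (by fun_prop)
  have hi : ∀ x f, Integrable (fun η : E → ℝ => η f * G (x + ε • η)) (gam E) := fun x f =>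
    (integrable_coord f).mul_bdd (hb x).1.aestronglyMeasurable (ae_of_all _ fun _ => h.bdd _)
  have p1 : 0 ≤ K * (cS S / ε) := by positivity
  have p2 : 0 ≤ K * (1 / ε ^ 2) := by positivity
  refine ⟨by positivity, fun x v => ?_, fun x f => ?_, fun x v => ?_⟩
  · rw [mol, mol, ← integral_sub ((hb _).int _) ((hb _).int _), ← Real.norm_eq_abs]
    refine (norm_integral_le_of_norm_le_const (C := K * nS S v) (ae_of_all _ fun η => ?_)).trans ?_
    · have := h.lip (x + v + ε • η) (x + ε • η)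
      rwa [show x + v + ε • η - (x + ε • η) = v by abel] at this
    · simp only [probReal_univ, mul_one]
      exact mul_le_mul_of_nonneg_right (by linarith) (nS_nonneg _ _)
  · split_ifs with hf
    · have : ‖∫ η, η f * G (x + ε • η) ∂gam E‖ ≤ K * cS S := by
        rw [cS, ← integral_const_mul]
        refine norm_integral_le_of_norm_le ((integrable_nS S).const_mul _)
          (ae_of_all _ fun η => ?_)
        rw [Real.norm_eq_abs, abs_mul, mul_comm]
        exact mul_le_mul (h.bdd _) (abs_le_nS η hf) (abs_nonneg _) hK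
      rw [abs_div, abs_of_pos hε]
      calc _ ≤ K * cS S / ε := div_le_div_of_nonneg_right this hε.le
        _ ≤ _ := by rw [mul_div_assoc]; linarith
    · rw [abs_zero]; positivity
  · set w : E → ℝ := ε⁻¹ • v with hw
    have e1 : mol ε G (x + v) = ∫ η, Real.exp (∑ f ∈ S, (w f * η f - w f ^ 2 / 2)) *
        G (x + ε • η) ∂gam E := by
      rw [← integral_shift S w (hb x).1 fun a b hab => h.dep fun f hf => by simp [hab f hf], mol]
      congr 1; ext η; congr 1
      rw [hw, smul_add, smul_smul, mul_inv_cancel₀ hε.ne', one_smul]; abel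
    have e2 : ∑ f ∈ S, (if f ∈ S then (∫ η, η f * G (x + ε • η) ∂gam E) / ε else 0) * v f =
        ∫ η, (∑ f ∈ S, w f * η f) * G (x + ε • η) ∂gam E := by
      simp only [sum_mul, mul_assoc]
      rw [integral_finsetSum _ fun f _ => (hi x f).const_mul _]
      refine sum_congr rfl fun f hf => ?_
      rw [if_pos hf, integral_const_mul, hw, Pi.smul_apply, smul_eq_mul]; ring
    have i1 := integrable_exp_lin S w
    have i2 : Integrable (fun η : E → ℝ => ∑ f ∈ S, w f * η f) (gam E) :=
      integrable_finsetSum _ fun f _ => (integrable_coord f).const_mul _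
    have j1 := i1.mul_bdd (hb x).1.aestronglyMeasurable (ae_of_all _ fun _ => h.bdd _)
    have j2 := i2.mul_bdd (hb x).1.aestronglyMeasurable (ae_of_all _ fun _ => h.bdd _)
    have j3 : Integrable (fun η : E → ℝ => Real.exp (∑ f ∈ S, (w f * η f - w f ^ 2 / 2)) *
        G (x + ε • η) - G (x + ε • η)) (gam E) := j1.sub ((hb x).int _)
    rw [e1, e2, mol, ← integral_sub j1 ((hb x).int _), ← integral_sub j3 j2, ← Real.norm_eq_abs]
    have j4 : Integrable (fun η : E → ℝ => Real.exp (∑ f ∈ S, (w f * η f - w f ^ 2 / 2)) -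
        ∑ f ∈ S, w f * η f) (gam E) := i1.sub i2
    have j5 : Integrable (fun η : E → ℝ => K * (Real.exp (∑ f ∈ S,
      (w f * η f - w f ^ 2 / 2)) - ∑ f ∈ S, w f * η f + (∑ f ∈ S, w f ^ 2 - 1))) (gam E) :=
      (j4.add (integrable_const (∑ f ∈ S, w f ^ 2 - 1))).const_mul K
    refine (norm_integral_le_of_norm_le j5 (ae_of_all _ fun η => ?_)).trans ?_
    · have a1 := Real.add_one_le_exp (∑ f ∈ S, (w f * η f - w f ^ 2 / 2))
      have a2 : 0 ≤ ∑ f ∈ S, w f ^ 2 := sum_nonneg fun _ _ => sq_nonneg _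
      set y := Real.exp (∑ f ∈ S, (w f * η f - w f ^ 2 / 2))
      rw [sum_sub_distrib, ← sum_div] at a1
      rw [show y * G (x + ε • η) - G (x + ε • η) - (∑ f ∈ S, w f * η f) * G (x + ε • η) =
        G (x + ε • η) * (y - 1 - ∑ f ∈ S, w f * η f) by ring, Real.norm_eq_abs, abs_mul]
      refine mul_le_mul (h.bdd _) ?_ (abs_nonneg _) hK
      rw [abs_le]; constructor <;> linarith
    · rw [integral_const_mul, integral_add j4 (integrable_const _), integral_sub i1 i2,
        integral_exp_lin, integral_finsetSum _ fun f _ => (integrable_coord f).const_mul _]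
      simp only [integral_const_mul, integral_coord, mul_zero, sum_const_zero, integral_const,
        probReal_univ, one_smul]
      have a3 : ∑ f ∈ S, w f ^ 2 ≤ nS S w ^ 2 := by
        simpa only [sq_abs, nS] using sum_sq_le_sq_sum_of_nonneg (s := S) (f := fun f => |w f|)
          fun _ _ => abs_nonneg _
      rw [hw, nS_smul S (inv_nonneg.2 hε.le)] at a3
      have a4 := sq_nonneg (nS S v)
      calc _ ≤ K * (1 / ε ^ 2 * nS S v ^ 2) := by
            refine mul_le_mul_of_nonneg_left ?_ hK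
            calc _ = ∑ f ∈ S, w f ^ 2 := by ring
              _ ≤ _ := a3
              _ = _ := by field_simp
        _ ≤ _ := by nlinarith [mul_nonneg p1 a4, mul_nonneg hK a4]

theorem Md.lip_transport (m : Md Ω E) (S : Finset E) (T K : ℝ) {η : ℝ} (hη : 0 < η) :
    ∃ h0 : ℝ, 0 < h0 ∧ ∀ h, 0 ≤ h → h ≤ h0 → ∀ k : ℕ, k * h ≤ T → ∀ G, BL S K G →
      |∫ ξ, G (m.eul S h k 0 ξ) ∂gam E - ∫ x, G x ∂m.rho (k * h)| ≤ η := by
  have hc := cS_nonneg S
  set ε := η / (3 * (|K| * cS S + 1)) with hε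
  have hε0 : 0 < ε := by positivity
  set L := |K * (1 + cS S / ε + 1 / ε ^ 2) * BS S T| + 1 with hL
  have hL0 : 0 < L := by positivity
  refine ⟨η / 3 / L, by positivity, fun h hh hh0 k hk G hG => ?_⟩
  have a1 := m.transport hh hk (hG.qd_mol hε0) (hG.bm_mol ε)
  have a2 : K * ε * cS S ≤ η / 3 := by
    rw [hε, abs_of_nonneg hG.nonneg, mul_div_assoc', div_mul_eq_mul_div,
      div_le_div_iff₀ (by have := hG.nonneg; positivity) (by norm_num)]
    nlinarith
  have a3 : ∀ (ν : Measure (E → ℝ)) [IsProbabilityMeasure ν] (F : (E → ℝ) → E → ℝ),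
      Measurable F → |∫ x, mol ε G (F x) ∂ν - ∫ x, G (F x) ∂ν| ≤ η / 3 := by
    intro ν _ F hF
    rw [← integral_sub (((hG.bm_mol ε).comp hF).int _) ((hG.bm.comp hF).int _),
      ← Real.norm_eq_abs]
    exact (norm_integral_le_of_norm_le_const (ae_of_all _ fun x =>
      (hG.mol_sub hε0.le _).trans a2)).trans (by simp)
  have a4 := abs_le.1 (a3 (gam E) _ (m.measurable_eul S h k 0))
  have a5 := abs_le.1 (a3 (m.rho (k * h)) id measurable_id)
  have a6 : K * (1 + cS S / ε + 1 / ε ^ 2) * BS S T * h ≤ η / 3 := by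
    calc _ ≤ L * (η / 3 / L) :=
          mul_le_mul ((le_abs_self _).trans (by linarith)) hh0 hh hL0.le
      _ = _ := by field_simp
  have a7 := abs_le.1 (a1.trans a6)
  simp only [id] at a5
  rw [abs_le]; constructor <;> linarith

end Vale.Agent.P161
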