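import Vale.Agent.P161.Base

/-! The decay factor across an edge. -/

namespace Vale.Agent.P161

open Finset Function
open scoped Classical

/-- Conditional mean of the child spin given the parent spin. -/
noncomputable def cm (θ u y : ℝ) (Z : Bool → ℝ) (τ : Bool) : ℝ :=
  (∑ b : Bool, sgn b * (ew θ u y b τ * Z b)) / ∑ b : Bool, ew θ u y b τ * Z b

noncomputable def rr (θ u y : ℝ) (Z : Bool → ℝ) : ℝ := (cm θ u y Z true - cm θ u y Z false) / 2

/-- The effective coupling at time `u`. -/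
noncomputable def thp (θ u : ℝ) : ℝ :=
  ((1 + θ) * Real.exp (-u ^ 2 / 2) - (1 - θ)) / ((1 + θ) * Real.exp (-u ^ 2 / 2) + (1 - θ))

lemma rr_eq {θ : ℝ} (h0 : 0 ≤ θ) (h1 : θ < 1) (u y : ℝ) {Z : Bool → ℝ} (hZ : ∀ b, 0 < Z b) :
    ∃ μ : ℝ, |μ| < 1 ∧ |μ - mag Z| ≤ 2 * |om u y| ∧
      rr θ u y Z * (1 - thp θ u ^ 2 * μ ^ 2) = thp θ u * (1 - μ ^ 2) := by
  have hp := hZ true
  have hm := hZ false
  set a := Real.exp (u * y / 2) with ha
  have ha0 : 0 < a := Real.exp_pos _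
  set k := Real.exp (-u ^ 2 / 2) with hk
  have hk0 : 0 < k := Real.exp_pos _
  have e1 : ew θ u y true true = (1 + θ) / 2 * (a * a * k) := by
    simp only [ew, sgn, ha, hk, ← Real.exp_add, if_true]; congr 2 <;> ring
  have e2 : ew θ u y false false = (1 + θ) / 2 * (a⁻¹ * a⁻¹ * k) := by
    simp only [ew, sgn, ha, hk, ← Real.exp_neg, ← Real.exp_add]; congr 2 <;> (simp; try ring)
  have e3 : ew θ u y true false = (1 - θ) / 2 := by simp [ew, sgn]; ring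
  have e4 : ew θ u y false true = (1 - θ) / 2 := by simp [ew, sgn]; ring
  have e5 : om u y = (a * a - 1) / (a * a + 1) := by
    rw [om, Real.tanh_eq_sinh_div_cosh, Real.sinh_eq, Real.cosh_eq, Real.exp_neg, ← ha]
    field_simp
  have h1' : 0 < 1 - θ := by linarith
  refine ⟨(a * a * Z true - Z false) / (a * a * Z true + Z false), ?_, ?_, ?_⟩
  · rw [abs_div, abs_of_pos (by positivity : 0 < a * a * Z true + Z false),
      div_lt_one (by positivity), abs_lt]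
    have : 0 < a * a * Z true := by positivity
    constructor <;> linarith
  · have e6 : (a * a * Z true - Z false) / (a * a * Z true + Z false) - mag Z =
        om u y * (2 * (Z true * Z false * (a * a + 1) /
          ((a * a * Z true + Z false) * (Z true + Z false)))) := by
      rw [e5, mag]; field_simp; ring
    rw [e6, abs_mul, mul_comm 2 |om u y|]
    refine mul_le_mul_of_nonneg_left ?_ (abs_nonneg _)
    rw [abs_of_nonneg (by positivity)]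
    have : Z true * Z false * (a * a + 1) / ((a * a * Z true + Z false) * (Z true + Z false))
        ≤ 1 := by
      rw [div_le_one (by positivity)]
      nlinarith [mul_pos (mul_pos ha0 ha0) (mul_pos hp hp), mul_pos hm hm]
    linarith
  · simp only [rr, cm, Fintype.sum_bool, e1, e2, e3, e4, sgn, thp, ← hk, if_true,
      Bool.false_eq_true, if_false]
    field_simp
    ring

lemma thp_lt_one {θ : ℝ} (h0 : 0 ≤ θ) (h1 : θ < 1) (u : ℝ) : thp θ u ≤ θ := by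
  have hk : Real.exp (-u ^ 2 / 2) ≤ 1 := Real.exp_le_one_iff.2 (by nlinarith [sq_nonneg u])
  have hk0 := Real.exp_pos (-u ^ 2 / 2)
  rw [thp, div_le_iff₀ (by nlinarith)]
  nlinarith [mul_nonneg (mul_nonneg (sub_nonneg.2 h1.le) (by linarith : 0 ≤ 1 + θ))
    (sub_nonneg.2 hk)]

lemma thp_nonneg {θ T u : ℝ} (h0 : 0 ≤ θ) (h1 : θ < 1) (hu : 0 ≤ u) (huT : u ≤ T)
    (hT : (1 + θ) * Real.exp (-T ^ 2 / 2) = 1 - θ) : 0 ≤ thp θ u := by
  have hk : Real.exp (-T ^ 2 / 2) ≤ Real.exp (-u ^ 2 / 2) :=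
    Real.exp_le_exp.2 (by nlinarith)
  have hk0 := Real.exp_pos (-u ^ 2 / 2)
  exact div_nonneg (by nlinarith) (by nlinarith)

lemma thp_le {θ ε u : ℝ} (h0 : 0 ≤ θ) (h1 : θ ^ 2 ≤ 1 / 2) (hε : 0 ≤ ε) (hε1 : ε ≤ 1)
    (hu : ε ≤ u) : thp θ u ≤ θ * (1 - ε ^ 2 / 12) := by
  have hθ : θ ≤ 3 / 4 := by nlinarith
  have hk : Real.exp (-u ^ 2 / 2) ≤ 1 - ε ^ 2 / 3 := by
    have a1 : Real.exp (-u ^ 2 / 2) ≤ Real.exp (-(ε ^ 2 / 2)) :=
      Real.exp_le_exp.2 (by nlinarith)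
    have a2 := Real.add_one_le_exp (ε ^ 2 / 2)
    refine a1.trans ?_
    rw [Real.exp_neg, inv_le_comm₀ (Real.exp_pos _) (by nlinarith)]
    refine le_trans ?_ a2
    rw [inv_le_iff_one_le_mul₀ (by nlinarith)]
    have : ε ^ 2 ≤ 1 := by nlinarith
    nlinarith [sq_nonneg ε]
  have hk0 := Real.exp_pos (-u ^ 2 / 2)
  set k := Real.exp (-u ^ 2 / 2)
  have he : 0 ≤ ε ^ 2 := sq_nonneg ε
  have he1 : ε ^ 2 ≤ 1 := by nlinarith
  rw [thp, div_le_iff₀ (by nlinarith)]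
  have b1 : ε ^ 2 / 6 ≤ (1 - θ ^ 2) * (1 - k) := by nlinarith
  have b2 : θ * ((1 + θ) * k + (1 - θ)) ≤ 2 := by nlinarith
  nlinarith [mul_le_mul_of_nonneg_left b2 he]

lemma rr_bounds {θ u : ℝ} (h0 : 0 ≤ θ) (h1 : θ < 1) (hp : 0 ≤ thp θ u) (y : ℝ) {Z : Bool → ℝ}
    (hZ : ∀ b, 0 < Z b) : |rr θ u y Z| ≤ thp θ u ∧ rr θ u y Z ^ 2 ≤ θ ^ 2 * (1 - max 0
      (min (1 / 100) (2 * (1 - θ ^ 2) * (39 / 40 * mag Z ^ 2 - 160 * om u y ^ 2) -
        (1 - θ ^ 2) ^ 2 * mag Z ^ 4))) := by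
  obtain ⟨μ, hμ, hm, hr⟩ := rr_eq h0 h1 u y hZ
  have hq := thp_lt_one h0 h1 u
  set q := thp θ u
  set r := rr θ u y Z
  have hμ2 : μ ^ 2 < 1 := (sq_lt_one_iff_abs_lt_one μ).2 hμ
  have hμ0 := sq_nonneg μ
  have hq2 : q ^ 2 ≤ θ ^ 2 := pow_le_pow_left₀ hp hq 2
  have hθ2 : θ ^ 2 < 1 := by nlinarith
  have hd : 0 < 1 - q ^ 2 * μ ^ 2 := by nlinarith
  have hr0 : 0 ≤ r := by
    refine nonneg_of_mul_nonneg_left ?_ hd
    rw [hr]; exact mul_nonneg hp (by linarith)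
  have hr1 : r ≤ q * (1 - (1 - θ ^ 2) * μ ^ 2) := by
    refine le_of_mul_le_mul_right ?_ hd
    rw [hr, mul_assoc]
    refine mul_le_mul_of_nonneg_left ?_ hp
    nlinarith [mul_nonneg hμ0 (sub_nonneg.2 hq2), mul_nonneg (mul_nonneg hμ0 hμ0)
      (mul_nonneg (sq_nonneg q) (sub_nonneg.2 hθ2.le))]
  have hc : 0 ≤ (1 - θ ^ 2) * μ ^ 2 := mul_nonneg (by linarith) hμ0
  have hc1 : (1 - θ ^ 2) * μ ^ 2 ≤ 1 := by nlinarith [sq_nonneg θ]
  refine ⟨by rw [abs_of_nonneg hr0]; nlinarith, ?_⟩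
  have hr2 : r ^ 2 ≤ θ ^ 2 * (1 - (1 - θ ^ 2) * μ ^ 2) ^ 2 := by
    rw [← mul_pow]
    exact pow_le_pow_left₀ hr0 (hr1.trans (mul_le_mul_of_nonneg_right hq (by linarith))) 2
  refine hr2.trans (mul_le_mul_of_nonneg_left ?_ (sq_nonneg θ))
  have hd2 : (μ - mag Z) ^ 2 ≤ 4 * om u y ^ 2 := by
    have := pow_le_pow_left₀ (abs_nonneg _) hm 2
    rw [sq_abs, mul_pow, sq_abs] at this
    linarith
  set m := mag Z
  set c := 1 - θ ^ 2
  have hc0 : 0 ≤ c := by linarith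
  set ν := 39 / 40 * m ^ 2 - 160 * om u y ^ 2 with hν
  have hν1 : ν ≤ μ ^ 2 := by nlinarith [sq_nonneg (m / 40 + (μ - m))]
  have hν2 : ν ≤ m ^ 2 := by nlinarith [sq_nonneg m, sq_nonneg (om u y)]
  have : max 0 (min (1 / 100) (2 * c * ν - c ^ 2 * m ^ 4)) ≤ 1 - (1 - c * μ ^ 2) ^ 2 := by
    refine max_le (by nlinarith) ((min_le_right _ _).trans ?_)
    by_cases h : 0 ≤ ν
    · have a1 : ν ^ 2 ≤ m ^ 4 := by nlinarith
      have a2 := mul_le_mul_of_nonneg_left hν1 hc0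
      have a3 := mul_le_mul_of_nonneg_left a1 (sq_nonneg c)
      have a4 := mul_nonneg hc0 h
      nlinarith
    · have a4 := mul_nonneg hc0 (neg_nonneg.2 (not_le.1 h).le)
      nlinarith [mul_nonneg (sq_nonneg c) (sq_nonneg (m ^ 2))]
  linarith

end Vale.Agent.P161
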