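import Vale.Agent.P161.Crit0
import Vale.Agent.P161.Rr

/-! The Markov property of the posterior and the decay factor across an edge. -/

namespace Vale.Agent.P161

open Finset MeasureTheory Function
open scoped Classical

variable {V : Type} {D : ℕ} {G : SimpleGraph V}

namespace RT

variable {t : RT V D} {θ : ℝ} (u : ℝ) (x : Sym2 V → ℝ)

lemma sub_subset {R : ℕ} {a : V} (ha : a ∈ t.desc R t.o) :
    t.sub (R - t.lev a) a ⊆ t.desc R t.o := fun v hv => by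
  obtain ⟨h1, h2⟩ := (t.mem_desc_o _ _).1 ha
  obtain ⟨k, a1, a2, -⟩ := (t.mem_sub _ _ _).1 hv
  exact (t.mem_desc_o _ _).2 ⟨t.ne_o_of_mem_sub h1 hv, by omega⟩

lemma Fits.markov (ht : t.Fits G) (h0 : 0 ≤ θ) (h1 : θ < 1) {μ : Measure (V → Bool)}
    (hμ : IsFreeIsing G θ μ) {R : ℕ} {a : V} (ha : a ∈ t.desc R t.o) {ψ : (V → Bool) → ℝ}
    (hψ : Ind ψ (t.sub (R - t.lev a) a)) (dψ : DependsOn ψ (t.sub R t.o)) :
    Et μ ((isingMd μ hμ.1).lw (t.Sp R t.o) u x) (fun σ => sgn (σ a) * ψ σ) =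
    Et μ ((isingMd μ hμ.1).lw (t.Sp R t.o) u x) (fun σ =>
      cm θ u (x (t.ed a)) (t.Zp θ u x (R - t.lev a) a) (σ (t.par a)) * ψ σ) := by
  obtain ⟨ha1, ha2⟩ := (t.mem_desc_o _ _).1 ha
  set n := R - t.lev a with hn
  have hs := sub_subset ha
  have hB : t.desc R t.o ⊆ t.sub R t.o := subset_insert _ _
  have hp := t.par_notMem_sub ha1 n
  have hW : Ind (t.W θ u x (t.desc R t.o \ t.sub n a)) (t.sub n a) := t.ind_W θ u x fun c hc => by
    obtain ⟨c1, c2⟩ := mem_sdiff.1 hc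
    refine ⟨c2, fun h => c2 ?_⟩
    obtain ⟨k, a1, a2, a3⟩ := (t.mem_sub _ _ _).1 h
    obtain ⟨b1, b2⟩ := (t.mem_desc_o _ _).1 c1
    have := t.lev_par c b1
    exact (t.mem_sub _ _ _).2 ⟨k + 1, by omega, by omega, a3⟩
  have key := fun ψ hψ g => t.avg_branch θ u x ha1 (hB ha)
    (t.avg_desc θ u x n a (((subset_insert _ _).trans hs).trans hB)) (ψ := ψ) hψ g
  have h2 := key _ (hψ.mul hW) sgn
  have h3 := key _ ((hψ.mul hW).mul (Ind.coord hp
    (cm θ u (x (t.ed a)) (t.Zp θ u x n a)))) (fun _ => 1)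
  unfold Et
  rw [ht.integral_lw u x hμ R t.o (φ := fun σ => sgn (σ a) * ψ σ)
    (fun σ σ' h => by simp only [dψ h, h a (hB ha)]), ht.integral_lw u x hμ R t.o
    (φ := fun σ => cm θ u (x (t.ed a)) (t.Zp θ u x n a) (σ (t.par a)) * ψ σ)
    (fun σ σ' h => by simp only [dψ h, h _ (t.par_mem_sub ha).2])]
  congr 1
  have e : ∀ σ, t.W θ u x (t.desc R t.o) σ =
      t.W θ u x (t.desc R t.o \ t.sub n a) σ * t.W θ u x (t.sub n a) σ :=
    fun σ => (prod_sdiff hs).symm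
  simp only [e]
  refine Eq.trans ?_ (h2.trans (Eq.trans ?_ (h3.symm.trans ?_))) <;> congr 1 <;> funext σ
  · ring
  · have := (t.zb_pos u x h0 h1 n a (σ (t.par a))).ne'
    rw [zb] at this
    simp only [cm, one_mul]
    field_simp
  · ring

lemma Fits.cov_step (ht : t.Fits G) (h0 : 0 ≤ θ) (h1 : θ < 1) {μ : Measure (V → Bool)}
    (hμ : IsFreeIsing G θ μ) {R : ℕ} {a b : V} (ha : a ∈ t.desc R t.o) (hb : t.lev b ≤ t.lev a)
    (hab : b ≠ a) :
    cov μ ((isingMd μ hμ.1).lw (t.Sp R t.o) u x) (fun σ => sgn (σ a)) (fun σ => sgn (σ b)) =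
      rr θ u (x (t.ed a)) (t.Zp θ u x (R - t.lev a) a) *
      cov μ ((isingMd μ hμ.1).lw (t.Sp R t.o) u x) (fun σ => sgn (σ (t.par a)))
        (fun σ => sgn (σ b)) := by
  have := hμ.1
  have hb' : b ∉ t.sub (R - t.lev a) a := fun h => by
    obtain ⟨k, -, a2, a3⟩ := (t.mem_sub _ _ _).1 h
    obtain rfl : k = 0 := by omega
    exact hab a3
  have hb2 : b ∈ t.sub R t.o := (t.mem_ball R b).2 (hb.trans ((t.mem_desc_o _ _).1 ha).2)
  have m1 := ht.markov u x h0 h1 hμ ha (Ind.coord hb' sgn) fun σ σ' h => by simp only [h b hb2]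
  have m2 := ht.markov u x h0 h1 hμ ha (ψ := fun _ => 1) (fun _ _ _ _ => rfl) fun _ _ _ => rfl
  set Z := t.Zp θ u x (R - t.lev a) a
  set y := x (t.ed a)
  have e : ∀ τ, cm θ u y Z τ = (cm θ u y Z true + cm θ u y Z false) / 2 + rr θ u y Z * sgn τ := by
    intro τ; cases τ <;> simp [rr, sgn] <;> ring
  have hg := (isingMd μ hμ.1).bm_lw (t.Sp R t.o) u x
  simp only [mul_one] at m2
  rw [cov, cov, m1, m2]
  simp only [fun σ : V → Bool => e (σ (t.par a)), add_mul, mul_assoc]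
  rw [Et_add hg (by fun_prop) (by fun_prop), Et_add hg (by fun_prop) (by fun_prop), Et_mul',
    Et_mul', Et_mul', Et_const hg]
  ring

end RT

end Vale.Agent.P161
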