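import Vale.Agent.P161.Gauss
import Vale.Agent.P161.Base
import Vale.Agent.P161.Exist

/-! The Ising model observed through noisy edge sums. -/

namespace Vale.Agent.P161

open Finset MeasureTheory
open scoped Classical

variable {V : Type} {D : ℕ} {G : SimpleGraph V}

lemma measurable_sgn (v : V) : Measurable fun σ : V → Bool => sgn (σ v) :=
  (measurable_of_countable sgn).comp (measurable_pi_apply v)

@[fun_prop] lemma bm_sgn (v : V) : BM fun σ : V → Bool => sgn (σ v) :=
  BM.of (measurable_sgn v) fun _ => (abs_sgn _).le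

/-- The observable of an unordered pair: the mean of the two spins. -/
noncomputable def es (e : Sym2 V) (σ : V → Bool) : ℝ :=
  Sym2.lift ⟨fun a b => (sgn (σ a) + sgn (σ b)) / 2, fun a b => by simp only [add_comm]⟩ e

@[simp] lemma es_mk (a b : V) (σ : V → Bool) : es s(a, b) σ = (sgn (σ a) + sgn (σ b)) / 2 := rfl

/-- The observation model. -/
noncomputable def isingMd (μ : Measure (V → Bool)) (hμ : IsProbabilityMeasure μ) :
    Md (V → Bool) (Sym2 V) where
  μ := μ
  prob := hμ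
  s := es
  meas e := by
    induction e using Sym2.ind with
    | h a b => exact ((measurable_sgn a).add (measurable_sgn b)).div_const 2
  bd e σ := by
    induction e using Sym2.ind with
    | h a b =>
      rw [es_mk, abs_div, abs_two, div_le_one two_pos]
      exact (abs_add_le _ _).trans (by rw [abs_sgn, abs_sgn]; norm_num)

/-- The edges inside the ball of radius `R` around `v`. -/
noncomputable def Fe (G : SimpleGraph V) (v : V) (R : ℕ) : Finset (Sym2 V) :=
  if h : {e ∈ G.edgeSet | ∀ a ∈ e, G.dist v a ≤ R}.Finite then h.toFinset else ∅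

/-- The indicator of the pairs containing `v`. -/
noncomputable def av (v : V) (e : Sym2 V) : ℝ := if v ∈ e then 1 else 0

lemma abs_av_le (v : V) (e : Sym2 V) : |av v e| ≤ 1 := by
  unfold av; split_ifs <;> simp

/-- The edge from `c` to its parent. -/
def RT.ed (t : RT V D) (c : V) : Sym2 V := s(c, t.par c)

lemma RT.ed_inj (t : RT V D) {a b : V} (ha : a ≠ t.o) (hb : b ≠ t.o) (h : t.ed a = t.ed b) :
    a = b := by
  rcases Sym2.eq_iff.1 h with h | ⟨h1, h2⟩
  · exact h.1
  · have a1 := t.lev_par a ha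
    have a2 := t.lev_par b hb
    rw [h2] at a1
    rw [← h1] at a2
    omega

lemma RT.Fits.Fe_eq {t : RT V D} (ht : t.Fits G) (R : ℕ) :
    Fe G t.o R = (t.desc R t.o).image t.ed := by
  have h : {e ∈ G.edgeSet | ∀ a ∈ e, G.dist t.o a ≤ R} =
      (((t.desc R t.o).image t.ed : Finset _) : Set (Sym2 V)) := by
    ext e
    induction e using Sym2.ind with
    | h a b =>
      simp only [Set.mem_ofPred_eq, SimpleGraph.mem_edgeSet, Sym2.mem_iff, forall_eq_or_imp,
        forall_eq, coe_image, Set.mem_image, mem_coe, t.mem_desc_o, ← ht.lev_eq, ht.adj]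
      constructor
      · rintro ⟨⟨h1, rfl⟩ | ⟨h1, rfl⟩, h2, h3⟩
        exacts [⟨a, ⟨h1, h2⟩, rfl⟩, ⟨b, ⟨h1, h3⟩, Sym2.eq_swap⟩]
      · rintro ⟨c, ⟨h1, h2⟩, h3⟩
        have := t.lev_par c h1
        rcases Sym2.eq_iff.1 h3 with ⟨rfl, rfl⟩ | ⟨rfl, rfl⟩
        exacts [⟨Or.inl ⟨h1, rfl⟩, h2, by omega⟩, ⟨Or.inr ⟨h1, rfl⟩, by omega, h2⟩]
  rw [Fe, dif_pos (h ▸ Finset.finite_toSet _)]
  exact coe_injective (by rw [Set.Finite.coe_toFinset, h])

lemma RT.Fits.sum_Fe {t : RT V D} (ht : t.Fits G) (R : ℕ) (g : Sym2 V → ℝ) :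
    ∑ e ∈ Fe G t.o R, g e = ∑ c ∈ t.desc R t.o, g (t.ed c) := by
  rw [ht.Fe_eq, sum_image fun a ha b hb =>
    t.ed_inj ((t.mem_desc_o _ _).1 ha).1 ((t.mem_desc_o _ _).1 hb).1]

lemma RT.Fits.Fe_mono {t : RT V D} (ht : t.Fits G) : Monotone (Fe G t.o) := fun R R' h => by
  rw [ht.Fe_eq, ht.Fe_eq]
  exact image_subset_image fun c hc =>
    (t.mem_desc_o _ _).2 ⟨((t.mem_desc_o _ _).1 hc).1, ((t.mem_desc_o _ _).1 hc).2.trans h⟩

end Vale.Agent.P161
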