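import Vale.Agent.P161.GaussB

/-! Symmetric pairs of likelihoods and the moments of their products. -/

namespace Vale.Agent.P161

open Finset MeasureTheory ProbabilityTheory Function
open scoped Classical

variable {E : Type*}

lemma BM.int_mul {Ω : Type*} [MeasurableSpace Ω] {μ : Measure Ω} {f φ : Ω → ℝ} (h : BM φ)
    (hf : Integrable f μ) : Integrable (fun x => f x * φ x) μ := by
  obtain ⟨hm, c, hc⟩ := h
  exact hf.mul_bdd hm.aestronglyMeasurable (ae_of_all _ hc)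

@[fun_prop] lemma BM.pow {Ω : Type*} [MeasurableSpace Ω] {φ : Ω → ℝ} (h : BM φ) (k : ℕ) :
    BM fun ω => φ ω ^ k := by
  obtain ⟨hm, c, hc⟩ := h
  exact ⟨hm.pow_const k, c ^ k, fun ω => by
    rw [abs_pow]; exact pow_le_pow_left₀ (abs_nonneg _) (hc ω) k⟩

lemma abs_mag_lt {Z : Bool → ℝ} (h : ∀ τ, 0 < Z τ) : |mag Z| < 1 := by
  have h1 := h true
  have h2 := h false
  rw [mag, abs_div, abs_of_pos (add_pos h1 h2), div_lt_one (add_pos h1 h2), abs_lt]
  constructor <;> linarith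

lemma mul_mag {Z : Bool → ℝ} (h : ∀ τ, 0 < Z τ) :
    (Z true + Z false) / 2 * mag Z = (Z true - Z false) / 2 := by
  have := add_pos (h true) (h false)
  rw [mag]; field_simp

lemma mag_mul {Za Zb : Bool → ℝ} (ha : ∀ τ, 0 < Za τ) (hb : ∀ τ, 0 < Zb τ) (k : ℕ) :
    (Za true * Zb true + Za false * Zb false) / 2 * mag (fun τ => Za τ * Zb τ) ^ k =
      (Za true + Za false) / 2 * ((Zb true + Zb false) / 2) *
        ((1 + mag Za * mag Zb) * ((mag Za + mag Zb) / (1 + mag Za * mag Zb)) ^ k) := by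
  have h1 := add_pos (ha true) (ha false)
  have h2 := add_pos (hb true) (hb false)
  have h3 := add_pos (mul_pos (ha true) (hb true)) (mul_pos (ha false) (hb false))
  have e1 : 1 + mag Za * mag Zb = 2 * (Za true * Zb true + Za false * Zb false) /
      ((Za true + Za false) * (Zb true + Zb false)) := by
    simp only [mag]; field_simp; ring
  have e2 : (mag Za + mag Zb) / (1 + mag Za * mag Zb) = mag (fun τ => Za τ * Zb τ) := by
    rw [e1]; simp only [mag]; field_simp; ring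
  rw [e2, e1]
  field_simp

/-- A symmetric pair of likelihoods depending on the coordinates in `A`. -/
structure GP (A : Finset E) (Z : (E → ℝ) → Bool → ℝ) : Prop where
  pos : ∀ x τ, 0 < Z x τ
  meas : ∀ τ, Measurable fun x => Z x τ
  dep : ∀ τ, DependsOn (fun x => Z x τ) A
  neg : ∀ x τ, Z (-x) τ = Z x (!τ)
  int : ∀ τ, Integrable (fun x => Z x τ) (gam E)
  one : ∀ τ, ∫ x, Z x τ ∂gam E = 1

/-- Moments of the magnetisation under the planted law. -/
noncomputable def pm (Z : (E → ℝ) → Bool → ℝ) (k : ℕ) : ℝ :=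
  ∫ x, (Z x true + Z x false) / 2 * mag (Z x) ^ k ∂gam E

lemma integral_neg_gam {f : (E → ℝ) → ℝ} (hf : Measurable f) :
    ∫ x, f (-x) ∂gam E = ∫ x, f x ∂gam E := by
  rw [← integral_flip Set.univ hf]
  simp only [Set.mem_univ, if_true]
  rfl

lemma exists_flip (A : Finset E) : ∃ φ : (E → ℝ) → E → ℝ, (∀ x, ∀ e ∈ A, φ x e = -x e) ∧
    (∀ x, ∀ e ∉ A, φ x e = x e) ∧
    ∀ f : (E → ℝ) → ℝ, Measurable f → ∫ x, f (φ x) ∂gam E = ∫ x, f x ∂gam E :=
  ⟨_, fun _ _ he => if_pos he, fun _ _ he => if_neg he, fun _ hf => integral_flip (A : Set E) hf⟩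

namespace GP

variable {A B : Finset E} {Z Za Zb : (E → ℝ) → Bool → ℝ}

lemma bm_mag (h : GP A Z) : BM fun x => mag (Z x) :=
  BM.of (((h.meas true).sub (h.meas false)).div ((h.meas true).add (h.meas false)))
    fun x => (abs_mag_lt (h.pos x)).le

lemma dep_eq (h : GP A Z) {x y : E → ℝ} (hxy : ∀ e ∈ A, x e = y e) : Z x = Z y :=
  funext fun τ => h.dep τ hxy

lemma mag_neg (h : GP A Z) (x : E → ℝ) : mag (Z (-x)) = -mag (Z x) := by
  simp only [mag, h.neg, Bool.not_true, Bool.not_false]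
  rw [add_comm, ← neg_div, neg_sub]

lemma meas_bar (h : GP A Z) : Measurable fun x => (Z x true + Z x false) / 2 :=
  ((h.meas true).add (h.meas false)).div_const 2

lemma int_bar (h : GP A Z) : Integrable (fun x => (Z x true + Z x false) / 2) (gam E) :=
  ((h.int true).add (h.int false)).div_const 2

lemma bar_pos (h : GP A Z) (x : E → ℝ) : 0 < (Z x true + Z x false) / 2 :=
  half_pos (add_pos (h.pos x true) (h.pos x false))

lemma pm_zero (h : GP A Z) : pm Z 0 = 1 := by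
  simp only [pm, pow_zero, mul_one]
  rw [integral_div, integral_add (h.int true) (h.int false), h.one, h.one]
  norm_num

lemma pm_nonneg (h : GP A Z) {k : ℕ} (hk : Even k) : 0 ≤ pm Z k :=
  integral_nonneg fun x => mul_nonneg (h.bar_pos x).le (hk.pow_nonneg _)

/-- Even moments do not depend on the spin. -/
lemma integral_even (h : GP A Z) {k : ℕ} (hk : Even k) (τ : Bool) :
    ∫ x, Z x τ * mag (Z x) ^ k ∂gam E = pm Z k := by
  have hb := h.bm_mag.pow k
  have e : ∫ x, Z x true * mag (Z x) ^ k ∂gam E = ∫ x, Z x false * mag (Z x) ^ k ∂gam E := by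
    rw [← integral_neg_gam ((h.meas true).fun_mul hb.1)]
    simp only [h.neg, h.mag_neg, hk.neg_pow, Bool.not_true]
  have e2 : pm Z k = (∫ x, Z x true * mag (Z x) ^ k ∂gam E +
      ∫ x, Z x false * mag (Z x) ^ k ∂gam E) / 2 := by
    rw [← integral_add (hb.int_mul (h.int true)) (hb.int_mul (h.int false)), ← integral_div, pm]
    congr 1; funext x; ring
  cases τ <;> linarith

lemma integral_mag (h : GP A Z) (τ : Bool) :
    ∫ x, Z x τ * mag (Z x) ∂gam E = sgn τ * pm Z 2 := by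
  have hb := h.bm_mag
  have e : ∫ x, Z x true * mag (Z x) ∂gam E = -∫ x, Z x false * mag (Z x) ∂gam E := by
    rw [← integral_neg_gam ((h.meas true).fun_mul hb.1), ← integral_neg]
    simp only [h.neg, h.mag_neg, Bool.not_true, mul_neg]
  have e2 : pm Z 2 = (∫ x, Z x true * mag (Z x) ∂gam E -
      ∫ x, Z x false * mag (Z x) ∂gam E) / 2 := by
    rw [← integral_sub (hb.int_mul (h.int true)) (hb.int_mul (h.int false)), ← integral_div, pm]
    congr 1; funext x
    rw [sq, ← mul_assoc, mul_mag (h.pos x)]; ring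
  cases τ <;> simp only [sgn] <;> norm_num <;> linarith

lemma mul (ha : GP A Za) (hb : GP B Zb) (h : Disjoint A B) :
    GP (A ∪ B) fun x τ => Za x τ * Zb x τ where
  pos x τ := mul_pos (ha.pos x τ) (hb.pos x τ)
  meas τ := (ha.meas τ).mul (hb.meas τ)
  dep τ x y hxy := by
    simp only [ha.dep_eq fun e he => hxy e (mem_coe.2 (mem_union_left _ he)),
      hb.dep_eq fun e he => hxy e (mem_coe.2 (mem_union_right _ he))]
  neg x τ := by simp only [ha.neg, hb.neg]
  int τ := (gam_indep h (ha.meas τ) (hb.meas τ) (ha.dep τ) (hb.dep τ)).integrable_mul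
    (ha.int τ) (hb.int τ)
  one τ := by rw [gam_mul h (ha.meas τ) (hb.meas τ) (ha.dep τ) (hb.dep τ), ha.one, hb.one, mul_one]

lemma cmp (ha : GP A Za) (hb : GP B Zb) (h : Disjoint A B) (s c : ℝ) (k : ℕ) (O : ℝ × ℝ → ℝ)
    (hO : Continuous O) (odd : ∀ a b, O (-a, b) = -O (a, b))
    (hp : ∀ a b, |a| < 1 → |b| < 1 → s * ((1 + a * b) * ((a + b) / (1 + a * b)) ^ k) ≤
      s * (a ^ k + b ^ k) + c * (a ^ 2 * b ^ 2) + O (a, b)) :
    s * pm (fun x τ => Za x τ * Zb x τ) k ≤ s * (pm Za k + pm Zb k) + c * (pm Za 2 * pm Zb 2) := by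
  set W : (E → ℝ) → ℝ := fun x => (Za x true + Za x false) / 2 * ((Zb x true + Zb x false) / 2)
    with hW
  have da : ∀ i : ℕ, DependsOn (fun x => (Za x true + Za x false) / 2 * mag (Za x) ^ i) A :=
    fun i x y hxy => by simp only [ha.dep_eq hxy]
  have db : ∀ i : ℕ, DependsOn (fun x => (Zb x true + Zb x false) / 2 * mag (Zb x) ^ i) B :=
    fun i x y hxy => by simp only [hb.dep_eq hxy]
  have iW : Integrable W (gam E) :=
    (gam_indep h ha.meas_bar hb.meas_bar (by simpa using da 0) (by simpa using db 0)).integrable_mul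
      ha.int_bar hb.int_bar
  have e1 : ∀ i j : ℕ, ∫ x, W x * (mag (Za x) ^ i * mag (Zb x) ^ j) ∂gam E = pm Za i * pm Zb j := by
    intro i j
    rw [pm, pm, ← gam_mul h (ha.meas_bar.fun_mul (ha.bm_mag.pow i).1)
      (hb.meas_bar.fun_mul (hb.bm_mag.pow j).1) (da i) (db j)]
    congr 1; funext x; simp only [hW]; ring
  have i1 : ∀ i j : ℕ, Integrable (fun x => W x * (mag (Za x) ^ i * mag (Zb x) ^ j)) (gam E) :=
    fun i j => ((ha.bm_mag.pow i).mul (hb.bm_mag.pow j)).int_mul iW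
  have mO : Measurable fun x => O (mag (Za x), mag (Zb x)) :=
    hO.measurable.comp (ha.bm_mag.1.prodMk hb.bm_mag.1)
  have bO : BM fun x => O (mag (Za x), mag (Zb x)) := by
    obtain ⟨C, hC⟩ := (isCompact_Icc (a := ((-1, -1) : ℝ × ℝ)) (b := (1, 1))).exists_bound_of_continuousOn
      hO.continuousOn
    refine BM.of mO (c := C) fun x => hC _ ?_
    have a1 := abs_lt.1 (abs_mag_lt (ha.pos x))
    have a2 := abs_lt.1 (abs_mag_lt (hb.pos x))
    exact ⟨⟨a1.1.le, a2.1.le⟩, a1.2.le, a2.2.le⟩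
  have e2 : ∫ x, W x * O (mag (Za x), mag (Zb x)) ∂gam E = 0 := by
    obtain ⟨φ, p1, p2, p3⟩ := exists_flip A
    have := p3 (fun x => W x * O (mag (Za x), mag (Zb x)))
      ((ha.meas_bar.mul hb.meas_bar).mul mO)
    have f1 : ∀ x : E → ℝ, Za (φ x) = Za (-x) := fun x => ha.dep_eq fun e he => p1 x e he
    have f2 : ∀ x : E → ℝ, Zb (φ x) = Zb x :=
      fun x => hb.dep_eq fun e he => p2 x e (disjoint_right.1 h he)
    simp only [hW, f1, f2, ha.mag_neg, ha.neg, odd, Bool.not_true, Bool.not_false, mul_neg,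
      integral_neg, add_comm (Za _ false)] at this ⊢
    linarith
  have e3 : s * (pm Za k + pm Zb k) + c * (pm Za 2 * pm Zb 2) =
      ∫ x, (s * (W x * (mag (Za x) ^ k * mag (Zb x) ^ 0) +
        W x * (mag (Za x) ^ 0 * mag (Zb x) ^ k)) + c * (W x * (mag (Za x) ^ 2 * mag (Zb x) ^ 2)) +
        W x * O (mag (Za x), mag (Zb x))) ∂gam E := by
    rw [integral_add ((((i1 k 0).fun_add (i1 0 k)).const_mul s).fun_add ((i1 2 2).const_mul c))
      (bO.int_mul iW), integral_add (((i1 k 0).fun_add (i1 0 k)).const_mul s)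
        ((i1 2 2).const_mul c),
      integral_const_mul, integral_const_mul, integral_add (i1 k 0) (i1 0 k), e1, e1, e1, e2,
      ha.pm_zero, hb.pm_zero]
    ring
  rw [e3, pm, ← integral_const_mul]
  refine integral_mono ((((ha.mul hb h).bm_mag.pow k).int_mul (ha.mul hb h).int_bar).const_mul s)
    (((((i1 k 0).add (i1 0 k)).const_mul s).add ((i1 2 2).const_mul c)).add (bO.int_mul iW))
    fun x => ?_
  have := mul_le_mul_of_nonneg_left (hp _ _ (abs_mag_lt (ha.pos x)) (abs_mag_lt (hb.pos x)))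
    (mul_pos (ha.bar_pos x) (hb.bar_pos x)).le
  simp only [mag_mul (ha.pos x) (hb.pos x), hW]
  linarith

lemma one_add_pos {a b : ℝ} (ha : |a| < 1) (hb : |b| < 1) : 0 < 1 + a * b ∧ a * b ≤ 1 := by
  have h : |a * b| < 1 := by
    rw [abs_mul]; exact mul_lt_one_of_nonneg_of_lt_one_left (abs_nonneg _) ha hb.le
  constructor <;> linarith [abs_lt.1 h]

lemma mul_two_ge (ha : GP A Za) (hb : GP B Zb) (h : Disjoint A B) :
    1 - 2 * pm (fun x τ => Za x τ * Zb x τ) 2 ≤ (1 - 2 * pm Za 2) * (1 - 2 * pm Zb 2) := by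
  have := ha.cmp hb h (-1) 2 2 (fun p => p.1 ^ 3 * p.2 + p.1 * p.2 ^ 3 - 2 * (p.1 * p.2))
    (by fun_prop) (fun a b => by ring) fun a b h1 h2 => by
      obtain ⟨h3, -⟩ := one_add_pos h1 h2
      have e : (1 + a * b) * ((a + b) / (1 + a * b)) ^ 2 =
          (a + b) ^ 2 * (1 - a * b) + (a + b) ^ 2 * (a * b) ^ 2 / (1 + a * b) := by
        field_simp; ring
      have : 0 ≤ (a + b) ^ 2 * (a * b) ^ 2 / (1 + a * b) := by positivity
      rw [e]; nlinarith
  linarith

lemma mul_two_le (ha : GP A Za) (hb : GP B Zb) (h : Disjoint A B) :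
    (1 - pm Za 2) * (1 - pm Zb 2) ≤ 1 - pm (fun x τ => Za x τ * Zb x τ) 2 := by
  have := ha.cmp hb h 1 (-1) 2 (fun p => p.1 * p.2 + p.1 * p.2 * ((1 - p.1 ^ 2) * (1 - p.2 ^ 2)))
    (by fun_prop) (fun a b => by ring) fun a b h1 h2 => by
      obtain ⟨h3, -⟩ := one_add_pos h1 h2
      have e : (1 + a * b) * ((a + b) / (1 + a * b)) ^ 2 = 1 + a * b -
          (1 - a ^ 2) * (1 - b ^ 2) * (1 - a * b) -
          (1 - a ^ 2) * (1 - b ^ 2) * (a * b) ^ 2 / (1 + a * b) := by
        field_simp; ring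
      have a1 : 0 ≤ 1 - a ^ 2 := by have := (sq_le_one_iff_abs_le_one a).2 h1.le; linarith
      have a2 : 0 ≤ 1 - b ^ 2 := by have := (sq_le_one_iff_abs_le_one b).2 h2.le; linarith
      have : 0 ≤ (1 - a ^ 2) * (1 - b ^ 2) * (a * b) ^ 2 / (1 + a * b) := by positivity
      rw [e]; nlinarith
  linarith

lemma mul_four_le (ha : GP A Za) (hb : GP B Zb) (h : Disjoint A B) :
    pm (fun x τ => Za x τ * Zb x τ) 4 ≤ pm Za 4 + pm Zb 4 + 20 * (pm Za 2 * pm Zb 2) := by
  have := ha.cmp hb h 1 20 4 (fun p => p.1 * p.2 + 2 * (p.1 * p.2) * ((1 - p.1 ^ 2) * (1 - p.2 ^ 2))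
      - 3 * (p.1 * p.2) * ((1 - p.1 ^ 2) * (1 - p.2 ^ 2)) ^ 2)
    (by fun_prop) (fun a b => by ring) fun a b h1 h2 => by
      obtain ⟨h3, h4⟩ := one_add_pos h1 h2
      have a1 : 0 ≤ 1 - a ^ 2 := by have := (sq_le_one_iff_abs_le_one a).2 h1.le; linarith
      have a2 : 0 ≤ 1 - b ^ 2 := by have := (sq_le_one_iff_abs_le_one b).2 h2.le; linarith
      obtain ⟨y, hy⟩ : ∃ y, y = a * b := ⟨_, rfl⟩
      obtain ⟨P, hP⟩ : ∃ P, P = (1 - a ^ 2) * (1 - b ^ 2) := ⟨_, rfl⟩
      have p0 : 0 ≤ P := by rw [hP]; positivity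
      have p1 : (a + b) ^ 2 = (1 + y) ^ 2 - P := by rw [hP, hy]; ring
      have p2 : P ≤ (1 + y) ^ 2 := by nlinarith [sq_nonneg (a + b)]
      have p3 : P ≤ 1 := by rw [hP]; nlinarith [sq_nonneg a, sq_nonneg b, mul_nonneg a1 a2]
      simp only [← hy, ← hP] at h3 h4 ⊢
      have e : (1 + y) * ((a + b) / (1 + y)) ^ 4 = 1 + y - 2 * P * (1 - y) -
          2 * P * y ^ 2 / (1 + y) + P ^ 2 * (1 - 3 * y) +
          y ^ 2 * (6 + 8 * y + 3 * y ^ 2) * (P ^ 2 / (1 + y) ^ 3) := by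
        rw [div_pow, show (a + b) ^ 4 = ((a + b) ^ 2) ^ 2 by ring, p1]
        field_simp; ring
      have b1 : 0 ≤ 2 * P * y ^ 2 / (1 + y) := by positivity
      have b2 : P ^ 2 / (1 + y) ^ 3 ≤ 1 := by
        rw [div_le_one (by positivity)]
        rcases le_total 0 y with h5 | h5
        · exact (pow_le_one₀ p0 p3).trans (one_le_pow₀ (by linarith))
        · calc P ^ 2 ≤ ((1 + y) ^ 2) ^ 2 := pow_le_pow_left₀ p0 p2 2
            _ = (1 + y) ^ 3 * (1 + y) := by ring
            _ ≤ _ := mul_le_of_le_one_right (by positivity) (by linarith)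
      have b3 : 0 ≤ 6 + 8 * y + 3 * y ^ 2 := by nlinarith [sq_nonneg (y + 4 / 3)]
      have b4 : 6 + 8 * y + 3 * y ^ 2 ≤ 17 := by nlinarith
      have b5 : y ^ 2 * (6 + 8 * y + 3 * y ^ 2) * (P ^ 2 / (1 + y) ^ 3) ≤ y ^ 2 * 17 :=
        (mul_le_of_le_one_right (by positivity) b2).trans
          (mul_le_mul_of_nonneg_left b4 (sq_nonneg _))
      have b6 : (1 - P) ^ 2 ≤ (a ^ 2 + b ^ 2) ^ 2 := by
        refine pow_le_pow_left₀ (by linarith) ?_ 2
        rw [hP]; nlinarith [mul_nonneg (sq_nonneg a) (sq_nonneg b)]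
      have b7 : y ^ 2 = a ^ 2 * b ^ 2 := by rw [hy]; ring
      rw [e]
      nlinarith [sq_nonneg y]
  linarith

lemma unit : GP (∅ : Finset E) fun _ _ => (1 : ℝ) :=
  ⟨fun _ _ => one_pos, fun _ => measurable_const, fun _ _ _ _ => rfl, fun _ _ => rfl,
    fun _ => integrable_const _, fun _ => by simp⟩

lemma pm_unit {k : ℕ} (hk : k ≠ 0) : pm (fun (_ : E → ℝ) _ => (1 : ℝ)) k = 0 := by
  simp [pm, mag, hk]

/-- Moments of a product of pairs. -/
lemma prod {ι : Type*} (s : Finset ι) {A : ι → Finset E} {Z : ι → (E → ℝ) → Bool → ℝ}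
    (hd : ∀ i ∈ s, ∀ j ∈ s, i ≠ j → Disjoint (A i) (A j)) (h : ∀ i ∈ s, GP (A i) (Z i))
    {lo hi M : ℝ} (h0 : 0 ≤ hi) (h1 : hi ≤ 1 / 2) (h2 : lo ≤ 1 / 2)
    (hlo : ∀ i ∈ s, lo ≤ pm (Z i) 2) (hhi : ∀ i ∈ s, pm (Z i) 2 ≤ hi)
    (hM : ∀ i ∈ s, pm (Z i) 4 ≤ M) :
    GP (s.biUnion A) (fun x τ => ∏ i ∈ s, Z i x τ) ∧
      1 - 2 * pm (fun x τ => ∏ i ∈ s, Z i x τ) 2 ≤ (1 - 2 * lo) ^ s.card ∧
      (1 - hi) ^ s.card ≤ 1 - pm (fun x τ => ∏ i ∈ s, Z i x τ) 2 ∧
      pm (fun x τ => ∏ i ∈ s, Z i x τ) 4 ≤ s.card * M + 20 * (s.card * hi) ^ 2 := by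
  induction s using Finset.induction_on with
  | empty => simp [unit, pm_unit]
  | insert i s hi' ih =>
    have m := mem_insert_self i s
    have m' := @mem_insert_of_mem _ _ s
    obtain ⟨g, i1, i2, i3⟩ := ih (fun a ha b hb => hd a (m' ha) b (m' hb))
      (fun a ha => h a (m' ha)) (fun a ha => hlo a (m' ha)) (fun a ha => hhi a (m' ha))
      fun a ha => hM a (m' ha)
    have hdis : Disjoint (A i) (s.biUnion A) := (disjoint_biUnion_right _ _ _).2 fun a ha =>
      hd i m a (m' ha) fun h' => hi' (h' ▸ ha)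
    simp only [prod_insert hi', biUnion_insert, card_insert_of_notMem hi', pow_succ]
    have a1 := hlo i m
    have a2 := hhi i m
    have a3 := (h i m).pm_nonneg even_two
    have a4 := g.pm_nonneg even_two
    have a5 : 1 - s.card * hi ≤ (1 - hi) ^ s.card := by
      have := one_add_mul_le_pow (a := -hi) (by linarith) s.card
      simpa [sub_eq_add_neg] using this
    refine ⟨(h i m).mul g hdis, ((h i m).mul_two_ge g hdis).trans ?_,
      le_trans ?_ ((h i m).mul_two_le g hdis), ((h i m).mul_four_le g hdis).trans ?_⟩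
    · rw [mul_comm]
      exact mul_le_mul i1 (by linarith) (by linarith) (pow_nonneg (by linarith) _)
    · rw [mul_comm]
      exact mul_le_mul (by linarith) i2 (pow_nonneg (by linarith) _) (by linarith)
    · have a6 := mul_le_mul a2 (show pm (fun x τ => ∏ i ∈ s, Z i x τ) 2 ≤ s.card * hi by linarith)
        a4 h0
      have a7 := hM i m
      have a8 : 0 ≤ s.card * hi * hi := by positivity
      push_cast
      nlinarith [sq_nonneg hi]

end GP

end Vale.Agent.P161
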