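import Vale.Agent.P161.MomA

/-! Moments of the message after crossing one observed edge. -/

namespace Vale.Agent.P161

open Finset MeasureTheory ProbabilityTheory Function
open scoped Classical

variable {E : Type*}

/-- `f` is integrable with Gaussian integral `v`. -/
def HI (f : (E → ℝ) → ℝ) (v : ℝ) : Prop := Integrable f (gam E) ∧ ∫ x, f x ∂gam E = v

namespace HI

variable {f g : (E → ℝ) → ℝ} {v w : ℝ}

lemma add (h : HI f v) (h' : HI g w) : HI (fun x => f x + g x) (v + w) :=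
  ⟨h.1.add h'.1, by rw [integral_add h.1 h'.1, h.2, h'.2]⟩

lemma sub (h : HI f v) (h' : HI g w) : HI (fun x => f x - g x) (v - w) :=
  ⟨h.1.sub h'.1, by rw [integral_sub h.1 h'.1, h.2, h'.2]⟩

lemma cmul (c : ℝ) (h : HI f v) : HI (fun x => c * f x) (c * v) :=
  ⟨h.1.const_mul c, by rw [integral_const_mul, h.2]⟩

lemma const (c : ℝ) : HI (fun _ : E → ℝ => c) c := ⟨integrable_const c, by simp⟩

lemma mono (h : HI f v) (h' : HI g w) (hle : ∀ x, f x ≤ g x) : v ≤ w := by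
  rw [← h.2, ← h'.2]; exact integral_mono h.1 h'.1 hle

lemma congr (h : HI f v) (hf : ∀ x, g x = f x) (hv : w = v) : HI g w := by
  rw [funext hf, hv]; exact h

lemma mul {A B : Finset E} (h : HI f v) (h' : HI g w) (hd : Disjoint A B) (hf : Measurable f)
    (hg : Measurable g) (df : DependsOn f A) (dg : DependsOn g B) :
    HI (fun x => f x * g x) (v * w) :=
  ⟨(gam_indep hd hf hg df dg).integrable_mul h.1 h'.1, by rw [gam_mul hd hf hg df dg, h.2, h'.2]⟩

end HI

lemma hi_exp (a : ℝ) (e : E) : HI (fun x : E → ℝ => Real.exp (a * x e - a ^ 2 / 2)) 1 :=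
  ⟨by simpa using integrable_exp_lin {e} fun _ => a, by simpa using integral_exp_lin {e} fun _ => a⟩

lemma hi_exp_mul (a : ℝ) (e : E) {g : ℝ → ℝ} (hg : Measurable g)
    (hi : Integrable g (gaussianReal a 1)) :
    HI (fun x : E → ℝ => Real.exp (a * x e - a ^ 2 / 2) * g (x e)) (∫ y, g y ∂gaussianReal a 1) := by
  have mp := measurePreserving_eval_infinitePi (fun _ : E => gaussianReal 0 1) e
  rw [gauss_shift] at hi ⊢
  rw [integrable_withDensity_iff_integrable_smul' (by fun_prop)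
    (ae_of_all _ fun _ => ENNReal.ofReal_lt_top)] at hi
  rw [integral_withDensity_eq_integral_toReal_smul (by fun_prop)
    (ae_of_all _ fun _ => ENNReal.ofReal_lt_top)]
  simp only [ENNReal.toReal_ofReal (Real.exp_pos _).le, smul_eq_mul] at hi ⊢
  refine ⟨mp.integrable_comp_of_integrable hi, ?_⟩
  rw [← mp.map_eq, integral_map mp.measurable.aemeasurable
    (by fun_prop : Measurable _).aestronglyMeasurable]
  rfl

lemma gauss_one (a : ℝ) : Integrable (fun y : ℝ => y) (gaussianReal a 1) :=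
  memLp_one_iff_integrable.1 (memLp_id_gaussianReal' 1 (by simp))

lemma gauss_two (a : ℝ) : Integrable (fun y : ℝ => y ^ 2) (gaussianReal a 1) ∧
    ∫ y, y ^ 2 ∂gaussianReal a 1 = 1 + a ^ 2 := by
  have h : MemLp id 2 (gaussianReal a 1) := memLp_id_gaussianReal' 2 (by simp)
  have := variance_eq_sub h
  rw [variance_id_gaussianReal] at this
  simp only [id, Pi.pow_apply, integral_id_gaussianReal, NNReal.coe_one] at this
  exact ⟨h.integrable_sq, by linarith⟩

/-- The likelihoods seen across the edge `e`. -/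
noncomputable def br (θ u : ℝ) (e : E) (Z : (E → ℝ) → Bool → ℝ) (x : E → ℝ) (τ : Bool) : ℝ :=
  ∑ σ : Bool, ew θ u (x e) σ τ * Z x σ

lemma edge_pt {θ α β P Q : ℝ} (h0 : 0 ≤ θ) (h1 : θ ≤ 3 / 4) (hα : 0 < α) (hβ : 0 < β)
    (hP : 0 < P) (hQ : 0 < Q) {b₁ b₂ : ℝ} (e1 : b₁ = (1 + θ) / 2 * α * P + (1 - θ) / 2 * Q)
    (e2 : b₂ = (1 - θ) / 2 * P + (1 + θ) / 2 * β * Q) :
    (b₁ + b₂) / 2 * ((b₁ - b₂) / (b₁ + b₂) - θ * ((P - Q) / (P + Q))) ^ 2 ≤
      64 * ((P + Q) / 2 * ((α - 1) ^ 2 + (β - 1) ^ 2)) := by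
  have hS : (P + Q) / 8 ≤ b₁ + b₂ := by
    have a1 : 0 ≤ (1 + θ) / 2 * α * P := by positivity
    have a2 : 0 ≤ (1 + θ) / 2 * β * Q := by positivity
    have a3 : 0 ≤ (3 / 4 - θ) * (P + Q) := mul_nonneg (by linarith) (by linarith)
    rw [e1, e2]; linarith
  have hS0 : 0 < b₁ + b₂ := by linarith
  have hPQ : 0 < P + Q := by linarith
  obtain ⟨m, hm⟩ : ∃ m, m = (P - Q) / (P + Q) := ⟨_, rfl⟩
  have hm1 : m * (P + Q) = P - Q := by rw [hm]; field_simp
  have hm2 : |m| ≤ 1 := by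
    rw [hm, abs_div, abs_of_pos hPQ, div_le_one hPQ, abs_le]; constructor <;> linarith
  have hm3 : |θ * m| ≤ 1 := by
    rw [abs_mul, abs_of_nonneg h0]; exact mul_le_one₀ (by linarith) (abs_nonneg m) hm2
  obtain ⟨k1, k2⟩ := abs_le.1 hm3
  obtain ⟨N, hN⟩ : ∃ N, N = b₁ - b₂ - θ * m * (b₁ + b₂) := ⟨_, rfl⟩
  have hN1 : N = (α - 1) * ((1 + θ) / 2 * (1 - θ * m) * P) -
      (β - 1) * ((1 + θ) / 2 * (1 + θ * m) * Q) := by
    rw [hN, e1, e2]
    linear_combination (-θ) * hm1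
  have c1 : ((1 + θ) / 2 * (1 - θ * m) * P) ^ 2 ≤ (2 * P) ^ 2 := by
    refine pow_le_pow_left₀ (mul_nonneg (mul_nonneg (by linarith) (by linarith)) hP.le) ?_ 2
    exact mul_le_mul_of_nonneg_right ((mul_le_of_le_one_left (by linarith) (by linarith)).trans
      (by linarith)) hP.le
  have c2 : ((1 + θ) / 2 * (1 + θ * m) * Q) ^ 2 ≤ (2 * Q) ^ 2 := by
    refine pow_le_pow_left₀ (mul_nonneg (mul_nonneg (by linarith) (by linarith)) hQ.le) ?_ 2
    exact mul_le_mul_of_nonneg_right ((mul_le_of_le_one_left (by linarith) (by linarith)).trans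
      (by linarith)) hQ.le
  have hN2 : N ^ 2 ≤ ((α - 1) ^ 2 + (β - 1) ^ 2) * (4 * (P + Q) ^ 2) := by
    have cs : ∀ a b c d : ℝ, (a * c - b * d) ^ 2 ≤ (a ^ 2 + b ^ 2) * (c ^ 2 + d ^ 2) :=
      fun a b c d => by nlinarith [sq_nonneg (a * d + b * c)]
    rw [hN1]
    refine (cs _ _ _ _).trans (mul_le_mul_of_nonneg_left ?_ (by positivity))
    have := mul_pos hP hQ
    linarith
  have e3 : (b₁ + b₂) / 2 * ((b₁ - b₂) / (b₁ + b₂) - θ * m) ^ 2 = N ^ 2 / (2 * (b₁ + b₂)) := by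
    rw [hN]; field_simp
  rw [← hm, e3, div_le_iff₀ (by positivity)]
  have := mul_le_mul_of_nonneg_left hS
    (by positivity : 0 ≤ 64 * (P + Q) * ((α - 1) ^ 2 + (β - 1) ^ 2))
  have a4 := mul_nonneg (by positivity : 0 ≤ (α - 1) ^ 2 + (β - 1) ^ 2) (sq_nonneg (P + Q))
  generalize (α - 1) ^ 2 + (β - 1) ^ 2 = δ at *
  generalize b₁ + b₂ = S at *
  generalize P + Q = T at *
  linarith

namespace GP

variable {A : Finset E} {Z : (E → ℝ) → Bool → ℝ} {e : E} {θ u : ℝ}

lemma hi_pm (h : GP A Z) (k : ℕ) :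
    HI (fun x => (Z x true + Z x false) / 2 * mag (Z x) ^ k) (pm Z k) :=
  ⟨(h.bm_mag.pow k).int_mul h.int_bar, rfl⟩

lemma hi_br (h : GP A Z) (he : e ∉ A) (θ u : ℝ) (τ : Bool) {g : ℝ → ℝ} (hg : Measurable g)
    (hi : ∀ a, Integrable g (gaussianReal a 1)) {H : (E → ℝ) → ℝ} (hH : BM H)
    (dH : DependsOn H A) :
    HI (fun x => br θ u e Z x τ * (g (x e) * H x)) (∑ σ : Bool, (1 + θ * (sgn σ * sgn τ)) / 2 *
      (∫ y, g y ∂gaussianReal (u * ((sgn σ + sgn τ) / 2)) 1) * ∫ x, Z x σ * H x ∂gam E) := by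
  have k : ∀ σ, HI (fun x => ew θ u (x e) σ τ * g (x e) * (Z x σ * H x))
      ((1 + θ * (sgn σ * sgn τ)) / 2 * (∫ y, g y ∂gaussianReal (u * ((sgn σ + sgn τ) / 2)) 1) *
        ∫ x, Z x σ * H x ∂gam E) := fun σ =>
    HI.mul (A := {e}) (((hi_exp_mul _ e hg (hi _)).cmul _).congr
      (fun x => by rw [ew_eq, mul_assoc]) rfl) ⟨hH.int_mul (h.int σ), rfl⟩
      (disjoint_singleton_left.2 he)
      ((measurable_ew θ u e σ τ).mul (hg.comp (measurable_pi_apply e))) ((h.meas σ).mul hH.1)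
      (fun x y hxy => by simp only [hxy e (by simp)])
      fun x y hxy => by simp only [h.dep_eq hxy, dH hxy]
  refine ((k true).add (k false)).congr (fun x => ?_) (Fintype.sum_bool _)
  simp only [br, Fintype.sum_bool]; ring

/-- Branch mean of a function of the subtree. -/
lemma hi_br0 (h : GP A Z) (he : e ∉ A) (θ u : ℝ) (τ : Bool) {H : (E → ℝ) → ℝ} (hH : BM H)
    (dH : DependsOn H A) : HI (fun x => br θ u e Z x τ * H x)
      (∑ σ : Bool, (1 + θ * (sgn σ * sgn τ)) / 2 * ∫ x, Z x σ * H x ∂gam E) :=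
  (h.hi_br he θ u τ (g := fun _ => 1) measurable_const (fun _ => integrable_const _) hH dH).congr
    (fun x => by rw [one_mul]) (by simp)

lemma br [DecidableEq E] (h : GP A Z) (he : e ∉ A) (h0 : 0 ≤ θ) (h1 : θ < 1) (u : ℝ) :
    GP (insert e A) (br θ u e Z) := by
  have k : ∀ τ, HI (fun x => P161.br θ u e Z x τ) 1 := fun τ =>
    (h.hi_br0 he θ u τ (BM.const 1) fun _ _ _ => rfl).congr (fun x => by rw [mul_one]) (by
      simp only [mul_one, h.one, Fintype.sum_bool]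
      cases τ <;> simp [sgn] <;> ring)
  refine ⟨fun x τ => sum_pos (fun σ _ => mul_pos (ew_pos h0 h1 _ _ _ _) (h.pos x σ)) univ_nonempty,
    fun τ => Finset.measurable_sum _ fun σ _ => (measurable_ew θ u e σ τ).mul (h.meas σ),
    fun τ x y hxy => ?_, fun x τ => ?_, fun τ => (k τ).1, fun τ => (k τ).2⟩
  · simp only [P161.br, hxy e (by simp), h.dep_eq fun a ha => hxy a (mem_insert_of_mem ha)]
  · simp only [P161.br, Fintype.sum_bool, Pi.neg_apply, ew_neg, h.neg, Bool.not_true,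
      Bool.not_false]
    ring

lemma dep_mag (h : GP A Z) (k : ℕ) : DependsOn (fun x => mag (Z x) ^ k) A :=
  fun _ _ hxy => by simp only [h.dep_eq hxy]

lemma br_even (h : GP A Z) (he : e ∉ A) (θ u : ℝ) (τ : Bool) {k : ℕ} (hk : Even k) :
    HI (fun x => P161.br θ u e Z x τ * mag (Z x) ^ k) (pm Z k) :=
  (h.hi_br0 he θ u τ (h.bm_mag.pow k) (h.dep_mag k)).congr (fun _ => rfl) (by
    simp only [h.integral_even hk, Fintype.sum_bool]
    cases τ <;> simp [sgn] <;> ring)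

lemma br_mag (h : GP A Z) (he : e ∉ A) (θ u : ℝ) (τ : Bool) :
    HI (fun x => P161.br θ u e Z x τ * mag (Z x)) (sgn τ * θ * pm Z 2) :=
  (h.hi_br0 he θ u τ h.bm_mag (by simpa using h.dep_mag 1)).congr (fun _ => rfl) (by
    simp only [h.integral_mag, Fintype.sum_bool]
    cases τ <;> simp [sgn] <;> ring)

lemma br_y (h : GP A Z) (he : e ∉ A) (θ u : ℝ) (τ : Bool) :
    HI (fun x => P161.br θ u e Z x τ * x e) (sgn τ * (u * (1 + θ) / 2)) :=
  (h.hi_br he θ u τ measurable_id gauss_one (BM.const 1) fun _ _ _ => rfl).congr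
    (fun _ => by simp) (by
    simp only [id, integral_id_gaussianReal, mul_one, h.one, Fintype.sum_bool]
    cases τ <;> simp [sgn] <;> ring)

lemma br_ym (h : GP A Z) (he : e ∉ A) (θ u : ℝ) (τ : Bool) :
    HI (fun x => P161.br θ u e Z x τ * (x e * mag (Z x))) (u * (1 + θ) / 2 * pm Z 2) :=
  (h.hi_br he θ u τ measurable_id gauss_one h.bm_mag (by simpa using h.dep_mag 1)).congr
    (fun _ => rfl) (by
    simp only [id, integral_id_gaussianReal, h.integral_mag, Fintype.sum_bool]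
    cases τ <;> simp only [sgn, if_true, Bool.false_eq_true, if_false] <;> ring)

lemma br_yy (h : GP A Z) (he : e ∉ A) (θ u : ℝ) (τ : Bool) :
    HI (fun x => P161.br θ u e Z x τ * x e ^ 2) (1 + u ^ 2 * (1 + θ) / 2) :=
  (h.hi_br he θ u τ (g := fun y => y ^ 2) (by fun_prop) (fun a => (gauss_two a).1) (BM.const 1)
    fun _ _ _ => rfl).congr (fun _ => by simp) (by
    simp only [(gauss_two _).2, mul_one, h.one, Fintype.sum_bool]
    cases τ <;> simp [sgn] <;> ring)

lemma br_two_ge (h : GP A Z) (he : e ∉ A) (h0 : 0 ≤ θ) (h1 : θ < 1) (u : ℝ) :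
    θ ^ 2 * pm Z 2 + (u * (1 + θ) / 2) ^ 2 * (1 - 2 * θ * pm Z 2 - u ^ 2 * (1 + θ) / 2) ≤
      pm (P161.br θ u e Z) 2 := by
  have g := h.br he h0 h1 u
  obtain ⟨l, hl⟩ : ∃ l, l = u * (1 + θ) / 2 := ⟨_, rfl⟩
  have := ((((((h.br_mag he θ u true).sub (h.br_mag he θ u false)).cmul θ).add
    (((h.br_y he θ u true).sub (h.br_y he θ u false)).cmul l)).sub
    (((h.br_even he θ u true even_two).add (h.br_even he θ u false even_two)).cmul (θ ^ 2 / 2))).sub
    (((h.br_ym he θ u true).add (h.br_ym he θ u false)).cmul (θ * l))).sub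
    (((h.br_yy he θ u true).add (h.br_yy he θ u false)).cmul (l ^ 2 / 2))
  have := this.mono (g.hi_pm 2) fun x => by
    have a1 := mul_mag (g.pos x)
    have a2 := mul_nonneg (g.bar_pos x).le
      (sq_nonneg (mag (P161.br θ u e Z x) - (θ * mag (Z x) + l * x e)))
    have a3 : (P161.br θ u e Z x true - P161.br θ u e Z x false) * (θ * mag (Z x) + l * x e) =
        2 * ((P161.br θ u e Z x true + P161.br θ u e Z x false) / 2 * mag (P161.br θ u e Z x)) *
          (θ * mag (Z x) + l * x e) := by rw [a1]; ring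
    nlinarith
  simp only [sgn, ← hl] at this ⊢
  norm_num at this
  nlinarith

lemma br_le (h : GP A Z) (he : e ∉ A) (h0 : 0 ≤ θ) (h1 : θ ≤ 3 / 4) (hu : u ^ 2 ≤ 1) :
    pm (P161.br θ u e Z) 2 ≤ θ ^ 2 * pm Z 2 + 256 * u ^ 2 ∧
      pm (P161.br θ u e Z) 4 ≤ 3 / 2 * θ ^ 4 * pm Z 4 + 750000 * u ^ 2 := by
  have g := h.br he h0 (by linarith) u
  have k1 : ∀ a : ℝ, HI (fun x : E → ℝ => (Real.exp (a * x e - a ^ 2 / 2) - 1) ^ 2)
      (Real.exp (a ^ 2) - 1) := fun a =>
    ((((hi_exp (2 * a) e).cmul (Real.exp (a ^ 2))).sub ((hi_exp a e).cmul 2)).add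
      (HI.const 1)).congr (fun x => by
        rw [← Real.exp_add, show a ^ 2 + (2 * a * x e - (2 * a) ^ 2 / 2) =
          (a * x e - a ^ 2 / 2) + (a * x e - a ^ 2 / 2) by ring, Real.exp_add]
        ring) (by ring)
  have k2 := HI.mul (B := {e}) (h.hi_pm 0) ((k1 u).add (k1 (-u))) (disjoint_singleton_right.2 he)
    (h.meas_bar.mul (h.bm_mag.pow 0).1) (by fun_prop) (fun x y hxy => by simp only [h.dep_eq hxy])
    fun x y hxy => by simp only [hxy e (by simp)]
  have k3 : Real.exp (u ^ 2) - 1 ≤ 2 * u ^ 2 := by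
    have := Real.abs_exp_sub_one_le (x := u ^ 2) (by rwa [abs_of_nonneg (sq_nonneg u)])
    rw [abs_of_nonneg (sq_nonneg u)] at this
    exact (le_abs_self _).trans this
  have pt : ∀ x, (P161.br θ u e Z x true + P161.br θ u e Z x false) / 2 *
      (mag (P161.br θ u e Z x) - θ * mag (Z x)) ^ 2 ≤ 64 * ((Z x true + Z x false) / 2 *
        mag (Z x) ^ 0 * ((Real.exp (u * x e - u ^ 2 / 2) - 1) ^ 2 +
          (Real.exp (-u * x e - (-u) ^ 2 / 2) - 1) ^ 2)) := fun x => by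
    rw [pow_zero, mul_one]
    refine edge_pt h0 h1 (Real.exp_pos _) (Real.exp_pos _) (h.pos x true) (h.pos x false) ?_ ?_
    · simp [P161.br, ew_eq, sgn, sub_eq_add_neg]
    · simp [P161.br, ew_eq, sgn, sub_eq_add_neg, show (-1 + -1 : ℝ) / 2 = -1 by norm_num]
  rw [h.pm_zero, neg_sq] at k2
  constructor
  · have := (g.hi_pm 2).mono (((k2.cmul 64).add
      (((h.br_mag he θ u true).sub (h.br_mag he θ u false)).cmul θ)).sub
      (((h.br_even he θ u true even_two).add (h.br_even he θ u false even_two)).cmul (θ ^ 2 / 2)))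
      fun x => by
        have a1 := mul_mag (g.pos x)
        have a2 := pt x
        have a3 : θ * (P161.br θ u e Z x true - P161.br θ u e Z x false) * mag (Z x) =
            2 * θ * ((P161.br θ u e Z x true + P161.br θ u e Z x false) / 2 *
              mag (P161.br θ u e Z x)) * mag (Z x) := by rw [a1]; ring
        rw [neg_sq] at a2
        nlinarith
    simp only [sgn] at this
    norm_num at this
    nlinarith
  · have := (g.hi_pm 4).mono ((k2.cmul (64 * 2916)).add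
      (((h.br_even he θ u true (k := 4) (by decide)).add
        (h.br_even he θ u false (k := 4) (by decide))).cmul (3 / 4 * θ ^ 4)))
      fun x => by
        have a2 := pt x
        rw [neg_sq] at a2
        obtain ⟨a, ha⟩ : ∃ a, a = mag (P161.br θ u e Z x) := ⟨_, rfl⟩
        obtain ⟨m, hm⟩ : ∃ m, m = θ * mag (Z x) := ⟨_, rfl⟩
        have b1 : |a| ≤ 1 := ha ▸ (abs_mag_lt (g.pos x)).le
        have b2 : |m| ≤ 1 := by
          rw [hm, abs_mul, abs_of_nonneg h0]
          nlinarith [abs_mag_lt (h.pos x), abs_nonneg (mag (Z x))]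
        have b3 : (a - m) ^ 2 ≤ 4 := by nlinarith [abs_le.1 b1, abs_le.1 b2]
        have b4 : ∀ s t : ℝ, (s + t) ^ 2 ≤ 9 / 8 * s ^ 2 + 9 * t ^ 2 := fun s t => by
          nlinarith [sq_nonneg (s - 8 * t)]
        have b5 : a ^ 4 ≤ 3 / 2 * m ^ 4 + 2916 * (a - m) ^ 2 := by
          have c1 := b4 m (a - m)
          rw [add_sub_cancel] at c1
          have c2 := pow_le_pow_left₀ (sq_nonneg a) c1 2
          have c3 := b4 (9 / 8 * m ^ 2) (9 * (a - m) ^ 2)
          have c4 := mul_le_mul_of_nonneg_left b3 (sq_nonneg (a - m))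
          nlinarith [sq_nonneg (m ^ 2)]
        have b6 := mul_le_mul_of_nonneg_left b5 (g.bar_pos x).le
        rw [← ha, ← hm] at a2
        rw [← ha]
        have b7 : m ^ 4 = θ ^ 4 * mag (Z x) ^ 4 := by rw [hm]; ring
        rw [b7] at b6
        nlinarith
    nlinarith [sq_nonneg u]

end GP

end Vale.Agent.P161
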