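import Vale.Agent.P161.MomB
import Vale.Agent.P161.Crit0

/-! Second and fourth moments of the tree messages at criticality. -/

namespace Vale.Agent.P161

open Finset MeasureTheory ProbabilityTheory Function
open scoped Classical

variable {V : Type} {D : ℕ}

lemma Xs_nonneg {c s : ℝ} (hc : 0 ≤ c) (hs : 0 ≤ s) (n : ℕ) : 0 ≤ Xs c s n := by
  induction n with
  | zero => exact le_rfl
  | succ n ih => rw [Xs]; positivity

lemma Xs_le_succ {c s : ℝ} (hc : 0 ≤ c) (hs : 0 ≤ s) (n : ℕ) : Xs c s n ≤ Xs c s (n + 1) := by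
  induction n with
  | zero => exact Xs_nonneg hc hs 1
  | succ n ih =>
    have h1 := Xs_nonneg hc hs n
    have h2 := Xs_nonneg hc hs (n + 1)
    have : Xs c s n / (1 + c * Xs c s n) ≤ Xs c s (n + 1) / (1 + c * Xs c s (n + 1)) := by
      rw [div_le_div_iff₀ (by positivity) (by positivity)]; nlinarith
    calc Xs c s (n + 1) = s + Xs c s n / (1 + c * Xs c s n) := rfl
      _ ≤ s + Xs c s (n + 1) / (1 + c * Xs c s (n + 1)) := by linarith
      _ = _ := rfl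

lemma Xs_mono {c s : ℝ} (hc : 0 ≤ c) (hs : 0 ≤ s) : Monotone (Xs c s) :=
  monotone_nat_of_le_succ (Xs_le_succ hc hs)

lemma sq0_nonneg (D : ℕ) (u : ℝ) : 0 ≤ sq0 D u := by unfold sq0; positivity

lemma bonf_le {x : ℝ} (h0 : 0 ≤ x) (h1 : x ≤ 1) (n : ℕ) :
    (1 - x) ^ n ≤ 1 - n * x + n * (n - 1) / 2 * x ^ 2 := by
  induction n with
  | zero => simp
  | succ n ih =>
    have h2 := mul_le_mul_of_nonneg_right ih (sub_nonneg.2 h1)
    have h3 : (0 : ℝ) ≤ n * (n - 1) := by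
      rcases n with _ | n
      · simp
      · push_cast; rw [add_sub_cancel_right]; positivity
    have h4 : 0 ≤ n * (n - 1) * x ^ 3 := by positivity
    rw [pow_succ]; push_cast; nlinarith

lemma bonf_ge {x : ℝ} (h0 : 0 ≤ x) (h1 : x ≤ 1) {n : ℕ} (hn : 2 ≤ n) :
    1 - n * x + x ^ 2 ≤ (1 - x) ^ n := by
  induction n, hn using Nat.le_induction with
  | base => push_cast; nlinarith
  | succ n hn ih =>
    have h2 := mul_le_mul_of_nonneg_right ih (sub_nonneg.2 h1)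
    have h3 : (2 : ℝ) ≤ n := by exact_mod_cast hn
    have h4 : 0 ≤ (n - x) * x ^ 2 := mul_nonneg (by linarith) (sq_nonneg x)
    rw [pow_succ _ n]; push_cast; nlinarith

lemma rec_ineq {c X s δ : ℝ} (c0 : 0 ≤ c) (c1 : c ≤ 1) (hX : 0 ≤ X) (hs : 0 ≤ s) (hδ : 0 ≤ δ)
    (hT : X ≤ (19 / 20) ^ 3 * s + X / (1 + c * X)) (small : δ + 3 * X + s ≤ 1 / 25) :
    (19 / 20) ^ 3 * s + X / (1 + c * X) ≤
      19 / 20 * (20 / 19 * X + s * (1 - δ) - c * (20 / 19 * X + s * (1 - δ)) ^ 2) := by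
  have p : 0 < 1 + c * X := by positivity
  obtain ⟨T, hTd⟩ : ∃ T, T = X - X / (1 + c * X) := ⟨_, rfl⟩
  have e1 : c * X ^ 2 = T * (1 + c * X) := by rw [hTd]; field_simp; ring
  have e2 : T ≤ (19 / 20) ^ 3 * s := by linarith
  have e3 : c * X ≤ X := mul_le_of_le_one_left hX c1
  have e4 : 0 ≤ c * X := by positivity
  have e5 : T * (1 / 19 + 20 / 19 * (c * X)) ≤ (19 / 20) ^ 3 * s * (1 / 19 + 20 / 19 * X) :=
    (mul_le_mul_of_nonneg_right e2 (by positivity)).trans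
      (mul_le_mul_of_nonneg_left (by linarith) (by positivity))
  obtain ⟨s', hs'⟩ : ∃ s', s' = s * (1 - δ) := ⟨_, rfl⟩
  have f0 : 0 ≤ s' := by rw [hs']; exact mul_nonneg hs (by linarith)
  have f1 : s' ≤ s := by rw [hs']; exact mul_le_of_le_one_right hs (by linarith)
  have f2 : c * X * s' ≤ X * s := mul_le_mul e3 f1 f0 hX
  have f3 : c * s' ^ 2 ≤ s ^ 2 :=
    (mul_le_of_le_one_left (sq_nonneg _) c1).trans (pow_le_pow_left₀ f0 f1 2)
  have f4 := mul_le_mul_of_nonneg_left small hs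
  have f5 : 0 ≤ s * δ := by positivity
  have f6 : 0 ≤ s * X := by positivity
  have f7 : X / (1 + c * X) = X - T := by linarith
  rw [f7, ← hs']
  have f8 : c * (20 / 19 * X + s') ^ 2 =
      (20 / 19) ^ 2 * (T * (1 + c * X)) + 40 / 19 * (c * X * s') + c * s' ^ 2 := by
    rw [← e1]; ring
  rw [f8]
  nlinarith [sq_nonneg s]

namespace RT

variable (t : RT V D) {θ : ℝ}

lemma gp_Zp (h0 : 0 ≤ θ) (h1 : θ < 1) (u : ℝ) (n : ℕ) (p : V) :
    GP (t.Sp n p) fun x => t.Zp θ u x n p :=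
  ⟨fun x τ => t.Zp_pos u x h0 h1 n p τ, t.measurable_Zp θ u n p, t.dep_Zp θ u n p,
    fun x τ => t.Zp_neg θ u x n p τ, fun τ => (t.integral_Zp θ u n p τ).1,
    fun τ => (t.integral_Zp θ u n p τ).2⟩

lemma Zp_succ_br (θ u : ℝ) (n : ℕ) (p : V) : (fun x => t.Zp θ u x (n + 1) p) =
    fun x τ => ∏ c ∈ t.ch p, br θ u (t.ed c) (fun x => t.Zp θ u x n c) x τ := rfl

end RT

lemma crit_facts (hD : 2 ≤ D) {θ : ℝ} (h0 : 0 ≤ θ) (hθ : θ ^ 2 * D = 1) :
    θ ^ 2 ≤ 1 / 2 ∧ θ ≤ 3 / 4 ∧ ∀ u, sq0 D u = (19 / 20) ^ 3 * (D * (u * (1 + θ) / 2) ^ 2) := by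
  have hD' : (2 : ℝ) ≤ D := by exact_mod_cast hD
  have h1 : θ ^ 2 ≤ 1 / 2 := by nlinarith [sq_nonneg θ]
  refine ⟨h1, by nlinarith, fun u => ?_⟩
  have h2 : √D ^ 2 = (D : ℝ) := Real.sq_sqrt (by linarith)
  have h3 : √D * θ = 1 := by
    have : (√D * θ) ^ 2 = 1 := by rw [mul_pow, h2]; linarith
    exact (pow_eq_one_iff_of_nonneg (by positivity) two_ne_zero).1 this
  have h4 : (√D + 1) ^ 2 = D * (1 + θ) ^ 2 := by
    conv_rhs => rw [← h2, ← mul_pow, mul_add, h3, mul_one]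
  rw [sq0, mul_assoc, h4]; ring

end Vale.Agent.P161
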