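import Vale.Agent.P161.Labels

/-! At the final time the posterior law of the spins is a product measure. -/

namespace Vale.Agent.P161

open Finset MeasureTheory ProbabilityTheory
open scoped Classical

variable {V : Type} {D : ℕ} {G : SimpleGraph V}

/-- The probability of the outcome `b` of a coin with bias `p`. -/
def bern (b : Bool) (p : ℝ) : ℝ := if b then p else 1 - p

lemma bern_mem (b : Bool) {p : ℝ} (h0 : 0 ≤ p) (h1 : p ≤ 1) : bern b p ∈ Set.Icc (0 : ℝ) 1 := by
  cases b <;> simp [bern, h0, h1]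

lemma abs_bern_sub (b : Bool) (p q : ℝ) : |bern b p - bern b q| = |p - q| := by
  cases b <;> simp [bern, abs_sub_comm]

lemma continuous_bern (b : Bool) : Continuous (bern b) := by
  cases b
  · exact continuous_const.sub continuous_id
  · exact continuous_id

lemma sigmoid_lip (a b : ℝ) : |Real.sigmoid a - Real.sigmoid b| ≤ |a - b| := by
  have := convex_univ.norm_image_sub_le_of_norm_hasDerivWithin_le (f := Real.sigmoid) (C := 1)
    (fun t _ => (Real.hasDerivAt_sigmoid t).hasDerivWithinAt) (fun t _ => by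
      have h0 := Real.sigmoid_pos t
      have h1 := Real.sigmoid_lt_one t
      rw [Real.norm_eq_abs, abs_le]
      constructor <;> nlinarith) (Set.mem_univ b) (Set.mem_univ a)
  simpa using this

lemma abs_prod_sub_prod {ι : Type*} (s : Finset ι) {a b : ι → ℝ}
    (ha : ∀ i, a i ∈ Set.Icc (0 : ℝ) 1) (hb : ∀ i, b i ∈ Set.Icc (0 : ℝ) 1) :
    |∏ i ∈ s, a i - ∏ i ∈ s, b i| ≤ ∑ i ∈ s, |a i - b i| := by
  induction s using Finset.induction_on with
  | empty => simp
  | insert i s hi ih =>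
    rw [prod_insert hi, prod_insert hi, sum_insert hi, show a i * ∏ j ∈ s, a j - b i * ∏ j ∈ s, b j
      = (a i - b i) * ∏ j ∈ s, a j + b i * (∏ j ∈ s, a j - ∏ j ∈ s, b j) by ring]
    refine (abs_add_le _ _).trans (add_le_add ?_ ?_)
    · rw [abs_mul, abs_of_nonneg (prod_nonneg fun j _ => (ha j).1)]
      exact mul_le_of_le_one_right (abs_nonneg _) (prod_le_one (fun j _ => (ha j).1) fun j _ => (ha j).2)
    · rw [abs_mul, abs_of_nonneg (hb i).1]
      exact (mul_le_of_le_one_left (abs_nonneg _) (hb i).2).trans ih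

lemma exp_div_eq_bern (b : Bool) (a : ℝ) :
    Real.exp (sgn b * a / 2) / ∑ c : Bool, Real.exp (sgn c * a / 2) = bern b (Real.sigmoid a) := by
  have h1 : Real.exp (-a) = Real.exp (-1 * a / 2) * Real.exp (-1 * a / 2) := by
    rw [← Real.exp_add]; congr 1; ring
  have h2 : Real.exp (1 * a / 2) * Real.exp (-1 * a / 2) = 1 := by
    rw [← Real.exp_add, ← Real.exp_zero]; congr 1; ring
  have h3 := Real.exp_pos (1 * a / 2)
  have h4 := Real.exp_pos (-1 * a / 2)
  cases b <;> simp only [Fintype.sum_bool, sgn, bern, Real.sigmoid_def, h1, if_true,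
    Bool.false_eq_true, if_false] <;> generalize Real.exp (1 * a / 2) = p at * <;>
    generalize Real.exp (-1 * a / 2) = q at * <;> field_simp
  · linear_combination (-q) * h2
  · linear_combination q * h2

/-- extension of a configuration on a finite set -/
noncomputable def extA (S : Finset V) (η : S → Bool) : V → Bool :=
  fun v => if h : v ∈ S then η ⟨v, h⟩ else true

lemma integral_cylA (S : Finset V) (μ : Measure (V → Bool)) [IsFiniteMeasure μ]
    (F : (V → Bool) → ℝ) (hF : ∀ σ σ', (∀ v ∈ S, σ v = σ' v) → F σ = F σ') :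
    ∫ σ, F σ ∂μ = ∑ η : S → Bool, μ.real {σ | ∀ v ∈ S, σ v = extA S η v} * F (extA S η) := by
  have h1 : ∀ σ, F σ = F (extA S (S.restrict σ)) := fun σ =>
    hF _ _ fun v hv => by simp [extA, hv]
  have hm : Measurable (S.restrict : (V → Bool) → S → Bool) := measurable_restrict S
  rw [integral_congr_ae (ae_of_all _ h1), ← integral_map (f := fun η : S → Bool => F (extA S η))
    hm.aemeasurable (measurable_of_countable _).aestronglyMeasurable,
    integral_fintype Integrable.of_finite]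
  refine sum_congr rfl fun η _ => ?_
  rw [map_measureReal_apply hm (measurableSet_singleton _), smul_eq_mul]
  congr 2
  ext s
  simp only [Set.mem_preimage, Set.mem_singleton_iff, funext_iff, Set.mem_ofPred_eq,
    Subtype.forall, restrict, extA]
  exact forall₂_congr fun v hv => by rw [dif_pos hv]

lemma RT.par_mem {t : RT V D} {R : ℕ} {c : V} (hc : c ∈ t.desc R t.o) :
    c ∈ t.ball R ∧ t.par c ∈ t.ball R ∧ c ≠ t.par c := by
  obtain ⟨h1, h2⟩ := (t.mem_desc_o _ _).1 hc
  have := t.lev_par c h1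
  exact ⟨(t.mem_ball _ _).2 h2, (t.mem_ball _ _).2 (by omega), fun h => by rw [← h] at this; omega⟩

lemma edge_weight {θ T : ℝ} (hTθ : (1 + θ) * Real.exp (-T ^ 2 / 2) = 1 - θ) (x : ℝ) (a b : Bool) :
    (1 + θ * (sgn a * sgn b)) / 2 * Real.exp (T * x * ((sgn a + sgn b) / 2) -
      T ^ 2 * ((sgn a + sgn b) / 2) ^ 2 / 2) =
    (1 - θ) / 2 * Real.exp (T * x * ((sgn a + sgn b) / 2)) := by
  rw [sub_eq_add_neg (T * x * _), Real.exp_add, ← hTθ]
  cases a <;> cases b <;> simp only [sgn, if_true, Bool.false_eq_true, if_false]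
  · rw [show -(T ^ 2 * ((-1 + -1) / 2) ^ 2 / 2) = -T ^ 2 / 2 by ring]; ring
  · rw [hTθ, show -(T ^ 2 * ((-1 + 1) / 2) ^ 2 / 2) = 0 by ring, Real.exp_zero]; ring
  · rw [hTθ, show -(T ^ 2 * ((1 + -1) / 2) ^ 2 / 2) = 0 by ring, Real.exp_zero]; ring
  · rw [show -(T ^ 2 * ((1 + 1) / 2) ^ 2 / 2) = -T ^ 2 / 2 by ring]; ring

lemma RT.Fits.sum_field {t : RT V D} (ht : t.Fits G) (R : ℕ) (T : ℝ) (x : Sym2 V → ℝ)
    (σ : V → Bool) : ∑ v ∈ t.ball R, sgn (σ v) * (T * ∑ f ∈ Fe G t.o R, av v f * x f) / 2 =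
      ∑ c ∈ t.desc R t.o, T * x (t.ed c) * ((sgn (σ c) + sgn (σ (t.par c))) / 2) := by
  simp only [ht.sum_Fe, mul_sum, sum_div]
  rw [sum_comm]
  refine sum_congr rfl fun c hc => ?_
  obtain ⟨h1, h2, h3⟩ := RT.par_mem hc
  rw [← sum_subset (s₁ := {c, t.par c}) (fun v hv => by
    rcases mem_insert.1 hv with rfl | hv
    exacts [h1, (mem_singleton.1 hv) ▸ h2]) (fun v _ hv => by
      have : v ∉ t.ed c := by simpa [RT.ed] using hv
      simp [av, this]), sum_pair h3]
  simp only [av, RT.ed, Sym2.mem_iff, true_or, or_true, if_true]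
  ring

lemma RT.Fits.integral_post {t : RT V D} (ht : t.Fits G) {θ T : ℝ} {μ : Measure (V → Bool)}
    (hμ : IsFreeIsing G θ μ) (hTθ : (1 + θ) * Real.exp (-T ^ 2 / 2) = 1 - θ) (R : ℕ)
    (x : Sym2 V → ℝ) (ψ : V → Bool → ℝ) :
    ∫ σ, Real.exp ((isingMd μ hμ.1).lw (Fe G t.o R) T x σ) * ∏ v ∈ t.ball R, ψ v (σ v) ∂μ =
      1 / 2 * ((1 - θ) / 2) ^ (t.desc R t.o).card * ∏ v ∈ t.ball R, ∑ b : Bool,
        Real.exp (sgn b * (T * ∑ f ∈ Fe G t.o R, av v f * x f) / 2) * ψ v b := by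
  have := hμ.1
  have hlw : ∀ σ, (isingMd μ hμ.1).lw (Fe G t.o R) T x σ = ∑ c ∈ t.desc R t.o,
      (T * x (t.ed c) * ((sgn (σ c) + sgn (σ (t.par c))) / 2) -
        T ^ 2 * ((sgn (σ c) + sgn (σ (t.par c))) / 2) ^ 2 / 2) := fun σ => by
    rw [Md.lw, ht.sum_Fe]; rfl
  rw [integral_cylA (t.ball R) μ _ fun σ σ' h => by
    rw [hlw, hlw, prod_congr rfl fun v hv => by rw [h v hv], sum_congr rfl fun c hc => by
      rw [h _ (RT.par_mem hc).1, h _ (RT.par_mem hc).2.1]],
    ← prod_coe_sort (t.ball R), prod_univ_sum, Fintype.piFinset_univ, mul_sum]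
  refine sum_congr rfl fun η _ => ?_
  rw [ht.real_ball hμ, hlw, Real.exp_sum, mul_assoc, mul_assoc, ← mul_assoc (∏ c ∈ _, _),
    ← prod_mul_distrib, prod_congr rfl fun c _ => edge_weight hTθ _ _ _, prod_mul_distrib,
    prod_const, ← Real.exp_sum, ← ht.sum_field, Real.exp_sum, mul_assoc, ← prod_mul_distrib,
    ← prod_coe_sort (t.ball R)]
  congr 2
  refine prod_congr rfl fun v _ => ?_
  simp [extA]

theorem RT.Fits.posterior {t : RT V D} (ht : t.Fits G) {θ T : ℝ} {μ : Measure (V → Bool)}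
    (hμ : IsFreeIsing G θ μ) (h1 : θ < 1) (hTθ : (1 + θ) * Real.exp (-T ^ 2 / 2) = 1 - θ) (R : ℕ)
    (x : Sym2 V → ℝ) {A : Finset V} (hA : A ⊆ t.ball R) (η : V → Bool) :
    Et μ ((isingMd μ hμ.1).lw (Fe G t.o R) T x)
      ({σ : V → Bool | ∀ v ∈ A, σ v = η v}.indicator 1) =
      ∏ v ∈ A, bern (η v) (Real.sigmoid (T * ∑ f ∈ Fe G t.o R, av v f * x f)) := by
  have e1 : ∀ σ : V → Bool, ({σ : V → Bool | ∀ v ∈ A, σ v = η v}.indicator 1 σ : ℝ) =
      ∏ v ∈ t.ball R, (if v ∈ A → σ v = η v then 1 else 0) := fun σ => by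
    rw [prod_boole, Set.indicator_apply]
    exact if_congr ⟨fun h v _ hv => h v hv, fun h v hv => h v (hA hv) hv⟩ rfl rfl
  have e2 := ht.integral_post hμ hTθ R x fun _ _ => 1
  simp only [prod_const_one, mul_one] at e2
  rw [Et, e2]
  simp only [e1]
  rw [ht.integral_post hμ hTθ R x fun v b => if v ∈ A → b = η v then 1 else 0,
    mul_div_mul_left _ _ (by have : 0 < 1 - θ := by linarith
                             positivity), ← prod_div_distrib]
  symm
  refine prod_subset_one_on_sdiff hA (fun v hv => ?_) fun v hv => ?_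
  · simp only [(mem_sdiff.1 hv).2, false_imp_iff, if_true, mul_one]
    exact div_self (sum_pos (fun _ _ => Real.exp_pos _) univ_nonempty).ne'
  · rw [← exp_div_eq_bern]
    simp only [hv, true_imp_iff, mul_ite, mul_one, mul_zero, sum_ite_eq', mem_univ, if_true]

end Vale.Agent.P161
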