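import Vale.Agent.P161.Defs

/-! Rooted structure of the regular tree. -/

namespace Vale.Agent.P161

open Finset
open scoped Classical

/-- A rooted tree in which the root has `D + 1` children and every other vertex has `D`. -/
structure RT (V : Type) (D : ℕ) where
  o : V
  par : V → V
  lev : V → ℕ
  ch : V → Finset V
  lev_o : lev o = 0
  lev_par : ∀ c, c ≠ o → lev c = lev (par c) + 1
  mem_ch : ∀ p c, c ∈ ch p ↔ c ≠ o ∧ par c = p
  card_ch : ∀ p, p ≠ o → (ch p).card = D
  card_ch_o : (ch o).card = D + 1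

/-- The rooted tree `t` describes the graph `G`. -/
structure RT.Fits {V : Type} {D : ℕ} (t : RT V D) (G : SimpleGraph V) : Prop where
  lev_eq : ∀ v, t.lev v = G.dist t.o v
  adj : ∀ a b, G.Adj a b ↔ (a ≠ t.o ∧ t.par a = b) ∨ (b ≠ t.o ∧ t.par b = a)

variable {V : Type} {D : ℕ}

lemma exists_unique_par {G : SimpleGraph V} (hG : G.IsTree) (o v : V) (hv : v ≠ o) :
    ∃! w, G.Adj v w ∧ G.dist o w + 1 = G.dist o v := by
  obtain ⟨p, hp, hp'⟩ := hG.connected.exists_path_of_dist o v
  have hex : ∃ w, G.Adj v w ∧ G.dist o w + 1 = G.dist o v := by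
    obtain ⟨w, q, h, rfl⟩ : ∃ (w : V) (q : G.Walk o w) (h : G.Adj w v), p = q.concat h := by
      cases hr : p.reverse with
      | nil => exact absurd rfl hv
      | cons h q =>
        refine ⟨_, q.reverse, h.symm, ?_⟩
        rw [← p.reverse_reverse, hr, SimpleGraph.Walk.reverse_cons]; rfl
    refine ⟨w, h.symm, ?_⟩
    have h1 := G.dist_le q
    rw [SimpleGraph.Walk.length_concat] at hp'
    rcases hG.dist_eq_dist_add_one_of_adj o h with h2 | h2 <;> omega
  obtain ⟨w, hw⟩ := hex
  refine ⟨w, hw, fun w' hw' => ?_⟩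
  obtain ⟨q, hq⟩ := hG.connected.exists_walk_length_eq_dist o w
  obtain ⟨q', hq'⟩ := hG.connected.exists_walk_length_eq_dist o w'
  have h1 : (q.concat hw.1.symm).IsPath := SimpleGraph.Walk.isPath_of_length_eq_dist _ (by
    rw [SimpleGraph.Walk.length_concat, hq, hw.2])
  have h2 : (q'.concat hw'.1.symm).IsPath := SimpleGraph.Walk.isPath_of_length_eq_dist _ (by
    rw [SimpleGraph.Walk.length_concat, hq', hw'.2])
  have h3 : q'.concat hw'.1.symm = q.concat hw.1.symm :=
    Subtype.mk.inj <| (hG.isAcyclic.subsingleton_path o v).elim ⟨_, h2⟩ ⟨_, h1⟩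
  exact (SimpleGraph.Walk.concat_inj h3).fst

theorem exists_RT {G : SimpleGraph V} (hG : IsRegularTree G (D + 1)) (o : V) :
    ∃ t : RT V D, t.o = o ∧ t.Fits G := by
  have hfin : ∀ v, (G.neighborSet v).Finite := fun v =>
    Set.finite_of_encard_eq_coe (hG.2 v)
  have hcard : ∀ v, (hfin v).toFinset.card = D + 1 := fun v => by
    have := hG.2 v
    rw [(hfin v).encard_eq_coe_toFinset_card] at this
    exact_mod_cast this
  set par : V → V := fun v => if h : v ≠ o then (exists_unique_par hG.1 o v h).exists.choose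
    else o with hpar
  have h1 : ∀ v, v ≠ o → G.Adj v (par v) ∧ G.dist o (par v) + 1 = G.dist o v := by
    intro v hv
    simp only [hpar, dif_pos hv]
    exact (exists_unique_par hG.1 o v hv).exists.choose_spec
  have h2 : ∀ v w, G.Adj v w → G.dist o w + 1 = G.dist o v → v ≠ o ∧ par v = w := by
    intro v w h h'
    have hv : v ≠ o := by rintro rfl; simp at h'
    exact ⟨hv, (exists_unique_par hG.1 o v hv).unique (h1 v hv) ⟨h, h'⟩⟩
  have hadj : ∀ a b, G.Adj a b ↔ (a ≠ o ∧ par a = b) ∨ (b ≠ o ∧ par b = a) := by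
    intro a b
    constructor
    · intro h
      rcases hG.1.dist_eq_dist_add_one_of_adj o h with h3 | h3
      · exact Or.inl (h2 a b h h3.symm)
      · exact Or.inr (h2 b a h.symm h3.symm)
    · rintro (⟨h, rfl⟩ | ⟨h, rfl⟩)
      exacts [(h1 a h).1, (h1 b h).1.symm]
  refine ⟨⟨o, par, G.dist o, fun p => (hfin p).toFinset.filter (fun c => c ≠ o ∧ par c = p),
    by simp, fun c hc => (h1 c hc).2.symm, fun p c => ?_, fun p hp => ?_, ?_⟩, rfl,
    ⟨fun _ => rfl, hadj⟩⟩
  · simp only [mem_filter, Set.Finite.mem_toFinset, SimpleGraph.mem_neighborSet]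
    exact ⟨fun h => h.2, fun h => ⟨(hadj p c).2 (Or.inr h), h⟩⟩
  · have : (hfin p).toFinset.filter (fun c => c ≠ o ∧ par c = p) =
        (hfin p).toFinset.erase (par p) := by
      ext c
      simp only [mem_filter, Set.Finite.mem_toFinset, SimpleGraph.mem_neighborSet, mem_erase]
      constructor
      · rintro ⟨h, hc, rfl⟩
        refine ⟨fun h3 => ?_, h⟩
        have a1 := (h1 c hc).2
        have a2 := (h1 _ hp).2
        rw [← h3] at a2
        omega
      · rintro ⟨h3, h⟩
        rcases (hadj p c).1 h with h4 | h4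
        · exact absurd h4.2.symm h3
        · exact ⟨h, h4⟩
    rw [this, card_erase_of_mem (by simpa using (h1 p hp).1), hcard]; rfl
  · rw [filter_true_of_mem, hcard]
    intro c hc
    simp only [Set.Finite.mem_toFinset, SimpleGraph.mem_neighborSet] at hc
    rcases (hadj o c).1 hc with h4 | h4
    · exact absurd rfl h4.1
    · exact h4

namespace RT

variable (t : RT V D)

lemma eq_o_of_lev {v : V} (h : t.lev v = 0) : v = t.o := by
  by_contra h'
  have := t.lev_par v h'
  omega

lemma lev_ch {p c : V} (h : c ∈ t.ch p) : t.lev c = t.lev p + 1 := by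
  obtain ⟨h1, rfl⟩ := (t.mem_ch p c).1 h
  exact t.lev_par c h1

lemma card_ch_le (p : V) : (t.ch p).card ≤ D + 1 := by
  by_cases h : p = t.o
  · rw [h, t.card_ch_o]
  · rw [t.card_ch p h]; omega

/-- Strict descendants of `p` within `n` generations. -/
noncomputable def desc : ℕ → V → Finset V
  | 0, _ => ∅
  | n + 1, p => (t.ch p).biUnion fun c => insert c (desc n c)

lemma mem_desc (n : ℕ) (p v : V) :
    v ∈ t.desc n p ↔ ∃ k, 1 ≤ k ∧ k ≤ n ∧ t.lev v = t.lev p + k ∧ t.par^[k] v = p := by
  induction n generalizing p with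
  | zero => simp only [desc, notMem_empty, false_iff]; rintro ⟨k, h1, h2, -⟩; omega
  | succ n ih =>
    simp only [desc, mem_biUnion, mem_insert, ih]
    constructor
    · rintro ⟨c, hc, rfl | ⟨k, h1, h2, h3, h4⟩⟩
      · exact ⟨1, le_rfl, by omega, t.lev_ch hc, ((t.mem_ch _ _).1 hc).2⟩
      · refine ⟨k + 1, by omega, by omega, by rw [h3, t.lev_ch hc]; omega, ?_⟩
        rw [Function.iterate_succ_apply', h4, ((t.mem_ch _ _).1 hc).2]
    · rintro ⟨k, h1, h2, h3, h4⟩
      obtain ⟨k, rfl⟩ : ∃ j, k = j + 1 := ⟨k - 1, by omega⟩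
      have hl : ∀ j ≤ t.lev v, t.lev (t.par^[j] v) + j = t.lev v := by
        intro j
        induction j with
        | zero => simp
        | succ j ihj =>
          intro hj
          have a1 := ihj (by omega)
          have a2 : t.par^[j] v ≠ t.o := by
            intro h; rw [h, t.lev_o] at a1; omega
          have := t.lev_par _ a2
          rw [Function.iterate_succ_apply']; omega
      have a1 := hl k (by omega)
      have a2 : t.par^[k] v ≠ t.o := by
        intro h; rw [h, t.lev_o] at a1; omega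
      rw [Function.iterate_succ_apply'] at h4
      refine ⟨t.par^[k] v, (t.mem_ch _ _).2 ⟨a2, h4⟩, ?_⟩
      rcases Nat.eq_zero_or_pos k with rfl | hk
      · exact Or.inl rfl
      · exact Or.inr ⟨k, hk, by omega, by omega, rfl⟩

lemma iter_par_lev (v : V) : t.par^[t.lev v] v = t.o := by
  obtain ⟨n, hn⟩ : ∃ n, t.lev v = n := ⟨_, rfl⟩
  rw [hn]
  induction n generalizing v with
  | zero => exact t.eq_o_of_lev hn
  | succ n ih =>
    have hv : v ≠ t.o := by rintro rfl; rw [t.lev_o] at hn; omega
    rw [Function.iterate_succ_apply]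
    exact ih _ (by have := t.lev_par v hv; omega)

lemma mem_desc_o (n : ℕ) (v : V) : v ∈ t.desc n t.o ↔ v ≠ t.o ∧ t.lev v ≤ n := by
  rw [mem_desc, t.lev_o]
  constructor
  · rintro ⟨k, h1, h2, h3, -⟩
    exact ⟨by rintro rfl; rw [t.lev_o] at h3; omega, by omega⟩
  · rintro ⟨h1, h2⟩
    exact ⟨t.lev v, by have := t.lev_par v h1; omega, h2, by omega, t.iter_par_lev v⟩

/-- The ball of radius `n` around the root. -/
noncomputable def ball (n : ℕ) : Finset V := insert t.o (t.desc n t.o)

lemma mem_ball (n : ℕ) (v : V) : v ∈ t.ball n ↔ t.lev v ≤ n := by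
  rw [ball, mem_insert, mem_desc_o]
  by_cases h : v = t.o
  · simp [h, t.lev_o]
  · simp [h]

lemma countable (t : RT V D) : Countable V := by
  rw [← Set.countable_univ_iff]
  exact (Set.countable_iUnion fun n => (t.ball n).countable_toSet).mono fun v _ =>
    Set.mem_iUnion.2 ⟨t.lev v, (t.mem_ball _ _).2 le_rfl⟩

end RT

end Vale.Agent.P161
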