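import Vale.Agent.P161.Tilt

/-! Noisy observations, the velocity field, the Euler scheme and its adjoint. -/

namespace Vale.Agent.P161

open Finset MeasureTheory
open scoped Classical

variable {Ω : Type*} [MeasurableSpace Ω] {E : Type*}

noncomputable def nS (S : Finset E) (v : E → ℝ) : ℝ := ∑ f ∈ S, |v f|

lemma nS_nonneg (S : Finset E) (v : E → ℝ) : 0 ≤ nS S v := sum_nonneg fun _ _ => abs_nonneg _

lemma abs_le_nS {S : Finset E} (v : E → ℝ) {f : E} (hf : f ∈ S) : |v f| ≤ nS S v :=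
  single_le_sum (f := fun f => |v f|) (fun _ _ => abs_nonneg _) hf

lemma nS_mono {R S : Finset E} (h : R ⊆ S) (v : E → ℝ) : nS R v ≤ nS S v :=
  sum_le_sum_of_subset_of_nonneg h fun _ _ _ => abs_nonneg _

lemma nS_le_card {S : Finset E} {v : E → ℝ} {c : ℝ} (hv : ∀ f ∈ S, |v f| ≤ c) :
    nS S v ≤ S.card * c := by
  rw [← nsmul_eq_mul, ← sum_const]
  exact sum_le_sum hv

lemma nS_add_le (S : Finset E) (v w : E → ℝ) : nS S (v + w) ≤ nS S v + nS S w := by
  rw [nS, nS, nS, ← sum_add_distrib]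
  exact sum_le_sum fun f _ => abs_add_le _ _

lemma abs_dot_le {S : Finset E} {a : E → ℝ} {c : ℝ} (ha : ∀ f, |a f| ≤ c) (v : E → ℝ) :
    |∑ f ∈ S, a f * v f| ≤ c * nS S v := by
  rw [nS, mul_sum]
  refine (abs_sum_le_sum_abs _ _).trans (sum_le_sum fun f _ => ?_)
  rw [abs_mul]; exact mul_le_mul_of_nonneg_right (ha f) (abs_nonneg _)

/-- A hidden probability space with bounded observables. -/
structure Md (Ω : Type*) [MeasurableSpace Ω] (E : Type*) where
  μ : Measure Ω
  prob : IsProbabilityMeasure μ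
  s : E → Ω → ℝ
  meas : ∀ e, Measurable (s e)
  bd : ∀ e ω, |s e ω| ≤ 1

/-- Functions with an explicit derivative and a quadratic remainder. -/
structure QD (S : Finset E) (K : ℝ) (G : (E → ℝ) → ℝ) (D : (E → ℝ) → E → ℝ) : Prop where
  nonneg : 0 ≤ K
  lip : ∀ x v, |G (x + v) - G x| ≤ K * nS S v
  bdD : ∀ x f, |D x f| ≤ K
  rem : ∀ x v, |G (x + v) - G x - ∑ f ∈ S, D x f * v f| ≤ K * nS S v ^ 2

lemma QD.mono {S : Finset E} {K K' : ℝ} {G : (E → ℝ) → ℝ} {D : (E → ℝ) → E → ℝ}
    (h : QD S K G D) (hK : K ≤ K') : QD S K' G D where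
  nonneg := h.nonneg.trans hK
  lip x v := (h.lip x v).trans (mul_le_mul_of_nonneg_right hK (nS_nonneg S v))
  bdD x f := (h.bdD x f).trans hK
  rem x v := (h.rem x v).trans (mul_le_mul_of_nonneg_right hK (sq_nonneg _))

lemma QD.lipD {S : Finset E} {K : ℝ} {G : (E → ℝ) → ℝ} {D : (E → ℝ) → E → ℝ}
    (h : QD S K G D) (x w : E → ℝ) {f : E} (hf : f ∈ S) :
    |D (x + w) f - D x f| ≤ 6 * K * nS S w := by
  have key : ∀ t : ℝ, 0 < t → nS S w ≤ t → |D (x + w) f - D x f| ≤ 6 * K * t := by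
    intro t ht hwt
    set v : E → ℝ := Pi.single f t with hv
    have hn : nS S v = t := by
      rw [nS, sum_eq_single_of_mem f hf fun g _ hg => by simp [hv, hg]]
      simp [hv, abs_of_pos ht]
    have hd : ∀ y, ∑ g ∈ S, D y g * v g = D y f * t := fun y => by
      rw [sum_eq_single_of_mem f hf fun g _ hg => by simp [hv, hg]]; simp [hv]
    have r1 := h.rem (x + w) v
    have r2 := h.rem x (w + v)
    have r3 := h.rem x w
    rw [hn, hd] at r1
    simp only [Pi.add_apply, mul_add, sum_add_distrib, hd, ← add_assoc] at r2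
    have hw0 := nS_nonneg S w
    have b2 : K * nS S (w + v) ^ 2 ≤ K * (2 * t) ^ 2 := mul_le_mul_of_nonneg_left
      (pow_le_pow_left₀ (nS_nonneg _ _) ((nS_add_le S w v).trans (by linarith)) 2) h.nonneg
    have b3 : K * nS S w ^ 2 ≤ K * t ^ 2 :=
      mul_le_mul_of_nonneg_left (pow_le_pow_left₀ hw0 hwt 2) h.nonneg
    have r1' := abs_le.1 r1
    have r2' := abs_le.1 (r2.trans b2)
    have r3' := abs_le.1 (r3.trans b3)
    refine le_of_mul_le_mul_right ?_ ht
    rw [← abs_of_pos ht, ← abs_mul, abs_of_pos ht, abs_le]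
    constructor <;> nlinarith
  rcases (nS_nonneg S w).eq_or_lt with h0 | h0
  · rw [← h0, mul_zero]
    refine le_of_forall_pos_le_add fun ε hε => ?_
    have := key (ε / (6 * K + 1)) (by have := h.nonneg; positivity)
      (by rw [← h0]; have := h.nonneg; positivity)
    refine this.trans ?_
    have := h.nonneg
    rw [zero_add, mul_div_assoc', div_le_iff₀ (by positivity)]
    nlinarith
  · exact key _ h0 le_rfl

noncomputable def CS (S : Finset E) (T : ℝ) : ℝ := 20 * S.card * (1 + T) ^ 2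

lemma CS_nonneg (S : Finset E) (T : ℝ) : 0 ≤ CS S T := by unfold CS; positivity

namespace Md

variable (m : Md Ω E)

instance : IsProbabilityMeasure m.μ := m.prob

@[fun_prop] lemma bm (e : E) : BM (m.s e) := BM.of (m.meas e) (m.bd e)

/-- The log-likelihood of the observation `x` on `S` at time `u`. -/
noncomputable def lw (S : Finset E) (u : ℝ) (x : E → ℝ) (ω : Ω) : ℝ :=
  ∑ f ∈ S, (u * x f * m.s f ω - u ^ 2 * m.s f ω ^ 2 / 2)

@[fun_prop] lemma bm_lw (S : Finset E) (u : ℝ) (x : E → ℝ) : BM (m.lw S u x) := by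
  unfold lw; fun_prop

/-- The velocity field: posterior means. -/
noncomputable def vel (S : Finset E) (u : ℝ) (x : E → ℝ) (e : E) : ℝ :=
  Et m.μ (m.lw S u x) (m.s e)

/-- Posterior covariances. -/
noncomputable def cv (S : Finset E) (u : ℝ) (x : E → ℝ) (e f : E) : ℝ :=
  cov m.μ (m.lw S u x) (m.s e) (m.s f)

variable {S : Finset E}

lemma measurable_lw (S : Finset E) (u : ℝ) :
    Measurable fun p : (E → ℝ) × Ω => m.lw S u p.1 p.2 := by
  unfold lw
  have := m.meas
  fun_prop

lemma lw_congr (u : ℝ) {x y : E → ℝ} (h : ∀ f ∈ S, x f = y f) : m.lw S u x = m.lw S u y := by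
  ext ω; exact sum_congr rfl fun f hf => by rw [h f hf]

lemma measurable_vel (S : Finset E) (u : ℝ) (e : E) : Measurable fun x => m.vel S u x e :=
  measurable_Et (m.measurable_lw S u) ((m.meas e).comp measurable_snd)

lemma measurable_cv (S : Finset E) (u : ℝ) (e f : E) : Measurable fun x => m.cv S u x e f :=
  (measurable_Et (m.measurable_lw S u)
    (((m.meas e).mul (m.meas f)).comp measurable_snd)).sub
    ((m.measurable_vel S u e).mul (m.measurable_vel S u f))

lemma abs_vel_le (S : Finset E) (u : ℝ) (x : E → ℝ) (e : E) : |m.vel S u x e| ≤ 1 :=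
  abs_Et_le (m.bm_lw S u x) (m.bm e) (m.bd e)

lemma abs_cv_le (S : Finset E) (u : ℝ) (x : E → ℝ) (e f : E) : |m.cv S u x e f| ≤ 2 := by
  simpa [cv] using abs_cov_le (μ := m.μ) (m.bm_lw S u x) (m.bm e) (m.bm f) (m.bd e) (m.bd f)

lemma lw_add (u : ℝ) (x v : E → ℝ) :
    m.lw S u (x + v) = fun ω => m.lw S u x ω + ∑ f ∈ S, u * v f * m.s f ω := by
  ext ω
  simp only [lw, ← sum_add_distrib, Pi.add_apply]
  exact sum_congr rfl fun f _ => by ring

lemma abs_lin_le {u : ℝ} (hu : 0 ≤ u) (v : E → ℝ) (ω : Ω) :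
    |∑ f ∈ S, u * v f * m.s f ω| ≤ u * nS S v := by
  rw [nS, mul_sum]
  refine (abs_sum_le_sum_abs _ _).trans (sum_le_sum fun f _ => ?_)
  rw [abs_mul, abs_mul, abs_of_nonneg hu]
  exact mul_le_of_le_one_right (by positivity) (m.bd f ω)

lemma Et_lw_lip {φ : Ω → ℝ} (hφ : BM φ) (h1 : ∀ ω, |φ ω| ≤ 1) {u : ℝ} (hu : 0 ≤ u)
    (x v : E → ℝ) :
    |Et m.μ (m.lw S u (x + v)) φ - Et m.μ (m.lw S u x) φ| ≤ 12 * (u * nS S v) :=
  Et_lip (m.bm_lw S u x) (m.bm_lw S u _) hφ h1 (mul_nonneg hu (nS_nonneg _ _)) fun ω => by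
    rw [lw_add]; simpa using m.abs_lin_le hu v ω

lemma vel_lip {u : ℝ} (hu : 0 ≤ u) (x v : E → ℝ) (e : E) :
    |m.vel S u (x + v) e - m.vel S u x e| ≤ 12 * (u * nS S v) :=
  m.Et_lw_lip (m.bm e) (m.bd e) hu x v

lemma vel_rem {u : ℝ} (hu : 0 ≤ u) (x v : E → ℝ) (e : E) :
    |m.vel S u (x + v) e - m.vel S u x e - ∑ f ∈ S, m.cv S u x e f * (u * v f)|
      ≤ 20 * (u * nS S v) ^ 2 := by
  have := Et_rem (μ := m.μ) (m.bm_lw S u x) (m.bm e) (m.bd e)
    (v := fun ω => ∑ f ∈ S, u * v f * m.s f ω) (by fun_prop) (mul_nonneg hu (nS_nonneg _ _))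
    (m.abs_lin_le hu v)
  rw [← lw_add, cov_sum_right S (m.bm_lw S u x) (m.bm e) m.bm] at this
  simpa only [vel, cv, mul_comm (cov _ _ _ _)] using this

/-- One Euler step. -/
noncomputable def step (S : Finset E) (h u : ℝ) (x : E → ℝ) : E → ℝ :=
  fun f => x f + h * m.vel S u x f

lemma measurable_step (S : Finset E) (h u : ℝ) : Measurable (m.step S h u) :=
  measurable_pi_lambda _ fun f => (measurable_pi_apply f).add
    ((m.measurable_vel S u f).const_mul h)

lemma step_add (h u : ℝ) (x v : E → ℝ) : m.step S h u (x + v) = m.step S h u x +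
    fun f => v f + h * (m.vel S u (x + v) f - m.vel S u x f) := by
  ext f; simp only [step, Pi.add_apply]; ring

lemma nS_step {h u T : ℝ} (hh : 0 ≤ h) (hu : 0 ≤ u) (huT : u ≤ T) (x v : E → ℝ) :
    nS S (fun f => v f + h * (m.vel S u (x + v) f - m.vel S u x f))
      ≤ (1 + h * CS S T) * nS S v := by
  have hv := nS_nonneg S v
  have hc0 : (0 : ℝ) ≤ S.card := Nat.cast_nonneg _
  have hu1 : 12 * u ≤ 20 * (1 + T) ^ 2 := by nlinarith
  calc _ ≤ ∑ f ∈ S, (|v f| + h * (12 * (u * nS S v))) := sum_le_sum fun f _ => by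
          refine (abs_add_le _ _).trans (add_le_add le_rfl ?_)
          rw [abs_mul, abs_of_nonneg hh]
          exact mul_le_mul_of_nonneg_left (m.vel_lip hu x v f) hh
    _ = nS S v + h * (S.card * (12 * u)) * nS S v := by
          rw [sum_add_distrib, sum_const, nsmul_eq_mul, nS]; ring
    _ ≤ _ := by
          have : S.card * (12 * u) ≤ CS S T := by
            rw [CS]; nlinarith [mul_le_mul_of_nonneg_left hu1 hc0]
          have := mul_le_mul_of_nonneg_right (mul_le_mul_of_nonneg_left this hh) hv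
          linarith

lemma comp_step {K : ℝ} {G : (E → ℝ) → ℝ} {D : (E → ℝ) → E → ℝ} (hG : QD S K G D) {h u T : ℝ}
    (hh : 0 ≤ h) (hu : 0 ≤ u) (huT : u ≤ T) :
    QD S (K * (1 + h * CS S T) ^ 3) (fun x => G (m.step S h u x))
      (fun x f => D (m.step S h u x) f +
        h * u * ∑ g ∈ S, D (m.step S h u x) g * m.cv S u x g f) := by
  have hC := CS_nonneg S T
  have hK := hG.nonneg
  have hn := m.nS_step (S := S) hh hu huT
  set a := 1 + h * CS S T with ha
  have ha1 : 1 ≤ a := by rw [ha]; nlinarith [mul_nonneg hh hC]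
  have hc0 : (0 : ℝ) ≤ S.card := Nat.cast_nonneg _
  have hu1 : 2 * u ≤ 20 * (1 + T) ^ 2 := by nlinarith
  have hu2 : u ^ 2 ≤ (1 + T) ^ 2 := pow_le_pow_left₀ hu (by linarith) 2
  have ha3 : a ≤ a ^ 3 := le_self_pow₀ ha1 (by norm_num)
  refine ⟨by positivity, fun x v => ?_, fun x f => ?_, fun x v => ?_⟩
  · rw [step_add]
    refine (hG.lip _ _).trans ?_
    rw [mul_assoc]
    refine mul_le_mul_of_nonneg_left ((hn x v).trans ?_) hK
    exact mul_le_mul_of_nonneg_right ha3 (nS_nonneg S v)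
  · have h1 := hG.bdD (m.step S h u x)
    have b1 : |∑ g ∈ S, D (m.step S h u x) g * m.cv S u x g f| ≤ K * (S.card * 2) :=
      (abs_dot_le h1 _).trans (mul_le_mul_of_nonneg_left
        (nS_le_card fun g _ => m.abs_cv_le S u x g f) hK)
    have b2 : |h * u * ∑ g ∈ S, D (m.step S h u x) g * m.cv S u x g f| ≤
        h * u * (K * (S.card * 2)) := by
      rw [abs_mul, abs_of_nonneg (mul_nonneg hh hu)]
      exact mul_le_mul_of_nonneg_left b1 (mul_nonneg hh hu)
    have b3 : S.card * (2 * u) ≤ CS S T := by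
      rw [CS]; nlinarith [mul_le_mul_of_nonneg_left hu1 hc0, mul_nonneg hc0 hu]
    have b4 := mul_le_mul_of_nonneg_left (mul_le_mul_of_nonneg_left b3 hh) hK
    refine (abs_add_le _ _).trans ?_
    calc _ ≤ K + h * u * (K * (S.card * 2)) := add_le_add (h1 f) b2
      _ ≤ K * a := by rw [ha]; nlinarith
      _ ≤ K * a ^ 3 := mul_le_mul_of_nonneg_left ha3 hK
  · have hv := nS_nonneg S v
    have h1 := hG.bdD (m.step S h u x)
    set y := m.step S h u x with hy
    have e0 : ∑ f ∈ S, (D y f + h * u * ∑ g ∈ S, D y g * m.cv S u x g f) * v f =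
        ∑ g ∈ S, D y g * (v g + h * ∑ f ∈ S, m.cv S u x g f * (u * v f)) := by
      simp only [add_mul, mul_add, sum_add_distrib, mul_sum, sum_mul]
      congr 1
      rw [sum_comm]
      exact sum_congr rfl fun g _ => sum_congr rfl fun f _ => by ring
    have e1 : G (m.step S h u (x + v)) - G y -
        ∑ f ∈ S, (D y f + h * u * ∑ g ∈ S, D y g * m.cv S u x g f) * v f =
        (G (m.step S h u (x + v)) - G y -
          ∑ g ∈ S, D y g * (v g + h * (m.vel S u (x + v) g - m.vel S u x g))) +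
        ∑ g ∈ S, D y g * (h * (m.vel S u (x + v) g - m.vel S u x g -
          ∑ f ∈ S, m.cv S u x g f * (u * v f))) := by
      rw [e0, sub_add, ← sum_sub_distrib]
      congr 1
      exact sum_congr rfl fun g _ => by ring
    rw [e1]
    have b1 := hG.rem y (fun f => v f + h * (m.vel S u (x + v) f - m.vel S u x f))
    rw [hy, ← step_add, ← hy] at b1
    have b2 : K * nS S (fun f => v f + h * (m.vel S u (x + v) f - m.vel S u x f)) ^ 2 ≤
        K * (a * nS S v) ^ 2 :=
      mul_le_mul_of_nonneg_left (pow_le_pow_left₀ (nS_nonneg _ _) (hn x v) 2) hK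
    have b3 : |∑ g ∈ S, D y g * (h * (m.vel S u (x + v) g - m.vel S u x g -
          ∑ f ∈ S, m.cv S u x g f * (u * v f)))| ≤
        K * (S.card * (h * (20 * (u * nS S v) ^ 2))) := by
      refine (abs_dot_le h1 _).trans (mul_le_mul_of_nonneg_left (nS_le_card fun g _ => ?_) hK)
      rw [abs_mul, abs_of_nonneg hh]
      exact mul_le_mul_of_nonneg_left (m.vel_rem hu x v g) hh
    have b4 : K * (S.card * (h * (20 * (u * nS S v) ^ 2))) ≤
        K * (h * CS S T) * nS S v ^ 2 := by
      have : 20 * S.card * u ^ 2 ≤ CS S T := by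
        rw [CS]; exact mul_le_mul_of_nonneg_left hu2 (by positivity)
      have := mul_le_mul_of_nonneg_right (mul_le_mul_of_nonneg_left
        (mul_le_mul_of_nonneg_left this hh) hK) (sq_nonneg (nS S v))
      calc _ = K * (h * (20 * S.card * u ^ 2)) * nS S v ^ 2 := by ring
        _ ≤ _ := this
    have b5 : a ^ 2 + h * CS S T ≤ a ^ 3 := by
      have h1 : 1 ≤ a ^ 2 := one_le_pow₀ ha1
      have h2 := mul_le_mul_of_nonneg_left h1 (mul_nonneg hh hC)
      calc a ^ 2 + h * CS S T ≤ a ^ 2 + h * CS S T * a ^ 2 := by linarith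
        _ = a ^ 2 * (1 + h * CS S T) := by ring
        _ = a ^ 3 := by rw [← ha]; ring
    have b6 := mul_le_mul_of_nonneg_right (mul_le_mul_of_nonneg_left b5 hK)
      (sq_nonneg (nS S v))
    refine (abs_add_le _ _).trans ?_
    calc _ ≤ K * (a * nS S v) ^ 2 + K * (h * CS S T) * nS S v ^ 2 :=
          add_le_add (b1.trans b2) (b3.trans b4)
      _ = K * (a ^ 2 + h * CS S T) * nS S v ^ 2 := by ring
      _ ≤ _ := b6

/-- `j` Euler steps starting from the time index `k`. -/
noncomputable def eul (S : Finset E) (h : ℝ) : ℕ → ℕ → (E → ℝ) → E → ℝ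
  | 0, _, x => x
  | j + 1, k, x => eul S h j (k + 1) (m.step S h (k * h) x)

lemma eul_succ (h : ℝ) (j k : ℕ) (x : E → ℝ) :
    m.eul S h (j + 1) k x = m.step S h ((k + j : ℕ) * h) (m.eul S h j k x) := by
  induction j generalizing k x with
  | zero => rfl
  | succ j ih => rw [eul, ih, show k + 1 + j = k + (j + 1) by ring]; rfl

lemma eul_add (h : ℝ) (i j k : ℕ) (x : E → ℝ) :
    m.eul S h (i + j) k x = m.eul S h j (k + i) (m.eul S h i k x) := by
  induction i generalizing k x with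
  | zero => simp [eul]
  | succ i ih => rw [show i + 1 + j = (i + j) + 1 by ring, eul, ih, eul,
      show k + 1 + i = k + (i + 1) by ring]

lemma measurable_eul (S : Finset E) (h : ℝ) (j k : ℕ) : Measurable (m.eul S h j k) := by
  induction j generalizing k with
  | zero => exact measurable_id
  | succ j ih => exact (ih (k + 1)).comp (m.measurable_step S h _)

/-- The adjoint vector: the gradient of `⟨a, eul j k x⟩`. -/
noncomputable def adj (S : Finset E) (h : ℝ) (a : E → ℝ) : ℕ → ℕ → (E → ℝ) → E → ℝ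
  | 0, _, _ => a
  | j + 1, k, x => fun f => adj S h a j (k + 1) (m.step S h (k * h) x) f + h * (k * h) *
      ∑ g ∈ S, adj S h a j (k + 1) (m.step S h (k * h) x) g * m.cv S (k * h) x g f

lemma measurable_adj (S : Finset E) (h : ℝ) (a : E → ℝ) (j k : ℕ) (f : E) :
    Measurable fun x => m.adj S h a j k x f := by
  induction j generalizing k f with
  | zero => exact measurable_const
  | succ j ih =>
    exact ((ih (k + 1) f).comp (m.measurable_step S h _)).add
      ((Finset.measurable_sum _ fun g _ => ((ih (k + 1) g).comp (m.measurable_step S h _)).mul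
        (m.measurable_cv S _ g f)).const_mul _)

lemma qd_adj {h T : ℝ} (hh : 0 ≤ h) {a : E → ℝ} (ha : ∀ f, |a f| ≤ 1) (j k : ℕ)
    (hk : (k + j : ℕ) * h ≤ T) :
    QD S (((1 + h * CS S T) ^ 3) ^ j) (fun x => ∑ f ∈ S, a f * m.eul S h j k x f)
      (m.adj S h a j k) := by
  induction j generalizing k with
  | zero =>
    refine ⟨by simp, fun x v => ?_, fun x f => by simpa [adj] using ha f, fun x v => ?_⟩
    · simp only [eul, Pi.add_apply, mul_add, sum_add_distrib, add_sub_cancel_left, pow_zero]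
      exact abs_dot_le ha v
    · simp only [eul, adj, Pi.add_apply, mul_add, sum_add_distrib, add_sub_cancel_left, sub_self,
        abs_zero]
      positivity
  | succ j ih =>
    have h1 := ih (k + 1) (by rwa [show k + 1 + j = k + (j + 1) by ring])
    have h2 : (k : ℝ) * h ≤ T :=
      (mul_le_mul_of_nonneg_right (by exact_mod_cast Nat.le_add_right _ _) hh).trans hk
    rw [pow_succ]
    exact m.comp_step h1 hh (mul_nonneg (Nat.cast_nonneg _) hh) h2

lemma eul_lip {h T : ℝ} (hh : 0 ≤ h) (j k : ℕ) (hk : (k + j : ℕ) * h ≤ T) (x y : E → ℝ) :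
    nS S (m.eul S h j k x - m.eul S h j k y) ≤ (1 + h * CS S T) ^ j * nS S (x - y) := by
  induction j generalizing k x y with
  | zero => simp [eul]
  | succ j ih =>
    have h1 := ih (k + 1) (by rwa [show k + 1 + j = k + (j + 1) by ring])
      (m.step S h (k * h) x) (m.step S h (k * h) y)
    have h2 : (k : ℝ) * h ≤ T :=
      (mul_le_mul_of_nonneg_right (by exact_mod_cast Nat.le_add_right _ _) hh).trans hk
    have h3 := m.nS_step (S := S) hh (mul_nonneg (Nat.cast_nonneg k) hh) h2 y (x - y)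
    have h4 := m.step_add (S := S) h (k * h) y (x - y)
    rw [add_sub_cancel] at h3 h4
    rw [← sub_eq_iff_eq_add'.2 h4] at h3
    rw [pow_succ, mul_assoc]
    exact h1.trans (mul_le_mul_of_nonneg_left h3
      (by have := CS_nonneg S T; positivity))

end Md

lemma pow_le_exp {c h T : ℝ} (hc : 0 ≤ c) (hh : 0 ≤ h) {j : ℕ} (hj : j * h ≤ T) :
    (1 + h * c) ^ j ≤ Real.exp (c * T) := by
  have a1 : 1 + h * c ≤ Real.exp (h * c) := by
    rw [add_comm]; exact Real.add_one_le_exp _
  calc _ ≤ Real.exp (h * c) ^ j := by gcongr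
    _ = Real.exp (c * (j * h)) := by rw [← Real.exp_nat_mul]; congr 1; ring
    _ ≤ _ := by gcongr

end Vale.Agent.P161
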