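import Vale.Agent.P161.Good
import Vale.Agent.P161.Gron

/-! One-step bounds at criticality. -/

namespace Vale.Agent.P161

open Finset Function MeasureTheory Filter Topology
open scoped Classical

variable {V : Type} {D : ℕ} {G : SimpleGraph V}

noncomputable def aD (D : ℕ) : ℝ := (19 / 20) ^ 3 * (√D + 1) ^ 2 / 4

lemma aD_pos (D : ℕ) : 0 < aD D := by unfold aD; positivity

lemma c0G_pos (D : ℕ) : 0 < c0G D := by unfold c0G; positivity

lemma Xs_crit {θ u : ℝ} (hθ : θ ^ 2 ≤ 1 / 2) (hu : 0 ≤ u) (hu1 : u ≤ 1) (n : ℕ) :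
    Xs (1 - θ ^ 2) (sq0 D u) n ≤ (1 + 2 * aD D) * u := by
  have ha := aD_pos D
  have e : sq0 D u = aD D * u ^ 2 := by rw [sq0, aD]; ring
  refine (Xs_le' (r := (1 + aD D) * u) (by linarith) (by rw [e]; positivity) (by positivity)
    ?_ n).trans ?_
  · rw [e, mul_pow, ← mul_assoc]
    exact mul_le_mul_of_nonneg_right (by nlinarith [sq_nonneg (1 - aD D)]) (sq_nonneg u)
  · rw [e]; nlinarith [mul_le_mul_of_nonneg_left hu1 (mul_nonneg ha.le hu)]

namespace RT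

variable {t : RT V D} {θ T : ℝ} {μ : Measure (V → Bool)}

lemma Aw_add_mul (t : RT V D) (R : ℕ) (w w' : ℕ → ℝ) (c c' : ℝ) (a : Sym2 V → ℝ) :
    t.Aw R (fun l => c * w l + c' * w' l) a = c * t.Aw R w a + c' * t.Aw R w' a := by
  simp only [Aw, mul_sum, add_mul, mul_assoc, sum_add_distrib]

lemma Fits.step1 (ht : t.Fits G) (hD : 2 ≤ D) (h0 : 0 ≤ θ) (hθ : θ ^ 2 * D = 1)
    (hμ : IsFreeIsing G θ μ) {u : ℝ} (hu : 0 < u) (hu1 : u ≤ 1) (hp : 0 ≤ thp θ u)
    {i j l : ℕ} (hb : 0 < i + j)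
    (hX : (202 + 8 * c0G D) * (1 + 2 * aD D) * (i + j + l : ℕ) * u ≤ 1) (x : Sym2 V → ℝ)
    (R M : ℕ) {B e : ℝ} (he : (16 * c0G D + 1 + 1 / (u ^ 2 / 12 / 5)) *
      (2 * cD D / (u ^ 2 / 12) ^ 2) * (((1 + u ^ 2 / 12 / 5) ^ M)⁻¹ +
        if t.Good θ u R M i j l x then 0 else 1) * B ≤ e) :
    t.Step1 R ((isingMd μ hμ.1).cv (t.Sp R t.o) u x) (16 * c0G D + 1)
      ((c0G D + c1G D θ) * (1 + 2 * aD D) / aD D) u B e := by
  have hD' : (2 : ℝ) ≤ D := by exact_mod_cast hD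
  have h2 : θ ^ 2 ≤ 1 / 2 := by nlinarith [sq_nonneg θ]
  have ha := aD_pos D
  have hc := c0G_pos D
  have hc' := cD_pos D
  have hc1 : 0 ≤ c1G D θ := by
    have : 0 ≤ 1 - θ ^ 2 := by linarith
    unfold c1G; positivity
  have hXs := Xs_crit (D := D) h2 hu.le hu1
  set X := (1 + 2 * aD D) * u with hX'
  have X0 : 0 ≤ X := by positivity
  have n1 : (1 : ℝ) ≤ (i + j + l : ℕ) := by exact_mod_cast (by omega : 1 ≤ i + j + l)
  have x1 : (202 + 8 * c0G D) * ((i + j + l : ℕ) * X) ≤ 1 := hX.trans_eq' (by rw [hX']; ring)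
  have x2 := le_mul_of_one_le_left X0 n1
  have x3 := mul_le_mul_of_nonneg_left x2 hc.le
  have x4 := mul_nonneg hc.le X0
  have u2 : u ^ 2 ≤ 1 := pow_le_one₀ hu.le hu1
  have hγ : 0 < u ^ 2 / 12 := by positivity
  have kb := ht.kb_comb hD h0 hθ hμ hp hγ.le (by linarith) (thp_crit hD h0 hθ hu.le hu1 le_rfl)
    hXs (by linarith) (l := l) hb (by linarith) x R M
  have hy := yl_ge (by linarith) hXs R
  have hK := fun n n' => Gk_nonneg hc.le hc1 (y := yl D θ u R)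
    (fun l => by linarith [(hy l).1]) (n + 1) (n' + 1)
  have hω : 1 ≤ 1 + u ^ 2 / 12 / 5 := by linarith
  have hω' : (1 + u ^ 2 / 12 / 5) ^ 2 ≤ 1 + u ^ 2 / 12 / 2 := by nlinarith
  have w0 : ∀ l : ℕ, 0 ≤ (l : ℝ) + (16 * c0G D + 1) := fun l => by positivity
  have w1 := lin_le_pow (γ := u ^ 2 / 12 / 5) (n0 := 16 * c0G D + 1) (by positivity) (by linarith)
  intro a c c0 hB
  have hB' := mul_le_mul_of_nonneg_left ((Aw_mono (fun l =>
    pow_le_pow_left₀ (by positivity) hω' l) a).trans hB) (show 0 ≤ (16 * c0G D + 1 +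
      1 / (u ^ 2 / 12 / 5)) * (2 * cD D / (u ^ 2 / 12) ^ 2) * (((1 + u ^ 2 / 12 / 5) ^ M)⁻¹ +
        if t.Good θ u R M i j l x then 0 else 1) by split_ifs <;> positivity)
  constructor
  · refine (kb.Aw_step a c0 w0 (k := fun n => _ * (n + (16 * c0G D + 1)) + _ * (_ ^ 2) ^ n)
      fun n' hn => sum_comb hγ (by linarith) hω hω' w0 w1 hK hn (riccati1 h2 hu hXs (by linarith)
        (by linarith) (by linarith) hn) _).trans (add_le_add le_rfl ?_)
    rw [Aw_add_mul]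
    exact mul_le_mul_of_nonneg_left (add_le_add le_rfl (hB'.trans he)) c0
  · refine (kb.Aw_step a c0 (w := 1) (fun _ => zero_le_one)
      (k := fun n => _ * (n + (16 * c0G D + 1)) + _ * (_ ^ 2) ^ n)
      fun n' hn => sum_comb (w := 1) hγ (by linarith) hω hω' (fun _ => zero_le_one)
        (fun l => le_trans (by have : (0 : ℝ) ≤ l := Nat.cast_nonneg l
                               rw [Pi.one_apply]; linarith) (w1 l)) hK hn
        (riccati0 h2 hu hXs (by linarith) (by linarith) hn) _).trans (add_le_add le_rfl ?_)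
    rw [Aw_add_mul]
    refine mul_le_mul_of_nonneg_left (add_le_add (le_of_eq ?_) (hB'.trans he)) c0
    rw [show sq0 D u = aD D * u ^ 2 by rw [sq0, aD]; ring, hX']
    congr 1
    field_simp

end RT

lemma big_le {a L T s u : ℝ} (ha : 0 ≤ a) (hL : 0 ≤ L) (hs : 0 ≤ s) (hu : 0 < u) (hu1 : u ≤ 1) :
    (a + 1 / (u ^ 2 / 12 / 5)) * (L / (u ^ 2 / 12) ^ 2) *
      (Real.exp (T * (L / (u ^ 2 / 12) ^ 2) * T) * s) ≤
      Real.exp ((a + 60 + 144 * L + 144 * L * T ^ 2 + s) / u ^ 4) := by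
  have u4 : 1 ≤ 1 / u ^ 4 := one_le_one_div (by positivity) (pow_le_one₀ hu.le hu1)
  have u2 : 1 / u ^ 2 ≤ 1 / u ^ 4 :=
    one_div_le_one_div_of_le (by positivity) (pow_le_pow_of_le_one hu.le hu1 (by norm_num))
  have k : ∀ x y : ℝ, x ≤ y → x ≤ Real.exp y := fun x y h => by linarith [Real.add_one_le_exp y]
  have e1 : 1 / (u ^ 2 / 12 / 5) = 60 * (1 / u ^ 2) := by field_simp; norm_num
  have e2 : L / (u ^ 2 / 12) ^ 2 = 144 * L * (1 / u ^ 4) := by field_simp; norm_num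
  rw [e1, e2, show (a + 60 + 144 * L + 144 * L * T ^ 2 + s) / u ^ 4 = (a + 60) * (1 / u ^ 4) +
    144 * L * (1 / u ^ 4) + (T * (144 * L * (1 / u ^ 4)) * T + s * (1 / u ^ 4)) by ring,
    Real.exp_add, Real.exp_add, Real.exp_add]
  gcongr
  · exact k _ _ (by nlinarith)
  · exact k _ _ le_rfl
  · exact k _ _ (le_mul_of_one_le_right hs u4)

end Vale.Agent.P161
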