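import Mathlib

/-! Exponential tilts of a probability measure by bounded functions. -/

namespace Vale.Agent.P161

open Finset MeasureTheory
open scoped Classical

variable {Ω : Type*} [MeasurableSpace Ω]

/-- Bounded measurable functions. -/
@[fun_prop] def BM (φ : Ω → ℝ) : Prop := Measurable φ ∧ ∃ c, ∀ ω, |φ ω| ≤ c

lemma BM.of {φ : Ω → ℝ} (h : Measurable φ) {c : ℝ} (hb : ∀ ω, |φ ω| ≤ c) : BM φ := ⟨h, c, hb⟩

@[fun_prop] lemma BM.const (c : ℝ) : BM (fun _ : Ω => c) := ⟨measurable_const, |c|, fun _ => le_rfl⟩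

@[fun_prop] lemma BM.add {φ ψ : Ω → ℝ} (h : BM φ) (h' : BM ψ) : BM (fun ω => φ ω + ψ ω) := by
  obtain ⟨m, c, hc⟩ := h
  obtain ⟨m', c', hc'⟩ := h'
  exact ⟨m.add m', c + c', fun ω => (abs_add_le _ _).trans (add_le_add (hc ω) (hc' ω))⟩

@[fun_prop] lemma BM.sub {φ ψ : Ω → ℝ} (h : BM φ) (h' : BM ψ) : BM (fun ω => φ ω - ψ ω) := by
  obtain ⟨m, c, hc⟩ := h
  obtain ⟨m', c', hc'⟩ := h'
  exact ⟨m.sub m', c + c', fun ω => (abs_sub _ _).trans (add_le_add (hc ω) (hc' ω))⟩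

@[fun_prop] lemma BM.mul {φ ψ : Ω → ℝ} (h : BM φ) (h' : BM ψ) : BM (fun ω => φ ω * ψ ω) := by
  obtain ⟨m, c, hc⟩ := h
  obtain ⟨m', c', hc'⟩ := h'
  refine ⟨m.mul m', c * c', fun ω => ?_⟩
  rw [abs_mul]
  exact mul_le_mul (hc ω) (hc' ω) (abs_nonneg _) ((abs_nonneg _).trans (hc ω))

@[fun_prop] lemma BM.div_const {φ : Ω → ℝ} (h : BM φ) (c : ℝ) : BM (fun ω => φ ω / c) := by
  simpa only [div_eq_mul_inv] using h.mul (BM.const c⁻¹)

@[fun_prop] lemma BM.sq {φ : Ω → ℝ} (h : BM φ) : BM (fun ω => φ ω ^ 2) := by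
  simpa only [pow_two] using h.mul h

@[fun_prop] lemma BM.abs {φ : Ω → ℝ} (h : BM φ) : BM (fun ω => |φ ω|) := by
  obtain ⟨m, c, hc⟩ := h
  exact ⟨m.abs, c, fun ω => by rw [abs_abs]; exact hc ω⟩

@[fun_prop] lemma BM.exp {φ : Ω → ℝ} (h : BM φ) : BM (fun ω => Real.exp (φ ω)) := by
  obtain ⟨m, c, hc⟩ := h
  refine ⟨Real.measurable_exp.comp m, Real.exp c, fun ω => ?_⟩
  rw [abs_of_pos (Real.exp_pos _)]
  exact Real.exp_le_exp.2 ((le_abs_self _).trans (hc ω))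

@[fun_prop] lemma BM.sum {ι : Type*} (s : Finset ι) {φ : ι → Ω → ℝ} (h : ∀ i, BM (φ i)) :
    BM (fun ω => ∑ i ∈ s, φ i ω) := by
  induction s using Finset.induction_on with
  | empty => simpa using BM.const 0
  | insert i s hi ih => simpa only [sum_insert hi] using (h i).add ih

lemma BM.comp {φ : Ω → ℝ} (h : BM φ) {X : Type*} [MeasurableSpace X] {f : X → Ω}
    (hf : Measurable f) : BM (fun x => φ (f x)) := by
  obtain ⟨m, c, hc⟩ := h
  exact ⟨m.comp hf, c, fun _ => hc _⟩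

lemma BM.int {φ : Ω → ℝ} (h : BM φ) (μ : Measure Ω) [IsFiniteMeasure μ] : Integrable φ μ := by
  obtain ⟨m, c, hc⟩ := h
  exact Integrable.of_bound m.aestronglyMeasurable c (ae_of_all _ hc)

/-- Expectation of `φ` under `μ` tilted by `exp g`. -/
noncomputable def Et (μ : Measure Ω) (g φ : Ω → ℝ) : ℝ :=
  (∫ ω, Real.exp (g ω) * φ ω ∂μ) / ∫ ω, Real.exp (g ω) ∂μ

variable {μ : Measure Ω} [IsProbabilityMeasure μ] {g φ ψ : Ω → ℝ}

lemma Zt_pos (hg : BM g) : 0 < ∫ ω, Real.exp (g ω) ∂μ :=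
  integral_exp_pos (hg.exp.int μ)

lemma Et_const (hg : BM g) (c : ℝ) : Et μ g (fun _ => c) = c := by
  rw [Et, integral_mul_const, mul_div_cancel_left₀ _ (Zt_pos hg).ne']

lemma Et_add (hg : BM g) (hφ : BM φ) (hψ : BM ψ) :
    Et μ g (fun ω => φ ω + ψ ω) = Et μ g φ + Et μ g ψ := by
  simp only [Et, mul_add]
  rw [integral_add ((hg.exp.mul hφ).int μ) ((hg.exp.mul hψ).int μ), add_div]

lemma Et_sub (hg : BM g) (hφ : BM φ) (hψ : BM ψ) :
    Et μ g (fun ω => φ ω - ψ ω) = Et μ g φ - Et μ g ψ := by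
  simp only [Et, mul_sub]
  rw [integral_sub ((hg.exp.mul hφ).int μ) ((hg.exp.mul hψ).int μ), sub_div]

omit [IsProbabilityMeasure μ] in
lemma Et_mul (c : ℝ) : Et μ g (fun ω => φ ω * c) = Et μ g φ * c := by
  simp only [Et, ← mul_assoc, integral_mul_const]; ring

omit [IsProbabilityMeasure μ] in
lemma Et_mul' (c : ℝ) : Et μ g (fun ω => c * φ ω) = c * Et μ g φ := by
  simp only [mul_comm c, Et_mul]

lemma Et_sum {ι : Type*} (s : Finset ι) (hg : BM g) {φ : ι → Ω → ℝ} (hφ : ∀ i, BM (φ i)) :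
    Et μ g (fun ω => ∑ i ∈ s, φ i ω) = ∑ i ∈ s, Et μ g (φ i) := by
  simp only [Et, mul_sum, ← sum_div]
  rw [integral_finsetSum _ fun i _ => (hg.exp.mul (hφ i)).int μ]

lemma Et_mono (hg : BM g) (hφ : BM φ) (hψ : BM ψ) (h : ∀ ω, φ ω ≤ ψ ω) : Et μ g φ ≤ Et μ g ψ :=
  div_le_div_of_nonneg_right (integral_mono ((hg.exp.mul hφ).int μ) ((hg.exp.mul hψ).int μ)
    fun ω => mul_le_mul_of_nonneg_left (h ω) (Real.exp_pos _).le) (Zt_pos hg).le

lemma abs_Et_le (hg : BM g) (hφ : BM φ) {c : ℝ} (h : ∀ ω, |φ ω| ≤ c) : |Et μ g φ| ≤ c := by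
  rw [abs_le]
  constructor
  · rw [← Et_const (μ := μ) hg (-c)]
    exact Et_mono hg (BM.const _) hφ fun ω => (abs_le.1 (h ω)).1
  · conv_rhs => rw [← Et_const (μ := μ) hg c]
    exact Et_mono hg hφ (BM.const _) fun ω => (abs_le.1 (h ω)).2

lemma Et_tilt (hg : BM g) (v φ : Ω → ℝ) :
    Et μ (fun ω => g ω + v ω) φ = Et μ g (fun ω => Real.exp (v ω) * φ ω) /
      Et μ g (fun ω => Real.exp (v ω)) := by
  rw [Et, Et, Et, div_div_div_cancel_right₀ (Zt_pos hg).ne']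
  simp only [Real.exp_add, mul_assoc]

/-- Covariance under the tilted measure. -/
noncomputable def cov (μ : Measure Ω) (g φ ψ : Ω → ℝ) : ℝ :=
  Et μ g (fun ω => φ ω * ψ ω) - Et μ g φ * Et μ g ψ

omit [IsProbabilityMeasure μ] in
lemma cov_comm (φ ψ : Ω → ℝ) : cov μ g φ ψ = cov μ g ψ φ := by
  simp only [cov, mul_comm]

lemma abs_cov_le (hg : BM g) (hφ : BM φ) (hψ : BM ψ) {a b : ℝ} (ha : ∀ ω, |φ ω| ≤ a)
    (hb : ∀ ω, |ψ ω| ≤ b) : |cov μ g φ ψ| ≤ 2 * (a * b) := by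
  have h1 := abs_Et_le (μ := μ) hg (hφ.mul hψ) (c := a * b) fun ω => by
    rw [abs_mul]; exact mul_le_mul (ha ω) (hb ω) (abs_nonneg _) ((abs_nonneg _).trans (ha ω))
  have h2 := abs_Et_le (μ := μ) hg hφ ha
  have h3 := abs_Et_le (μ := μ) hg hψ hb
  have h4 : |Et μ g φ * Et μ g ψ| ≤ a * b := by
    rw [abs_mul]; exact mul_le_mul h2 h3 (abs_nonneg _) ((abs_nonneg _).trans h2)
  exact (abs_sub _ _).trans (by linarith)

lemma cov_sum_right {ι : Type*} (s : Finset ι) (hg : BM g) (hφ : BM φ) {ψ : ι → Ω → ℝ}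
    (hψ : ∀ i, BM (ψ i)) (a : ι → ℝ) :
    cov μ g φ (fun ω => ∑ i ∈ s, a i * ψ i ω) = ∑ i ∈ s, a i * cov μ g φ (ψ i) := by
  have e1 : (fun ω => φ ω * ∑ i ∈ s, a i * ψ i ω) = fun ω => ∑ i ∈ s, a i * (φ ω * ψ i ω) := by
    ext ω; rw [mul_sum]; exact sum_congr rfl fun i _ => by ring
  rw [cov, e1, Et_sum s hg (by fun_prop), Et_sum s hg (by fun_prop), mul_sum, ← sum_sub_distrib]
  exact sum_congr rfl fun i _ => by rw [Et_mul', Et_mul', cov]; ring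

lemma Et_sq_sub (hg : BM g) (hφ : BM φ) :
    Et μ g (fun ω => (φ ω - Et μ g φ) ^ 2) = cov μ g φ φ := by
  have e1 : (fun ω => (φ ω - Et μ g φ) ^ 2) =
      fun ω => (φ ω * φ ω - φ ω * (2 * Et μ g φ)) + Et μ g φ ^ 2 := by ext ω; ring
  rw [e1, Et_add hg (by fun_prop) (by fun_prop), Et_sub hg (by fun_prop) (by fun_prop), Et_mul,
    Et_const hg, cov]
  ring

lemma cov_self_nonneg (hg : BM g) (hφ : BM φ) : 0 ≤ cov μ g φ φ := by
  rw [← Et_sq_sub hg hφ, ← Et_const (μ := μ) hg 0]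
  exact Et_mono hg (by fun_prop) (by fun_prop) fun _ => sq_nonneg _

lemma rem_aux {n M u w r1 r2 : ℝ} (hn : 0 ≤ n) (hn' : n ≤ 1 / 2) (hM : |M| ≤ 1)
    (hu : |u| ≤ n) (hw : |w| ≤ n) (h1 : |r1| ≤ n ^ 2) (h2 : |r2| ≤ n ^ 2)
    (hb : 1 / 4 ≤ 1 + w + r2) :
    |(M + u + r1) / (1 + w + r2) - M - (u - M * w)| ≤ 20 * n ^ 2 := by
  have hb0 : 0 < 1 + w + r2 := by linarith
  have hC : |u - M * w| ≤ 2 * n := by
    calc |u - M * w| ≤ |u| + |M * w| := abs_sub _ _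
      _ ≤ n + 1 * n := by
          rw [abs_mul]
          exact add_le_add hu (mul_le_mul hM hw (abs_nonneg _) zero_le_one)
      _ = 2 * n := by ring
  have key : (M + u + r1) / (1 + w + r2) - M - (u - M * w) =
      (r1 - w * (u - M * w) - r2 * M - r2 * (u - M * w)) / (1 + w + r2) := by
    field_simp; ring
  rw [key, abs_div, abs_of_pos hb0, div_le_iff₀ hb0]
  have e1 : |w * (u - M * w)| ≤ n * (2 * n) := by
    rw [abs_mul]; exact mul_le_mul hw hC (abs_nonneg _) hn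
  have e2 : |r2 * M| ≤ n ^ 2 * 1 := by
    rw [abs_mul]; exact mul_le_mul h2 hM (abs_nonneg _) (sq_nonneg _)
  have e3 : |r2 * (u - M * w)| ≤ n ^ 2 * 1 := by
    rw [abs_mul]; exact mul_le_mul h2 (by linarith) (abs_nonneg _) (sq_nonneg _)
  have e4 : |r1 - w * (u - M * w) - r2 * M - r2 * (u - M * w)| ≤ 5 * n ^ 2 := by
    have a1 := abs_sub (r1 - w * (u - M * w) - r2 * M) (r2 * (u - M * w))
    have a2 := abs_sub (r1 - w * (u - M * w)) (r2 * M)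
    have a3 := abs_sub r1 (w * (u - M * w))
    nlinarith
  nlinarith [sq_nonneg n]

theorem Et_rem (hg : BM g) (hφ : BM φ) (h1 : ∀ ω, |φ ω| ≤ 1) {v : Ω → ℝ} (hv : BM v) {n : ℝ}
    (hn0 : 0 ≤ n) (hn : ∀ ω, |v ω| ≤ n) :
    |Et μ (fun ω => g ω + v ω) φ - Et μ g φ - cov μ g φ v| ≤ 20 * n ^ 2 := by
  have hu : |Et μ g (fun ω => φ ω * v ω)| ≤ n := by
    refine abs_Et_le hg (by fun_prop) fun ω => ?_
    rw [abs_mul]
    calc _ ≤ 1 * n := mul_le_mul (h1 ω) (hn ω) (abs_nonneg _) zero_le_one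
      _ = n := one_mul _
  have hw : |Et μ g v| ≤ n := abs_Et_le hg hv hn
  have hM := abs_Et_le (μ := μ) hg hφ h1
  rw [cov]
  by_cases hn' : n ≤ 1 / 2
  · have hr : ∀ ω, |Real.exp (v ω) - 1 - v ω| ≤ n ^ 2 := by
      intro ω
      refine (Real.abs_exp_sub_one_sub_id_le ((hn ω).trans (by linarith))).trans ?_
      rw [← sq_abs]
      exact pow_le_pow_left₀ (abs_nonneg _) (hn ω) 2
    have a1 : |Et μ g (fun ω => (Real.exp (v ω) - 1 - v ω) * φ ω)| ≤ n ^ 2 := by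
      refine abs_Et_le hg (by fun_prop) fun ω => ?_
      rw [abs_mul]
      calc _ ≤ n ^ 2 * 1 := mul_le_mul (hr ω) (h1 ω) (abs_nonneg _) (sq_nonneg _)
        _ = n ^ 2 := mul_one _
    have a2 : |Et μ g (fun ω => Real.exp (v ω) - 1 - v ω)| ≤ n ^ 2 :=
      abs_Et_le hg (by fun_prop) hr
    have e1 : Et μ g (fun ω => Real.exp (v ω) * φ ω) = Et μ g φ +
        Et μ g (fun ω => φ ω * v ω) + Et μ g (fun ω => (Real.exp (v ω) - 1 - v ω) * φ ω) := by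
      rw [← Et_add hg hφ (by fun_prop), ← Et_add hg (by fun_prop) (by fun_prop)]
      congr 1; ext ω; ring
    have e2 : Et μ g (fun ω => Real.exp (v ω)) = 1 + Et μ g v +
        Et μ g (fun ω => Real.exp (v ω) - 1 - v ω) := by
      rw [Et_sub hg (by fun_prop) hv, Et_sub hg (by fun_prop) (by fun_prop), Et_const hg]; ring
    rw [Et_tilt hg, e1, e2]
    refine rem_aux hn0 hn' hM hu hw a1 a2 ?_
    have := (abs_le.1 hw).1
    have := (abs_le.1 a2).1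
    nlinarith
  · have h0 := abs_le.1 (abs_Et_le (μ := μ) (hg.add hv) hφ h1)
    have h2 : |Et μ g φ * Et μ g v| ≤ 1 * n := by
      rw [abs_mul]; exact mul_le_mul hM hw (abs_nonneg _) zero_le_one
    have h3 := abs_le.1 h2
    have h4 := abs_le.1 hu
    have h5 := abs_le.1 hM
    push Not at hn'
    rw [abs_le]; constructor <;> nlinarith

theorem Et_lip (hg : BM g) {g' : Ω → ℝ} (hg' : BM g') (hφ : BM φ) (h1 : ∀ ω, |φ ω| ≤ 1) {n : ℝ}
    (hn0 : 0 ≤ n) (hn : ∀ ω, |g' ω - g ω| ≤ n) : |Et μ g' φ - Et μ g φ| ≤ 12 * n := by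
  have a1 := abs_le.1 (Et_rem (μ := μ) hg hφ h1 (hg'.sub hg) hn0 hn)
  simp only [add_sub_cancel] at a1
  have a2 := abs_le.1 (abs_cov_le (μ := μ) hg hφ (hg'.sub hg) h1 hn)
  have a3 := abs_le.1 (abs_Et_le (μ := μ) hg hφ h1)
  have a4 := abs_le.1 (abs_Et_le (μ := μ) hg' hφ h1)
  rw [abs_le]
  by_cases hn' : n ≤ 1 / 2
  · constructor <;> nlinarith
  · push Not at hn'
    constructor <;> nlinarith

omit [IsProbabilityMeasure μ] in
lemma measurable_Et [SFinite μ] {X : Type*} [MeasurableSpace X] {g φ : X → Ω → ℝ}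
    (hg : Measurable fun p : X × Ω => g p.1 p.2) (hφ : Measurable fun p : X × Ω => φ p.1 p.2) :
    Measurable fun x => Et μ (g x) (φ x) :=
  (StronglyMeasurable.integral_prod_right' (ν := μ)
    ((Real.measurable_exp.comp hg).mul hφ).stronglyMeasurable).measurable.div
  (StronglyMeasurable.integral_prod_right' (ν := μ)
    (Real.measurable_exp.comp hg).stronglyMeasurable).measurable

end Vale.Agent.P161
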