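import Vale.Agent.P161.Model

/-! Partition functions on subtrees and the Markov property of the posterior. -/

namespace Vale.Agent.P161

open Finset MeasureTheory Function
open scoped Classical

variable {V : Type} {D : ℕ} {G : SimpleGraph V}

noncomputable def ext (B : Finset V) (η : B → Bool) (v : V) : Bool :=
  if h : v ∈ B then η ⟨v, h⟩ else false

/-- Uniform average over the configurations on `B`. -/
noncomputable def Avg (B : Finset V) (f : (V → Bool) → ℝ) : ℝ :=
  (∑ η : B → Bool, f (ext B η)) / 2 ^ B.card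

lemma Avg_const (B : Finset V) (c : ℝ) : Avg B (fun _ => c) = c := by
  simp [Avg]

lemma Avg_add (B : Finset V) (f g : (V → Bool) → ℝ) :
    Avg B (fun σ => f σ + g σ) = Avg B f + Avg B g := by
  simp only [Avg, sum_add_distrib, add_div]

lemma Avg_mul (B : Finset V) (c : ℝ) (f : (V → Bool) → ℝ) :
    Avg B (fun σ => c * f σ) = c * Avg B f := by
  simp only [Avg, ← mul_sum, mul_div_assoc]

lemma Avg_upd {B : Finset V} {c : V} (hc : c ∈ B) (f : (V → Bool) → ℝ) :
    Avg B f = Avg B (fun σ => (f (update σ c true) + f (update σ c false)) / 2) := by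
  have h1 : ∀ η : B → Bool, ext B (update η ⟨c, hc⟩ (!η ⟨c, hc⟩)) =
      update (ext B η) c (!ext B η c) := by
    intro η; funext v
    by_cases h : v = c
    · subst h; simp [ext, hc]
    · rw [update_of_ne h]
      unfold ext
      split_ifs with hv
      · rw [update_of_ne fun h' => h (congrArg Subtype.val h')]
      · rfl
  have h2 : ∑ η : B → Bool, f (ext B η) =
      ∑ η : B → Bool, f (update (ext B η) c (!ext B η c)) := by
    simp only [← h1]
    refine (Fintype.sum_bijective (fun η : B → Bool => update η ⟨c, hc⟩ (!η ⟨c, hc⟩))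
      (Involutive.bijective fun η => by simp) _ _ fun _ => rfl).symm
  have h3 : ∀ σ : V → Bool, (f (update σ c true) + f (update σ c false)) / 2 =
      (f σ + f (update σ c (!σ c))) / 2 := by
    intro σ
    cases h : σ c
    · rw [← h, update_eq_self, h, add_comm]; rfl
    · rw [← h, update_eq_self, h]; rfl
  simp only [Avg, h3, ← sum_div, sum_add_distrib, ← h2]
  ring

lemma integral_eq_Avg (μ : Measure (V → Bool)) [IsProbabilityMeasure μ] (B : Finset V)
    {f : (V → Bool) → ℝ} (hf : DependsOn f B) :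
    ∫ σ, f σ ∂μ = Avg B fun η => 2 ^ B.card * μ.real {s | ∀ v ∈ B, s v = η v} * f η := by
  have h1 : ∀ σ, f σ = ∑ η : B → Bool,
      {s : V → Bool | ∀ v ∈ B, s v = ext B η v}.indicator (fun _ => f (ext B η)) σ := by
    intro σ
    rw [sum_eq_single (fun v : B => σ v)]
    · rw [Set.indicator_of_mem (by intro v hv; simp [ext, hv])]
      exact hf fun v hv => by simp [ext, show v ∈ B from hv]
    · intro η _ hη
      refine Set.indicator_of_notMem (fun h => hη (funext fun v => ?_)) _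
      simpa [ext] using (h v v.2).symm
    · simp
  rw [integral_congr_ae (ae_of_all _ h1), integral_finsetSum _ fun η _ =>
    (integrable_const _).indicator (measurableSet_cyl _ _), Avg]
  simp only [integral_indicator_const _ (measurableSet_cyl _ _), mul_assoc, ← mul_sum,
    smul_eq_mul]
  rw [mul_div_cancel_left₀ _ (by positivity)]

/-- `ψ` does not depend on the coordinates in `A`. -/
def Ind (ψ : (V → Bool) → ℝ) (A : Finset V) : Prop :=
  ∀ c ∈ A, ∀ σ b, ψ (update σ c b) = ψ σ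

lemma Ind.mono {ψ : (V → Bool) → ℝ} {A A' : Finset V} (h : Ind ψ A) (hA : A' ⊆ A) : Ind ψ A' :=
  fun c hc => h c (hA hc)

lemma Ind.mul {ψ ψ' : (V → Bool) → ℝ} {A : Finset V} (h : Ind ψ A) (h' : Ind ψ' A) :
    Ind (fun σ => ψ σ * ψ' σ) A := fun c hc σ b => by simp only [h c hc σ b, h' c hc σ b]

lemma Ind.coord {A : Finset V} {v : V} (hv : v ∉ A) (g : Bool → ℝ) : Ind (fun σ => g (σ v)) A :=
  fun c hc σ b => by simp only [update_of_ne (show v ≠ c from fun h => hv (h ▸ hc))]

namespace RT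

variable (t : RT V D) (θ u : ℝ) (x : Sym2 V → ℝ)

/-- The likelihood of the observations below `p` given the spin of `p`. -/
noncomputable def Zp : ℕ → V → Bool → ℝ
  | 0, _, _ => 1
  | n + 1, p, τ => ∏ c ∈ t.ch p, ∑ σ : Bool, ew θ u (x (t.ed c)) σ τ * Zp n c σ

/-- The likelihood of the branch through `c` given the spin of its parent. -/
noncomputable def zb (n : ℕ) (c : V) (τ : Bool) : ℝ :=
  ∑ σ : Bool, ew θ u (x (t.ed c)) σ τ * t.Zp θ u x n c σ

lemma Zp_succ (n : ℕ) (p : V) (τ : Bool) :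
    t.Zp θ u x (n + 1) p τ = ∏ c ∈ t.ch p, t.zb θ u x n c τ := rfl

variable {θ}

lemma Zp_pos (h0 : 0 ≤ θ) (h1 : θ < 1) (n : ℕ) (p : V) (τ : Bool) : 0 < t.Zp θ u x n p τ := by
  induction n generalizing p τ with
  | zero => exact one_pos
  | succ n ih =>
    exact prod_pos fun c _ => sum_pos (fun σ _ => mul_pos (ew_pos h0 h1 _ _ _ _) (ih c σ))
      univ_nonempty

lemma zb_pos (h0 : 0 ≤ θ) (h1 : θ < 1) (n : ℕ) (c : V) (τ : Bool) : 0 < t.zb θ u x n c τ :=
  sum_pos (fun σ _ => mul_pos (ew_pos h0 h1 _ _ _ _) (t.Zp_pos u x h0 h1 n c σ)) univ_nonempty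

variable (θ)

noncomputable def W (X : Finset V) (σ : V → Bool) : ℝ :=
  ∏ c ∈ X, 2 * ew θ u (x (t.ed c)) (σ c) (σ (t.par c))

lemma ind_W {X A : Finset V} (h : ∀ c ∈ X, c ∉ A ∧ t.par c ∉ A) : Ind (t.W θ u x X) A :=
  fun a ha σ b => prod_congr rfl fun c hc => by
    rw [update_of_ne (show c ≠ a from fun h' => (h c hc).1 (h' ▸ ha)),
      update_of_ne (show t.par c ≠ a from fun h' => (h c hc).2 (h' ▸ ha))]

/-- The subtree of height `n` at `p`. -/
noncomputable def sub (n : ℕ) (p : V) : Finset V := insert p (t.desc n p)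

lemma mem_sub (n : ℕ) (p v : V) :
    v ∈ t.sub n p ↔ ∃ k, k ≤ n ∧ t.lev v = t.lev p + k ∧ t.par^[k] v = p := by
  rw [sub, mem_insert, mem_desc]
  constructor
  · rintro (rfl | ⟨k, -, h⟩)
    exacts [⟨0, Nat.zero_le _, rfl, rfl⟩, ⟨k, h⟩]
  · rintro ⟨k, h1, h2, h3⟩
    rcases Nat.eq_zero_or_pos k with rfl | hk
    exacts [Or.inl h3, Or.inr ⟨k, hk, h1, h2, h3⟩]

lemma notMem_desc (n : ℕ) (p : V) : p ∉ t.desc n p := by
  rw [mem_desc]; rintro ⟨k, h1, -, h2, -⟩; omega

lemma par_mem_sub {n : ℕ} {p c : V} (h : c ∈ t.desc n p) : c ≠ t.o ∧ t.par c ∈ t.sub n p := by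
  obtain ⟨k, h1, h2, h3, h4⟩ := (t.mem_desc _ _ _).1 h
  have hc : c ≠ t.o := by rintro rfl; rw [t.lev_o] at h3; omega
  obtain ⟨k, rfl⟩ : ∃ j, k = j + 1 := ⟨k - 1, by omega⟩
  exact ⟨hc, (t.mem_sub _ _ _).2 ⟨k, by omega, by have := t.lev_par c hc; omega, h4⟩⟩

lemma lev_le_of_mem_sub {n : ℕ} {p v : V} (h : v ∈ t.sub n p) : t.lev p ≤ t.lev v := by
  obtain ⟨k, -, h2, -⟩ := (t.mem_sub _ _ _).1 h; omega

lemma disjoint_sub {a b : V} (hab : a ≠ b) (hl : t.lev a = t.lev b) (n : ℕ) :
    Disjoint (t.sub n a) (t.sub n b) := by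
  rw [disjoint_left]
  intro v h1 h2
  obtain ⟨k, -, a1, a2⟩ := (t.mem_sub _ _ _).1 h1
  obtain ⟨k', -, b1, b2⟩ := (t.mem_sub _ _ _).1 h2
  obtain rfl : k = k' := by omega
  exact hab (a2.symm.trans b2)

lemma par_notMem_sub {c : V} (hc : c ≠ t.o) (n : ℕ) : t.par c ∉ t.sub n c := fun h => by
  have := t.lev_le_of_mem_sub h
  have := t.lev_par c hc
  omega

lemma avg_branch {B : Finset V} {n : ℕ} {c : V} (hc : c ≠ t.o) (hB : c ∈ B)
    (ih : ∀ ψ, Ind ψ (t.desc n c) → Avg B (fun σ => ψ σ * t.W θ u x (t.desc n c) σ) =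
      Avg B (fun σ => ψ σ * t.Zp θ u x n c (σ c)))
    {ψ : (V → Bool) → ℝ} (hψ : Ind ψ (t.sub n c)) (g : Bool → ℝ) :
    Avg B (fun σ => ψ σ * (g (σ c) * t.W θ u x (t.sub n c) σ)) = Avg B (fun σ => ψ σ *
      ∑ b : Bool, g b * (ew θ u (x (t.ed c)) b (σ (t.par c)) * t.Zp θ u x n c b)) := by
  have hp := t.par_notMem_sub hc n
  have hpc : t.par c ≠ c := fun h => hp (h.symm ▸ mem_insert_self _ _)
  have h1 := ih (fun σ => ψ σ * (g (σ c) * t.W θ u x {c} σ)) ((hψ.mono (subset_insert _ _)).mul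
    ((Ind.coord (t.notMem_desc n c) g).mul (t.ind_W θ u x fun a ha => by
      rw [mem_singleton.1 ha]
      exact ⟨t.notMem_desc n c, fun h => hp (mem_insert_of_mem h)⟩)))
  simp only [W, sub, prod_insert (t.notMem_desc n c), prod_singleton, mul_assoc] at h1 ⊢
  rw [h1, Avg_upd hB]
  congr 1; funext σ
  simp only [hψ c (mem_insert_self _ _), update_self, update_of_ne hpc, Fintype.sum_bool]
  ring

lemma avg_desc {B : Finset V} (n : ℕ) (p : V) (hB : t.desc n p ⊆ B) (ψ : (V → Bool) → ℝ)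
    (hψ : Ind ψ (t.desc n p)) : Avg B (fun σ => ψ σ * t.W θ u x (t.desc n p) σ) =
      Avg B (fun σ => ψ σ * t.Zp θ u x n p (σ p)) := by
  induction n generalizing p ψ with
  | zero => simp [desc, W, Zp]
  | succ n ih =>
    have key : ∀ C ⊆ t.ch p, ∀ ψ, Ind ψ (C.biUnion (t.sub n)) →
        Avg B (fun σ => ψ σ * t.W θ u x (C.biUnion (t.sub n)) σ) =
        Avg B (fun σ => ψ σ * ∏ c ∈ C, t.zb θ u x n c (σ p)) := by
      intro C
      induction C using Finset.induction_on with
      | empty => intro _ ψ _; simp [W]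
      | insert c C hcC ihC =>
        intro hC ψ hψ
        have hc := hC (mem_insert_self _ _)
        obtain ⟨hc1, hc2⟩ := (t.mem_ch _ _).1 hc
        have hC' : C ⊆ t.ch p := (subset_insert _ _).trans hC
        have hsub : t.sub n c ⊆ B := fun v hv => hB (mem_biUnion.2 ⟨c, hc, hv⟩)
        have hdis : ∀ a ∈ C, Disjoint (t.sub n c) (t.sub n a) := fun a ha =>
          t.disjoint_sub (show c ≠ a from fun h => hcC (h ▸ ha)) ((t.lev_ch hc).trans (t.lev_ch (hC' ha)).symm) n
        have hp : ∀ a ∈ t.ch p, p ∉ t.sub n a := fun a ha h => by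
          have := t.lev_le_of_mem_sub h
          have := t.lev_ch ha
          omega
        rw [biUnion_insert] at hψ ⊢
        have h1 := t.avg_branch θ u x hc1 (hsub (mem_insert_self _ _))
          (ih c ((subset_insert _ _).trans hsub))
          (ψ := fun σ => ψ σ * t.W θ u x (C.biUnion (t.sub n)) σ)
          ((hψ.mono subset_union_left).mul (t.ind_W θ u x fun v hv => by
            obtain ⟨a, ha, hv⟩ := mem_biUnion.1 hv
            refine ⟨disjoint_right.1 (hdis a ha) hv, ?_⟩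
            rcases mem_insert.1 hv with rfl | hv
            · rw [((t.mem_ch _ _).1 (hC' ha)).2]; exact hp c hc
            · exact disjoint_right.1 (hdis a ha) (t.par_mem_sub hv).2)) (fun _ => 1)
        have h2 := ihC hC' (fun σ => ψ σ * t.zb θ u x n c (σ p)) ((hψ.mono subset_union_right).mul
          (Ind.coord (fun h => by
            obtain ⟨a, ha, hv⟩ := mem_biUnion.1 h
            exact hp a (hC' ha) hv) _))
        simp only [one_mul, hc2] at h1
        simp only [prod_insert hcC, ← mul_assoc, ← h2]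
        simp only [W, prod_union ((disjoint_biUnion_right _ _ _).2 hdis)] at h1 ⊢
        convert h1 using 2 <;> funext σ
        · ring
        · rw [zb]; ring
    exact key _ subset_rfl ψ hψ

/-- The observed edges below `p`. -/
noncomputable def Sp (n : ℕ) (p : V) : Finset (Sym2 V) := (t.desc n p).image t.ed

lemma sum_Sp (n : ℕ) (p : V) (g : Sym2 V → ℝ) :
    ∑ e ∈ t.Sp n p, g e = ∑ c ∈ t.desc n p, g (t.ed c) :=
  sum_image fun _ ha _ hb => t.ed_inj (t.par_mem_sub ha).1 (t.par_mem_sub hb).1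

variable {t θ}

lemma Fits.integral_lw (ht : t.Fits G) {μ : Measure (V → Bool)} (hμ : IsFreeIsing G θ μ)
    (n : ℕ) (p : V) {φ : (V → Bool) → ℝ} (hφ : DependsOn φ (t.sub n p)) :
    ∫ σ, Real.exp ((isingMd μ hμ.1).lw (t.Sp n p) u x σ) * φ σ ∂μ =
      Avg (t.sub n p) fun σ => φ σ * t.W θ u x (t.desc n p) σ := by
  have := hμ.1
  have e1 : ∀ σ, Real.exp ((isingMd μ hμ.1).lw (t.Sp n p) u x σ) = ∏ c ∈ t.desc n p,
      Real.exp (u * x (t.ed c) * ((sgn (σ c) + sgn (σ (t.par c))) / 2) -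
        u ^ 2 * ((sgn (σ c) + sgn (σ (t.par c))) / 2) ^ 2 / 2) := fun σ => by
    rw [Md.lw, sum_Sp, Real.exp_sum]; rfl
  simp only [e1]
  rw [integral_eq_Avg μ (t.sub n p)]
  · congr 1; funext η
    rw [ht.real_sub hμ (S := t.sub n p) (w := p) (mem_insert_self _ _)
      (fun c hc h => t.par_mem_sub ((mem_insert.1 hc).resolve_left h))
      (fun h => t.par_notMem_sub h n), sub, erase_insert (t.notMem_desc n p),
      card_insert_of_notMem (t.notMem_desc n p)]
    simp only [W, ew, prod_mul_distrib, prod_const]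
    ring
  · intro σ σ' h
    simp only [hφ h]
    congr 1
    exact prod_congr rfl fun c hc => by
      rw [h c (mem_insert_of_mem hc), h _ (t.par_mem_sub hc).2]

lemma Fits.integral_lw_root (ht : t.Fits G) {μ : Measure (V → Bool)} (hμ : IsFreeIsing G θ μ)
    (n : ℕ) (p : V) (g : Bool → ℝ) :
    ∫ σ, Real.exp ((isingMd μ hμ.1).lw (t.Sp n p) u x σ) * g (σ p) ∂μ =
      (g true * t.Zp θ u x n p true + g false * t.Zp θ u x n p false) / 2 := by
  rw [ht.integral_lw u x hμ n p (φ := fun σ => g (σ p))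
    (fun σ σ' h => by simp only [h p (mem_insert_self _ _)]),
    t.avg_desc θ u x n p (B := t.sub n p) (subset_insert _ _) _
      (Ind.coord (t.notMem_desc n p) g), Avg_upd (B := t.sub n p) (mem_insert_self _ _)]
  simp only [update_self, Avg_const]

end RT

end Vale.Agent.P161
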